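import Crest.Agent.R169.SliceDef

/-!
The slice map: coefficients, kernel, chain rule; finiteness properties of lattices.
-/

set_option autoImplicit false
set_option linter.style.haveILetI false
set_option maxSynthPendingDepth 3

namespace Crest.Agent.R169

open Module Filter Polynomial

variable {k : Type} [Field k] {N : ℕ}

/-- coefficient formula -/
theorem coeff_sP (a : A3 k) (n : ℕ) :
    PowerSeries.coeff n (sP k a) = ∑ j ∈ Finset.range (n + 1),
      algebraMap k (RatFunc k)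
        (MvPowerSeries.coeff (Finsupp.single 1 (n - j) + Finsupp.single 2 j) a) *
        RatFunc.X ^ j := by
  classical
  have h0 : PowerSeries.coeff n (sP k a) =
      MvPowerSeries.coeff (Finsupp.single () n) (MvPowerSeries.subst (slv k) a) := by
    rw [sP, MvPowerSeries.coe_substAlgHom]; rfl
  have hd : ∀ d : Fin 3 →₀ ℕ, MvPowerSeries.coeff (Finsupp.single () n)
      (d.prod fun s e => slv k s ^ e) =
      if d 0 = 0 ∧ d 1 + d 2 = n then (RatFunc.X : RatFunc k) ^ d 2 else 0 := by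
    intro d
    rw [Finsupp.prod_fintype _ _ (fun i => pow_zero _), Fin.prod_univ_three]
    change PowerSeries.coeff n ((0 : PowerSeries (RatFunc k)) ^ d 0 * PowerSeries.X ^ d 1 *
      (PowerSeries.C RatFunc.X * PowerSeries.X) ^ d 2) = _
    by_cases h : d 0 = 0
    · rw [h, pow_zero, one_mul, mul_pow, mul_left_comm, ← pow_add, ← map_pow,
        PowerSeries.coeff_C_mul, PowerSeries.coeff_X_pow]
      by_cases h2 : d 1 + d 2 = n
      · simp [h2]
      · simp [h2, Ne.symm h2]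
    · simp [h]
  rw [h0, MvPowerSeries.coeff_subst slv_hasSubst]
  simp only [hd]
  let e : ℕ → (Fin 3 →₀ ℕ) := fun j => Finsupp.single 1 (n - j) + Finsupp.single 2 j
  have he2 : ∀ j, e j 2 = j := fun j => by simp [e]
  rw [finsum_eq_sum_of_support_subset (s := (Finset.range (n + 1)).image e),
    Finset.sum_image (fun i _ j _ h => by rw [← he2 i, h, he2])]
  · refine Finset.sum_congr rfl fun j hj => ?_
    have hj' := Finset.mem_range.1 hj
    rw [if_pos ⟨by simp [e], by simp [e]; omega⟩, he2, Algebra.smul_def]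
  · intro d hd'
    have h1 : d 0 = 0 ∧ d 1 + d 2 = n := by
      by_contra h
      exact hd' (by simp only [if_neg h, smul_zero])
    refine Finset.mem_coe.2 (Finset.mem_image.2 ⟨d 2, Finset.mem_range.2 (by omega), ?_⟩)
    ext i
    fin_cases i
    · simp [e, h1.1]
    · simp [e]; omega
    · simp [e]

/-- the coefficient of `x ^ n` of the slice, as a polynomial -/
noncomputable def cP (a : A3 k) (n : ℕ) : k[X] :=
  ∑ j ∈ Finset.range (n + 1),
    monomial j (MvPowerSeries.coeff (Finsupp.single 1 (n - j) + Finsupp.single 2 j) a)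

theorem coeff_sP' (a : A3 k) (n : ℕ) :
    PowerSeries.coeff n (sP k a) = algebraMap k[X] (RatFunc k) (cP a n) := by
  rw [coeff_sP, cP, map_sum]
  refine Finset.sum_congr rfl fun j _ => ?_
  rw [← C_mul_X_pow_eq_monomial, map_mul, map_pow, RatFunc.algebraMap_X, RatFunc.algebraMap_C,
    RatFunc.algebraMap_eq_C]

theorem coeff_sl (a : A3 k) (n : ℕ) :
    (sl k a).coeff n = algebraMap k[X] (RatFunc k) (cP a n) := by
  rw [sl_apply, HahnSeries.ofPowerSeries_apply_coeff, coeff_sP']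

theorem coeff_sl_neg (a : A3 k) {m : ℤ} (hm : m < 0) : (sl k a).coeff m = 0 :=
  coeff_ofPS_neg _ hm

theorem coeff_cP (a : A3 k) (n j : ℕ) : (cP a n).coeff j = if j ≤ n then
    MvPowerSeries.coeff (Finsupp.single 1 (n - j) + Finsupp.single 2 j) a else 0 := by
  rw [cP, finsetSum_coeff]
  simp only [coeff_monomial]
  rw [Finset.sum_ite_eq']
  simp only [Finset.mem_range, Nat.lt_succ_iff]

theorem natDegree_cP (a : A3 k) (n : ℕ) : (cP a n).natDegree ≤ n := by
  rw [natDegree_le_iff_coeff_eq_zero]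
  intro j hj
  rw [coeff_cP, if_neg (by omega)]

theorem coeff_of_sl {a : A3 k} {d : Fin 3 →₀ ℕ} (h0 : d 0 = 0)
    (h : (sl k a).coeff ((d 1 + d 2 : ℕ) : ℤ) = 0) : MvPowerSeries.coeff d a = 0 := by
  rw [coeff_sl] at h
  have h1 : cP a (d 1 + d 2) = 0 := by simpa using h
  have h2 := coeff_cP a (d 1 + d 2) (d 2)
  rw [h1, coeff_zero, if_pos (by omega)] at h2
  rw [h2]
  congr 2
  ext i
  fin_cases i <;> simp [h0]

/-- division by a variable -/
noncomputable def shA (i : Fin 3) (a : A3 k) : A3 k :=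
  fun d => MvPowerSeries.coeff (d + Finsupp.single i 1) a

theorem coeff_shA (i : Fin 3) (a : A3 k) (d : Fin 3 →₀ ℕ) :
    MvPowerSeries.coeff d (shA i a) = MvPowerSeries.coeff (d + Finsupp.single i 1) a := rfl

theorem coeff_sub_shA (i : Fin 3) (a : A3 k) (d : Fin 3 →₀ ℕ) :
    MvPowerSeries.coeff d (a - MvPowerSeries.X i * shA i a) =
      if d i = 0 then MvPowerSeries.coeff d a else 0 := by
  classical
  rw [map_sub, MvPowerSeries.X_def, MvPowerSeries.coeff_monomial_mul, one_mul, coeff_shA]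
  by_cases h : d i = 0
  · rw [if_neg, if_pos h, sub_zero]
    rw [Finsupp.single_le_iff]; omega
  · have h' : Finsupp.single i 1 ≤ d := by rw [Finsupp.single_le_iff]; omega
    rw [if_pos h', if_neg h, tsub_add_cancel_of_le h', sub_self]

/-- decomposition of a power series -/
theorem decA (a : A3 k) : ∃ a1 a2 a0 : A3 k,
    a = algebraMap k (A3 k) (MvPowerSeries.constantCoeff a) + xA * a1 + yA * a2 + zA * a0 ∧
    (∀ d, MvPowerSeries.coeff d a1 = MvPowerSeries.coeff (d + Finsupp.single 1 1) a) ∧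
    (∀ d, MvPowerSeries.coeff d a2 =
      if d 1 = 0 then MvPowerSeries.coeff (d + Finsupp.single 2 1) a else 0) := by
  classical
  let a' := a - xA * shA 1 a
  have h : zA ∣ a' - yA * shA 2 a' - algebraMap k (A3 k) (MvPowerSeries.constantCoeff a) := by
    rw [MvPowerSeries.X_dvd_iff]
    intro d hd
    rw [map_sub, coeff_sub_shA, coeff_sub_shA, MvPowerSeries.algebraMap_apply,
      MvPowerSeries.coeff_C]
    by_cases h0 : d = 0
    · subst h0; simp
    · rw [if_neg h0, sub_zero]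
      split_ifs with h2 h1
      · exact absurd (by ext i; fin_cases i <;> simp [hd, h1, h2]) h0
      · rfl
      · rfl
  obtain ⟨a0, ha0⟩ := h
  refine ⟨shA 1 a, shA 2 a', a0, ?_, fun d => rfl, fun d => ?_⟩
  · rw [← ha0]; simp only [a']; ring
  · rw [coeff_shA, coeff_sub_shA]; simp

/-- the kernel of the slice map -/
theorem sl_eq_zero {a : A3 k} (h : sl k a = 0) : zA ∣ a := by
  rw [MvPowerSeries.X_dvd_iff]
  intro d hd
  exact coeff_of_sl hd (by rw [h]; rfl)

/-- chain rule: `∂_y = x⁻¹ ∂_λ` -/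
theorem sl_dA (a : A3 k) : sl k (dA k a) = HahnSeries.single (-1) 1 * dL k (sl k a) := by
  ext m
  have h1 := HahnSeries.coeff_single_mul_add (r := (1 : RatFunc k)) (x := dL k (sl k a))
    (a := m + 1) (b := (-1 : ℤ))
  rw [add_neg_cancel_right] at h1
  rw [h1, one_mul, coeff_dL]
  rcases lt_trichotomy m (-1) with h | h | h
  · rw [coeff_sl_neg _ (by omega), coeff_sl_neg _ (by omega), map_zero]
  · subst h
    rw [coeff_sl_neg _ (by omega), show (-1 : ℤ) + 1 = ((0 : ℕ) : ℤ) by simp, coeff_sl,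
      dK_algebraMap, derivative_of_natDegree_zero (Nat.le_zero.1 (natDegree_cP a 0)), map_zero]
  · obtain ⟨n, rfl⟩ := Int.eq_ofNat_of_zero_le (show 0 ≤ m by omega)
    rw [show (n : ℤ) + 1 = ((n + 1 : ℕ) : ℤ) by simp, coeff_sl, coeff_sl, dK_algebraMap]
    congr 1
    ext j
    rw [coeff_derivative, coeff_cP, coeff_cP]
    by_cases hj : j ≤ n
    · rw [if_pos hj, if_pos (by omega), MvPowerSeries.coeff_pderiv, add_assoc,
        ← Finsupp.single_add, Nat.add_sub_add_right]
      simp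
    · rw [if_neg hj, if_neg (by omega), zero_mul]

theorem dL_mul (a b : LL k) : dL k (a * b) = a * dL k b + b * dL k a := by
  have hs : ∀ f : LL k, (dL k f).support ⊆ f.support := by
    intro f n hn h0
    exact hn (by rw [coeff_dL, h0, map_zero])
  ext n
  rw [coeff_dL, HahnSeries.coeff_add, mul_comm b, HahnSeries.coeff_mul,
    HahnSeries.coeff_mul_right' b.isPWO_support (hs b),
    HahnSeries.coeff_mul_left' a.isPWO_support (hs a), map_sum, ← Finset.sum_add_distrib]
  refine Finset.sum_congr rfl fun ij _ => ?_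
  rw [dK_mul, coeff_dL, coeff_dL, mul_comm (b.coeff _)]

/-- `x` is regular modulo `(f, z)` when the slice of `f` is homogeneous of exact degree -/
theorem x_reg_mod {f : A3 k} {d : ℕ} {P : k[X]} (hf : HomA f d P) (hP : P ≠ 0)
    (hd : P.natDegree = d) {a : A3 k} (ha : xA * a ∈ Ideal.span {f, zA}) :
    a ∈ Ideal.span {f, zA} := by
  obtain ⟨b, c, hbc⟩ := Ideal.mem_span_pair.1 ha
  have h1 : HahnSeries.single (d : ℤ) (algebraMap k[X] (RatFunc k) P) * sl k b =
      HahnSeries.single 1 1 * sl k a := by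
    have := congrArg (sl k) hbc
    rw [map_add, map_mul, map_mul, map_mul, sl_z, mul_zero, add_zero, sl_x, hf, mul_comm] at this
    exact this
  have h2 : ∀ n : ℕ, MvPowerSeries.coeff (Finsupp.single 2 n) b = 0 := by
    intro n
    have h3 := congrArg (fun f : LL k => f.coeff ((n : ℤ) + d)) h1
    have h4 := HahnSeries.coeff_single_mul_add (r := (1 : RatFunc k)) (x := sl k a)
      (a := (n : ℤ) + d - 1) (b := (1 : ℤ))
    rw [sub_add_cancel] at h4
    rw [HahnSeries.coeff_single_mul_add, h4, one_mul, coeff_sl, ← map_mul] at h3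
    have h5 : (P * cP b n).coeff (d + n) = 0 := by
      rcases Nat.eq_zero_or_pos (n + d) with h | h
      · rw [coeff_sl_neg _ (by omega)] at h3
        have : P * cP b n = 0 := by simpa using h3
        rw [this, coeff_zero]
      · rw [show (n : ℤ) + d - 1 = ((n + d - 1 : ℕ) : ℤ) by omega, coeff_sl] at h3
        rw [RatFunc.algebraMap_injective k h3, coeff_cP, if_neg (by omega)]
    rw [coeff_mul_add_eq_of_natDegree_le hd.le (natDegree_cP b n), coeff_cP, if_pos le_rfl] at h5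
    have h6 : P.coeff d ≠ 0 := by
      rw [← hd]; exact leadingCoeff_ne_zero.2 hP
    simpa using (mul_eq_zero.1 h5).resolve_left h6
  have h7 : zA ∣ b - xA * shA 1 b := by
    rw [MvPowerSeries.X_dvd_iff]
    intro e he
    rw [coeff_sub_shA]
    split_ifs with h
    · rw [← h2 (e 2)]
      congr 2
      ext i
      fin_cases i <;> simp [he, h]
    · rfl
  obtain ⟨b0, hb0⟩ := h7
  have h8 : zA ∣ a - shA 1 b * f := by
    apply sl_eq_zero
    have h9 : xA * (a - shA 1 b * f) = zA * (c + b0 * f) := by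
      linear_combination f * hb0 - hbc
    have := congrArg (sl k) h9
    rw [map_mul, map_mul, sl_z, zero_mul, sl_x] at this
    exact (mul_eq_zero.1 this).resolve_left (by simp)
  obtain ⟨c0, hc0⟩ := h8
  exact Ideal.mem_span_pair.2 ⟨shA 1 b, c0, by linear_combination -hc0⟩

/-- the maximal ideal -/
noncomputable abbrev mA (k : Type) [Field k] : Ideal (A3 k) := IsLocalRing.maximalIdeal (A3 k)

theorem mem_mA {a : A3 k} : a ∈ mA k ↔ MvPowerSeries.constantCoeff a = 0 := by
  rw [IsLocalRing.mem_maximalIdeal, mem_nonunits_iff, MvPowerSeries.isUnit_iff_constantCoeff]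
  simp

theorem mem_pow_mA (r : ℕ) (a : A3 k)
    (ha : ∀ d : Fin 3 →₀ ℕ, d 0 = 0 → d 1 + d 2 < r → MvPowerSeries.coeff d a = 0) :
    a ∈ mA k ^ r ⊔ Ideal.span {zA} := by
  induction r generalizing a with
  | zero => simp
  | succ r ih =>
    obtain ⟨a1, a2, a0, h, h1, h2⟩ := decA a
    have hc : MvPowerSeries.constantCoeff a = 0 := ha 0 rfl (by simp)
    have key : ∀ u ∈ mA k, ∀ b ∈ mA k ^ r ⊔ Ideal.span {zA},
        u * b ∈ mA k ^ (r + 1) ⊔ Ideal.span {zA} := by
      intro u hu b hb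
      obtain ⟨b1, hb1, b2, hb2, rfl⟩ := Submodule.mem_sup.1 hb
      rw [mul_add]
      refine Submodule.add_mem_sup ?_ (Ideal.mul_mem_left _ _ hb2)
      rw [pow_succ']
      exact Ideal.mul_mem_mul hu hb1
    rw [h, hc, map_zero, zero_add]
    refine add_mem (add_mem (key _ (mem_mA.2 (by simp)) _ (ih _ fun d e1 e2 => ?_))
      (key _ (mem_mA.2 (by simp)) _ (ih _ fun d e1 e2 => ?_)))
      (Submodule.mem_sup_right (Ideal.mul_mem_right _ _ (Ideal.subset_span rfl)))
    · rw [h1]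
      exact ha _ (by simp [e1]) (by simp; omega)
    · rw [h2]
      split_ifs
      · exact ha _ (by simp [e1]) (by simp; omega)
      · rfl

theorem smul_vec (c : A3 k) (v : Fin N → LL k) : c • v = sl k c • v := rfl

theorem smul_co {c : A3 k} {n : ℤ} {v : Fin N → LL k} (hv : v ∈ Fil k N n) :
    co n (c • v) = MvPowerSeries.constantCoeff c • co n v := by
  ext1 i
  rw [co_apply, Pi.smul_apply, smul_LL, sl_apply, (coeff_ofPS_mul _ _ n (hv i)).2,
    ← PowerSeries.coeff_zero_eq_constantCoeff_apply, coeff_sP]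
  simp [Algebra.smul_def, co_apply]

theorem x_smul_Fil {n : ℤ} {v : Fin N → LL k} (hv : v ∈ Fil k N n) :
    (xA : A3 k) • v ∈ Fil k N (n + 1) ∧ co (n + 1) ((xA : A3 k) • v) = co n v := by
  have := single_smul_Fil 1 1 hv
  rw [one_smul] at this
  rwa [smul_vec, sl_x]

theorem y_smul_Fil {n : ℤ} {v : Fin N → LL k} (hv : v ∈ Fil k N n) :
    (yA : A3 k) • v ∈ Fil k N (n + 1) ∧
      co (n + 1) ((yA : A3 k) • v) = (RatFunc.X : RatFunc k) • co n v := by
  rw [smul_vec, sl_y]
  exact single_smul_Fil 1 _ hv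

theorem z_smul (v : Fin N → LL k) : (zA : A3 k) • v = 0 := by
  rw [smul_vec, sl_z, zero_smul]

theorem Fil_of_x_smul {n : ℤ} {v : Fin N → LL k} (hv : (xA : A3 k) • v ∈ Fil k N (n + 1)) :
    v ∈ Fil k N n := by
  have := (single_smul_Fil (-1) 1 hv).1
  rwa [smul_vec, sl_x, smul_smul, HahnSeries.single_mul_single, neg_add_cancel, mul_one,
    HahnSeries.single_zero_one, one_smul, add_neg_cancel_right] at this

theorem mA_smul_eq {c : A3 k} (hc : c ∈ mA k) : ∃ c1 c2 : A3 k, ∀ v : Fin N → LL k,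
    c • v = (xA : A3 k) • (c1 • v) + (yA : A3 k) • (c2 • v) := by
  obtain ⟨a1, a2, a0, h, -, -⟩ := decA c
  refine ⟨a1, a2, fun v => ?_⟩
  rw [mem_mA.1 hc, map_zero, zero_add] at h
  rw [h, add_smul, add_smul, mul_smul, mul_smul, mul_smul, z_smul, add_zero]

theorem mA_smul_Fil {c : A3 k} (hc : c ∈ mA k) {n : ℤ} {v : Fin N → LL k} (hv : v ∈ Fil k N n) :
    c • v ∈ Fil k N (n + 1) := by
  obtain ⟨c1, c2, h⟩ := mA_smul_eq (N := N) hc
  rw [h]
  exact add_mem (x_smul_Fil (Submodule.smul_mem _ _ hv)).1 (y_smul_Fil (Submodule.smul_mem _ _ hv)).1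

theorem coeff_mul_zero {a b : LL k} {c n : ℤ} (ha : ∀ m < c, a.coeff m = 0)
    (hb : ∀ m < n, b.coeff m = 0) : ∀ m < n + c, (a * b).coeff m = 0 := by
  intro m hm
  rw [HahnSeries.coeff_mul]
  apply Finset.sum_eq_zero
  rintro ⟨i, j⟩ hij
  rw [Finset.mem_antidiagonal] at hij
  obtain ⟨h1, h2, h3⟩ := hij
  by_cases hi : i < c
  · rw [ha i hi, zero_mul]
  · rw [hb j (by simp only at h3; omega), mul_zero]

theorem exists_shift (G : Matrix (Fin N) (Fin N) (LL k)) :
    ∃ c : ℤ, ∀ n, ∀ v ∈ Fil k N n, G.mulVec v ∈ Fil k N (n + c) := by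
  obtain ⟨c, hc⟩ := (Set.finite_range fun ij : Fin N × Fin N => (G ij.1 ij.2).order).bddBelow
  refine ⟨c, fun n v hv i m hm => ?_⟩
  simp only [Matrix.mulVec, dotProduct, HahnSeries.coeff_sum]
  refine Finset.sum_eq_zero fun j _ => coeff_mul_zero (fun m hm => ?_) (hv j) m hm
  exact HahnSeries.coeff_eq_zero_of_lt_order (lt_of_lt_of_le hm (hc ⟨(i, j), rfl⟩))

/-- the parametrisation of `tw g` -/
noncomputable def twMap (g : Matrix (Fin N) (Fin N) (LL k)) :
    (Fin N → A3 k) →ₗ[A3 k] (Fin N → LL k) where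
  toFun a := g.mulVec fun i => sl k (a i)
  map_add' a b := by rw [← Matrix.mulVec_add]; congr 1; ext1 i; simp
  map_smul' c a := by
    have : (fun i => sl k ((c • a) i)) = sl k c • fun i => sl k (a i) := by ext1 i; simp
    rw [this, Matrix.mulVec_smul]
    rfl

theorem range_twMap (g : Matrix (Fin N) (Fin N) (LL k)) : LinearMap.range (twMap g) = tw g := by
  ext v
  exact ⟨fun ⟨a, ha⟩ => ⟨a, ha.symm⟩, fun ⟨a, ha⟩ => ⟨a, ha.symm⟩⟩

theorem tw_fg (g : Matrix (Fin N) (Fin N) (LL k)) : (tw g).FG := by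
  rw [← range_twMap, ← Submodule.map_top]
  exact Module.Finite.fg_top.map _

theorem smul_inj {d : A3 k} (hd : sl k d ≠ 0) {v w : Fin N → LL k} (h : d • v = d • w) : v = w :=
  smul_right_injective _ hd h

theorem fg_of_le {L L' : Submodule (A3 k) (Fin N → LL k)} (h : L ≤ L') (h' : L'.FG) : L.FG :=
  isNoetherian_submodule.1 (isNoetherian_of_fg_of_noetherian _ h') L h

variable {g : Matrix (Fin N) (Fin N) (LL k)} {L : Submodule (A3 k) (Fin N → LL k)}

theorem SLat.fg (hL : SLat g L) : L.FG := by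
  obtain ⟨d, hd, h1, -⟩ := hL
  refine Submodule.fg_of_fg_map_injective (LinearMap.lsmul (A3 k) _ d)
    (fun v w h => smul_inj hd h) (fg_of_le ?_ (tw_fg g))
  rintro _ ⟨v, hv, rfl⟩
  exact h1 v hv

theorem SLat.le_Fil (hL : SLat g L) : ∃ b, L ≤ Fil k N b := by
  obtain ⟨s, rfl⟩ := hL.fg
  choose f hf using exists_mem_Fil (k := k) (N := N)
  obtain ⟨b, hb⟩ := (s.finite_toSet.image f).bddBelow
  exact ⟨b, Submodule.span_le.2 fun v hv => Fil_anti (hb ⟨v, hv, rfl⟩) (hf v)⟩

theorem tw_inf_Fil (hg : IsUnit g) : ∃ c : ℤ, ∀ (n : ℕ) (w : tw g), w.1 ∈ Fil k N (n + c) →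
    w ∈ (mA k ^ n • ⊤ : Submodule (A3 k) (tw g)) := by
  obtain ⟨c, hc⟩ := exists_shift g⁻¹
  refine ⟨-c, ?_⟩
  rintro n ⟨_, a, rfl⟩ hw
  have h1 := hc _ _ hw
  rw [Matrix.mulVec_mulVec, Matrix.nonsing_inv_mul _ ((Matrix.isUnit_iff_isUnit_det g).1 hg),
    Matrix.one_mulVec, neg_add_cancel_right] at h1
  have h2 : ∀ i, a i ∈ mA k ^ n ⊔ Ideal.span {zA} := fun i =>
    mem_pow_mA n _ fun d h0 hd => coeff_of_sl h0 (h1 i _ (by omega))
  let e : Fin N → tw g := fun i => ⟨twMap g (Pi.single i 1), _, rfl⟩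
  have h3 : (⟨_, a, rfl⟩ : tw g) = ∑ i, a i • e i := by
    apply Subtype.ext
    change twMap g a = _
    simp only [e, Submodule.coe_sum, Submodule.coe_smul, ← map_smul, ← map_sum]
    congr 1
    ext1 j
    simp [Pi.single_apply]
  rw [h3]
  refine Submodule.sum_mem _ fun i _ => ?_
  obtain ⟨b1, hb1, b2, hb2, h⟩ := Submodule.mem_sup.1 (h2 i)
  obtain ⟨b3, rfl⟩ := Ideal.mem_span_singleton'.1 hb2
  have h4 : (b3 * zA) • e i = 0 := by
    apply Subtype.ext
    rw [Submodule.coe_smul, mul_smul, z_smul, smul_zero]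
    rfl
  rw [← h, add_smul, h4, add_zero]
  exact Submodule.smul_mem_smul hb1 trivial

theorem SLat.stable (hg : IsUnit g) (hL : SLat g L) :
    ∃ n0 : ℤ, ∀ n ≥ n0, L ⊓ Fil k N (n + 1) ≤ mA k • (L ⊓ Fil k N n) := by
  obtain ⟨d, hd, h1, -⟩ := hL
  obtain ⟨c, hc⟩ := tw_inf_Fil hg
  haveI : Module.Finite (A3 k) (tw g) := Module.Finite.iff_fg.2 (tw_fg g)
  let F : (mA k).Filtration (tw g) :=
    { N := fun n => ((L ⊓ Fil k N (n + c)).map (LinearMap.lsmul (A3 k) _ d)).comap (tw g).subtype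
      mono := fun n => Submodule.comap_mono (Submodule.map_mono
        (inf_le_inf_left _ (Fil_anti (by push_cast; omega))))
      smul_le := fun n => by
        rw [Submodule.smul_le]
        rintro r hr w ⟨v, hv, hvw⟩
        refine ⟨r • v, ⟨L.smul_mem _ hv.1, ?_⟩, ?_⟩
        · have := mA_smul_Fil hr hv.2
          rwa [show (n : ℤ) + c + 1 = ((n + 1 : ℕ) : ℤ) + c by push_cast; ring] at this
        · rw [map_smul, hvw, map_smul] }
  have hF : F.Stable := by
    refine ((mA k).stableFiltration_stable ⊤).of_le (F' := F) fun n => ?_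
    rintro w ⟨v, hv, hvw⟩
    refine hc n w ?_
    change (tw g).subtype w ∈ _
    rw [← hvw]
    exact Submodule.smul_mem _ _ hv.2
  obtain ⟨n0, hn0⟩ := hF
  refine ⟨n0 + c, fun n hn v hv => ?_⟩
  obtain ⟨m, rfl⟩ : ∃ m : ℕ, n = m + c := ⟨(n - c).toNat, by omega⟩
  have h2 : (⟨d • v, h1 v hv.1⟩ : tw g) ∈ F.N (m + 1) := ⟨v, ⟨hv.1, by
    rw [show ((m + 1 : ℕ) : ℤ) + c = m + c + 1 by push_cast; ring]; exact hv.2⟩, rfl⟩
  rw [← hn0 m (by omega)] at h2
  have h3 : ∀ w ∈ mA k • F.N m, ∃ u ∈ mA k • (L ⊓ Fil k N (m + c)), d • u = w.1 := by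
    intro w hw
    refine Submodule.smul_induction_on hw ?_ ?_
    · rintro r hr w ⟨u, hu, huw⟩
      refine ⟨r • u, Submodule.smul_mem_smul hr hu, ?_⟩
      rw [smul_comm, Submodule.coe_smul]
      congr 1
    · rintro x y ⟨u, hu, e⟩ ⟨u', hu', e'⟩
      exact ⟨u + u', add_mem hu hu', by rw [smul_add, e, e']; rfl⟩
  obtain ⟨u, hu, e⟩ := h3 _ h2
  rwa [← smul_inj hd e]

theorem exists_hom (P : k[X]) (e : ℕ) (he : P.natDegree ≤ e) : ∃ a : A3 k, HomA a e P := by
  refine ⟨∑ j ∈ Finset.range (e + 1), algebraMap k (A3 k) (P.coeff j) * xA ^ (e - j) * yA ^ j, ?_⟩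
  unfold HomA
  conv_rhs => rw [P.as_sum_range' (e + 1) (by omega)]
  rw [map_sum, map_sum]
  refine Eq.trans ?_ (map_sum (HahnSeries.single.addMonoidHom (e : ℤ)) _ _).symm
  refine Finset.sum_congr rfl fun j hj => ?_
  have hj' := Finset.mem_range.1 hj
  change _ = HahnSeries.single (e : ℤ) _
  rw [map_mul (sl k), map_mul (sl k), map_pow (sl k),
    map_pow (sl k), sl_algebraMap, sl_x, sl_y, HahnSeries.single_pow,
    HahnSeries.single_pow, HahnSeries.single_mul_single, HahnSeries.single_mul_single,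
    ← C_mul_X_pow_eq_monomial, map_mul (algebraMap k[X] (RatFunc k)),
    map_pow (algebraMap k[X] (RatFunc k)), RatFunc.algebraMap_X, RatFunc.algebraMap_C,
    RatFunc.algebraMap_eq_C, one_pow, mul_one]
  have : (0 : ℤ) + (e - j) • (1 : ℤ) + j • (1 : ℤ) = e := by
    simp only [nsmul_eq_mul, mul_one, zero_add]
    omega
  rw [this]

/-- vectors a homogeneous multiple of which lies in `L` -/
def satH (L : Submodule (A3 k) (Fin N → LL k)) : AddSubmonoid (Fin N → LL k) where
  carrier := {v | ∃ (s : A3 k) (B : ℤ) (c : RatFunc k), c ≠ 0 ∧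
    sl k s = HahnSeries.single B c ∧ s • v ∈ L}
  zero_mem' := ⟨1, 0, 1, one_ne_zero, by simp, by simp⟩
  add_mem' := by
    rintro v w ⟨s, B, c, hc, hs, hv⟩ ⟨s', B', c', hc', hs', hw⟩
    refine ⟨s * s', B + B', c * c', mul_ne_zero hc hc', ?_, ?_⟩
    · rw [map_mul, hs, hs', HahnSeries.single_mul_single]
    · rw [smul_add]
      refine add_mem ?_ ?_
      · rw [mul_comm, mul_smul]; exact L.smul_mem _ hv
      · rw [mul_smul]; exact L.smul_mem _ hw

theorem single_smul_satH {v : Fin N → LL k} (hv : v ∈ satH L) (m : ℤ) (c' : RatFunc k) :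
    (HahnSeries.single m c' : LL k) • v ∈ satH L := by
  obtain ⟨s, B, c, hc, hs, hv⟩ := hv
  let D : ℕ := c'.num.natDegree + c'.denom.natDegree + m.natAbs
  obtain ⟨s', hs'⟩ := exists_hom c'.denom D (by omega)
  obtain ⟨a, ha⟩ := exists_hom c'.num (D + m).toNat (by omega)
  have hq : algebraMap k[X] (RatFunc k) c'.denom ≠ 0 := by simpa using c'.denom_ne_zero
  refine ⟨s * s', B + D, c * algebraMap k[X] (RatFunc k) c'.denom, mul_ne_zero hc hq, ?_, ?_⟩
  · rw [map_mul, hs, hs', HahnSeries.single_mul_single]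
  · have e : s' • ((HahnSeries.single m c' : LL k) • v) = a • v := by
      rw [smul_vec, smul_vec, hs', ha, smul_smul, HahnSeries.single_mul_single]
      congr 2
      · congr 1; omega
      · have := c'.num_div_denom
        rw [div_eq_iff hq] at this
        rw [this, mul_comm]
    rw [mul_smul, e, smul_comm]
    exact L.smul_mem _ hv

theorem exists_trunc (u : Fin N → LL k) (M : ℤ) : ∃ (s : Finset ℤ),
    u - (fun i => ∑ m ∈ s, HahnSeries.single m ((u i).coeff m)) ∈ Fil k N M := by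
  obtain ⟨b, hb⟩ := exists_mem_Fil u
  refine ⟨Finset.Ico b M, fun i m hm => ?_⟩
  simp only [Pi.sub_apply, HahnSeries.coeff_sub, HahnSeries.coeff_sum]
  rw [Finset.sum_eq_single m (fun j _ hj => HahnSeries.coeff_single_of_ne hj.symm),
    HahnSeries.coeff_single_same, sub_self]
  intro h
  rw [Finset.mem_Ico] at h
  rw [HahnSeries.coeff_single_same, hb i m (by omega)]

theorem SLat.spans (hg : IsUnit g) (hL : SLat g L) :
    Submodule.span (RatFunc k) (Aff (Gr L) : Set (WW k N)) = ⊤ := by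
  obtain ⟨d, hd, -, h2⟩ := hL
  rw [eq_top_iff]
  intro w _
  let G : Matrix (Fin N) (Fin N) (LL k) := sl k d • g
  have hG : IsUnit G.det := by
    rw [Matrix.det_smul]
    exact (IsUnit.mk0 _ (pow_ne_zero _ hd)).mul ((Matrix.isUnit_iff_isUnit_det g).1 hg)
  obtain ⟨c, hc⟩ := exists_shift G
  let wh : Fin N → LL k := fun i => HahnSeries.single 0 (w i)
  have hwh : wh ∈ Fil k N 0 := fun i m hm => by
    simp [wh, hm.ne]
  have hco : co 0 wh = w := by ext1 i; simp [co_apply, wh]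
  obtain ⟨s, hs⟩ := exists_trunc (G⁻¹.mulVec wh) (1 - c)
  have h3 := hc _ _ hs
  rw [Matrix.mulVec_sub, Matrix.mulVec_mulVec, Matrix.mul_nonsing_inv _ hG, Matrix.one_mulVec,
    sub_add_cancel] at h3
  set v := G.mulVec fun i => ∑ m ∈ s, HahnSeries.single m (((G⁻¹.mulVec wh) i).coeff m) with hv
  have h4 : v ∈ satH L := by
    have e : v = ∑ i, ∑ m ∈ s, (HahnSeries.single m (((G⁻¹.mulVec wh) i).coeff m) : LL k) •
        G.mulVec (Pi.single i 1) := by
      rw [hv]
      simp only [← Finset.sum_smul, ← Matrix.mulVec_smul, ← Matrix.mulVec_sum]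
      congr 1
      ext1 j
      simp [Pi.single_apply]
    rw [e]
    refine sum_mem fun i _ => sum_mem fun m _ => single_smul_satH ?_ _ _
    refine ⟨1, 0, 1, one_ne_zero, by simp, ?_⟩
    rw [one_smul, Matrix.smul_mulVec]
    refine h2 _ ⟨Pi.single i 1, ?_⟩
    congr 1
    ext1 j
    by_cases h : j = i <;> simp [h]
  have h5 := mem_Fil_succ.1 (show wh - v ∈ Fil k N (0 + 1) by simpa using h3)
  have h6 : v ∈ Fil k N 0 := by
    have := Submodule.sub_mem _ hwh h5.1
    rwa [sub_sub_cancel] at this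
  have h7 : co 0 v = w := by
    have := h5.2
    rw [map_sub, hco, sub_eq_zero] at this
    exact this.symm
  obtain ⟨a, B, c', hc', ha, hav⟩ := h4
  have h8 := single_smul_Fil B c' h6
  rw [← ha, ← smul_vec, h7] at h8
  have h9 : c' • w ∈ Submodule.span (RatFunc k) (Aff (Gr L) : Set (WW k N)) :=
    Submodule.subset_span (le_Aff (Gr L) (0 + B) (mem_Gr.2 ⟨_, hav, h8.1, h8.2⟩))
  exact (Submodule.smul_mem_iff _ hc').1 h9

theorem SLat.fin_Gr (hL : SLat g L) (n : ℤ) : FiniteDimensional k (Gr L n) := by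
  classical
  obtain ⟨s, hs⟩ := fg_of_le (inf_le_left : L ⊓ Fil k N n ≤ L) hL.fg
  have h : Gr L n ≤ Submodule.span k (s.image (co n) : Set (WW k N)) := by
    intro w hw
    obtain ⟨v, h1, h2, rfl⟩ := mem_Gr.1 hw
    have h3 : v ∈ Submodule.span (A3 k) (s : Set (Fin N → LL k)) := hs ▸ ⟨h1, h2⟩
    clear h1 h2 hw
    induction h3 using Submodule.span_induction with
    | mem x hx => exact Submodule.subset_span (by simpa using ⟨x, hx, rfl⟩)
    | zero => simp
    | add x y _ _ hx hy => rw [map_add]; exact add_mem hx hy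
    | smul c x hx ih =>
      rw [hs] at hx
      rw [smul_co hx.2]
      exact Submodule.smul_mem _ _ ih
  exact Submodule.finiteDimensional_of_le h

theorem SLat.gLat (hg : IsUnit g) (hL : SLat g L) : GLat (Gr L) := by
  refine ⟨fun n w hw => ?_, fun n w hw => ?_, hL.fin_Gr, ?_, hL.spans hg⟩
  · obtain ⟨v, h1, h2, rfl⟩ := mem_Gr.1 hw
    exact mem_Gr.2 ⟨_, L.smul_mem xA h1, (x_smul_Fil h2).1, (x_smul_Fil h2).2⟩
  · obtain ⟨v, h1, h2, rfl⟩ := mem_Gr.1 hw
    exact mem_Gr.2 ⟨_, L.smul_mem yA h1, (y_smul_Fil h2).1, (y_smul_Fil h2).2⟩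
  · obtain ⟨n0, hn0⟩ := hL.stable hg
    filter_upwards [eventually_ge_atTop n0] with n hn w hw
    obtain ⟨v, h1, h2, rfl⟩ := mem_Gr.1 hw
    refine Submodule.smul_induction_on (hn0 n hn ⟨h1, h2⟩) (p := fun v => ∃ a ∈ Gr L n,
      ∃ b ∈ Gr L n, co (n + 1) v = a + (RatFunc.X : RatFunc k) • b) ?_ ?_
    · intro r hr u hu
      obtain ⟨c1, c2, h⟩ := mA_smul_eq (N := N) hr
      have e1 := Submodule.smul_mem _ c1 hu
      have e2 := Submodule.smul_mem _ c2 hu
      refine ⟨_, mem_Gr.2 ⟨_, e1.1, e1.2, rfl⟩, _, mem_Gr.2 ⟨_, e2.1, e2.2, rfl⟩, ?_⟩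
      rw [h, map_add, (x_smul_Fil e1.2).2, (y_smul_Fil e2.2).2]
    · rintro x y ⟨a, ha, b, hb, e⟩ ⟨a', ha', b', hb', e'⟩
      refine ⟨a + a', add_mem ha ha', b + b', add_mem hb hb', ?_⟩
      rw [map_add, e, e', smul_add]
      abel

theorem SLat.idx_step (hL : SLat g L) (n : ℤ) :
    FinIdx ((L ⊓ Fil k N n).restrictScalars k) ((L ⊓ Fil k N (n + 1)).restrictScalars k) ∧
    idx ((L ⊓ Fil k N n).restrictScalars k) ((L ⊓ Fil k N (n + 1)).restrictScalars k) =
      finrank k (Gr L n) := by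
  haveI := hL.fin_Gr n
  have h1 := idx_le_of_inj (co n) (A := (L ⊓ Fil k N n).restrictScalars k)
    (B := (L ⊓ Fil k N (n + 1)).restrictScalars k) (A' := Gr L n) (B' := ⊥)
    (fun x hx => ⟨x, hx, rfl⟩) (fun x _ hx => (mem_Fil_succ.1 hx.2).2)
    (fun x hx hx' => ⟨hx.1, mem_Fil_succ.2 ⟨hx.2, hx'⟩⟩) (finIdx_of_finite _ _)
  have h2 := idx_le_of_surj (co n) (A := (L ⊓ Fil k N n).restrictScalars k)
    (B := (L ⊓ Fil k N (n + 1)).restrictScalars k) (A' := Gr L n) (B' := ⊥)
    (fun x hx => ⟨x, hx, rfl⟩) (fun x _ hx => (mem_Fil_succ.1 hx.2).2)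
    (by rintro _ ⟨x, hx, rfl⟩; exact ⟨x, hx, by simp⟩) h1.1
  rw [idx_bot] at h1 h2
  exact ⟨h1.1, le_antisymm h1.2 h2.2⟩

theorem SLat.finIdx (_hg : IsUnit g) (hL : SLat g L) (n : ℤ) :
    FinIdx (L.restrictScalars k) ((Fil k N n).restrictScalars k) := by
  obtain ⟨b, hb⟩ := hL.le_Fil
  rcases le_total n b with h | h
  · exact finIdx_of_le fun v hv => Fil_anti h (hb hv)
  · induction n, h using Int.leInduction with
    | base => exact finIdx_of_le fun v hv => hb hv
    | succ m hm ih =>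
      rw [← finIdx_inf] at ih ⊢
      exact (idx_add (A := L.restrictScalars k) (B := (L ⊓ Fil k N m).restrictScalars k)
        (C := (L ⊓ Fil k N (m + 1)).restrictScalars k) (fun x hx => hx.1)
        (fun x hx => ⟨hx.1, Fil_anti (by omega) hx.2⟩) ih (hL.idx_step m).1).1

theorem SLat.hh_succ (hg : IsUnit g) (hL : SLat g L) (n : ℤ) :
    hh L (n + 1) = hh L n + finrank k (Gr L n) := by
  have e : ∀ m : ℤ, (L ⊓ Fil k N m).restrictScalars k =
      L.restrictScalars k ⊓ (Fil k N m).restrictScalars k := fun m => rfl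
  have f1 : FinIdx (L.restrictScalars k) ((L ⊓ Fil k N n).restrictScalars k) := by
    rw [e, finIdx_inf]; exact hL.finIdx hg n
  have f2 := (idx_add (A := L.restrictScalars k) (B := (L ⊓ Fil k N n).restrictScalars k)
    (C := (L ⊓ Fil k N (n + 1)).restrictScalars k) (fun x hx => hx.1)
    (fun x hx => ⟨hx.1, Fil_anti (by omega) hx.2⟩) f1 (hL.idx_step n).1).2
  rw [(hL.idx_step n).2, e, e, idx_inf, idx_inf] at f2
  exact f2

theorem SLat.cofinal (hg : IsUnit g) (hL : SLat g L) (h : ℕ) :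
    ∃ n, L ⊓ Fil k N n ≤ mA k ^ h • L := by
  obtain ⟨n0, hn0⟩ := hL.stable hg
  refine ⟨n0 + h, ?_⟩
  induction h with
  | zero => simp
  | succ h ih =>
    rw [pow_succ', mul_smul]
    push_cast
    rw [← add_assoc]
    exact (hn0 _ (by omega)).trans (Submodule.smul_mono le_rfl ih)

/-- submodules of a lattice are closed for the order filtration -/
theorem SLat.sep (hg : IsUnit g) (hL : SLat g L) {S : Submodule (A3 k) (Fin N → LL k)}
    (hS : S ≤ L) {v : Fin N → LL k} (hv : ∀ n, v ∈ S ⊔ (L ⊓ Fil k N n)) : v ∈ S := by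
  haveI : Module.Finite (A3 k) L := Module.Finite.iff_fg.2 hL.fg
  have hvL : v ∈ L := (sup_le hS inf_le_left) (hv 0)
  let S' : Submodule (A3 k) L := S.comap L.subtype
  have h1 : S'.mkQ ⟨v, hvL⟩ ∈ (⨅ i : ℕ, mA k ^ i • ⊤ : Submodule (A3 k) (L ⧸ S')) := by
    rw [Submodule.mem_iInf]
    intro h
    obtain ⟨n, hn⟩ := hL.cofinal hg h
    obtain ⟨a, ha, b, hb, e⟩ := Submodule.mem_sup.1 (hv n)
    have h2 := hn hb
    rw [← Submodule.map_subtype_top L, ← Submodule.map_smul''] at h2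
    obtain ⟨b', hb', rfl⟩ := h2
    have h3 : S'.mkQ ⟨v, hvL⟩ = S'.mkQ b' := by
      rw [Submodule.mkQ_apply, Submodule.mkQ_apply, Submodule.Quotient.eq]
      change v - b'.1 ∈ S
      rw [← e]
      simpa using ha
    rw [h3]
    have h4 := Submodule.mem_map_of_mem (f := S'.mkQ) hb'
    rwa [Submodule.map_smul'', Submodule.map_top, Submodule.range_mkQ] at h4
  rw [Ideal.iInf_pow_smul_eq_bot_of_isLocalRing _ (IsLocalRing.maximalIdeal.isMaximal _).ne_top,
    Submodule.mem_bot] at h1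
  exact (Submodule.Quotient.mk_eq_zero S').1 h1

theorem tw_incr (hg : IsUnit g) (n : ℤ) :
    finrank k (Gr (tw g) (n + 1)) ≤ finrank k (Gr (tw g) n) + N := by
  have hL := sLat_tw g
  have hG := hL.gLat hg
  haveI := hG.fin
  let mx : (Fin N → LL k) →ₗ[k] (Fin N → LL k) :=
    (LinearMap.lsmul (A3 k) _ (xA : A3 k)).restrictScalars k
  let my : (Fin N → LL k) →ₗ[k] (Fin N → LL k) :=
    (LinearMap.lsmul (A3 k) _ (yA : A3 k)).restrictScalars k
  let M : Submodule k (Fin N → LL k) := (tw g).restrictScalars k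
  let F : Submodule k (Fin N → LL k) := (tw g ⊓ Fil k N (n + 1)).restrictScalars k
  have hxM : M.map mx ≤ M := by
    rintro _ ⟨v, hv, rfl⟩; exact (tw g).smul_mem xA hv
  have hyM : M.map my ≤ M := by
    rintro _ ⟨v, hv, rfl⟩; exact (tw g).smul_mem yA hv
  have hyF : F.map my ≤ F := by
    rintro _ ⟨v, hv, rfl⟩; exact (tw g ⊓ Fil k N (n + 1)).smul_mem yA hv
  have hFM : F ≤ M := fun v hv => hv.1
  have f1 : FinIdx M (F ⊔ M.map mx) :=
    ((finIdx_inf _ _).2 (hL.finIdx hg (n + 1))).mono le_rfl le_sup_left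
  have f2 := idx_le_of_surj my (A := M) (B := F ⊔ M.map mx) (A' := M.map my ⊔ M.map mx)
    (B' := F.map my ⊔ M.map mx) (fun v hv => Submodule.mem_sup_left ⟨v, hv, rfl⟩)
    (fun v _ hv => by
      obtain ⟨a, ha, _, ⟨b, hb, rfl⟩, rfl⟩ := Submodule.mem_sup.1 hv
      rw [map_add]
      exact Submodule.add_mem_sup ⟨a, ha, rfl⟩ ⟨my b, hyM ⟨b, hb, rfl⟩, smul_comm (xA : A3 k) (yA : A3 k) b⟩)
    (fun v hv => by
      obtain ⟨_, ⟨a, ha, rfl⟩, b, hb, rfl⟩ := Submodule.mem_sup.1 hv
      exact ⟨a, ha, Submodule.mem_sup_right (by simpa using hb)⟩) f1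
  let cm : (Fin N → k) →ₗ[k] (Fin N → LL k) :=
    ((twMap g).restrictScalars k).comp ((Algebra.linearMap k (A3 k)).compLeft (Fin N))
  have f3 := idx_le_of_surj cm (A := ⊤) (B := ⊥) (A' := M) (B' := M.map my ⊔ M.map mx)
    (fun v _ => ⟨_, rfl⟩) (fun v _ hv => by rw [(Submodule.mem_bot k).1 hv]; simp)
    (by
      rintro _ ⟨a, rfl⟩
      choose a1 a2 a0 h _ using fun i => decA (a i)
      refine ⟨fun i => MvPowerSeries.constantCoeff (a i), trivial, ?_⟩
      have e : a = (fun i => algebraMap k (A3 k) (MvPowerSeries.constantCoeff (a i))) +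
          (xA : A3 k) • a1 + (yA : A3 k) • a2 + (zA : A3 k) • a0 := funext h
      change twMap g a - twMap g (fun i => algebraMap k (A3 k) (MvPowerSeries.constantCoeff (a i)))
        ∈ _
      have e2 := congrArg (twMap g) e
      rw [map_add, map_add, map_add, map_smul, map_smul, map_smul, z_smul, add_zero] at e2
      rw [e2, add_assoc, add_sub_cancel_left, add_comm]
      exact Submodule.add_mem_sup ⟨_, ⟨a2, rfl⟩, rfl⟩ ⟨_, ⟨a1, rfl⟩, rfl⟩)
    (finIdx_of_finite _ _)
  rw [idx_bot, finrank_top, finrank_fin_fun] at f3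
  have f4 := idx_add (sup_le hyM hxM) (sup_le_sup_right (Submodule.map_mono hFM) _) f3.1 f2.1
  have f5 := idx_add' (B := F ⊔ M.map mx) (sup_le hFM hxM) (sup_le_sup_right hyF _) f4.1
  have f6 : FinIdx (F ⊔ M.map mx) (F.map my ⊔ M.map mx) := f4.1.mono (sup_le hFM hxM) le_rfl
  let B : Submodule k (Fin N → LL k) := F ⊓ (F.map my ⊔ M.map mx)
  have f7 := idx_le_of_inj LinearMap.id (A := F) (B := B) (A' := F ⊔ M.map mx)
    (B' := F.map my ⊔ M.map mx) (fun v hv => Submodule.mem_sup_left hv) (fun v _ hv => hv.2)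
    (fun v hv hv' => ⟨hv, hv'⟩) f6
  have f8 := idx_le_of_surj (co (n + 1)) (A := F) (B := B) (A' := Gr (tw g) (n + 1))
    (B' := Gr (tw g) n) (fun v hv => ⟨v, hv, rfl⟩)
    (fun v hv hv' => by
      obtain ⟨_, ⟨a, ha, rfl⟩, _, ⟨b, hb, rfl⟩, rfl⟩ := Submodule.mem_sup.1 hv'.2
      have e1 := mem_Fil_succ.1 (y_smul_Fil ha.2).1
      have e2 : (xA : A3 k) • b ∈ Fil k N (n + 1) := by
        have := Submodule.sub_mem _ hv.2 e1.1
        change (yA : A3 k) • a + (xA : A3 k) • b - _ ∈ _ at this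
        rwa [add_sub_cancel_left] at this
      have e3 := Fil_of_x_smul e2
      change co (n + 1) ((yA : A3 k) • a + (xA : A3 k) • b) ∈ _
      rw [map_add, e1.2, zero_add, (x_smul_Fil e3).2]
      exact ⟨b, ⟨hb, e3⟩, rfl⟩)
    (by rintro _ ⟨v, hv, rfl⟩; exact ⟨v, hv, by simp⟩) f7.1
  have f9 := idx_add_finrank (hG.mono n)
  omega

/-- for a free module the Hilbert function dominates the Hilbert polynomial -/
theorem tw_chi_le (hg : IsUnit g) (n : ℤ) :
    N * n + chi (Gr (tw g)) ≤ finrank k (Gr (tw g) n) := by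
  have h0 := ((sLat_tw g).gLat hg).hasChi ⊤
  rw [capW_top, finrank_top, finrank_fin_fun] at h0
  obtain ⟨m, h1, h2⟩ := (h0.and (eventually_ge_atTop n)).exists
  have key : ∀ m, n ≤ m → (finrank k (Gr (tw g) m) : ℤ) ≤ finrank k (Gr (tw g) n) + N * (m - n) := by
    intro m hm
    induction m, hm using Int.leInduction with
    | base => simp
    | succ j hj ih =>
      have := tw_incr hg j
      have h3 : (finrank k (Gr (tw g) (j + 1)) : ℤ) ≤ finrank k (Gr (tw g) j) + N := by omega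
      linarith
  have := key m h2
  linarith

end Crest.Agent.R169
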