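import Crest.Agent.R169.AmbDef
import Crest.Agent.R169.SliceA

/-!
Basic facts on the branch divisors and on lattices in the ambient module.
-/

set_option autoImplicit false
set_option linter.style.haveILetI false
set_option linter.unusedSectionVars false
set_option maxSynthPendingDepth 3

namespace Crest.Agent.R169

open Module Filter Polynomial

variable {k : Type} [Field k] {m N : ℕ} [Big k m]

theorem lin_lin_cop {a b a' b' : k} (h : a' * b - a * b' ≠ 0) :
    IsCoprime (C a * X + C b) (C a' * X + C b') := by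
  refine ⟨C (a' * b - a * b')⁻¹ * C a', -(C (a' * b - a * b')⁻¹ * C a), ?_⟩
  have : C (a' * b - a * b')⁻¹ * C (a' * b - a * b') = (1 : k[X]) := by
    rw [← C_mul, inv_mul_cancel₀ h, C_1]
  rw [← this, C_sub, C_mul, C_mul]
  ring

theorem lin_quad_cop {a b c : k} (h : a ^ 2 * c + b ^ 2 ≠ 0) :
    IsCoprime (C a * X + C b) (X ^ 2 + C c) := by
  refine ⟨-(C (a ^ 2 * c + b ^ 2)⁻¹ * (C a * X - C b)), C (a ^ 2 * c + b ^ 2)⁻¹ * C a ^ 2, ?_⟩
  have : C (a ^ 2 * c + b ^ 2)⁻¹ * C (a ^ 2 * c + b ^ 2) = (1 : k[X]) := by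
    rw [← C_mul, inv_mul_cancel₀ h, C_1]
  rw [← this, C_add, C_mul, C_pow, C_pow]
  ring

theorem isCoprime_C {c : k} (hc : c ≠ 0) (Q : k[X]) : IsCoprime (C c) Q :=
  ⟨C c⁻¹, 0, by rw [← C_mul, inv_mul_cancel₀ hc, C_1, zero_mul, add_zero]⟩

theorem ft_coprime {f f' : Fac m} (h : f ≠ f') : IsCoprime (ft k f) (ft k f') := by
  have hc := cc_pos m
  have hy : ft k (.y : Fac m) = C 1 * X + C 0 := by simp [ft]
  have n1 : ∀ i : P m, ((cc m - pc i ^ 2 : ℤ) : k) ≠ 0 := fun i => by
    have := pc_mul_lt i i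
    have := pc_pos i
    exact Big.ne (m := m) _ (by nlinarith) (by rw [abs_le]; constructor <;> nlinarith)
  have n2 : ∀ i j : P m, ((cc m - pc i * pc j : ℤ) : k) ≠ 0 := fun i j => by
    have := pc_mul_lt i j
    have := mul_pos (pc_pos i) (pc_pos j)
    exact Big.ne (m := m) _ (by omega) (by rw [abs_le]; constructor <;> omega)
  have n3 : ∀ i j : P m, ((cc m + pc i * pc j : ℤ) : k) ≠ 0 := fun i j => by
    have := pc_mul_lt i j
    have := mul_pos (pc_pos i) (pc_pos j)
    exact Big.ne (m := m) _ (by omega) (by rw [abs_le]; constructor <;> omega)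
  have n4 : ∀ i j : P m, ((pc i + pc j : ℤ) : k) ≠ 0 := fun i j => by
    have := pc_lt i
    have := pc_lt j
    have := pc_pos i
    have := pc_pos j
    exact Big.ne (m := m) _ (by omega) (by rw [abs_le]; constructor <;> omega)
  have n5 : ∀ i j : P m, i ≠ j → ((pc j - pc i : ℤ) : k) ≠ 0 := fun i j hij => by
    have := pc_lt i
    have := pc_lt j
    have := pc_pos i
    have := pc_pos j
    refine Big.ne (m := m) _ ?_ (by rw [abs_le]; constructor <;> omega)
    intro h0
    apply hij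
    have h1 : ((i : ℕ) : ℤ) ^ 2 = ((j : ℕ) : ℤ) ^ 2 := by unfold pc at h0; linarith
    have h2 := (pow_left_inj₀ (by positivity) (by positivity) two_ne_zero).1 h1
    exact Fin.ext (by exact_mod_cast h2)
  have n6 : ((4 * cc m : ℤ) : k) ≠ 0 :=
    Big.ne (m := m) _ (by omega) (by rw [abs_le]; constructor <;> omega)
  have yq : IsCoprime (ft k (.y : Fac m)) (ft k (.q : Fac m)) := by
    rw [hy]
    exact lin_quad_cop (by rwa [one_pow, one_mul, zero_pow two_ne_zero, add_zero])
  have ya : ∀ i : P m, IsCoprime (ft k (.y : Fac m)) (ft k (.a i)) := fun i => by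
    rw [hy]
    exact lin_lin_cop (by rw [mul_zero, one_mul, zero_sub]; exact neg_ne_zero.2 (n1 i))
  have yb : ∀ i : P m, IsCoprime (ft k (.y : Fac m)) (ft k (.b i)) := fun i => by
    rw [hy]
    exact lin_lin_cop (by rw [mul_zero, one_mul, zero_sub]; exact neg_ne_zero.2 (n1 i))
  have aq : ∀ i : P m, IsCoprime (ft k (.a i)) (ft k (.q : Fac m)) := fun i =>
    lin_quad_cop (by convert pow_ne_zero 2 (n3 i i) using 1; push_cast; ring)
  have bq : ∀ i : P m, IsCoprime (ft k (.b i)) (ft k (.q : Fac m)) := fun i =>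
    lin_quad_cop (by convert pow_ne_zero 2 (n3 i i) using 1; push_cast; ring)
  have ab : ∀ i j : P m, IsCoprime (ft k (.a i)) (ft k (.b j)) := fun i j =>
    lin_lin_cop (by convert neg_ne_zero.2 (mul_ne_zero (n4 i j) (n2 i j)) using 1; push_cast; ring)
  have aa : ∀ i j : P m, i ≠ j → IsCoprime (ft k (.a i)) (ft k (.a j)) := fun i j hij =>
    lin_lin_cop (by convert mul_ne_zero (n5 i j hij) (n3 i j) using 1; push_cast; ring)
  have bb : ∀ i j : P m, i ≠ j → IsCoprime (ft k (.b i)) (ft k (.b j)) := fun i j hij =>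
    lin_lin_cop (by
      convert neg_ne_zero.2 (mul_ne_zero (n5 i j hij) (n3 i j)) using 1; push_cast; ring)
  cases f with
  | y =>
    cases f' with
    | y => exact absurd rfl h
    | q => exact yq
    | a j => exact ya j
    | b j => exact yb j
  | q =>
    cases f' with
    | y => exact yq.symm
    | q => exact absurd rfl h
    | a j => exact (aq j).symm
    | b j => exact (bq j).symm
  | a i =>
    cases f' with
    | y => exact (ya i).symm
    | q => exact aq i
    | a j => exact aa i j fun e => h (by rw [e])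
    | b j => exact ab i j
  | b i =>
    cases f' with
    | y => exact (yb i).symm
    | q => exact bq i
    | a j => exact (ab j i).symm
    | b j => exact bb i j fun e => h (by rw [e])

theorem ft_separable (f : Fac m) : (ft k f).Separable := by
  have hc := cc_pos m
  have lin : ∀ a b : k, a ≠ 0 → (C a * X + C b).Separable := fun a b ha => by
    rw [Separable]
    simpa using (isCoprime_C ha _).symm
  cases f with
  | y => exact separable_X
  | q =>
    have n2 : ((2 : ℤ) : k) ≠ 0 :=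
      Big.ne (m := m) _ (by omega) (by rw [abs_le]; constructor <;> omega)
    have n6 : ((4 * cc m : ℤ) : k) ≠ 0 :=
      Big.ne (m := m) _ (by omega) (by rw [abs_le]; constructor <;> omega)
    have := (lin_quad_cop (a := ((2 : ℤ) : k)) (b := 0) (c := ((4 * cc m : ℤ) : k))
      (by rw [zero_pow two_ne_zero, add_zero]; exact mul_ne_zero (pow_ne_zero 2 n2) n6)).symm
    rw [Separable]
    have e : derivative (ft k (.q : Fac m)) = C ((2 : ℤ) : k) * X + C 0 := by
      rw [ft, derivative_add, derivative_C, derivative_X_pow]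
      simp
    rw [e]
    exact this
  | a i => exact lin _ _ (pc_ne_zero i)
  | b i => exact lin _ _ (by simpa using pc_ne_zero (k := k) i)

theorem sl_ff_ne_zero (f : Fac m) : sl k (ff k f) ≠ 0 := (homA_ff f).sl_ne_zero (ft_ne_zero f)

theorem ff_ne_zero (f : Fac m) : ff k f ≠ 0 := fun h => sl_ff_ne_zero (k := k) f (by rw [h, map_zero])

theorem zA_ne_zero : (zA : A3 k) ≠ 0 := fun h => by
  have := congrArg (MvPowerSeries.coeff (Finsupp.single 0 1)) h
  rw [MvPowerSeries.coeff_index_single_self_X, map_zero] at this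
  exact one_ne_zero this

theorem delta_ne_zero : delta k m ≠ 0 := fun h =>
  sl_sA_ne_zero (k := k) (Finset.univ : Finset (Fac m)) (by
    change sl k (delta k m) = 0
    rw [h, map_zero])

theorem zA_mem_Sig (f : Fac m) : (zA : A3 k) ∈ Sig k f := by
  rintro a ⟨b, hb⟩
  have h1 := congrArg (sl k) hb
  rw [map_mul, map_mul, sl_z, zero_mul] at h1
  obtain ⟨c, rfl⟩ := sl_eq_zero ((mul_eq_zero.1 h1.symm).resolve_left (sl_ff_ne_zero f))
  refine ⟨c, mul_left_cancel₀ zA_ne_zero ?_⟩
  rw [hb]; ring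

theorem GoodAt.mem_Sig {f : Fac m} {σ : A3 k} {e : ℤ} (h : GoodAt f σ e) : σ ∈ Sig k f := by
  obtain ⟨Q, hσ, hd, u, v, huv⟩ := h
  obtain ⟨e, rfl⟩ := Int.eq_ofNat_of_zero_le (show 0 ≤ e by omega)
  obtain ⟨U, hU⟩ := exists_hom u (u.natDegree + v.natDegree + fdeg f) (by omega)
  obtain ⟨V, hV⟩ := exists_hom v (u.natDegree + v.natDegree + e) (by omega)
  set t : ℕ := u.natDegree + v.natDegree + fdeg f + e with ht
  have h1 : HomA (U * σ + V * ff k f - xA ^ t) t 0 :=
    ((((hU.mul hσ).congr (e' := t) (by rw [ht]; push_cast; ring) rfl).add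
      ((hV.mul (homA_ff f)).congr (by rw [ht]; push_cast; ring) rfl)).sub
      ((homA_x.pow t).congr (by simp) rfl)).congr rfl (by rw [huv]; simp)
  obtain ⟨w, hw⟩ := sl_eq_zero (a := U * σ + V * ff k f - xA ^ t) (by rw [h1]; simp)
  have reg : ∀ (n : ℕ) (a : A3 k), xA ^ n * a ∈ Ideal.span {ff k f, zA} →
      a ∈ Ideal.span {ff k f, zA} := by
    intro n
    induction n with
    | zero => intro a ha; simpa using ha
    | succ n ih =>
      intro a ha
      rw [pow_succ', mul_assoc] at ha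
      exact ih a (x_reg_mod (homA_ff f) (ft_ne_zero f) (natDegree_ft f) ha)
  let I : Ideal (A3 k) := Submodule.comap (LinearMap.mulLeft (A3 k) σ) (Ideal.span {ff k f})
  have hI : ∀ a, a ∈ I ↔ ff k f ∣ σ * a := fun a => Ideal.mem_span_singleton
  have h2 : I ≤ Ideal.span {ff k f} := by
    refine Submodule.le_of_le_smul_of_le_jacobson_bot (I := mA k) (IsNoetherian.noetherian I)
      (IsLocalRing.maximalIdeal_le_jacobson _) fun a ha => ?_
    obtain ⟨b, hb⟩ := (hI a).1 ha
    have h3 : a ∈ Ideal.span {ff k f, zA} := by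
      refine reg t a (Ideal.mem_span_pair.2 ⟨U * b + V * a, -(w * a), ?_⟩)
      linear_combination a * hw - U * hb
    obtain ⟨c, d, hcd⟩ := Ideal.mem_span_pair.1 h3
    rw [← hcd]
    refine Submodule.add_mem_sup (Ideal.mul_mem_left _ _ (Ideal.subset_span rfl)) ?_
    rw [mul_comm]
    refine Submodule.smul_mem_smul (r := zA) (mem_mA.2 (by simp)) ((hI d).2 ?_)
    exact zA_mem_Sig f _ ⟨b - σ * c, by linear_combination hb + σ * hcd⟩
  intro a ha
  exact Ideal.mem_span_singleton.1 (h2 ((hI a).2 ha))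

theorem GoodAt.mul {f : Fac m} {σ τ : A3 k} {e e' : ℤ} (h : GoodAt f σ e) (h' : GoodAt f τ e') :
    GoodAt f (σ * τ) (e + e') := by
  obtain ⟨Q, h1, h2, h3⟩ := h
  obtain ⟨Q', h1', h2', h3'⟩ := h'
  refine ⟨Q * Q', h1.mul h1', ?_, h3.mul_left h3'⟩
  have := natDegree_mul_le (p := Q) (q := Q')
  omega

theorem goodAt_algebraMap (f : Fac m) {c : k} (hc : c ≠ 0) :
    GoodAt f (algebraMap k (A3 k) c) 0 := by
  exact ⟨C c, homA_algebraMap c, by simp, isCoprime_C hc _⟩

theorem goodAt_intCast (f : Fac m) {n : ℤ} (hn : (n : k) ≠ 0) : GoodAt f (n : A3 k) 0 := by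
  exact ⟨C (n : k), homA_intCast n, by rw [natDegree_C]; simp, isCoprime_C hn _⟩

theorem goodAt_one (f : Fac m) : GoodAt f (1 : A3 k) 0 := by
  exact ⟨1, homA_one, by simp, isCoprime_one_left⟩

theorem GoodAt.neg {f : Fac m} {σ : A3 k} {e : ℤ} (h : GoodAt f σ e) : GoodAt f (-σ) e := by
  obtain ⟨Q, h1, h2, h3⟩ := h
  exact ⟨-Q, h1.neg, by rwa [natDegree_neg], h3.neg_left⟩

theorem GoodAt.pow {f : Fac m} {σ : A3 k} {e : ℤ} (h : GoodAt f σ e) (n : ℕ) :
    GoodAt f (σ ^ n) (n * e) := by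
  induction n with
  | zero => simpa using goodAt_one f
  | succ n ih =>
    have := ih.mul h
    rw [← pow_succ] at this
    convert this using 1; push_cast; ring

theorem GoodAt.prod {ι : Type*} {f : Fac m} (s : Finset ι) {σ : ι → A3 k} {e : ι → ℤ}
    (h : ∀ i ∈ s, GoodAt f (σ i) (e i)) : GoodAt f (∏ i ∈ s, σ i) (∑ i ∈ s, e i) := by
  classical
  induction s using Finset.induction_on with
  | empty => simpa using goodAt_one f
  | insert i s hi ih =>
    rw [Finset.prod_insert hi, Finset.sum_insert hi]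
    exact (h i (Finset.mem_insert_self _ _)).mul (ih fun j hj => h j (Finset.mem_insert_of_mem hj))

theorem goodAt_x (f : Fac m) : GoodAt f (xA : A3 k) 1 := by
  exact ⟨1, homA_x, by simp, isCoprime_one_left⟩

theorem goodAt_ff {f f' : Fac m} (h : f' ≠ f) : GoodAt f (ff k f') (fdeg f') := by
  exact ⟨_, homA_ff f', by rw [natDegree_ft], ft_coprime h⟩

theorem goodAt_sA {f : Fac m} {FS : Finset (Fac m)} (h : f ∉ FS) :
    GoodAt f (sA k FS) (sdeg FS) := by
  have := GoodAt.prod (k := k) (f := f) FS (σ := fun f' => ff k f') (e := fun f' => fdeg f')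
    fun f' hf' => goodAt_ff fun e => h (e ▸ hf')
  rwa [← Nat.cast_sum] at this

theorem dL_single (e : ℤ) (c : RatFunc k) :
    dL k (HahnSeries.single e c) = HahnSeries.single e (dK k c) := by
  ext n
  rw [coeff_dL]
  by_cases h : n = e
  · subst h; simp
  · rw [HahnSeries.coeff_single_of_ne h, HahnSeries.coeff_single_of_ne h, map_zero]

theorem HomA.dA {a : A3 k} {e : ℤ} {Q : k[X]} (h : HomA a e Q) :
    HomA (dA k a) (e - 1) (derivative Q) := by
  unfold HomA at *
  rw [sl_dA, h, dL_single, HahnSeries.single_mul_single, one_mul, dK_algebraMap,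
    show -1 + e = e - 1 by ring]

/-- the derivative of the equation of a reduced divisor does not vanish on it -/
theorem goodAt_dA_sA {f : Fac m} {FS : Finset (Fac m)} (h : f ∈ FS) :
    GoodAt f (dA k (sA k FS)) (sdeg FS - 1) := by
  refine ⟨_, (homA_sA FS).dA, ?_, ?_⟩
  · have h1 := natDegree_derivative_le (∏ f ∈ FS, ft k f)
    have h2 : (∏ f ∈ FS, ft k f).natDegree ≤ sdeg FS := by
      refine (natDegree_prod_le _ _).trans (le_of_eq ?_)
      exact Finset.sum_congr rfl fun f _ => natDegree_ft f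
    have h3 : fdeg f ≤ sdeg FS := Finset.single_le_sum (f := fdeg) (fun _ _ => Nat.zero_le _) h
    have h4 := fdeg_pos f
    omega
  · have h1 : (∏ f ∈ FS, ft k f).Separable :=
      separable_prod' (fun _ _ _ _ hxy => ft_coprime hxy) fun f _ => ft_separable f
    exact (IsCoprime.of_isCoprime_of_dvd_left h1 (Finset.dvd_prod_of_mem _ h)).symm

omit [Big k m] in
theorem smul_VV_injective {a : A3 k} (ha : a ≠ 0) {ξ : VV k m N} (hδ : delta k m ≠ 0)
    (h : a • ξ = 0) : ξ = 0 := by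
  have hle := powers_le_nonZeroDivisors_of_noZeroDivisors hδ
  haveI : IsDomain (RR k m) := IsLocalization.isDomain_localization hle
  funext i
  have h1 := congrFun h i
  rw [Pi.smul_apply, Algebra.smul_def, Pi.zero_apply, mul_eq_zero] at h1
  refine h1.resolve_left fun h0 => ha ?_
  exact IsLocalization.injective (RR k m) hle (by rw [h0, map_zero])

theorem algR_injective : Function.Injective (algebraMap (A3 k) (RR k m)) :=
  IsLocalization.injective (RR k m)
    (powers_le_nonZeroDivisors_of_noZeroDivisors (delta_ne_zero (k := k) (m := m)))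

theorem Sig_pow_dvd {f : Fac m} {σ : A3 k} (hσ : σ ∈ Sig k f) (n : ℕ) (a : A3 k)
    (h : ff k f ^ n ∣ σ * a) : ff k f ^ n ∣ a := by
  induction n generalizing a with
  | zero => simp
  | succ n ih =>
    obtain ⟨b, rfl⟩ := hσ a ((dvd_pow_self _ n.succ_ne_zero).trans h)
    rw [pow_succ', mul_left_comm, mul_dvd_mul_iff_left (ff_ne_zero f)] at h
    rw [pow_succ']
    exact mul_dvd_mul_left _ (ih b h)

theorem sA_pow_dvd (n : ℕ) (a : A3 k) (FS : Finset (Fac m)) (h : ∀ f ∈ FS, ff k f ^ n ∣ a) :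
    sA k FS ^ n ∣ a := by
  induction FS using Finset.induction_on with
  | empty => simp [sA]
  | insert f FS hf ih =>
    obtain ⟨c, rfl⟩ := ih fun f' hf' => h f' (Finset.mem_insert_of_mem hf')
    have h1 := Sig_pow_dvd (pow_mem (goodAt_sA hf).mem_Sig n) n c (h f (Finset.mem_insert_self _ _))
    rw [sA, Finset.prod_insert hf, mul_pow, mul_comm]
    exact mul_dvd_mul_left _ h1

theorem lat_M0 : Lat (M0 k m N) := by
  refine ⟨⟨0, by simp⟩, ⟨0, by simp⟩, fun ξ hξ i => ?_⟩
  obtain ⟨n, a, ha⟩ := IsLocalization.Away.surj (delta k m) (ξ i)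
  have h1 : ∀ f : Fac m, ff k f ^ n ∣ a := by
    intro f
    obtain ⟨σ, hσ, h⟩ := hξ f
    obtain ⟨b, hb⟩ := h i
    rw [Pi.smul_apply, Algebra.smul_def] at hb
    have h2 : σ * a = delta k m ^ n * b := by
      apply algR_injective (k := k) (m := m)
      rw [map_mul, map_mul, map_pow, ← ha, ← hb]; ring
    refine Sig_pow_dvd hσ n a (h2 ▸ Dvd.dvd.mul_right (pow_dvd_pow_of_dvd ?_ n) b)
    exact Finset.dvd_prod_of_mem _ (Finset.mem_univ f)
  obtain ⟨c, hc⟩ := sA_pow_dvd n a Finset.univ fun f _ => h1 f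
  refine ⟨c, ?_⟩
  have hu := (IsLocalization.Away.algebraMap_isUnit (S := RR k m) (delta k m)).pow n
  apply hu.mul_right_cancel
  rw [ha, hc, map_mul, map_pow, mul_comm]
  rfl

theorem Lat.inf {L L' : Submodule (A3 k) (VV k m N)} (h : Lat L) (h' : Lat L') :
    Lat (L ⊓ L') := by
  obtain ⟨n, hn⟩ := h.up
  obtain ⟨a, ha⟩ := h.low
  obtain ⟨b, hb⟩ := h'.low
  refine ⟨⟨n, fun ξ hξ => hn ξ hξ.1⟩, ⟨a + b, fun ξ hξ => ⟨?_, ?_⟩⟩, fun ξ hξ => ⟨?_, ?_⟩⟩
  · rw [add_comm, pow_add, mul_smul]; exact L.smul_mem _ (ha ξ hξ)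
  · rw [pow_add, mul_smul]; exact L'.smul_mem _ (hb ξ hξ)
  · exact h.closed ξ fun f => (hξ f).imp fun σ hσ => ⟨hσ.1, hσ.2.1⟩
  · exact h'.closed ξ fun f => (hξ f).imp fun σ hσ => ⟨hσ.1, hσ.2.2⟩

theorem M0_fg : (M0 k m N).FG := by
  have : M0 k m N = LinearMap.range ((Algebra.linearMap (A3 k) (RR k m)).compLeft (Fin N)) := by
    ext ξ
    constructor
    · intro h
      choose a ha using h
      exact ⟨a, (funext ha).symm⟩
    · rintro ⟨a, rfl⟩ i
      exact ⟨a i, rfl⟩
  rw [this, ← Submodule.map_top]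
  exact Module.Finite.fg_top.map _

theorem Lat.fg {L : Submodule (A3 k) (VV k m N)} (h : Lat L) : L.FG := by
  obtain ⟨n, hn⟩ := h.up
  refine Submodule.fg_of_fg_map_injective (LinearMap.lsmul (A3 k) _ (delta k m ^ n)) ?_ ?_
  · rw [injective_iff_map_eq_zero]
    exact fun ξ hξ => smul_VV_injective (pow_ne_zero n delta_ne_zero) delta_ne_zero hξ
  · refine isNoetherian_submodule.1 (isNoetherian_of_fg_of_noetherian _ M0_fg) _ ?_
    rintro _ ⟨v, hv, rfl⟩
    exact hn v hv

theorem Lat.z_closed {L : Submodule (A3 k) (VV k m N)} (h : Lat L) {ξ : VV k m N}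
    (hξ : (zA : A3 k) • ξ ∈ L) : ξ ∈ L := by
  exact h.closed ξ fun f => ⟨zA, zA_mem_Sig f, hξ⟩

variable {g : Matrix (Fin N) (Fin N) (LL k)}

theorem map_M0 (g : Matrix (Fin N) (Fin N) (LL k)) : (M0 k m N).map (piV g) = tw g := by
  ext v
  constructor
  · rintro ⟨ξ, h, rfl⟩
    choose a ha using h
    exact ⟨a, by rw [piV_apply]; congr 1; ext1 i; rw [ha, slR_algebraMap]⟩
  · rintro ⟨a, rfl⟩
    refine ⟨fun i => algebraMap (A3 k) (RR k m) (a i), fun i => ⟨a i, rfl⟩, ?_⟩
    rw [piV_apply]; congr 1; ext1 i; rw [slR_algebraMap]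

theorem piV_eq_zero (hg : IsUnit g) {ξ : VV k m N} (h : piV g ξ = 0) :
    ∃ η : VV k m N, ξ = (zA : A3 k) • η := by
  have h1 := congrArg (g⁻¹).mulVec h
  rw [piV_apply, Matrix.mulVec_mulVec,
    Matrix.nonsing_inv_mul _ ((Matrix.isUnit_iff_isUnit_det g).1 hg), Matrix.one_mulVec,
    Matrix.mulVec_zero] at h1
  have h2 : ∀ i, ∃ r : RR k m, ξ i = (zA : A3 k) • r := by
    intro i
    obtain ⟨n, a, ha⟩ := IsLocalization.Away.surj (delta k m) (ξ i)
    have h3 := congrArg (slR k m) ha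
    rw [map_mul, show slR k m (ξ i) = 0 from congrFun h1 i, zero_mul, slR_algebraMap] at h3
    obtain ⟨b, rfl⟩ := sl_eq_zero h3.symm
    obtain ⟨u, hu⟩ :=
      ((IsLocalization.Away.algebraMap_isUnit (S := RR k m) (delta k m)).pow n).exists_right_inv
    refine ⟨algebraMap (A3 k) (RR k m) b * u, ?_⟩
    rw [Algebra.smul_def, ← mul_assoc, ← map_mul, ← ha, mul_assoc, hu, mul_one]
  choose η hη using h2
  exact ⟨η, funext hη⟩

theorem z_smul_mem_FF (g : Matrix (Fin N) (Fin N) (LL k)) (n : ℤ) (ξ : VV k m N) :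
    (zA : A3 k) • ξ ∈ FF g n := by
  change piV g _ ∈ Fil k N n
  rw [map_smul, z_smul]
  exact zero_mem _

theorem Lat.sLat {L : Submodule (A3 k) (VV k m N)} (h : Lat L)
    (g : Matrix (Fin N) (Fin N) (LL k)) : SLat g (L.map (piV g)) := by
  obtain ⟨a, ha⟩ := h.up
  obtain ⟨b, hb⟩ := h.low
  refine ⟨delta k m ^ (a + b), ?_, ?_, ?_⟩
  · rw [map_pow]; exact pow_ne_zero _ (sl_sA_ne_zero _)
  · rintro _ ⟨ξ, hξ, rfl⟩
    rw [← map_M0 (m := m), ← map_smul, add_comm, pow_add, mul_smul]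
    exact ⟨_, Submodule.smul_mem _ _ (ha ξ hξ), rfl⟩
  · rw [← map_M0 (m := m)]
    rintro _ ⟨ξ, hξ, rfl⟩
    rw [← map_smul, pow_add, mul_smul]
    exact ⟨_, Submodule.smul_mem _ _ (hb ξ hξ), rfl⟩

theorem Lat.gLat {L : Submodule (A3 k) (VV k m N)} (h : Lat L) (hg : IsUnit g) :
    GLat (GV g L) := (h.sLat g).gLat hg

theorem idx_map_comap {V V' : Type*} [AddCommGroup V] [Module k V] [AddCommGroup V'] [Module k V']
    (f : V →ₗ[k] V') (A : Submodule k V) (B : Submodule k V') :
    idx (A.map f) B = idx A (B.comap f) ∧ (FinIdx (A.map f) B ↔ FinIdx A (B.comap f)) := by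
  have hi : Function.Injective ((B.comap f).mapQ B f le_rfl) := by
    rw [← LinearMap.ker_eq_bot, Submodule.ker_mapQ, Submodule.mkQ_map_self]
  have he : (A.map (B.comap f).mkQ).map ((B.comap f).mapQ B f le_rfl) = (A.map f).map B.mkQ := by
    rw [← Submodule.map_comp, ← Submodule.map_comp, Submodule.mapQ_mkQ]
  have e := Submodule.equivMapOfInjective _ hi (A.map (B.comap f).mkQ)
  rw [he] at e
  rw [idx_eq, idx_eq, finIdx_iff, finIdx_iff]
  exact ⟨e.finrank_eq.symm, fun _ => e.symm.finiteDimensional, fun _ => e.finiteDimensional⟩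

theorem hV_eq (g : Matrix (Fin N) (Fin N) (LL k)) (L : Submodule (A3 k) (VV k m N)) (n : ℤ) :
    hV g L n = idx (L.restrictScalars k) ((FF g n).restrictScalars k) := by
  exact (idx_map_comap ((piV g).restrictScalars k) (L.restrictScalars k)
    ((Fil k N n).restrictScalars k)).1

theorem Lat.finIdx {L : Submodule (A3 k) (VV k m N)} (h : Lat L) (hg : IsUnit g) (n : ℤ) :
    FinIdx (L.restrictScalars k) ((FF g n).restrictScalars k) := by
  exact (idx_map_comap ((piV g).restrictScalars k) (L.restrictScalars k)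
    ((Fil k N n).restrictScalars k)).2.1 ((h.sLat g).finIdx hg n)

theorem Lat.hV_succ {L : Submodule (A3 k) (VV k m N)} (h : Lat L) (hg : IsUnit g) (n : ℤ) :
    hV g L (n + 1) = hV g L n + finrank k (GV g L n) := (h.sLat g).hh_succ hg n

theorem Lat.hV_zero {L : Submodule (A3 k) (VV k m N)} (h : Lat L)
    (g : Matrix (Fin N) (Fin N) (LL k)) : ∃ b, ∀ n ≤ b, hV g L n = 0 := by
  obtain ⟨b, hb⟩ := (h.sLat g).le_Fil
  exact ⟨b, fun n hn => idx_of_le fun v hv => Fil_anti hn (hb hv)⟩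

/-- submodules containing `z K` are closed for the order filtration -/
theorem Lat.sep {K : Submodule (A3 k) (VV k m N)} (h : Lat K) (hg : IsUnit g)
    {S : Submodule (A3 k) (VV k m N)} (hS : S ≤ K) (hz : ∀ ξ ∈ K, (zA : A3 k) • ξ ∈ S)
    {ξ : VV k m N} (hξ : ∀ n, ξ ∈ S ⊔ (K ⊓ FF g n)) : ξ ∈ S := by
  have hK : ξ ∈ K := (sup_le hS inf_le_left) (hξ 0)
  have h1 : piV g ξ ∈ S.map (piV g) := by
    refine (h.sLat g).sep hg (Submodule.map_mono hS) fun n => ?_
    obtain ⟨a, ha, b, hb, rfl⟩ := Submodule.mem_sup.1 (hξ n)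
    rw [map_add]
    exact Submodule.add_mem_sup ⟨a, ha, rfl⟩ ⟨⟨b, hb.1, rfl⟩, hb.2⟩
  obtain ⟨s, hs, e⟩ := h1
  obtain ⟨η, hη⟩ := piV_eq_zero hg (ξ := ξ - s) (by rw [map_sub, e, sub_self])
  have h2 : η ∈ K := h.z_closed (hη ▸ K.sub_mem hK (hS hs))
  have h3 := S.add_mem (hη ▸ hz η h2 : ξ - s ∈ S) hs
  rwa [sub_add_cancel] at h3

/-- symbol of an element of `A` with homogeneous slice -/
theorem HomA.hasSymb {a : A3 k} {e : ℤ} {P : k[X]} (h : HomA a e P)
    (g : Matrix (Fin N) (Fin N) (LL k)) :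
    HasSymb g (fun ξ : VV k m N => a • ξ) e (fun w => algebraMap k[X] (RatFunc k) P • w) := by
  intro n ξ hξ
  have h1 := single_smul_Fil e (algebraMap k[X] (RatFunc k) P) hξ
  rw [← h, ← smul_vec, ← map_smul] at h1
  exact h1

/-- division by an element of `A` with homogeneous slice -/
theorem HomA.mem_FF {a : A3 k} {e : ℤ} {P : k[X]} (h : HomA a e P) (hP : P ≠ 0)
    (g : Matrix (Fin N) (Fin N) (LL k)) {n : ℤ} {ξ : VV k m N} (hξ : a • ξ ∈ FF g (n + e)) :
    ξ ∈ FF g n := by
  have h0 : algebraMap k[X] (RatFunc k) P ≠ 0 := by simpa using hP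
  have h1 := (single_smul_Fil (-e) (algebraMap k[X] (RatFunc k) P)⁻¹ hξ).1
  rwa [map_smul, smul_vec, h, smul_smul, HahnSeries.single_mul_single, neg_add_cancel,
    inv_mul_cancel₀ h0, HahnSeries.single_zero_one, one_smul, add_neg_cancel_right] at h1

theorem slR_dR (r : RR k m) :
    slR k m (dR k m r) = HahnSeries.single (-1) 1 * dL k (slR k m r) := by
  obtain ⟨n, a, ha⟩ := IsLocalization.Away.surj (delta k m) r
  rw [← map_pow] at ha
  have h0 : sl k (delta k m ^ n) ≠ 0 := by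
    rw [map_pow]; exact pow_ne_zero _ (sl_sA_ne_zero _)
  have h1 := congrArg (fun r => slR k m (dR k m r)) ha
  have h2 := congrArg (fun r => HahnSeries.single (-1 : ℤ) (1 : RatFunc k) * dL k (slR k m r)) ha
  simp only [dR_mul, dR_algebraMap, map_add, map_mul, slR_algebraMap, sl_dA, dL_mul] at h1 h2
  apply mul_left_cancel₀ h0
  linear_combination h1 - h2

/-- the connection has symbol `∂_λ` when the twisting matrix is horizontal -/
theorem hasSymb_dV (g : Matrix (Fin N) (Fin N) (LL k)) (hg : ∀ i j, dL k (g i j) = 0) :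
    HasSymb (m := m) g dV (-1) dW := by
  intro n ξ hξ
  have h1 : piV g (dV ξ) = (HahnSeries.single (-1) 1 : LL k) • fun i => dL k (piV g ξ i) := by
    ext1 i
    simp only [piV_apply, Matrix.mulVec, dotProduct, dV_apply, slR_dR, Pi.smul_apply, smul_eq_mul,
      map_sum, dL_mul, hg, mul_zero, add_zero, Finset.mul_sum]
    exact Finset.sum_congr rfl fun j _ => by ring
  have h2 : (fun i => dL k (piV g ξ i)) ∈ Fil k N n := fun i j hj => by
    rw [coeff_dL, hξ i j hj, map_zero]
  have h3 := single_smul_Fil (-1) 1 h2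
  rw [← h1, one_smul] at h3
  exact h3

end Crest.Agent.R169
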