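import Crest.Agent.R169.SliceDef

/-!
The ambient module `V = A[1/δ]^N`, lattices in it, symbols and shifts: definitions.
-/

set_option autoImplicit false

namespace Crest.Agent.R169

open Module Filter Polynomial

/-- the branch divisors -/
inductive Fac (m : ℕ) : Type
  | y : Fac m
  | q : Fac m
  | a : P m → Fac m
  | b : P m → Fac m
  deriving DecidableEq, Fintype

/-- small nonzero integers are nonzero in `k` -/
class Big (k : Type) [Field k] (m : ℕ) : Prop where
  ne : ∀ n : ℤ, n ≠ 0 → |n| ≤ 4 * cc m → (n : k) ≠ 0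

variable {k : Type} [Field k] {m N : ℕ}

/-- the coordinate `Y = c x + z` -/
noncomputable def YA (k : Type) [Field k] (m : ℕ) : A3 k := ((cc m : ℤ) : A3 k) * xA + zA

/-- equations of the branch divisors -/
noncomputable def ff (k : Type) [Field k] {m : ℕ} : Fac m → A3 k
  | .y => yA
  | .q => yA ^ 2 + 4 * xA * YA k m
  | .a i => YA k m + ((pc i : ℤ) : A3 k) * yA - ((pc i : ℤ) : A3 k) ^ 2 * xA
  | .b i => YA k m - ((pc i : ℤ) : A3 k) * yA - ((pc i : ℤ) : A3 k) ^ 2 * xA

/-- their degrees -/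
def fdeg {m : ℕ} : Fac m → ℕ
  | .q => 2
  | _ => 1

/-- their dehomogenised slices -/
noncomputable def ft (k : Type) [Field k] {m : ℕ} : Fac m → k[X]
  | .y => X
  | .q => X ^ 2 + C ((4 * cc m : ℤ) : k)
  | .a i => C ((pc i : ℤ) : k) * X + C ((cc m - pc i ^ 2 : ℤ) : k)
  | .b i => C ((-pc i : ℤ) : k) * X + C ((cc m - pc i ^ 2 : ℤ) : k)

/-- the product of the equations in a set -/
noncomputable def sA (k : Type) [Field k] {m : ℕ} (FS : Finset (Fac m)) : A3 k := ∏ f ∈ FS, ff k f

/-- its degree -/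
def sdeg {m : ℕ} (FS : Finset (Fac m)) : ℕ := ∑ f ∈ FS, fdeg f

/-- the discriminant -/
noncomputable def delta (k : Type) [Field k] (m : ℕ) : A3 k := sA k (Finset.univ : Finset (Fac m))

theorem HomA.mul {a b : A3 k} {e e' : ℤ} {P Q : k[X]} (h : HomA a e P) (h' : HomA b e' Q) :
    HomA (a * b) (e + e') (P * Q) := by
  unfold HomA at *
  rw [map_mul, h, h', HahnSeries.single_mul_single, ← map_mul]

theorem HomA.add {a b : A3 k} {e : ℤ} {P Q : k[X]} (h : HomA a e P) (h' : HomA b e Q) :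
    HomA (a + b) e (P + Q) := by
  unfold HomA at *
  rw [map_add, h, h', map_add, HahnSeries.single_add]

theorem HomA.neg {a : A3 k} {e : ℤ} {P : k[X]} (h : HomA a e P) : HomA (-a) e (-P) := by
  unfold HomA at *
  rw [map_neg, h, map_neg, HahnSeries.single_neg]

theorem HomA.sub {a b : A3 k} {e : ℤ} {P Q : k[X]} (h : HomA a e P) (h' : HomA b e Q) :
    HomA (a - b) e (P - Q) := by
  rw [sub_eq_add_neg, sub_eq_add_neg]; exact h.add h'.neg

theorem homA_algebraMap (c : k) : HomA (algebraMap k (A3 k) c) 0 (C c) := by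
  unfold HomA
  rw [sl_algebraMap]; rfl

theorem homA_intCast (n : ℤ) : HomA (n : A3 k) 0 (C (n : k)) := by
  have := homA_algebraMap (k := k) (n : k)
  rwa [map_intCast] at this

theorem homA_one : HomA (1 : A3 k) 0 1 := by simpa using homA_intCast (k := k) 1

theorem homA_x : HomA (xA : A3 k) 1 1 := by unfold HomA; rw [sl_x]; simp

theorem homA_y : HomA (yA : A3 k) 1 X := by unfold HomA; rw [sl_y]; simp

theorem homA_z (e : ℤ) : HomA (zA : A3 k) e 0 := by unfold HomA; rw [sl_z]; simp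

theorem homA_Y : HomA (YA k m) 1 (C ((cc m : ℤ) : k)) := by
  have := ((homA_intCast (k := k) (cc m)).mul homA_x).add (by simpa using homA_z (k := k) 1)
  simpa [YA] using this

theorem HomA.pow {a : A3 k} {e : ℤ} {P : k[X]} (h : HomA a e P) (n : ℕ) :
    HomA (a ^ n) (n * e) (P ^ n) := by
  induction n with
  | zero => simpa using homA_one
  | succ n ih =>
    have := ih.mul h
    rw [← pow_succ, ← pow_succ] at this
    convert this using 1; push_cast; ring

theorem HomA.prod {ι : Type*} (s : Finset ι) {a : ι → A3 k} {e : ι → ℤ} {P : ι → k[X]}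
    (h : ∀ i ∈ s, HomA (a i) (e i) (P i)) :
    HomA (∏ i ∈ s, a i) (∑ i ∈ s, e i) (∏ i ∈ s, P i) := by
  classical
  induction s using Finset.induction_on with
  | empty => simpa using homA_one
  | insert i s hi ih =>
    rw [Finset.prod_insert hi, Finset.sum_insert hi, Finset.prod_insert hi]
    exact (h i (Finset.mem_insert_self _ _)).mul (ih fun j hj => h j (Finset.mem_insert_of_mem hj))

theorem HomA.congr {a : A3 k} {e e' : ℤ} {P P' : k[X]} (h : HomA a e P) (he : e = e')
    (hP : P = P') : HomA a e' P' := he ▸ hP ▸ h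

theorem homA_ff (f : Fac m) : HomA (ff k f) (fdeg f) (ft k f) := by
  cases f with
  | y => exact homA_y
  | q =>
    have h4 : HomA (4 : A3 k) 0 (C (4 : k)) := by simpa using homA_intCast (k := k) 4
    refine ((homA_y.pow 2).add (((h4.mul homA_x).mul homA_Y).congr (by norm_num) rfl)).congr
      (by simp [fdeg]) (by simp [ft, map_ofNat])
  | a i =>
    refine ((homA_Y.add (((homA_intCast (pc i)).mul homA_y).congr (by norm_num) rfl)).sub
      ((((homA_intCast (pc i)).pow 2).mul homA_x).congr (by norm_num) rfl)).congr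
      (by simp [fdeg]) (by simp [ft]; ring)
  | b i =>
    refine ((homA_Y.sub (((homA_intCast (pc i)).mul homA_y).congr (by norm_num) rfl)).sub
      ((((homA_intCast (pc i)).pow 2).mul homA_x).congr (by norm_num) rfl)).congr
      (by simp [fdeg]) (by simp [ft]; ring)

theorem homA_sA (FS : Finset (Fac m)) : HomA (sA k FS) (sdeg FS) (∏ f ∈ FS, ft k f) :=
  (HomA.prod FS fun f _ => homA_ff f).congr (by simp [sdeg]) rfl

theorem pc_pos (i : P m) : 0 < pc i := by unfold pc; positivity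

theorem pc_le (i : P m) : pc i ≤ 1 + (4 * (m : ℤ) + 1) ^ 2 := by
  unfold pc
  have h1 : ((i : ℕ) : ℤ) ≤ 4 * m + 1 := by have := i.2; omega
  have h2 : (0 : ℤ) ≤ ((i : ℕ) : ℤ) := by positivity
  nlinarith

theorem pc_mul_lt (i l : P m) : pc i * pc l < cc m := by
  have h1 := pc_le i
  have h2 := pc_le l
  have h3 := pc_pos i
  have h4 := pc_pos l
  unfold cc
  nlinarith

theorem pc_lt (i : P m) : pc i < cc m := by
  have h1 := pc_mul_lt i i
  have h3 := pc_pos i
  nlinarith

theorem cc_pos (m : ℕ) : 0 < cc m := by unfold cc; positivity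

theorem pc_ne_zero [Big k m] (i : P m) : ((pc i : ℤ) : k) ≠ 0 := by
  have h1 := pc_lt i
  have h3 := pc_pos i
  exact Big.ne (m := m) _ h3.ne' (by rw [abs_of_pos h3]; omega)

theorem natDegree_ft [Big k m] (f : Fac m) : (ft k f).natDegree = fdeg f := by
  cases f with
  | y => simp [ft, fdeg]
  | q => exact natDegree_X_pow_add_C
  | a i => exact natDegree_linear (pc_ne_zero i)
  | b i => exact natDegree_linear (by simpa using pc_ne_zero (k := k) i)

theorem fdeg_pos (f : Fac m) : 0 < fdeg f := by cases f <;> simp [fdeg]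

theorem ft_ne_zero [Big k m] (f : Fac m) : ft k f ≠ 0 := by
  intro h
  have h1 := natDegree_ft (k := k) f
  have h2 := fdeg_pos f
  rw [h, natDegree_zero] at h1
  omega

theorem HomA.sl_ne_zero {a : A3 k} {e : ℤ} {P : k[X]} (h : HomA a e P) (hP : P ≠ 0) :
    sl k a ≠ 0 := by
  rw [h, Ne, HahnSeries.single_eq_zero_iff]
  exact fun h0 => hP (RatFunc.algebraMap_injective k (by rw [h0, map_zero]))

theorem sl_sA_ne_zero [Big k m] (FS : Finset (Fac m)) : sl k (sA k FS) ≠ 0 :=
  (homA_sA FS).sl_ne_zero (Finset.prod_ne_zero_iff.2 fun f _ => ft_ne_zero f)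

/-- the ring with the discriminant inverted -/
abbrev RR (k : Type) [Field k] (m : ℕ) : Type := Localization.Away (delta k m)

/-- the ambient module -/
abbrev VV (k : Type) [Field k] (m N : ℕ) : Type := Fin N → RR k m

/-- the slice map on the localisation -/
noncomputable def slR (k : Type) [Field k] (m : ℕ) [Big k m] : RR k m →+* LL k :=
  IsLocalization.Away.lift (delta k m) (g := sl k) (IsUnit.mk0 _ (sl_sA_ne_zero _))

theorem slR_algebraMap [Big k m] (a : A3 k) : slR k m (algebraMap (A3 k) (RR k m) a) = sl k a :=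
  IsLocalization.Away.lift_eq _ _ _

/-- the standard lattice -/
def M0 (k : Type) [Field k] (m N : ℕ) : Submodule (A3 k) (VV k m N) where
  carrier := {ξ | ∀ i, ∃ a : A3 k, ξ i = algebraMap (A3 k) (RR k m) a}
  add_mem' := fun {a b} ha hb i => by
    obtain ⟨x, hx⟩ := ha i
    obtain ⟨y, hy⟩ := hb i
    exact ⟨x + y, by simp [hx, hy]⟩
  zero_mem' := fun i => ⟨0, by simp⟩
  smul_mem' := fun c v hv i => by
    obtain ⟨x, hx⟩ := hv i
    exact ⟨c * x, by simp [hx, Algebra.smul_def]⟩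

/-- the twisted slice map on the ambient module -/
noncomputable def piV [Big k m] (g : Matrix (Fin N) (Fin N) (LL k)) :
    VV k m N →ₗ[A3 k] (Fin N → LL k) where
  toFun ξ := g.mulVec fun i => slR k m (ξ i)
  map_add' a b := by rw [← Matrix.mulVec_add]; congr 1; ext1 i; simp
  map_smul' c a := by
    have : (fun i => slR k m ((c • a) i)) = sl k c • fun i => slR k m (a i) := by
      ext1 i; simp [Algebra.smul_def, slR_algebraMap]
    rw [this, Matrix.mulVec_smul]
    rfl

theorem piV_apply [Big k m] (g : Matrix (Fin N) (Fin N) (LL k)) (ξ : VV k m N) :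
    piV g ξ = g.mulVec fun i => slR k m (ξ i) := rfl

/-- the derivative on the localisation -/
noncomputable def dR (k : Type) [Field k] (m : ℕ) : RR k m →+ RR k m :=
  locDer (Submonoid.powers (delta k m)) (dA k).toLinearMap.toAddMonoidHom
    (fun a b => by simp [Derivation.leibniz])

theorem dR_mul (a b : RR k m) : dR k m (a * b) = a * dR k m b + b * dR k m a :=
  locDer_mul _ _ _ a b

theorem dR_algebraMap (a : A3 k) :
    dR k m (algebraMap (A3 k) (RR k m) a) = algebraMap (A3 k) (RR k m) (dA k a) :=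
  locDer_algebraMap _ _ _ a

/-- the connection on the ambient module -/
noncomputable def dV : VV k m N →+ VV k m N where
  toFun ξ := fun i => dR k m (ξ i)
  map_zero' := by ext1 i; simp
  map_add' a b := by ext1 i; simp

theorem dV_apply (ξ : VV k m N) (i : Fin N) : dV ξ i = dR k m (ξ i) := rfl

/-- elements that are regular modulo `ff f` -/
def Sig (k : Type) [Field k] {m : ℕ} (f : Fac m) : Submonoid (A3 k) where
  carrier := {σ | ∀ a, ff k f ∣ σ * a → ff k f ∣ a}
  one_mem' := fun a h => by simpa using h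
  mul_mem' := fun {σ τ} hσ hτ a h => hτ a (hσ _ (by rwa [← mul_assoc]))

/-- membership can be tested at the branch divisors -/
def Closed (L : Submodule (A3 k) (VV k m N)) : Prop :=
  ∀ ξ, (∀ f : Fac m, ∃ σ ∈ Sig k f, σ • ξ ∈ L) → ξ ∈ L

/-- a reflexive lattice that is standard away from the discriminant -/
structure Lat (L : Submodule (A3 k) (VV k m N)) : Prop where
  up : ∃ n : ℕ, ∀ ξ ∈ L, delta k m ^ n • ξ ∈ M0 k m N
  low : ∃ n : ℕ, ∀ ξ ∈ M0 k m N, delta k m ^ n • ξ ∈ L
  closed : Closed L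

/-- `σ` has homogeneous slice of degree `e` that does not vanish on the slice of `f` -/
def GoodAt (f : Fac m) (σ : A3 k) (e : ℤ) : Prop :=
  ∃ P : k[X], HomA σ e P ∧ (P.natDegree : ℤ) ≤ e ∧ IsCoprime P (ft k f)

section Sym
variable [Big k m]

/-- the order filtration on the ambient module -/
noncomputable def FF (g : Matrix (Fin N) (Fin N) (LL k)) (n : ℤ) : Submodule (A3 k) (VV k m N) :=
  (Fil k N n).comap (piV g)

/-- the coefficient of `x ^ n` -/
noncomputable def cV (g : Matrix (Fin N) (Fin N) (LL k)) (n : ℤ) : VV k m N →ₗ[k] WW k N :=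
  (co n).comp ((piV g).restrictScalars k)

theorem cV_apply (g : Matrix (Fin N) (Fin N) (LL k)) (n : ℤ) (ξ : VV k m N) :
    cV g n ξ = co n (piV g ξ) := rfl

/-- graded pieces of the slice of a lattice -/
noncomputable def GV (g : Matrix (Fin N) (Fin N) (LL k)) (L : Submodule (A3 k) (VV k m N)) :
    ℤ → Submodule k (WW k N) := Gr (L.map (piV g))

theorem mem_GV {g : Matrix (Fin N) (Fin N) (LL k)} {L : Submodule (A3 k) (VV k m N)} {n : ℤ}
    {w : WW k N} : w ∈ GV g L n ↔ ∃ ξ ∈ L, ξ ∈ FF g n ∧ cV g n ξ = w := by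
  rw [GV, mem_Gr]
  constructor
  · rintro ⟨_, ⟨ξ, h, rfl⟩, h1, h2⟩
    exact ⟨ξ, h, h1, h2⟩
  · rintro ⟨ξ, h, h1, h2⟩
    exact ⟨_, ⟨ξ, h, rfl⟩, h1, h2⟩

/-- Hilbert function of the slice of a lattice -/
noncomputable def hV (g : Matrix (Fin N) (Fin N) (LL k)) (L : Submodule (A3 k) (VV k m N))
    (n : ℤ) : ℕ := hh (L.map (piV g)) n

/-- the operator `T` has degree `e` and symbol `S` -/
def HasSymb (g : Matrix (Fin N) (Fin N) (LL k)) (T : VV k m N → VV k m N) (e : ℤ)
    (S : WW k N → WW k N) : Prop :=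
  ∀ n ξ, ξ ∈ FF g n → T ξ ∈ FF g (n + e) ∧ cV g (n + e) (T ξ) = S (cV g n ξ)

end Sym

section Ops
variable {O : Type} [CommRing O] [Algebra (A3 k) O] [Module O (VV k m N)]
  [IsScalarTower (A3 k) O (VV k m N)]

/-- the action of an element of `O` -/
noncomputable def act (t : O) : VV k m N →ₗ[A3 k] VV k m N :=
  (LinearMap.lsmul O (VV k m N) t).restrictScalars (A3 k)

@[simp] theorem act_apply (t : O) (ξ : VV k m N) : act t ξ = t • ξ := rfl

/-- the multipliers of a submodule -/
def mult (O : Type) [CommRing O] [Algebra (A3 k) O] [Module O (VV k m N)]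
    [IsScalarTower (A3 k) O (VV k m N)] (L : Submodule (A3 k) (VV k m N)) : Subalgebra (A3 k) O where
  carrier := {t | ∀ ξ ∈ L, t • ξ ∈ L}
  mul_mem' := fun {a b} ha hb ξ hξ => by rw [mul_smul]; exact ha _ (hb _ hξ)
  add_mem' := fun {a b} ha hb ξ hξ => by rw [add_smul]; exact L.add_mem (ha _ hξ) (hb _ hξ)
  algebraMap_mem' := fun a ξ hξ => by rw [algebraMap_smul]; exact L.smul_mem _ hξ

theorem mem_mult {L : Submodule (A3 k) (VV k m N)} {t : O} :
    t ∈ mult O L ↔ ∀ ξ ∈ L, t • ξ ∈ L := Iff.rfl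

/-- `t` shifts the filtration `H` by `a` -/
def ShH (H : ℤ → Submodule (A3 k) (VV k m N)) (a : ℤ) (t : O) : Prop :=
  ∀ i, ∀ ξ ∈ H i, t • ξ ∈ H (i + a)

/-- a decreasing filtration by lattices supported on `FS` -/
structure Filt (H : ℤ → Submodule (A3 k) (VV k m N)) (FS : Finset (Fac m)) : Prop where
  lat : ∀ i, Lat (H i)
  anti : ∀ i, H (i + 1) ≤ H i
  kill : ∀ i, ∀ ξ ∈ H i, sA k FS • ξ ∈ H (i + 2)

variable [Big k m]

/-- the characteristic `p` data -/
structure Cx (k : Type) [Field k] (m N : ℕ) [Big k m] (O : Type) [CommRing O] [Algebra (A3 k) O]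
    [Module O (VV k m N)] where
  p : ℕ
  j : ℕ
  hp : p.Prime
  hpj : p = 2 * j + 1
  chark : CharP k p
  charO : CharP O p
  g : Matrix (Fin N) (Fin N) (LL k)
  hg : IsUnit g
  Stb : Submodule (RatFunc k) (WW k N) → Prop
  Stb_top : Stb ⊤
  d : O →+ O
  hd : ∀ (t : O) (ξ : VV k m N), dV (t • ξ) = d t • ξ + t • dV ξ
  d_mul : ∀ a b, d (a * b) = a * d b + b * d a
  d_alg : ∀ a : A3 k, d (algebraMap (A3 k) O a) = algebraMap (A3 k) O (dA k a)
  unit_ff : ∀ f : Fac m, IsUnit (algebraMap (A3 k) O (ff k f))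
  symb_d : HasSymb (m := m) g dV (-1) dW

/-- `t` has a linear symbol of degree `e` preserving the stable subspaces -/
def Sy (cx : Cx k m N O) (t : O) (e : ℤ) : Prop :=
  ∃ S : WW k N →ₗ[RatFunc k] WW k N, HasSymb cx.g (fun ξ : VV k m N => t • ξ) e S ∧
    ∀ W, cx.Stb W → ∀ v ∈ W, S v ∈ W

/-- `T` has degree `e` and preserves the stable subspaces that are stable under the derivative -/
def PresW (cx : Cx k m N O) (T : VV k m N → VV k m N) (e : ℤ) : Prop :=
  ∀ n ξ, ξ ∈ FF cx.g n → T ξ ∈ FF cx.g (n + e) ∧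
    ∀ W, cx.Stb W → DStb W → cV cx.g n ξ ∈ W → cV cx.g (n + e) (T ξ) ∈ W

/-- `ψ` shifts by `a`, has degree `e`, and is invertible on the layers along the slice -/
def Inv (cx : Cx k m N O) (H : ℤ → Submodule (A3 k) (VV k m N)) (FS : Finset (Fac m)) (ψ : O)
    (a e : ℤ) : Prop :=
  Sy cx ψ e ∧ ShH H a ψ ∧ ∀ f ∈ FS, ∃ (σ : A3 k) (e' : ℤ) (t : O), GoodAt f σ (e + e') ∧
    Sy cx t e' ∧ ShH H (-a) t ∧ ShH H 1 (algebraMap (A3 k) O σ - ψ * t)

/-- the data of one quadratic step, as used by the numerical part -/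
structure NumData (cx : Cx k m N O) (L : Submodule (A3 k) (VV k m N))
    (H : ℤ → Submodule (A3 k) (VV k m N)) (FS : Finset (Fac m)) (ew : ℕ) (κ : ℤ) : Prop where
  latL : Lat L
  filt : Filt H FS
  le_H : L ≤ H 0
  H_le : H (2 * cx.j) ≤ L
  odd : ∀ i : ℕ, i < cx.j → L ⊓ H (2 * i + 1) ≤ H (2 * i + 2)
  w : ∃ w : O, Inv cx H FS w 1 ew
  tau : ∃ (s f s' : O) (es : ℤ) (n : ℕ), Inv cx H FS s 2 es ∧ Inv cx H FS f 0 (es + κ) ∧
    ShH H 2 s' ∧ ShH H 3 (algebraMap (A3 k) O (zA ^ n) * s - f * s')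
  full : ∀ i : ℕ, i < cx.j → ∀ f ∈ FS, ∃ (σ : A3 k) (e : ℤ) (T : VV k m N → VV k m N),
    GoodAt f σ e ∧ PresW cx T e ∧ ∀ ξ ∈ H (2 * i), T ξ ∈ L ∧ T ξ - σ • ξ ∈ H (2 * i + 1)

/-- the common degree of the layers -/
noncomputable def lam (g : Matrix (Fin N) (Fin N) (LL k))
    (H : ℤ → Submodule (A3 k) (VV k m N)) : ℤ := chi (GV g (H 0)) - chi (GV g (H 1))

end Ops

end Crest.Agent.R169
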