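import Crest.Agent.R169.CtxDef

/-!
General lemmas for the construction of the characteristic `p` context.
-/

set_option autoImplicit false

namespace Crest.Agent.R169

open Polynomial

/-- entrywise derivative of a product of matrices -/
theorem map_der_mul {R : Type} [CommRing R] {N : ℕ} (D : R →+ R)
    (hD : ∀ a b, D (a * b) = a * D b + b * D a) (A B : Matrix (Fin N) (Fin N) R) :
    (A * B).map D = A * B.map D + A.map D * B := by
  ext i l
  simp only [Matrix.map_apply, Matrix.mul_apply, Matrix.add_apply, map_sum, hD,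
    Finset.sum_add_distrib]
  congr 1
  exact Finset.sum_congr rfl fun _ _ => mul_comm _ _

theorem map_der_scalar {R : Type} [CommRing R] {N : ℕ} (D : R →+ R) (a : R) :
    (algebraMap R (Matrix (Fin N) (Fin N) R) a).map D =
      algebraMap R (Matrix (Fin N) (Fin N) R) (D a) := by
  ext i l
  simp only [Matrix.map_apply, Matrix.algebraMap_matrix_apply]
  split_ifs <;> simp

/-- the commutative algebra generated by commuting horizontal matrices -/
theorem exists_comm_alg {R : Type} [CommRing R] {N : ℕ} {ι : Type}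
    (Φ : ι → Matrix (Fin N) (Fin N) R) (hc : ∀ i i', Φ i * Φ i' = Φ i' * Φ i) (D : R →+ R)
    (hD : ∀ a b, D (a * b) = a * D b + b * D a) (hΦ : ∀ v, (Φ v).map D = 0) :
    ∃ (O : Type) (_ : CommRing O) (_ : Algebra R O) (ρ : O →ₐ[R] Matrix (Fin N) (Fin N) R)
      (φ : ι → O) (d : O → O),
      Function.Injective ρ ∧ (∀ v, ρ (φ v) = Φ v) ∧ ∀ t : O, ρ (d t) = (ρ t).map D := by
  let S := Algebra.adjoin R (Set.range Φ)
  have hcomm : IsMulCommutative S := Algebra.isMulCommutative_adjoin R (by
    rintro _ ⟨i, rfl⟩ _ ⟨i', rfl⟩; exact hc i i')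
  letI cr : CommRing S := { (inferInstance : Ring S) with
    mul_comm := fun a b => hcomm.is_comm.comm a b }
  have hstab : ∀ x ∈ S, x.map D ∈ S := by
    intro x hx
    induction hx using Algebra.adjoin_induction with
    | mem x hx => obtain ⟨v, rfl⟩ := hx; rw [hΦ]; exact S.zero_mem
    | algebraMap r => rw [map_der_scalar]; exact S.algebraMap_mem _
    | add x y _ _ hx hy => rw [Matrix.map_add _ (map_add D)]; exact S.add_mem hx hy
    | mul x y hx' hy' hx hy =>
      rw [map_der_mul D hD]; exact S.add_mem (S.mul_mem hx' hy) (S.mul_mem hx hy')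
  exact ⟨S, cr, S.algebra, S.val, fun v => ⟨Φ v, Algebra.subset_adjoin ⟨v, rfl⟩⟩,
    fun t => ⟨t.1.map D, hstab _ t.2⟩, Subtype.val_injective, fun v => rfl, fun t => rfl⟩

/-- the action on column vectors through a matrix representation -/
@[reducible] def vecModule {R O : Type} [CommRing R] [Ring O] {N : ℕ}
    (ρ : O →+* Matrix (Fin N) (Fin N) R) : Module O (Fin N → R) where
  smul t ξ := (ρ t).mulVec ξ
  one_smul ξ := by change (ρ 1).mulVec ξ = ξ; simp
  mul_smul a b ξ := by
    change (ρ (a * b)).mulVec ξ = (ρ a).mulVec ((ρ b).mulVec ξ); simp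
  smul_zero a := by change (ρ a).mulVec 0 = 0; simp
  smul_add a ξ ζ := by
    change (ρ a).mulVec (ξ + ζ) = (ρ a).mulVec ξ + (ρ a).mulVec ζ; rw [Matrix.mulVec_add]
  add_smul a b ξ := by
    change (ρ (a + b)).mulVec ξ = (ρ a).mulVec ξ + (ρ b).mulVec ξ; rw [map_add, Matrix.add_mulVec]
  zero_smul ξ := by change (ρ 0).mulVec ξ = 0; simp

theorem der_pow_succ {R : Type} [CommRing R] (D : R →+ R)
    (hD : ∀ a b, D (a * b) = a * D b + b * D a) (a : R) (n : ℕ) :
    D (a ^ (n + 1)) = ((n + 1 : ℕ) : R) * a ^ n * D a := by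
  induction n with
  | zero => simp
  | succ n ih => rw [pow_succ, hD, ih]; push_cast; ring

theorem der_pow_char {R : Type} [CommRing R] (D : R →+ R)
    (hD : ∀ a b, D (a * b) = a * D b + b * D a) {p : ℕ} (hp : 0 < p) (h0 : (p : R) = 0) (a : R) :
    D (a ^ p) = 0 := by
  obtain ⟨n, rfl⟩ := Nat.exists_eq_succ_of_ne_zero hp.ne'
  rw [der_pow_succ D hD, h0]; simp

theorem isIntegral_quad {S O : Type*} [CommRing S] [CommRing O] [Algebra S O] {a b c : O}
    (hb : IsIntegral S b) (hc : IsIntegral S c) (h : a ^ 2 = b * a + c) : IsIntegral S a := by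
  have h1 : IsIntegral (integralClosure S O) a := by
    refine ⟨X ^ 2 - (C ⟨b, hb⟩ * X + C ⟨c, hc⟩), ?_, ?_⟩
    · apply monic_X_pow_sub
      exact degree_linear_lt
    · simp [h]
  exact isIntegral_trans _ h1

/-- the normalised monomials are integral -/
theorem integral_mon {m : ℕ} {S O : Type*} [CommRing S] [CommRing O] [Algebra S O]
    {X Y Z x : O} {u : Var m → O} (h : Rel m X Y Z u) (hX : IsIntegral S (x * X))
    (hY : IsIntegral S (x * Y)) (hZ : IsIntegral S (x * Z)) (v : Gen m) :
    IsIntegral S (x ^ gdeg v * mon u v) := by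
  have hn : ∀ n : ℤ, IsIntegral S ((n : ℤ) : O) := fun n => by
    rw [← map_intCast (algebraMap S O)]; exact isIntegral_algebraMap
  have h10 : IsIntegral S (x * u .e10) := by
    refine isIntegral_quad hZ (hX.mul hY) ?_
    have h1 := h.hE
    have h2 := h.hEE
    linear_combination x ^ 2 * u .e10 * h1 + x ^ 2 * h2
  have h01 : IsIntegral S (x * u .e01) := by
    have : x * u .e01 = x * u .e10 - x * Z := by rw [← h.hE]; ring
    rw [this]; exact h10.sub hZ
  have hs2 : ∀ i l, IsIntegral S (x * u (.s i l) ^ 2) := by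
    intro i l
    have : x * u (.s i l) ^ 2 = x * Y - ((pc l : ℤ) : O) * (x * u .e10) -
        ((pc i : ℤ) : O) * (x * u .e01) + ((pc i * pc l : ℤ) : O) * (x * X) := by
      rw [h.hs2]; ring
    rw [this]
    exact ((hY.sub ((hn _).mul h10)).sub ((hn _).mul h01)).add ((hn _).mul hX)
  have hss : ∀ i l i' l', IsIntegral S (x * (u (.s i l) * u (.s i' l'))) := by
    intro i l i' l'
    refine IsIntegral.of_pow (n := 2) (by norm_num) ?_
    have : (x * (u (.s i l) * u (.s i' l'))) ^ 2 =
        (x * u (.s i l) ^ 2) * (x * u (.s i' l') ^ 2) := by ring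
    rw [this]; exact (hs2 i l).mul (hs2 i' l')
  have hmu : ∀ b i, IsIntegral S (x * u (.mu b i) ^ 4) := by
    intro b i
    have : x * u (.mu b i) ^ 4 = x * u (.s (em i) 0) ^ 2 +
        ((2 * sg b : ℤ) : O) * (x * (u (.s (em i) 0) * u (.s 0 (em i)))) +
        ((sg b ^ 2 : ℤ) : O) * (x * u (.s 0 (em i)) ^ 2) := by
      have h4 : u (.mu b i) ^ 4 = (u (.mu b i) ^ 2) ^ 2 := by ring
      rw [h4, h.hmu]; push_cast; ring
    rw [this]
    exact ((hs2 _ _).add ((hn _).mul (hss _ _ _ _))).add ((hn _).mul (hs2 _ _))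
  have hth : ∀ J, IsIntegral S (x ^ m * th u J) := by
    intro J
    refine IsIntegral.of_pow (n := 4) (by norm_num) ?_
    have : (x ^ m * th u J) ^ 4 = ∏ i : Fin (4 * m), (x * u (.mu (J i) i) ^ 4) := by
      rw [Finset.prod_mul_distrib, Finset.prod_const, Finset.card_univ, Fintype.card_fin, th,
        Finset.prod_pow, mul_pow, ← pow_mul, mul_comm m 4]
    rw [this]
    exact IsIntegral.prod _ fun i _ => hmu _ _
  cases v with
  | e01 => simpa [gdeg, mon_e01] using h01
  | e10 => simpa [gdeg, mon_e10] using h10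
  | ss i l i' l' => simpa [gdeg, mon_ss] using hss i l i' l'
  | th J => simpa [gdeg, mon_th] using hth J
  | om J =>
    have h1 : IsIntegral S (x * (u .w * u (.s 0 0))) := by
      refine IsIntegral.of_pow (n := 2) (by norm_num) ?_
      have : (x * (u .w * u (.s 0 0))) ^ 2 = (x * Z) * (x * u (.s 0 0) ^ 2) := by
        rw [← h.hw]; ring
      rw [this]; exact hZ.mul (hs2 _ _)
    have : x ^ gdeg (.om J : Gen m) * mon u (.om J) =
        (x * (u .w * u (.s 0 0))) * (x ^ m * th u J) := by
      rw [mon_om, om, gdeg]; ring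
    rw [this]; exact h1.mul (hth J)

end Crest.Agent.R169
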