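import Crest.Agent.R169.Rel

/-!
Extraction of `p`-th roots of a solution of the Frobenius-twisted relations.
-/

set_option autoImplicit false

namespace Crest.Agent.R169

theorem exists_sqrt_of_sq {O : Type*} [CommRing O] (j : ℕ) {t Φ : O} (ht : IsUnit t)
    (h : Φ ^ 2 = t ^ (2 * j + 1)) : ∃ s : O, s ^ 2 = t ∧ s * t ^ j = Φ ∧ s ^ (2 * j + 1) = Φ := by
  obtain ⟨τ, hτ⟩ := ht.exists_right_inv
  have h1 : t ^ j * τ ^ j = 1 := by rw [← mul_pow, hτ, one_pow]
  have h2 : (Φ * τ ^ j) ^ 2 = t := by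
    rw [mul_pow, h]
    calc t ^ (2 * j + 1) * (τ ^ j) ^ 2 = t * (t ^ j * τ ^ j) ^ 2 := by ring
      _ = t := by rw [h1]; ring
  have h3 : Φ * τ ^ j * t ^ j = Φ := by
    calc Φ * τ ^ j * t ^ j = Φ * (t ^ j * τ ^ j) := by ring
      _ = Φ := by rw [h1, mul_one]
  refine ⟨Φ * τ ^ j, h2, h3, ?_⟩
  rw [pow_succ, pow_mul, h2, mul_comm, h3]

theorem exists_root (m : ℕ) {O : Type*} [CommRing O] (p j : ℕ) (hp : p.Prime)
    (hpj : p = 2 * j + 1) [CharP O p] (X Y Z : O) (Φ : Var m → O)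
    (h : Rel m (X ^ p) (Y ^ p) (Z ^ p) Φ) (hZ : IsUnit Z) (hq : IsUnit (Z ^ 2 + 4 * X * Y))
    (ha : ∀ i : P m, IsUnit (Y + ((pc i : ℤ) : O) * Z - ((pc i : ℤ) : O) ^ 2 * X))
    (hb : ∀ i : P m, IsUnit (Y - ((pc i : ℤ) : O) * Z - ((pc i : ℤ) : O) ^ 2 * X))
    (hc : ∀ i : Fin (4 * m), IsUnit ((((i : ℕ) + 1 : ℕ)) : O)) :
    ∃ u : Var m → O, Rel m X Y Z u ∧ ∀ v, u v ^ p = Φ v := by
  haveI : Fact p.Prime := ⟨hp⟩
  have hF : ∀ a : O, frobenius O p a = a ^ p := fun a => rfl
  have hint : ∀ n : ℤ, ((n : ℤ) : O) ^ p = n := fun n => map_intCast (frobenius O p) n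
  have hnat : ∀ n : ℕ, ((n : ℕ) : O) ^ p = n := fun n => map_natCast (frobenius O p) n
  have hp0 : ((2 * j + 1 : ℕ) : O) = 0 := by rw [← hpj]; exact CharP.cast_eq_zero O p
  set η : O := ((j + 1 : ℕ) : O) with hη
  have h2η : 2 * η = 1 := by
    rw [hη]; push_cast at hp0 ⊢; linear_combination hp0
  have hηp : η ^ p = η := hnat _
  have h4 : (4 : O) ^ p = 4 := by simpa using hnat 4
  -- the square root of the discriminant
  have hW0 : (Φ .e10 + Φ .e01) ^ 2 = (Z ^ 2 + 4 * X * Y) ^ (2 * j + 1) := by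
    rw [← hpj, add_pow_char _ _ p, mul_pow, mul_pow, h4, ← pow_mul, mul_comm 2 p, pow_mul, ← h.hE,
      mul_assoc, ← h.hEE]
    ring
  obtain ⟨W, hW2, -, hWp⟩ := exists_sqrt_of_sq j hq hW0
  rw [← hpj] at hWp
  set e : O := η * (W + Z) with he
  set f : O := η * (W - Z) with hf
  have hef : e - f = Z := by rw [he, hf]; linear_combination Z * h2η
  have hef2 : e * f = X * Y := by
    rw [he, hf]; linear_combination η ^ 2 * hW2 + X * Y * (2 * η + 1) * h2η
  have hep : e ^ p = Φ .e10 := by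
    rw [he, mul_pow, hηp, add_pow_char, hWp, ← h.hE]; linear_combination Φ .e10 * h2η
  have hfp : f ^ p = Φ .e01 := by
    rw [hf, mul_pow, hηp, sub_pow_char, hWp, ← h.hE]; linear_combination Φ .e01 * h2η
  clear_value e f
  -- the elements `s`
  let t : P m → P m → O := fun i l =>
    Y - ((pc l : ℤ) : O) * e - ((pc i : ℤ) : O) * f + ((pc i * pc l : ℤ) : O) * X
  have ht : ∀ i l, IsUnit (t i l) := by
    intro i l
    have h1 : t i l * (Y + ((pc l : ℤ) : O) * f + ((pc i : ℤ) : O) * e +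
        ((pc i * pc l : ℤ) : O) * X) =
        (Y + ((pc i : ℤ) : O) * Z - ((pc i : ℤ) : O) ^ 2 * X) *
          (Y - ((pc l : ℤ) : O) * Z - ((pc l : ℤ) : O) ^ 2 * X) := by
      simp only [t]
      rw [← hef]
      push_cast
      linear_combination (-(((pc i : ℤ) : O) + ((pc l : ℤ) : O)) ^ 2) * hef2
    exact isUnit_of_mul_isUnit_left (h1 ▸ (ha i).mul (hb l))
  have htp : ∀ i l, Φ (.s i l) ^ 2 = t i l ^ (2 * j + 1) := by
    intro i l
    rw [← hpj, h.hs2]
    simp only [t]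
    rw [add_pow_char, sub_pow_char, sub_pow_char, mul_pow, mul_pow, mul_pow, hint, hint, hint,
      hep, hfp]
  choose s hs2 hsj hsp using fun i l => exists_sqrt_of_sq j (ht i l) (htp i l)
  rw [← hpj] at hsp
  have htt : ∀ i l i' l', t i l * t i' l' = t i l' * t i' l := by
    intro i l i' l'
    simp only [t]
    push_cast
    linear_combination ((((pc i' : ℤ) : O) - ((pc i : ℤ) : O)) *
      (((pc l : ℤ) : O) - ((pc l' : ℤ) : O))) * hef2
  have hss : ∀ i l i' l', s i l * s i' l' = s i l' * s i' l := by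
    intro i l i' l'
    have hu : IsUnit ((t i l * t i' l') ^ j) := ((ht i l).mul (ht i' l')).pow j
    apply hu.mul_right_cancel
    have h1 := h.hss i l i' l'
    rw [← hsj, ← hsj, ← hsj, ← hsj] at h1
    conv_rhs => rw [htt]
    rw [mul_pow, mul_pow]
    linear_combination h1
  -- the element `w`
  obtain ⟨w, hw2, hwj, hwp⟩ := exists_sqrt_of_sq j hZ (Φ := Φ .w) (by rw [← hpj]; exact h.hw)
  rw [← hpj] at hwp
  -- the elements `mu`
  let la : Bool → Fin (4 * m) → O := fun b i => s (em i) 0 + ((sg b : ℤ) : O) * s 0 (em i)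
  have hll : ∀ i, la true i * la false i = (((i : ℕ) + 1 : ℕ) : O) ^ 2 * Z := by
    intro i
    have h1 := hs2 (em i) 0
    have h2 := hs2 0 (em i)
    simp only [t, pc, em, Fin.val_zero] at h1 h2
    simp only [la, sg, em]
    rw [← hef]
    push_cast at h1 h2 ⊢
    linear_combination h1 - h2
  have hla : ∀ b i, IsUnit (la b i) := by
    intro b i
    have hu : IsUnit (la true i * la false i) := hll i ▸ ((hc i).pow 2).mul hZ
    cases b
    · exact isUnit_of_mul_isUnit_right hu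
    · exact isUnit_of_mul_isUnit_left hu
  have hlp : ∀ b i, Φ (.mu b i) ^ 2 = la b i ^ (2 * j + 1) := by
    intro b i
    rw [← hpj, h.hmu]
    simp only [la]
    rw [add_pow_char, mul_pow, hint, hsp, hsp]
  choose μ hμ2 hμj hμp using fun b i => exists_sqrt_of_sq j (hla b i) (hlp b i)
  rw [← hpj] at hμp
  have hmm : ∀ i, μ true i * μ false i = (((i : ℕ) + 1 : ℕ) : O) * w := by
    intro i
    have h1 := h.hmm i
    rw [← hμj, ← hμj, ← hwj] at h1
    have h2 : (((i : ℕ) + 1 : ℕ) : O) ^ (2 * j) = 1 := by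
      apply (hc i).mul_right_cancel
      rw [← pow_succ, ← hpj, hnat, one_mul]
    have h3 : la true i ^ j * la false i ^ j = Z ^ j := by
      rw [← mul_pow, hll, mul_pow, ← pow_mul, h2, one_mul]
    apply (hZ.pow j).mul_right_cancel
    linear_combination h1 - μ true i * μ false i * h3
  refine ⟨fun v => match v with
    | .e01 => f
    | .e10 => e
    | .s i l => s i l
    | .mu b i => μ b i
    | .w => w, ⟨fun v v' => mul_comm _ _, hef, hef2, hss, hs2, hμ2, hmm, hw2⟩, fun v => ?_⟩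
  cases v with
  | e01 => exact hfp
  | e10 => exact hep
  | s i l => exact hsp i l
  | mu b i => exact hμp b i
  | w => exact hwp

end Crest.Agent.R169
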