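import Crest.Agent.R169.SliceA

/-!
Admissible lattices and the energy functional.
-/

set_option autoImplicit false
set_option linter.unusedSectionVars false

namespace Crest.Agent.R169

open Module Filter Polynomial

variable {k : Type} [Field k] {N : ℕ}

/-- a finitely generated lattice stable under finitely many commuting integral matrices -/
theorem sbe_lattice {R K : Type} [CommRing R] [Field K] [Algebra R K] {ι : Type}
    (M : ι → Matrix (Fin N) (Fin N) K) (hc : ∀ i i', M i * M i' = M i' * M i)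
    (hint : ∀ i, IsIntegral R (M i)) (s : Finset ι) :
    ∃ Λ : Submodule R (Fin N → K), Λ.FG ∧ (∀ j, Pi.single j 1 ∈ Λ) ∧
      (∀ i ∈ s, ∀ v ∈ Λ, (M i).mulVec v ∈ Λ) := by
  classical
  induction s using Finset.induction_on with
  | empty =>
    exact ⟨Submodule.span R (Set.range fun j => Pi.single j 1),
      Submodule.fg_span (Set.finite_range _), fun j => Submodule.subset_span ⟨j, rfl⟩, by simp⟩
  | insert a s ha ih =>
    obtain ⟨Λ, h1, h2, h3⟩ := ih
    let f : Matrix (Fin N) (Fin N) K →ₗ[R] (Fin N → K) →ₗ[R] (Fin N → K) :=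
      LinearMap.mk₂ R (fun A v => A.mulVec v) (fun A B v => Matrix.add_mulVec A B v)
        (fun c A v => Matrix.smul_mulVec c A v) (fun A v w => Matrix.mulVec_add A v w)
        (fun c A v => Matrix.mulVec_smul A c v)
    have hf : ∀ A v, f A v = A.mulVec v := fun _ _ => rfl
    have hle : ∀ v ∈ Λ, v ∈ Submodule.map₂ f (Algebra.adjoin R {M a}).toSubmodule Λ := by
      intro v hv
      have := Submodule.apply_mem_map₂ f (p := (Algebra.adjoin R {M a}).toSubmodule) (q := Λ)
        (Subalgebra.one_mem (Algebra.adjoin R {M a})) hv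
      rwa [hf, Matrix.one_mulVec] at this
    refine ⟨Submodule.map₂ f (Algebra.adjoin R {M a}).toSubmodule Λ,
      Submodule.FG.map₂ f (hint a).fg_adjoin_singleton h1, fun j => hle _ (h2 j), ?_⟩
    intro i hi
    have key : Submodule.map₂ f (Algebra.adjoin R {M a}).toSubmodule Λ ≤
        (Submodule.map₂ f (Algebra.adjoin R {M a}).toSubmodule Λ).comap (f (M i)) := by
      rw [Submodule.map₂_le]
      intro A hA v hv
      rw [Submodule.mem_comap, hf, hf, Matrix.mulVec_mulVec]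
      rcases Finset.mem_insert.1 hi with rfl | hi
      · exact Submodule.apply_mem_map₂ f (p := (Algebra.adjoin R {M i}).toSubmodule) (q := Λ)
          (Subalgebra.mul_mem _ (Algebra.self_mem_adjoin_singleton R _) hA) hv
      · have hcomm : Commute (M i) A :=
          Algebra.commute_of_mem_adjoin_singleton_of_commute hA (hc i a)
        rw [hcomm.eq, ← Matrix.mulVec_mulVec]
        exact Submodule.apply_mem_map₂ f (p := (Algebra.adjoin R {M a}).toSubmodule) (q := Λ)
          hA (h3 i hi v hv)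
    exact fun v hv => key hv

/-- simultaneous conjugation into the valuation ring -/
theorem sbe_conj {R K : Type} [CommRing R] [IsDomain R] [IsPrincipalIdealRing R] [Field K]
    [Algebra R K] [IsFractionRing R K] {ι : Type} [Finite ι]
    (M : ι → Matrix (Fin N) (Fin N) K) (hc : ∀ i i', M i * M i' = M i' * M i)
    (hint : ∀ i, IsIntegral R (M i)) :
    ∃ (g : Matrix (Fin N) (Fin N) K) (Ut : ι → Matrix (Fin N) (Fin N) R), IsUnit g ∧
      ∀ i, g * M i = (Ut i).map (algebraMap R K) * g := by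
  classical
  have := Fintype.ofFinite ι
  obtain ⟨Λ, h1, h2, h3⟩ := sbe_lattice (R := R) M hc hint Finset.univ
  have hL : Submodule.IsLattice K Λ := by
    refine ⟨h1, ?_⟩
    rw [eq_top_iff, ← (Pi.basisFun K (Fin N)).span_eq]
    refine Submodule.span_mono ?_
    rintro _ ⟨j, rfl⟩
    simpa using h2 j
  have hr : Module.finrank R Λ = N := by
    rw [Submodule.IsLattice.finrank_of_pi K Λ, Fintype.card_fin]
  let b : Basis (Fin N) R Λ := Module.finBasisOfFinrankEq R Λ hr
  let b' : Basis (Fin N) K (Fin N → K) := b.extendOfIsLattice K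
  let h : Matrix (Fin N) (Fin N) K := (Pi.basisFun K (Fin N)).toMatrix b'
  have hh : ∀ i j, h i j = (b j : Fin N → K) i := by
    intro i j
    simp [h, b', Basis.toMatrix_apply]
  have hu : IsUnit h := by
    have := (Pi.basisFun K (Fin N)).invertibleToMatrix b'
    exact isUnit_of_invertible _
  let Ut : ι → Matrix (Fin N) (Fin N) R := fun i l j =>
    b.repr ⟨(M i).mulVec (b j), h3 i (Finset.mem_univ _) _ (b j).2⟩ l
  have hM : ∀ i, M i * h = h * (Ut i).map (algebraMap R K) := by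
    intro i
    ext a j
    have e := congrArg (fun v : Λ => (v : Fin N → K) a)
      (b.sum_repr ⟨(M i).mulVec (b j), h3 i (Finset.mem_univ _) _ (b j).2⟩)
    simp only [Submodule.coe_sum, Submodule.coe_smul, Finset.sum_apply, Pi.smul_apply] at e
    rw [Matrix.mul_apply, Matrix.mul_apply]
    simp only [hh, Matrix.map_apply]
    refine Eq.trans ?_ (e.symm.trans ?_)
    · rfl
    · refine Finset.sum_congr rfl fun l _ => ?_
      rw [Algebra.smul_def, mul_comm]
  obtain ⟨u, hu⟩ := hu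
  refine ⟨↑u⁻¹, Ut, Units.isUnit _, fun i => ?_⟩
  have := hM i
  rw [← hu] at this
  calc (↑u⁻¹ : Matrix (Fin N) (Fin N) K) * M i = ↑u⁻¹ * (M i * u) * ↑u⁻¹ := by
        simp [mul_assoc]
    _ = _ := by rw [this]; simp [← mul_assoc]

/-- the energy identity -/
def SbeHasE (g : Matrix (Fin N) (Fin N) (LL k)) (e E : ℤ) : Prop :=
  ∀ᶠ n : ℤ in atTop, 2 * (hh (tw g) n : ℤ) = N * n * (n - 1) + 2 * e * n + E

theorem SbeHasE.unique {g : Matrix (Fin N) (Fin N) (LL k)} {e E e' E' : ℤ} (h : SbeHasE g e E)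
    (h' : SbeHasE g e' E') : e = e' ∧ E = E' := by
  obtain ⟨n, hn⟩ := eventually_atTop.1 (h.and h')
  have h1 := hn n le_rfl
  have h2 := hn (n + 1) (by omega)
  have h3 : e = e' := by linarith [h1.1, h1.2, h2.1, h2.2]
  subst h3
  exact ⟨rfl, by linarith [h1.1, h1.2]⟩

theorem sbe_hasChi {g : Matrix (Fin N) (Fin N) (LL k)} (hg : IsUnit g) :
    HasChi (Gr (tw g)) N (chi (Gr (tw g))) := by
  have := ((sLat_tw g).gLat hg).hasChi ⊤
  simpa using this

theorem sbe_exists_hasE {g : Matrix (Fin N) (Fin N) (LL k)} (hg : IsUnit g) :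
    ∃ E, 0 ≤ E ∧ SbeHasE g (chi (Gr (tw g))) E := by
  set e := chi (Gr (tw g)) with he
  let D : ℤ → ℤ := fun n => 2 * (hh (tw g) n : ℤ) - (N * n * (n - 1) + 2 * e * n)
  have hD : ∀ n, D (n + 1) = D n + 2 * ((finrank k (Gr (tw g) n) : ℤ) - (N * n + e)) := by
    intro n
    simp only [D, (sLat_tw g).hh_succ hg n]
    push_cast
    ring
  have hpos : ∀ n, 0 ≤ n → 0 ≤ D n := by
    intro n hn
    induction n, hn using Int.leInduction with
    | base => simp [D]
    | succ m hm ih =>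
      rw [hD]
      have := tw_chi_le hg m
      linarith
  obtain ⟨n0, hn0⟩ := eventually_atTop.1 ((sbe_hasChi hg).and (eventually_ge_atTop 0))
  refine ⟨D n0, hpos n0 (hn0 n0 le_rfl).2, eventually_atTop.2 ⟨n0, fun n hn => ?_⟩⟩
  have : D n = D n0 := by
    induction n, hn using Int.leInduction with
    | base => rfl
    | succ m hm ih => rw [hD, ih, (hn0 m hm).1]; ring
  simp only [D] at this ⊢
  linarith

theorem SbeHasE.nonneg {g : Matrix (Fin N) (Fin N) (LL k)} (hg : IsUnit g) {e E : ℤ}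
    (h : SbeHasE g e E) : 0 ≤ E := by
  obtain ⟨E', h1, h2⟩ := sbe_exists_hasE hg
  rw [(h.unique h2).2]
  exact h1

/-- the Hilbert function after an elementary modification -/
theorem sbe_hh_mod {g Q : Matrix (Fin N) (Fin N) (LL k)} (hg : IsUnit g) (hQ : IsUnit Q)
    (W : Submodule (RatFunc k) (WW k N)) (n n' : ℤ)
    (h : ∀ v, Q.mulVec v ∈ Fil k N n ↔ v ∈ Fil k N n' ∧ co n' v ∈ W) :
    hh (tw (Q * g)) n + finrank k (capW (Gr (tw g)) W n') = hh (tw g) (n' + 1) := by
  let q : (Fin N → LL k) →ₗ[k] (Fin N → LL k) := (Q.mulVecLin.restrictScalars (A3 k)).restrictScalars k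
  have hq : ∀ v, q v = Q.mulVec v := fun _ => rfl
  have hinj : Function.Injective q := Matrix.mulVec_injective_of_isUnit hQ
  have hsurj : Function.Surjective q := Matrix.mulVec_surjective_iff_isUnit.2 hQ
  let F' : Submodule k (Fin N → LL k) :=
    (Fil k N n').restrictScalars k ⊓ (W.restrictScalars k).comap (co n')
  have hF' : ∀ v, v ∈ F' ↔ v ∈ Fil k N n' ∧ co n' v ∈ W := fun _ => Iff.rfl
  have e1 : (tw (Q * g)).restrictScalars k = ((tw g).restrictScalars k).map q := by
    ext v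
    simp only [Submodule.restrictScalars_mem, mem_tw, Submodule.mem_map, hq]
    constructor
    · rintro ⟨a, rfl⟩
      exact ⟨_, ⟨a, rfl⟩, Matrix.mulVec_mulVec _ _ _⟩
    · rintro ⟨_, ⟨a, rfl⟩, rfl⟩
      exact ⟨a, Matrix.mulVec_mulVec _ _ _⟩
  have e2 : (Fil k N n).restrictScalars k = F'.map q := by
    have : F' = ((Fil k N n).restrictScalars k).comap q := by
      ext v
      rw [hF', ← h]
      rfl
    rw [this, Submodule.map_comap_eq_of_surjective hsurj]
  have hfin := (sLat_tw g).finIdx hg (n' + 1)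
  have hGf := ((sLat_tw g).gLat hg).fin n'
  have hcf : FiniteDimensional k (capW (Gr (tw g)) W n') :=
    Submodule.finiteDimensional_of_le (inf_le_left : capW (Gr (tw g)) W n' ≤ Gr (tw g) n')
  have hle : (tw g).restrictScalars k ⊓ (Fil k N (n' + 1)).restrictScalars k ≤
      (tw g).restrictScalars k ⊓ F' := by
    rintro v ⟨h1, h2⟩
    obtain ⟨h3, h4⟩ := mem_Fil_succ.1 h2
    exact ⟨h1, (hF' v).2 ⟨h3, h4 ▸ W.zero_mem⟩⟩
  have e3 := idx_add' (inf_le_left : (tw g).restrictScalars k ⊓ F' ≤ _) hle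
    ((finIdx_inf _ _).2 hfin)
  have hA : ∀ x ∈ (tw g).restrictScalars k ⊓ F', co n' x ∈ capW (Gr (tw g)) W n' := by
    rintro x ⟨h1, h2⟩
    exact ⟨mem_Gr.2 ⟨x, h1, ((hF' x).1 h2).1, rfl⟩, ((hF' x).1 h2).2⟩
  have hB : ∀ x ∈ (tw g).restrictScalars k ⊓ F',
      x ∈ (tw g).restrictScalars k ⊓ (Fil k N (n' + 1)).restrictScalars k →
        co n' x ∈ (⊥ : Submodule k (WW k N)) := by
    rintro x _ ⟨_, h2⟩
    exact (mem_Fil_succ.1 h2).2
  have hI : ∀ x ∈ (tw g).restrictScalars k ⊓ F', co n' x ∈ (⊥ : Submodule k (WW k N)) →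
      x ∈ (tw g).restrictScalars k ⊓ (Fil k N (n' + 1)).restrictScalars k := by
    rintro x ⟨h1, h2⟩ h3
    exact ⟨h1, mem_Fil_succ.2 ⟨((hF' x).1 h2).1, h3⟩⟩
  have hS : ∀ y ∈ capW (Gr (tw g)) W n', ∃ x ∈ (tw g).restrictScalars k ⊓ F',
      y - co n' x ∈ (⊥ : Submodule k (WW k N)) := by
    rintro y ⟨h1, h2⟩
    obtain ⟨x, hx1, hx2, rfl⟩ := mem_Gr.1 h1
    exact ⟨x, ⟨hx1, (hF' x).2 ⟨hx2, h2⟩⟩, by simp⟩
  have i1 := idx_le_of_inj (co (k := k) (N := N) n') (A := (tw g).restrictScalars k ⊓ F')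
    (B := (tw g).restrictScalars k ⊓ (Fil k N (n' + 1)).restrictScalars k)
    (A' := capW (Gr (tw g)) W n') (B' := ⊥) hA hB hI (finIdx_of_finite _ _)
  have i2 := idx_le_of_surj (co (k := k) (N := N) n') (A := (tw g).restrictScalars k ⊓ F')
    (B := (tw g).restrictScalars k ⊓ (Fil k N (n' + 1)).restrictScalars k)
    (A' := capW (Gr (tw g)) W n') (B' := ⊥) hA hB hS i1.1
  have e4 := le_antisymm i1.2 i2.2
  rw [idx_bot] at e4
  unfold hh
  rw [e1, e2, (idx_map q hinj _ _).1, ← idx_inf _ ((Fil k N (n' + 1)).restrictScalars k), e3,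
    idx_inf, e4]

theorem sbe_abs_unit {K : Type} [CommRing K] {A B : Matrix (Fin N) (Fin N) K} {x xi y yi : K}
    (h1 : A * A = A) (h2 : A * B = 0) (h3 : B * A = 0) (h4 : B * B = B) (h5 : A + B = 1)
    (hx : xi * x = 1) (hy : yi * y = 1) : IsUnit (y • (A + xi • B)) := by
  refine IsUnit.of_mul_eq_one (yi • (A + x • B)) ?_
  rw [Matrix.smul_mul, Matrix.mul_smul, smul_smul, mul_comm y, hy, one_smul]
  simp only [Matrix.smul_mul, Matrix.mul_smul, add_mul, mul_add, h1, h2, h3, h4, smul_zero,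
    add_zero, zero_add, smul_smul]
  rw [mul_comm x, hx, one_smul, h5]

theorem sbe_abs_adm {K : Type} [CommRing K] {A B : Matrix (Fin N) (Fin N) K} {x xi : K} (y : K)
    (h1 : A * A = A) (h2 : A * B = 0) (h3 : B * A = 0) (h4 : B * B = B) (h5 : A + B = 1)
    (hx : xi * x = 1) (V : Matrix (Fin N) (Fin N) K) :
    (y • (A + xi • B)) * V =
      (A * V * A + x • (A * V * B) + xi • (B * V * A) + B * V * B) * (y • (A + xi • B)) := by
  have h6 : A * V = A * (V * A) + A * (V * B) := by rw [← mul_add, ← mul_add, h5, mul_one]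
  have h7 : B * V = B * (V * A) + B * (V * B) := by rw [← mul_add, ← mul_add, h5, mul_one]
  rw [Matrix.smul_mul, Matrix.mul_smul]
  congr 1
  simp only [add_mul, mul_add, Matrix.smul_mul, Matrix.mul_smul, mul_assoc, h1, h2, h3, h4,
    mul_zero, smul_zero, add_zero, zero_add, smul_smul, hx, one_smul]
  rw [h6, h7, smul_add]
  abel

theorem sbe_abs_fin {K : Type} [CommRing K] {Q g U V V' : Matrix (Fin N) (Fin N) K} {y : K}
    (h1 : g * U = y • (V * g)) (h2 : Q * V = V' * Q) : Q * g * U = y • (V' * (Q * g)) := by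
  rw [mul_assoc, h1, Matrix.mul_smul, ← mul_assoc, h2, mul_assoc]

theorem sbe_abs_ini {K : Type} [CommRing K] {g U V : Matrix (Fin N) (Fin N) K} {y yi : K}
    (hy : y * yi = 1) (h1 : g * (yi • U) = V * g) : g * U = y • (V * g) := by
  rw [← h1, Matrix.mul_smul, smul_smul, hy, one_smul]

theorem sbe_abs_comm {K : Type} [CommRing K] {U V : Matrix (Fin N) (Fin N) K} (a b : K)
    (h : U * V = V * U) : (a • U) * (b • V) = (b • V) * (a • U) := by
  rw [Matrix.smul_mul, Matrix.mul_smul, Matrix.smul_mul, Matrix.mul_smul, h, smul_comm]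

theorem sbe_single_mul {a b : ℤ} (h : a + b = 0) :
    (HahnSeries.single a 1 : LL k) * HahnSeries.single b 1 = 1 := by
  rw [HahnSeries.single_mul_single, h]
  simp

/-- constant matrices -/
noncomputable def sbeC (A : Matrix (Fin N) (Fin N) (RatFunc k)) : Matrix (Fin N) (Fin N) (LL k) :=
  (A.map PowerSeries.C).map (HahnSeries.ofPowerSeries ℤ (RatFunc k))

theorem sbe_co_C (A : Matrix (Fin N) (Fin N) (RatFunc k)) (v : Fin N → LL k) (m : ℤ) :
    co m ((sbeC A).mulVec v) = A.mulVec (co m v) := by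
  funext i
  simp only [co_apply, sbeC, Matrix.mulVec, dotProduct, Matrix.map_apply, HahnSeries.coeff_sum,
    HahnSeries.ofPowerSeries_C, HahnSeries.C_apply, HahnSeries.single_zero_mul_eq_smul]
  rfl

theorem sbe_co_single_smul (s : ℤ) (v : Fin N → LL k) (m : ℤ) :
    co m ((HahnSeries.single s 1 : LL k) • v) = co (m - s) v := by
  funext i
  have := HahnSeries.coeff_single_mul_add (r := (1 : RatFunc k)) (x := v i) (a := m - s) (b := s)
  rw [sub_add_cancel, one_mul] at this
  exact this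

theorem sbe_mem_Fil_co {n : ℤ} {v : Fin N → LL k} : v ∈ Fil k N n ↔ ∀ m < n, co m v = 0 :=
  ⟨fun h m hm => funext fun i => h i m hm, fun h i m hm => congrFun (h m hm) i⟩

theorem sbeC_mul (A B : Matrix (Fin N) (Fin N) (RatFunc k)) : sbeC (A * B) = sbeC A * sbeC B := by
  simp only [sbeC, Matrix.map_mul]

theorem sbeC_add (A B : Matrix (Fin N) (Fin N) (RatFunc k)) : sbeC (A + B) = sbeC A + sbeC B := by
  ext1 i j
  simp [sbeC]

theorem sbeC_one : sbeC (1 : Matrix (Fin N) (Fin N) (RatFunc k)) = 1 := by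
  simp [sbeC]

theorem sbeC_zero : sbeC (0 : Matrix (Fin N) (Fin N) (RatFunc k)) = 0 := by
  simp [sbeC]

/-- the elementary modification along a projector -/
noncomputable def sbeQ (P : Matrix (Fin N) (Fin N) (RatFunc k)) (s : ℤ) :
    Matrix (Fin N) (Fin N) (LL k) :=
  (HahnSeries.single s 1 : LL k) • (sbeC P + (HahnSeries.single (-1) 1 : LL k) • sbeC (1 - P))

theorem sbeQ_isUnit {P : Matrix (Fin N) (Fin N) (RatFunc k)} (hP : P * P = P) (s : ℤ) :
    IsUnit (sbeQ P s) := by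
  have h1 : sbeC P * sbeC P = sbeC P := by rw [← sbeC_mul, hP]
  have h2 : sbeC P * sbeC (1 - P) = 0 := by rw [← sbeC_mul, mul_sub, hP, mul_one, sub_self, sbeC_zero]
  have h3 : sbeC (1 - P) * sbeC P = 0 := by rw [← sbeC_mul, sub_mul, hP, one_mul, sub_self, sbeC_zero]
  have h4 : sbeC (1 - P) * sbeC (1 - P) = sbeC (1 - P) := by
    rw [← sbeC_mul, sub_mul, one_mul, mul_sub, hP, mul_one, sub_self, sub_zero]
  have h5 : sbeC P + sbeC (1 - P) = 1 := by rw [← sbeC_add, add_sub_cancel, sbeC_one]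
  exact sbe_abs_unit (x := HahnSeries.single 1 1) (yi := HahnSeries.single (-s) 1) h1 h2 h3 h4 h5
    (sbe_single_mul (by simp)) (sbe_single_mul (by simp))

theorem sbeQ_mem_Fil {P : Matrix (Fin N) (Fin N) (RatFunc k)} {W : Submodule (RatFunc k) (WW k N)}
    (h1 : ∀ w, P.mulVec w ∈ W) (h2 : ∀ w ∈ W, P.mulVec w = w) (s n : ℤ) (v : Fin N → LL k) :
    (sbeQ P s).mulVec v ∈ Fil k N n ↔ v ∈ Fil k N (n - s) ∧ co (n - s) v ∈ W := by
  have hco : ∀ m, co m ((sbeQ P s).mulVec v) =
      P.mulVec (co (m - s) v) + (co (m - s + 1) v - P.mulVec (co (m - s + 1) v)) := by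
    intro m
    rw [sbeQ, Matrix.smul_mulVec, sbe_co_single_smul, Matrix.add_mulVec, map_add, sbe_co_C,
      Matrix.smul_mulVec, sbe_co_single_smul, sbe_co_C, Matrix.sub_mulVec, Matrix.one_mulVec,
      sub_neg_eq_add]
  simp only [sbe_mem_Fil_co, hco]
  constructor
  · intro h
    have hA : ∀ m < n - s, P.mulVec (co m v) = 0 ∧ co (m + 1) v = P.mulVec (co (m + 1) v) := by
      intro m hm
      have h3 := h (m + s) (by omega)
      rw [add_sub_cancel_right] at h3
      have h4 := congrArg P.mulVec h3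
      rw [Matrix.mulVec_add, Matrix.mulVec_sub, h2 _ (h1 _), h2 _ (h1 _), sub_self, add_zero,
        Matrix.mulVec_zero] at h4
      rw [h4, zero_add, sub_eq_zero] at h3
      exact ⟨h4, h3⟩
    refine ⟨fun m hm => ?_, ?_⟩
    · have h3 := (hA (m - 1) (by omega)).2
      rw [sub_add_cancel] at h3
      rw [h3, (hA m hm).1]
    · have h3 := (hA (n - s - 1) (by omega)).2
      rw [sub_add_cancel] at h3
      rw [h3]
      exact h1 _
  · rintro ⟨h3, h4⟩ m hm
    rw [h3 (m - s) (by omega), Matrix.mulVec_zero, zero_add, sub_eq_zero]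
    by_cases h5 : m - s + 1 < n - s
    · rw [h3 _ h5, Matrix.mulVec_zero]
    · rw [show m - s + 1 = n - s by omega, h2 _ h4]

theorem sbeQ_adm {P : Matrix (Fin N) (Fin N) (RatFunc k)} (hP : P * P = P) (s : ℤ)
    (Ut : Matrix (Fin N) (Fin N) (PowerSeries (RatFunc k)))
    (h : (1 - P) * Ut.map PowerSeries.constantCoeff * P = 0) :
    ∃ Ut' : Matrix (Fin N) (Fin N) (PowerSeries (RatFunc k)),
      sbeQ P s * Ut.map (HahnSeries.ofPowerSeries ℤ (RatFunc k)) =
        Ut'.map (HahnSeries.ofPowerSeries ℤ (RatFunc k)) * sbeQ P s := by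
  have h1 : sbeC P * sbeC P = sbeC P := by rw [← sbeC_mul, hP]
  have h2 : sbeC P * sbeC (1 - P) = 0 := by rw [← sbeC_mul, mul_sub, hP, mul_one, sub_self, sbeC_zero]
  have h3 : sbeC (1 - P) * sbeC P = 0 := by rw [← sbeC_mul, sub_mul, hP, one_mul, sub_self, sbeC_zero]
  have h4 : sbeC (1 - P) * sbeC (1 - P) = sbeC (1 - P) := by
    rw [← sbeC_mul, sub_mul, one_mul, mul_sub, hP, mul_one, sub_self, sub_zero]
  have h5 : sbeC P + sbeC (1 - P) = 1 := by rw [← sbeC_add, add_sub_cancel, sbeC_one]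
  set P0 : Matrix (Fin N) (Fin N) (PowerSeries (RatFunc k)) := P.map PowerSeries.C with hP0
  set P1 : Matrix (Fin N) (Fin N) (PowerSeries (RatFunc k)) := (1 - P).map PowerSeries.C with hP1
  have hz : (P1 * Ut * P0).map PowerSeries.constantCoeff = 0 := by
    rw [Matrix.map_mul, Matrix.map_mul, hP0, hP1, Matrix.map_map, Matrix.map_map, ← h]
    congr 1
  have hB : ∀ i j, ∃ b, (P1 * Ut * P0) i j = PowerSeries.X * b := fun i j =>
    PowerSeries.X_dvd_iff.2 (congrFun (congrFun hz i) j)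
  choose B hB using hB
  have hB' : (Matrix.of B).map (HahnSeries.ofPowerSeries ℤ (RatFunc k)) =
      (HahnSeries.single (-1) 1 : LL k) •
        (sbeC (1 - P) * Ut.map (HahnSeries.ofPowerSeries ℤ (RatFunc k)) * sbeC P) := by
    have : sbeC (1 - P) * Ut.map (HahnSeries.ofPowerSeries ℤ (RatFunc k)) * sbeC P =
        (P1 * Ut * P0).map (HahnSeries.ofPowerSeries ℤ (RatFunc k)) := by
      rw [Matrix.map_mul, Matrix.map_mul]
      rfl
    rw [this]
    ext1 i j
    simp only [Matrix.map_apply, Matrix.of_apply, Matrix.smul_apply, hB, map_mul,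
      HahnSeries.ofPowerSeries_X, smul_eq_mul, ← mul_assoc, HahnSeries.single_mul_single]
    simp
  refine ⟨P0 * Ut * P0 + (PowerSeries.X : PowerSeries (RatFunc k)) • (P0 * Ut * P1) + Matrix.of B +
    P1 * Ut * P1, ?_⟩
  have e : (P0 * Ut * P0 + (PowerSeries.X : PowerSeries (RatFunc k)) • (P0 * Ut * P1) +
      Matrix.of B + P1 * Ut * P1).map (HahnSeries.ofPowerSeries ℤ (RatFunc k)) =
      sbeC P * Ut.map (HahnSeries.ofPowerSeries ℤ (RatFunc k)) * sbeC P +
        (HahnSeries.single 1 1 : LL k) •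
          (sbeC P * Ut.map (HahnSeries.ofPowerSeries ℤ (RatFunc k)) * sbeC (1 - P)) +
        (HahnSeries.single (-1) 1 : LL k) •
          (sbeC (1 - P) * Ut.map (HahnSeries.ofPowerSeries ℤ (RatFunc k)) * sbeC P) +
        sbeC (1 - P) * Ut.map (HahnSeries.ofPowerSeries ℤ (RatFunc k)) * sbeC (1 - P) := by
    have a1 : ∀ A B : Matrix (Fin N) (Fin N) (PowerSeries (RatFunc k)),
        (A + B).map (HahnSeries.ofPowerSeries ℤ (RatFunc k)) =
          A.map (HahnSeries.ofPowerSeries ℤ (RatFunc k)) +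
            B.map (HahnSeries.ofPowerSeries ℤ (RatFunc k)) := by
      intro A B
      ext1 i j
      simp
    have a2 : ∀ A : Matrix (Fin N) (Fin N) (PowerSeries (RatFunc k)),
        ((PowerSeries.X : PowerSeries (RatFunc k)) • A).map
          (HahnSeries.ofPowerSeries ℤ (RatFunc k)) =
          (HahnSeries.single 1 1 : LL k) • A.map (HahnSeries.ofPowerSeries ℤ (RatFunc k)) := by
      intro A
      ext1 i j
      simp
    rw [a1, a1, a1, a2, hB']
    simp only [Matrix.map_mul]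
    rfl
  rw [e]
  exact sbe_abs_adm _ h1 h2 h3 h4 h5 (sbe_single_mul (by simp)) _

theorem sbe_proj (W : Submodule (RatFunc k) (WW k N)) :
    ∃ P : Matrix (Fin N) (Fin N) (RatFunc k), (∀ w, P.mulVec w ∈ W) ∧ ∀ w ∈ W, P.mulVec w = w := by
  obtain ⟨W', h⟩ := W.exists_isCompl
  refine ⟨LinearMap.toMatrix' (W.subtype ∘ₗ W.projectionOnto W' h), fun w => ?_, fun w hw => ?_⟩
  · rw [LinearMap.toMatrix'_mulVec]
    exact (W.projectionOnto W' h w).2
  · rw [LinearMap.toMatrix'_mulVec]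
    exact congrArg Subtype.val (Submodule.projectionOnto_apply_left h ⟨w, hw⟩)

theorem sbe_energy {ι : Type} [Finite ι] (U : ι → Matrix (Fin N) (Fin N) (LL k))
    (hc : ∀ i i', U i * U i' = U i' * U i) (e : ι → ℤ)
    (hint : ∀ i, IsIntegral (PowerSeries (RatFunc k))
      ((HahnSeries.single (-e i) 1 : LL k) • U i)) :
    ∃ (g : Matrix (Fin N) (Fin N) (LL k)) (Ut : ι → Matrix (Fin N) (Fin N) (PowerSeries (RatFunc k))),
      IsUnit g ∧
      (∀ i, g * U i = (HahnSeries.single (e i) 1 : LL k) •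
        ((Ut i).map (HahnSeries.ofPowerSeries ℤ (RatFunc k)) * g)) ∧
      ∀ W, MStb (fun i => (Ut i).map PowerSeries.constantCoeff) W →
        chi (capW (Gr (tw g)) W) ≤ finrank (RatFunc k) W ∧
          chi (capW (Gr (tw g)) W) ≤ chi (Gr (tw g)) := by
  let Adm : ℤ → Prop := fun E => ∃ (g : Matrix (Fin N) (Fin N) (LL k))
    (Ut : ι → Matrix (Fin N) (Fin N) (PowerSeries (RatFunc k))), IsUnit g ∧
      (∀ i, g * U i = (HahnSeries.single (e i) 1 : LL k) •
        ((Ut i).map (HahnSeries.ofPowerSeries ℤ (RatFunc k)) * g)) ∧ ∃ e', SbeHasE g e' E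
  have hex : ∃ E, Adm E := by
    obtain ⟨g, Ut, hg, h⟩ := sbe_conj (R := PowerSeries (RatFunc k)) (K := LL k)
      (fun i => (HahnSeries.single (-e i) 1 : LL k) • U i)
      (fun i i' => sbe_abs_comm _ _ (hc i i')) hint
    obtain ⟨E, _, hE⟩ := sbe_exists_hasE hg
    exact ⟨E, g, Ut, hg, fun i => sbe_abs_ini (sbe_single_mul (by simp)) (h i), _, hE⟩
  have hbdd : ∃ b : ℤ, ∀ E, Adm E → b ≤ E := by
    refine ⟨0, ?_⟩
    rintro E ⟨g, _, hg, _, _, hE⟩
    exact hE.nonneg hg
  obtain ⟨E, ⟨g, Ut, hg, hU, e0, hE⟩, hmin⟩ := Int.exists_least_of_bdd hbdd hex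
  obtain ⟨E', _, hE'⟩ := sbe_exists_hasE hg
  obtain rfl := (hE.unique hE').1
  refine ⟨g, Ut, hg, hU, fun W hW => ?_⟩
  obtain ⟨P, hP1, hP2⟩ := sbe_proj W
  have hPP : P * P = P := by
    refine Matrix.mulVec_injective ?_
    funext w
    rw [← Matrix.mulVec_mulVec, hP2 _ (hP1 w)]
  have hT : ∀ i, (1 - P) * (Ut i).map PowerSeries.constantCoeff * P = 0 := by
    intro i
    refine Matrix.mulVec_injective ?_
    funext w
    rw [← Matrix.mulVec_mulVec, ← Matrix.mulVec_mulVec, Matrix.sub_mulVec, Matrix.one_mulVec,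
      hP2 _ (hW i _ (hP1 w)), sub_self, Matrix.zero_mulVec]
  have hchi := ((sLat_tw g).gLat hg).hasChi W
  have key : ∀ s : ℤ, E ≤ E + 2 * ((1 - s) * chi (Gr (tw g)) + s * finrank (RatFunc k) W -
      chi (capW (Gr (tw g)) W)) + N * s * (s - 1) := by
    intro s
    apply hmin
    choose Ut' hUt' using fun i => sbeQ_adm hPP s (Ut i) (hT i)
    refine ⟨sbeQ P s * g, Ut', (sbeQ_isUnit hPP s).mul hg, fun i => sbe_abs_fin (hU i) (hUt' i),
      chi (Gr (tw g)) + N * (1 - s) - finrank (RatFunc k) W, ?_⟩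
    obtain ⟨n1, hn1⟩ := eventually_atTop.1 hE
    obtain ⟨n2, hn2⟩ := eventually_atTop.1 hchi
    refine eventually_atTop.2 ⟨max n1 n2 + s, fun n hn => ?_⟩
    have h1 := sbe_hh_mod hg (sbeQ_isUnit hPP s) W n (n - s) (sbeQ_mem_Fil hP1 hP2 s n)
    have h2 := hn1 (n - s + 1) (by omega)
    have h3 := hn2 (n - s) (by omega)
    have h4 : (hh (tw (sbeQ P s * g)) n : ℤ) + finrank k (capW (Gr (tw g)) W (n - s)) =
        hh (tw g) (n - s + 1) := by exact_mod_cast h1
    linear_combination 2 * h4 + h2 - 2 * h3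
  have k0 := key 0
  have k1 := key 1
  constructor <;> linarith

end Crest.Agent.R169
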