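import Crest.Agent.R169.SliceDef

/-!
Frobenius decomposition of power series and the graded module of a Frobenius twist.
-/

set_option autoImplicit false
set_option linter.unusedSectionVars false

namespace Crest.Agent.R169

open Module Filter Polynomial

variable {k : Type} [Field k] {N : ℕ}

section
variable (p : ℕ) [Fact p.Prime] [CharP k p]

theorem sbf_ps_pow (h : PowerSeries (RatFunc k)) (n : ℕ) :
    PowerSeries.coeff n (h ^ p) = if p ∣ n then (PowerSeries.coeff (n / p) h) ^ p else 0 := by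
  have hp : p ≠ 0 := (Fact.out : p.Prime).ne_zero
  have h1 : h ^ p = PowerSeries.map (frobenius (RatFunc k) p) (PowerSeries.expand p hp h) :=
    (MvPowerSeries.map_frobenius_expand p hp (f := h)).symm
  rw [h1, PowerSeries.coeff_map, PowerSeries.coeff_expand]
  split_ifs
  · rfl
  · simp

theorem sbf_ofPS_pow (h : PowerSeries (RatFunc k)) (m : ℤ) :
    ((HahnSeries.ofPowerSeries ℤ (RatFunc k) h) ^ p).coeff m =
      if (p : ℤ) ∣ m then ((HahnSeries.ofPowerSeries ℤ (RatFunc k) h).coeff (m / p)) ^ p else 0 := by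
  have hp : p ≠ 0 := (Fact.out : p.Prime).ne_zero
  have hp' : (0 : ℤ) < p := by exact_mod_cast Nat.pos_of_ne_zero hp
  rw [← map_pow]
  by_cases hm : m < 0
  · rw [coeff_ofPS_neg _ hm, coeff_ofPS_neg _ (Int.ediv_neg_of_neg_of_pos hm hp')]
    simp [hp]
  · obtain ⟨n, rfl⟩ := Int.eq_ofNat_of_zero_le (not_lt.1 hm)
    rw [HahnSeries.ofPowerSeries_apply_coeff, sbf_ps_pow, ← Int.natCast_div,
      HahnSeries.ofPowerSeries_apply_coeff]
    simp only [Int.natCast_dvd_natCast]

theorem sbf_coeff_single_mul (s : ℤ) (c : RatFunc k) (f : LL k) (m : ℤ) :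
    ((HahnSeries.single s c : LL k) * f).coeff m = c * f.coeff (m - s) := by
  have := HahnSeries.coeff_single_mul_add (r := c) (x := f) (a := m - s) (b := s)
  rwa [sub_add_cancel] at this

theorem sbf_LL_pow (f : LL k) (m : ℤ) :
    (f ^ p).coeff m = if (p : ℤ) ∣ m then (f.coeff (m / p)) ^ p else 0 := by
  have hp : p ≠ 0 := (Fact.out : p.Prime).ne_zero
  have hp' : (0 : ℤ) < p := by exact_mod_cast Nat.pos_of_ne_zero hp
  have h := LaurentSeries.single_order_mul_powerSeriesPart f
  generalize f.order = o at h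
  generalize LaurentSeries.powerSeriesPart f = h0 at h
  rw [← h, mul_pow, HahnSeries.single_pow, sbf_coeff_single_mul, sbf_coeff_single_mul, one_pow,
    one_mul, one_mul, sbf_ofPS_pow]
  have e1 : ((p : ℤ) ∣ m - p • o) ↔ (p : ℤ) ∣ m := by
    rw [nsmul_eq_mul]
    constructor
    · intro h1
      simpa using h1.add (dvd_mul_right (p : ℤ) o)
    · intro h1
      exact h1.sub (dvd_mul_right _ _)
  have e2 : (m - p • o) / p = m / p - o := by
    rw [nsmul_eq_mul, sub_eq_add_neg, ← mul_neg, Int.add_mul_ediv_left _ _ hp'.ne']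
    ring
  rw [e2]
  simp only [e1]

theorem sbf_mv_pow_smul (f : A3 k) (d : Fin 3 →₀ ℕ) :
    MvPowerSeries.coeff (p • d) (f ^ p) = (MvPowerSeries.coeff d f) ^ p := by
  have hp : p ≠ 0 := (Fact.out : p.Prime).ne_zero
  rw [← MvPowerSeries.map_frobenius_expand p hp, MvPowerSeries.coeff_map,
    MvPowerSeries.coeff_expand_smul]
  rfl

theorem sbf_mv_pow_not (f : A3 k) {d : Fin 3 →₀ ℕ} {j : Fin 3} (h : ¬ p ∣ d j) :
    MvPowerSeries.coeff d (f ^ p) = 0 := by
  have hp : p ≠ 0 := (Fact.out : p.Prime).ne_zero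
  rw [← MvPowerSeries.map_frobenius_expand p hp, MvPowerSeries.coeff_map,
    MvPowerSeries.coeff_expand_of_not_dvd p hp f h, map_zero]

/-- an exponent vector -/
noncomputable def sbfEx (r : Fin 3 → ℕ) : Fin 3 →₀ ℕ := Finsupp.equivFunOnFinite.symm r

@[simp] theorem sbfEx_apply (r : Fin 3 → ℕ) (j : Fin 3) : sbfEx r j = r j := rfl

theorem sbf_decomp [IsAlgClosed k] (a : A3 k) :
    ∃ b : (Fin 3 → ℕ) → A3 k, a = ∑ r ∈ Fintype.piFinset (fun _ : Fin 3 => Finset.range p),
      MvPowerSeries.monomial (sbfEx r) (1 : k) * b r ^ p := by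
  have hp : 0 < p := (Fact.out : p.Prime).pos
  have hroot : ∀ c : k, ∃ c' : k, c' ^ p = c := fun c => IsAlgClosed.exists_pow_nat_eq c hp
  choose rt hrt using hroot
  refine ⟨fun r => fun d => rt (MvPowerSeries.coeff (p • d + sbfEx r) a), ?_⟩
  ext m
  rw [map_sum, Finset.sum_eq_single (fun j => m j % p)]
  · rw [MvPowerSeries.coeff_monomial_mul, if_pos, one_mul]
    · have e : m - sbfEx (fun j => m j % p) = p • sbfEx (fun j => m j / p) := by
        ext j
        have := Nat.div_add_mod (m j) p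
        simp only [Finsupp.coe_tsub, Pi.sub_apply, sbfEx_apply, Finsupp.coe_smul, Pi.smul_apply,
          smul_eq_mul]
        omega
      rw [e, sbf_mv_pow_smul]
      change _ = rt _ ^ p
      rw [hrt]
      congr 2
      ext j
      have := Nat.div_add_mod (m j) p
      simp only [Finsupp.coe_add, Pi.add_apply, sbfEx_apply, Finsupp.coe_smul, Pi.smul_apply,
        smul_eq_mul]
      omega
    · intro j
      exact Nat.mod_le _ _
  · intro r hr hne
    rw [MvPowerSeries.coeff_monomial_mul]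
    split_ifs with hle
    · obtain ⟨j, hj⟩ := Function.ne_iff.1 hne
      rw [sbf_mv_pow_not p _ (j := j), mul_zero]
      intro hd
      apply hj
      have h1 : r j < p := by simpa using (Fintype.mem_piFinset.1 hr) j
      have h2 : r j ≤ m j := hle j
      simp only [Finsupp.coe_tsub, Pi.sub_apply, sbfEx_apply] at hd
      obtain ⟨c, hc⟩ := hd
      have h3 : m j = r j + p * c := by omega
      rw [h3, Nat.add_mul_mod_self_left, Nat.mod_eq_of_lt h1]
    · rfl
  · intro h
    exact absurd (Fintype.mem_piFinset.2 fun j => Finset.mem_range.2 (Nat.mod_lt _ hp)) h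

omit [Fact p.Prime] [CharP k p] in
theorem sbf_monomial (r : Fin 3 → ℕ) :
    (MvPowerSeries.monomial (sbfEx r) (1 : k) : A3 k) = zA ^ r 0 * xA ^ r 1 * yA ^ r 2 := by
  simp only [MvPowerSeries.X_pow_eq, MvPowerSeries.monomial_mul_monomial, mul_one]
  have : sbfEx r = Finsupp.single 0 (r 0) + Finsupp.single 1 (r 1) + Finsupp.single 2 (r 2) := by
    ext j
    fin_cases j <;> simp
  rw [this]

omit [Fact p.Prime] [CharP k p] in
theorem sbf_sl_xy (i l : ℕ) : sl k (xA ^ i * yA ^ l) =
    HahnSeries.single ((i : ℤ) + l) ((RatFunc.X : RatFunc k) ^ l) := by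
  rw [map_mul, map_pow, map_pow, sl_x, sl_y, HahnSeries.single_pow, HahnSeries.single_pow,
    HahnSeries.single_mul_single]
  simp

theorem sbf_sl_decomp [IsAlgClosed k] (a : A3 k) :
    ∃ b : ℕ → ℕ → A3 k, sl k a = ∑ i ∈ Finset.range p, ∑ l ∈ Finset.range p,
      HahnSeries.single ((i : ℤ) + l) ((RatFunc.X : RatFunc k) ^ l) * sl k (b i l) ^ p := by
  have hp : 0 < p := (Fact.out : p.Prime).pos
  obtain ⟨b, hb⟩ := sbf_decomp p a
  refine ⟨fun i l => b ![0, i, l], ?_⟩
  rw [hb, map_sum, ← Finset.sum_product']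
  symm
  refine Finset.sum_bij_ne_zero (fun il _ _ => ![0, il.1, il.2]) ?_ ?_ ?_ ?_
  · intro il h _
    rw [Finset.mem_product] at h
    rw [Fintype.mem_piFinset]
    intro j
    fin_cases j
    · simpa using hp
    · simpa using h.1
    · simpa using h.2
  · intro il _ _ il' _ _ h
    exact Prod.ext (congrFun h 1) (congrFun h 2)
  · intro r hr hne
    have h0 : r 0 = 0 := by
      by_contra h0
      apply hne
      rw [sbf_monomial, map_mul, map_mul, map_mul, map_pow, sl_z, zero_pow h0]
      simp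
    have hr' : ![0, r 1, r 2] = r := by
      ext j
      fin_cases j <;> simp [h0]
    refine ⟨(r 1, r 2), ?_, ?_, hr'⟩
    · rw [Finset.mem_product]
      exact ⟨Fintype.mem_piFinset.1 hr 1, Fintype.mem_piFinset.1 hr 2⟩
    · intro h
      apply hne
      rw [sbf_monomial, h0, pow_zero, one_mul, map_mul, sbf_sl_xy, map_pow (sl k)]
      simpa only [hr'] using h
  · intro il _ _
    rw [sbf_monomial]
    simp only [Matrix.cons_val_zero, pow_zero, one_mul, Matrix.cons_val_one, Matrix.cons_val]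
    rw [map_mul, sbf_sl_xy, map_pow (sl k)]

/-- entrywise Frobenius -/
noncomputable def sbfFr (u : Fin N → LL k) : Fin N → LL k := fun i => u i ^ p

theorem sbf_mulVec (g : Matrix (Fin N) (Fin N) (LL k)) (u : Fin N → LL k) :
    (g.map (· ^ p)).mulVec (sbfFr p u) = sbfFr p (g.mulVec u) := by
  funext i
  simp [sbfFr, Matrix.mulVec, dotProduct, sum_pow_char, mul_pow]

theorem sbf_co_Fr (s : ℤ) (c : RatFunc k) (u : Fin N → LL k) (m : ℤ) :
    co m ((HahnSeries.single s c : LL k) • sbfFr p u) =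
      if (p : ℤ) ∣ m - s then c • phi p (co ((m - s) / p) u) else 0 := by
  funext j
  simp only [co_apply, Pi.smul_apply, smul_eq_mul, sbfFr, sbf_coeff_single_mul, sbf_LL_pow]
  split_ifs <;> simp [phi, co_apply]

theorem sbf_co_sum (u : ℕ → ℕ → Fin N → LL k) (m : ℤ) :
    co m (∑ i ∈ Finset.range p, ∑ l ∈ Finset.range p,
      (HahnSeries.single ((i : ℤ) + l) ((RatFunc.X : RatFunc k) ^ l) : LL k) • sbfFr p (u i l)) =
      ∑ l ∈ Finset.range p, (RatFunc.X : RatFunc k) ^ l •
        phi p (co ((m - l) / p) (u ((m - l) % p).toNat l)) := by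
  have hp : (0 : ℤ) < p := by exact_mod_cast (Fact.out : p.Prime).pos
  rw [Finset.sum_comm, map_sum]
  refine Finset.sum_congr rfl fun l _ => ?_
  have h0 := Int.emod_nonneg (m - l) hp.ne'
  have h1 := Int.emod_lt_of_pos (m - l) hp
  have h2 := Int.mul_ediv_add_emod (m - l) p
  rw [map_sum, Finset.sum_eq_single ((m - l) % p).toNat]
  · have e : m - ((((m - l) % p).toNat : ℤ) + l) = p * ((m - l) / p) := by
      rw [Int.toNat_of_nonneg h0]
      linarith
    rw [sbf_co_Fr, e, if_pos (dvd_mul_right _ _), Int.mul_ediv_cancel_left _ hp.ne']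
  · intro i hi hne
    rw [sbf_co_Fr, if_neg]
    rintro ⟨c, hc⟩
    apply hne
    have hi' : (i : ℤ) < p := by exact_mod_cast Finset.mem_range.1 hi
    have e : m - l = i + p * c := by linarith
    rw [e, Int.add_mul_emod_self_left, Int.emod_eq_of_lt (by omega) hi', Int.toNat_natCast]
  · intro h
    exact absurd (Finset.mem_range.2 (by omega)) h

theorem sbf_indep (w : ℕ → WW k N)
    (h : ∑ l ∈ Finset.range p, (RatFunc.X : RatFunc k) ^ l • phi p (w l) = 0) :
    ∀ l < p, w l = 0 := by
  intro l hl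
  have hinj : Set.InjOn (fun l : ℕ => (l : k)) (Finset.range p : Finset ℕ) := by
    intro a ha b hb h
    exact CharP.natCast_injOn_Iio k p (by simpa using ha) (by simpa using hb) h
  have := eigen_sep (gdW (RatFunc.X : RatFunc k)) ⊥ (fun v hv => by
      rw [Submodule.mem_bot] at hv ⊢
      rw [hv, map_zero]) (fun l : ℕ => (l : k)) (Finset.range p) hinj
    (fun l => (RatFunc.X : RatFunc k) ^ l • phi p (w l)) (fun l _ => theta_eigen p l (w l))
    (by rw [Submodule.mem_bot]; exact h) l (Finset.mem_range.2 hl)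
  rw [Submodule.mem_bot, smul_eq_zero] at this
  rcases this with h1 | h1
  · exact absurd h1 (pow_ne_zero _ RatFunc.X_ne_zero)
  · exact phi_eq_zero p h1

theorem sbf_Gr_frob [IsAlgClosed k]
    (g : Matrix (Fin N) (Fin N) (LL k)) : Gr (tw (g.map (· ^ p))) = FG p (Gr (tw g)) := by
  have hp : (0 : ℤ) < p := by exact_mod_cast (Fact.out : p.Prime).pos
  funext n
  apply le_antisymm
  · intro w hw
    obtain ⟨v, ⟨a, rfl⟩, hF, rfl⟩ := mem_Gr.1 hw
    choose b hb using fun j => sbf_sl_decomp p (a j)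
    set u : ℕ → ℕ → Fin N → LL k := fun i l => g.mulVec fun j => sl k (b j i l) with hu
    have key : ((g.map (· ^ p)).mulVec fun j => sl k (a j)) =
        ∑ i ∈ Finset.range p, ∑ l ∈ Finset.range p,
          (HahnSeries.single ((i : ℤ) + l) ((RatFunc.X : RatFunc k) ^ l) : LL k) •
            sbfFr p (u i l) := by
      have e : (fun j => sl k (a j)) = ∑ i ∈ Finset.range p, ∑ l ∈ Finset.range p,
          (HahnSeries.single ((i : ℤ) + l) ((RatFunc.X : RatFunc k) ^ l) : LL k) •
            sbfFr p (fun j => sl k (b j i l)) := by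
        funext j
        rw [hb j]
        simp [sbfFr, Finset.sum_apply]
      rw [e, Matrix.mulVec_sum]
      refine Finset.sum_congr rfl fun i _ => ?_
      rw [Matrix.mulVec_sum]
      refine Finset.sum_congr rfl fun l _ => ?_
      rw [Matrix.mulVec_smul, sbf_mulVec]
    rw [key] at hF ⊢
    rw [sbf_co_sum]
    refine Submodule.sum_mem _ fun l hl => Submodule.subset_span
      ⟨l, Finset.mem_range.1 hl, _, mem_Gr.2 ⟨u ((n - l) % p).toNat l, ⟨_, rfl⟩, ?_, rfl⟩, rfl⟩
    intro j t ht
    have h0 := Int.emod_nonneg (n - l) hp.ne'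
    have h1 := Int.emod_lt_of_pos (n - l) hp
    have h2 := Int.mul_ediv_add_emod (n - l) p
    have hm : p * t + (n - l) % p + l < n := by nlinarith
    have h3 : co (p * t + (n - l) % p + l) (∑ i ∈ Finset.range p, ∑ l ∈ Finset.range p,
          (HahnSeries.single ((i : ℤ) + l) ((RatFunc.X : RatFunc k) ^ l) : LL k) •
            sbfFr p (u i l)) = 0 := funext fun j => hF j _ hm
    rw [sbf_co_sum] at h3
    have h4 := sbf_indep p _ h3 l (Finset.mem_range.1 hl)
    have e1 : p * t + (n - l) % p + l - l = (n - l) % p + p * t := by ring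
    rw [e1, Int.add_mul_ediv_left _ _ hp.ne', Int.ediv_eq_zero_of_lt h0 h1, zero_add,
      Int.add_mul_emod_self_left, Int.emod_emod_of_dvd _ dvd_rfl] at h4
    exact congrFun h4 j
  · refine Submodule.span_le.2 ?_
    rintro _ ⟨l, hl, v, hv, rfl⟩
    obtain ⟨u, ⟨a, rfl⟩, hF, rfl⟩ := mem_Gr.1 hv
    have h0 := Int.emod_nonneg (n - l) hp.ne'
    have h2 := Int.mul_ediv_add_emod (n - l) p
    have e : n - ((((n - l) % p).toNat : ℤ) + l) = p * ((n - l) / p) := by
      rw [Int.toNat_of_nonneg h0]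
      linarith
    refine mem_Gr.2 ⟨(HahnSeries.single ((((n - l) % p).toNat : ℤ) + l)
      ((RatFunc.X : RatFunc k) ^ l) : LL k) • sbfFr p (g.mulVec fun j => sl k (a j)),
      ⟨fun j => xA ^ ((n - l) % p).toNat * yA ^ l * a j ^ p, ?_⟩, ?_, ?_⟩
    · rw [← sbf_mulVec, ← Matrix.mulVec_smul]
      congr 1
      funext j
      rw [map_mul, sbf_sl_xy, map_pow (sl k)]
      rfl
    · intro j m hm
      have h5 := congrFun (sbf_co_Fr p ((((n - l) % p).toNat : ℤ) + l)
        ((RatFunc.X : RatFunc k) ^ l) (g.mulVec fun j => sl k (a j)) m) j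
      rw [co_apply] at h5
      rw [h5]
      split_ifs with hd
      · obtain ⟨c, hc⟩ := hd
        rw [hc, Int.mul_ediv_cancel_left _ hp.ne']
        have hc' : c < (n - l) / p := by
          by_contra hcon
          push Not at hcon
          nlinarith
        have : co c (g.mulVec fun j => sl k (a j)) = 0 := funext fun j => hF j c hc'
        rw [this, phi_zero, smul_zero]
        rfl
      · rfl
    · rw [sbf_co_Fr, e, if_pos (dvd_mul_right _ _), Int.mul_ediv_cancel_left _ hp.ne']

end

end Crest.Agent.R169
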