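import Crest.Agent.R169.SliceA
import Crest.Agent.R169.SliceB_En
import Crest.Agent.R169.SliceB_Frob

/-!
The minimising lattice (slopes in a window of width one) and the Frobenius pull-back.
-/

set_option autoImplicit false

namespace Crest.Agent.R169

open Module Filter Polynomial

variable {k : Type} [Field k] {N : ℕ}

/-- a stable valuation lattice for which all stable subspaces have slopes in a fixed window -/
theorem energy {ι : Type} [Finite ι] (U : ι → Matrix (Fin N) (Fin N) (LL k))
    (hc : ∀ i i', U i * U i' = U i' * U i) (e : ι → ℤ)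
    (hint : ∀ i, IsIntegral (PowerSeries (RatFunc k))
      ((HahnSeries.single (-e i) 1 : LL k) • U i)) :
    ∃ (g : Matrix (Fin N) (Fin N) (LL k)) (Ut : ι → Matrix (Fin N) (Fin N) (PowerSeries (RatFunc k))),
      IsUnit g ∧
      (∀ i, g * U i = (HahnSeries.single (e i) 1 : LL k) •
        ((Ut i).map (HahnSeries.ofPowerSeries ℤ (RatFunc k)) * g)) ∧
      ∀ W, MStb (fun i => (Ut i).map PowerSeries.constantCoeff) W →
        chi (capW (Gr (tw g)) W) ≤ finrank (RatFunc k) W ∧
          chi (capW (Gr (tw g)) W) ≤ chi (Gr (tw g)) :=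
  sbe_energy U hc e hint

/-- the graded module of the Frobenius twist -/
theorem Gr_frob (p : ℕ) [Fact p.Prime] [CharP k p] [IsAlgClosed k]
    (g : Matrix (Fin N) (Fin N) (LL k)) : Gr (tw (g.map (· ^ p))) = FG p (Gr (tw g)) :=
  sbf_Gr_frob p g

end Crest.Agent.R169
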