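import Crest.Agent.R169.CtxDef
import Crest.Agent.R169.Amb
import Crest.Agent.R169.SliceB
import Crest.Agent.R169.Frob
import Crest.Agent.R169.BuildAux

/-!
Construction of the characteristic `p` context from a matrix solution of the relations.
-/

set_option autoImplicit false

namespace Crest.Agent.R169

open Module Filter Polynomial

section
variable {k : Type} [Field k] {m N : ℕ}

theorem Rel.mapMatrix {A B : Type} [CommRing A] [CommRing B] (f : A →+* B) {X Y Z : A}
    {U : Var m → Matrix (Fin N) (Fin N) A}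
    (hU : Rel m (Matrix.scalar (Fin N) X) (Matrix.scalar (Fin N) Y) (Matrix.scalar (Fin N) Z) U) :
    Rel m (algebraMap B (Matrix (Fin N) (Fin N) B) (f X))
      (algebraMap B (Matrix (Fin N) (Fin N) B) (f Y))
      (algebraMap B (Matrix (Fin N) (Fin N) B) (f Z)) (fun v => (U v).map f) := by
  have h := hU.map (f.mapMatrix : Matrix (Fin N) (Fin N) A →+* Matrix (Fin N) (Fin N) B)
  have key : ∀ a : A, (f.mapMatrix : Matrix (Fin N) (Fin N) A →+* Matrix (Fin N) (Fin N) B)
      (Matrix.scalar (Fin N) a) = algebraMap B (Matrix (Fin N) (Fin N) B) (f a) := by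
    intro a
    ext i l
    simp only [RingHom.mapMatrix_apply, Matrix.map_apply, Matrix.scalar_apply,
      Matrix.algebraMap_matrix_apply, Matrix.diagonal_apply]
    split_ifs <;> simp
  rw [key, key, key] at h
  exact h

theorem map_mon_matrix {A B : Type} [CommRing A] [CommRing B] (f : A →+* B)
    (U : Var m → Matrix (Fin N) (Fin N) A) (v : Gen m) :
    (mon U v).map f = mon (fun a => (U a).map f) v :=
  map_mon (f.mapMatrix : Matrix (Fin N) (Fin N) A →+* Matrix (Fin N) (Fin N) B) U v

/-- the slices of the monomials commute and are integral after normalisation -/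
theorem slice_mon (U : Var m → Matrix (Fin N) (Fin N) (A3 k))
    (hU : Rel m (Matrix.scalar (Fin N) (xA : A3 k)) (Matrix.scalar (Fin N) (YA k m))
      (Matrix.scalar (Fin N) (yA : A3 k)) U) :
    (∀ v v' : Gen m, (mon U v).map (sl k) * (mon U v').map (sl k) =
      (mon U v').map (sl k) * (mon U v).map (sl k)) ∧
    ∀ v : Gen m, IsIntegral (PowerSeries (RatFunc k))
      ((HahnSeries.single (-(gdeg v : ℤ)) 1 : LL k) • (mon U v).map (sl k)) := by
  have hR := hU.mapMatrix (sl k)
  obtain ⟨O, _, _, ρ, φ, -, hρ, hφ, -⟩ := exists_comm_alg (fun v => (U v).map (sl k)) hR.comm 0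
    (by simp) (fun v => by ext; simp)
  have hmon : ∀ v, ρ (mon φ v) = (mon U v).map (sl k) := by
    intro v
    rw [map_mon, map_mon_matrix]; simp only [hφ]
  refine ⟨fun v v' => by rw [← hmon, ← hmon, ← map_mul, ← map_mul, mul_comm], fun v => ?_⟩
  have hO : Rel m (algebraMap (LL k) O (sl k xA)) (algebraMap (LL k) O (sl k (YA k m)))
      (algebraMap (LL k) O (sl k yA)) φ := by
    refine Rel.of_injective ρ.toRingHom hρ ?_
    simpa only [AlgHom.toRingHom_eq_coe, RingHom.coe_coe, AlgHom.commutes, hφ] using hR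
  letI : Algebra (PowerSeries (RatFunc k)) O :=
    ((algebraMap (LL k) O).comp (algebraMap (PowerSeries (RatFunc k)) (LL k))).toAlgebra
  haveI : IsScalarTower (PowerSeries (RatFunc k)) (LL k) O :=
    IsScalarTower.of_algebraMap_eq fun _ => rfl
  have hI : ∀ {a : A3 k} {P : k[X]}, HomA a 1 P → IsIntegral (PowerSeries (RatFunc k))
      (algebraMap (LL k) O (HahnSeries.single (-1) 1) * algebraMap (LL k) O (sl k a)) := by
    intro a P ha
    rw [← map_mul, ha, HahnSeries.single_mul_single, one_mul, neg_add_cancel]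
    have : (HahnSeries.single 0 (algebraMap k[X] (RatFunc k) P) : LL k) =
        algebraMap (PowerSeries (RatFunc k)) (LL k)
          (PowerSeries.C (algebraMap k[X] (RatFunc k) P)) := by
      rw [LaurentSeries.coe_algebraMap, HahnSeries.ofPowerSeries_C]; rfl
    rw [this, ← IsScalarTower.algebraMap_apply]
    exact isIntegral_algebraMap
  have h1 := (integral_mon hO (hI homA_x) (hI homA_Y) (hI homA_y) v).map
    (ρ.restrictScalars (PowerSeries (RatFunc k)))
  rw [AlgHom.restrictScalars_apply, map_mul, hmon, ← map_pow, AlgHom.commutes,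
    HahnSeries.single_pow, ← Algebra.smul_def] at h1
  simpa using h1

/-- the symbol of the Frobenius twist of a matrix -/
theorem hasSymb_frob [Big k m] (p : ℕ) [Fact p.Prime] [CharP k p]
    (M : Matrix (Fin N) (Fin N) (A3 k)) (g : Matrix (Fin N) (Fin N) (LL k)) (e : ℤ)
    (Ut : Matrix (Fin N) (Fin N) (PowerSeries (RatFunc k)))
    (h : g * M.map (sl k) = (HahnSeries.single e 1 : LL k) •
      (Ut.map (HahnSeries.ofPowerSeries ℤ (RatFunc k)) * g)) :
    HasSymb (m := m) (g.map (· ^ p))
      (fun ξ => (M.map ((algebraMap (A3 k) (RR k m)).comp (frobenius (A3 k) p))).mulVec ξ) (p * e)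
      ((Ut.map PowerSeries.constantCoeff).map (· ^ p)).mulVec := by
  have h1 : g.map (· ^ p) * (M.map (sl k)).map (· ^ p) = (HahnSeries.single (p * e) 1 : LL k) •
      ((Ut.map (· ^ p)).map (HahnSeries.ofPowerSeries ℤ (RatFunc k)) * g.map (· ^ p)) := by
    have h2 := congrArg (fun A => A.map (frobenius (LL k) p)) h
    simp only [Matrix.map_mul] at h2
    rw [Matrix.map_smul' _ _ _ (map_mul _), Matrix.map_mul] at h2
    have h3 : (Ut.map (HahnSeries.ofPowerSeries ℤ (RatFunc k))).map (frobenius (LL k) p) =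
        (Ut.map (· ^ p)).map (HahnSeries.ofPowerSeries ℤ (RatFunc k)) := by
      ext1 i l; simp [frobenius_def]
    have h4 : frobenius (LL k) p (HahnSeries.single e 1) = HahnSeries.single (p * e) 1 := by
      rw [frobenius_def, HahnSeries.single_pow]; simp
    rw [h3, h4] at h2
    exact h2
  have h5 : ∀ ξ : VV k m N, piV (g.map (· ^ p))
      ((M.map ((algebraMap (A3 k) (RR k m)).comp (frobenius (A3 k) p))).mulVec ξ) =
      (HahnSeries.single (p * e) 1 : LL k) •
        ((Ut.map (· ^ p)).map (HahnSeries.ofPowerSeries ℤ (RatFunc k))).mulVec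
          (piV (g.map (· ^ p)) ξ) := by
    intro ξ
    rw [piV_apply, piV_apply, Matrix.mulVec_mulVec, ← Matrix.smul_mulVec, ← h1,
      ← Matrix.mulVec_mulVec]
    congr 1
    ext1 i
    simp [Matrix.mulVec, dotProduct, slR_algebraMap, frobenius_def]
  intro n ξ hξ
  obtain ⟨h6, h7⟩ := mulVec_Fil (Ut.map (· ^ p)) hξ
  obtain ⟨h8, h9⟩ := single_smul_Fil (p * e) 1 h6
  refine ⟨?_, ?_⟩
  · change piV _ _ ∈ Fil k N _
    rw [h5]; exact h8
  · rw [cV_apply, h5, h9, h7, one_smul, cV_apply]
    congr 1
    ext1 i l; simp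

end

theorem build {k : Type} [Field k] {m N : ℕ} [Big k m] (hN : 0 < N) (p j : ℕ) (hp : p.Prime)
    (hpj : p = 2 * j + 1) [CharP k p] (U : Var m → Matrix (Fin N) (Fin N) (A3 k))
    (hU : Rel m (Matrix.scalar (Fin N) (xA : A3 k)) (Matrix.scalar (Fin N) (YA k m))
      (Matrix.scalar (Fin N) (yA : A3 k)) U) :
    ∃ (O : Type) (_ : CommRing O) (_ : Algebra (A3 k) O) (_ : Module O (VV k m N))
      (_ : IsScalarTower (A3 k) O (VV k m N)) (cx : Ctx k m N O)
      (g : Matrix (Fin N) (Fin N) (LL k)) (T : Gen m → Matrix (Fin N) (Fin N) (RatFunc k)),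
      cx.p = p ∧ cx.j = j ∧ IsUnit g ∧ cx.g = g.map (· ^ p) ∧
      cx.Φ = (fun v => (T v).map (· ^ p)) ∧
      ∀ W, MStb T W → chi (capW (Gr (tw g)) W) ≤ finrank (RatFunc k) W ∧
        chi (capW (Gr (tw g)) W) ≤ chi (Gr (tw g)) := by
  haveI : Fact p.Prime := ⟨hp⟩
  obtain ⟨hc, hint⟩ := slice_mon U hU
  obtain ⟨g, Ut, hg, hgU, hchi⟩ := energy (fun v : Gen m => (mon U v).map (sl k)) hc
    (fun v => (gdeg v : ℤ)) hint
  let fr : A3 k →+* RR k m := (algebraMap (A3 k) (RR k m)).comp (frobenius (A3 k) p)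
  have hfr : ∀ a, fr a = algebraMap (A3 k) (RR k m) a ^ p := fun a => by
    simp [fr, frobenius_def]
  have hR := hU.mapMatrix fr
  have hpR : (p : RR k m) = 0 := by
    rw [← map_natCast (algebraMap (A3 k) (RR k m)), CharP.cast_eq_zero, map_zero]
  obtain ⟨O, _, _, ρ, φ, d, hρ, hφ, hd⟩ := exists_comm_alg (fun v => (U v).map fr) hR.comm (dR k m)
    dR_mul (fun v => by
      ext i l
      simp only [Matrix.map_apply, hfr, Matrix.zero_apply]
      exact der_pow_char _ dR_mul hp.pos hpR _)
  letI : Algebra (A3 k) O :=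
    ((algebraMap (RR k m) O).comp (algebraMap (A3 k) (RR k m))).toAlgebra
  have halg : ∀ a, algebraMap (A3 k) O a = algebraMap (RR k m) O (algebraMap (A3 k) (RR k m) a) :=
    fun _ => rfl
  letI : Module O (VV k m N) := vecModule ρ.toRingHom
  have hsm : ∀ (t : O) (ξ : VV k m N), t • ξ = (ρ t).mulVec ξ := fun _ _ => rfl
  haveI : IsScalarTower (A3 k) O (VV k m N) := ⟨fun a t ξ => by
    rw [hsm, hsm, Algebra.smul_def, map_mul, halg, AlgHom.commutes, ← Algebra.smul_def,
      Matrix.smul_mulVec, algebraMap_smul]⟩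
  haveI : Nontrivial (RR k m) := (slR k m).domain_nontrivial
  haveI : Nonempty (Fin N) := ⟨⟨0, hN⟩⟩
  haveI : Nontrivial O := ρ.toRingHom.domain_nontrivial
  let ι : k →+* O := (algebraMap (A3 k) O).comp (algebraMap k (A3 k))
  haveI : CharP O p := charP_of_injective_ringHom (f := ι) ι.injective p
  have hunit : ∀ f : Fac m, IsUnit (algebraMap (A3 k) O (ff k f)) := by
    intro f
    rw [halg]
    refine IsUnit.map _ (isUnit_of_dvd_unit (map_dvd _ ?_)
      (IsLocalization.Away.algebraMap_isUnit (delta k m)))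
    exact Finset.dvd_prod_of_mem _ (Finset.mem_univ f)
  have hO : Rel m (algebraMap (A3 k) O xA ^ p) (algebraMap (A3 k) O (YA k m) ^ p)
      (algebraMap (A3 k) O yA ^ p) φ := by
    refine Rel.of_injective ρ.toRingHom hρ ?_
    simpa only [AlgHom.toRingHom_eq_coe, RingHom.coe_coe, AlgHom.commutes, hφ, halg, hfr,
      map_pow] using hR
  obtain ⟨u, hu, hup⟩ := exists_root m p j hp hpj _ _ _ φ hO (hunit .y)
    (by simpa [ff, map_ofNat] using hunit .q) (fun i => by simpa [ff] using hunit (.a i))
    (fun i => by simpa [ff] using hunit (.b i)) (fun i => by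
      rw [← map_natCast ι]
      refine IsUnit.map _ (IsUnit.mk0 _ ?_)
      have h1 := Big.ne (k := k) (m := m) ((i : ℕ) + 1 : ℕ) (by omega) (by
        have h2 := i.2
        have h3 := pc_lt (em i)
        have h4 : pc (em i) = 1 + (((i : ℕ) : ℤ) + 1) ^ 2 := by simp [pc, em]
        rw [abs_of_nonneg (by positivity)]
        push_cast
        nlinarith)
      exact_mod_cast h1)
  have hmon : ∀ v, ρ (mon u v ^ p) = (mon U v).map fr := by
    intro v
    have h1 : mon u v ^ p = mon φ v := by
      rw [← frobenius_def, map_mon]; simp only [frobenius_def, hup]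
    rw [h1, map_mon, map_mon_matrix]; simp only [hφ]
  have hd0 : d 0 = 0 := hρ (by rw [hd, map_zero]; exact Matrix.map_zero _ (map_zero _))
  have hdadd : ∀ a b, d (a + b) = d a + d b := fun a b => hρ (by
    rw [map_add, hd, hd, hd, map_add, Matrix.map_add _ (map_add _)])
  refine ⟨O, inferInstance, inferInstance, inferInstance, inferInstance,
    { p := p, j := j, hp := hp, hpj := hpj, chark := inferInstance, charO := inferInstance
      g := g.map (· ^ p)
      hg := hg.map (frobenius (LL k) p).mapMatrix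
      Stb := fun W => MStb (fun v => ((Ut v).map PowerSeries.constantCoeff).map (· ^ p)) W
      Stb_top := fun _ _ _ => trivial
      d := ⟨⟨d, hd0⟩, hdadd⟩
      hd := fun t ξ => ?_
      d_mul := fun a b => hρ ?_
      d_alg := fun a => hρ ?_
      unit_ff := hunit
      symb_d := hasSymb_dV _ fun i l =>
        der_pow_char _ dL_mul hp.pos (CharP.cast_eq_zero _ _) _
      u := u
      rel := hu
      hup := fun v ξ hξ i => ?_
      Φ := fun v => ((Ut v).map PowerSeries.constantCoeff).map (· ^ p)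
      hΦ := fun v => ?_
      hStb := fun W => Iff.rfl },
    g, fun v => (Ut v).map PowerSeries.constantCoeff, rfl, rfl, hg, rfl, rfl, hchi⟩
  · change dV (t • ξ) = d t • ξ + t • dV ξ
    rw [hsm, hsm, hsm, hd]
    ext1 i
    simp only [dV_apply, Matrix.mulVec, dotProduct, map_sum, dR_mul, Pi.add_apply,
      Matrix.map_apply, Finset.sum_add_distrib]
    rw [add_comm]
    congr 1
    exact Finset.sum_congr rfl fun _ _ => mul_comm _ _
  · change ρ (d (a * b)) = ρ (a * d b + b * d a)
    rw [mul_comm b, map_add, map_mul, map_mul, hd, hd, hd, map_mul, map_der_mul _ dR_mul]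
  · change ρ (d (algebraMap (A3 k) O a)) = _
    rw [hd, halg, halg, AlgHom.commutes, AlgHom.commutes, map_der_scalar, dR_algebraMap]
  · rw [hup, hsm, hφ]
    choose a ha using hξ
    refine ⟨∑ l, U v i l ^ p * a l, ?_⟩
    simp [Matrix.mulVec, dotProduct, hfr, ha]
  · simp only [hsm, hmon]
    exact hasSymb_frob p (mon U v) g _ (Ut v) (hgU v)

end Crest.Agent.R169
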