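import Crest.Agent.R169.AmbDef

/-!
The generators of integral degree and the full characteristic `p` context.
-/

set_option autoImplicit false
set_option linter.unusedSectionVars false

namespace Crest.Agent.R169

open Module Filter Polynomial

/-- monomials of integral degree -/
inductive Gen (m : ℕ) : Type
  | e01 : Gen m
  | e10 : Gen m
  | ss : P m → P m → P m → P m → Gen m
  | th : (Fin (4 * m) → Bool) → Gen m
  | om : (Fin (4 * m) → Bool) → Gen m
  deriving DecidableEq, Fintype

/-- the word of a monomial -/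
def gl {m : ℕ} : Gen m → List (Var m)
  | .e01 => [.e01]
  | .e10 => [.e10]
  | .ss i l i' l' => [.s i l, .s i' l']
  | .th J => List.ofFn fun i => .mu (J i) i
  | .om J => .w :: .s 0 0 :: List.ofFn fun i => .mu (J i) i

/-- the degree of a monomial -/
def gdeg {m : ℕ} : Gen m → ℕ
  | .e01 => 1
  | .e10 => 1
  | .ss _ _ _ _ => 1
  | .th _ => m
  | .om _ => m + 1

/-- the value of a monomial -/
def mon {m : ℕ} {M : Type*} [Monoid M] (u : Var m → M) (v : Gen m) : M := ((gl v).map u).prod

theorem map_mon {m : ℕ} {M M' F : Type*} [Monoid M] [Monoid M'] [FunLike F M M']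
    [MonoidHomClass F M M'] (φ : F) (u : Var m → M) (v : Gen m) :
    φ (mon u v) = mon (fun a => φ (u a)) v := by
  unfold mon
  rw [map_list_prod, List.map_map]; rfl

section
variable {m : ℕ} {M : Type*} [CommRing M] (u : Var m → M)

/-- `θ_J` -/
def th (J : Fin (4 * m) → Bool) : M := ∏ i, u (.mu (J i) i)

/-- `ω_J` -/
def om (J : Fin (4 * m) → Bool) : M := u .w * u (.s 0 0) * th u J

/-- `α` -/
def al : M := ∏ i : Fin (4 * m), u (.s (em i) 0)

/-- `ν` -/
def nu : M := ∏ i : Fin (4 * m), u (.s 0 (em i))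

/-- `h_±` -/
def hs (ε : Bool) : M := al u + ((sg ε : ℤ) : M) * nu u

theorem mon_e01 : mon u .e01 = u .e01 := by simp [mon, gl]
theorem mon_e10 : mon u .e10 = u .e10 := by simp [mon, gl]
theorem mon_ss (i l i' l' : P m) : mon u (.ss i l i' l') = u (.s i l) * u (.s i' l') := by
  simp [mon, gl]
theorem mon_th (J : Fin (4 * m) → Bool) : mon u (.th J) = th u J := by
  simp [mon, gl, th, List.map_ofFn, List.prod_ofFn]
theorem mon_om (J : Fin (4 * m) → Bool) : mon u (.om J) = om u J := by
  simp [mon, gl, om, th, List.map_ofFn, List.prod_ofFn, mul_assoc]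

end

/-- the sign of `J` -/
def sgn {m : ℕ} (J : Fin (4 * m) → Bool) : ℤ := ∏ i, sg (J i)

/-- the full context -/
structure Ctx (k : Type) [Field k] (m N : ℕ) [Big k m] (O : Type) [CommRing O] [Algebra (A3 k) O]
    [Module O (VV k m N)] [IsScalarTower (A3 k) O (VV k m N)] extends Cx k m N O where
  u : Var m → O
  rel : Rel m (algebraMap (A3 k) O xA) (algebraMap (A3 k) O (YA k m)) (algebraMap (A3 k) O yA) u
  hup : ∀ v, u v ^ p ∈ mult O (M0 k m N)
  Φ : Gen m → Matrix (Fin N) (Fin N) (RatFunc k)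
  hΦ : ∀ v, HasSymb g (fun ξ : VV k m N => mon u v ^ p • ξ) (p * gdeg v) (Φ v).mulVec
  hStb : ∀ W, Stb W ↔ MStb Φ W

end Crest.Agent.R169
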