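import Crest.Agent.R169.Idx

/-!
Graded modules over `k[x, y]` inside a vector space over `κ = k(λ)` (`x` acts as the identity,
`y` as multiplication by `λ`), their Hilbert polynomials, Frobenius pull-back, and the main
bound on the projective line.
-/

set_option autoImplicit false
set_option linter.style.haveILetI false
set_option linter.unusedVariables false
set_option linter.unusedSectionVars false

namespace Crest.Agent.R169

open Module Filter Polynomial

section General
variable {k : Type} [Field k] {V : Type} [AddCommGroup V] [Module (RatFunc k) V] [Module k V]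
  [IsScalarTower k (RatFunc k) V]

/-- the union of all graded pieces -/
def Aff (G : ℤ → Submodule k V) : Submodule k V := ⨆ n, G n

/-- a finitely generated graded `k[x,y]`-module spanning `V` -/
structure GLat (G : ℤ → Submodule k V) : Prop where
  mono : ∀ n, G n ≤ G (n + 1)
  smulX : ∀ n, ∀ v ∈ G n, (RatFunc.X : RatFunc k) • v ∈ G (n + 1)
  fin : ∀ n, FiniteDimensional k (G n)
  gen : ∀ᶠ n in atTop, ∀ v ∈ G (n + 1), ∃ a ∈ G n, ∃ b ∈ G n, v = a + (RatFunc.X : RatFunc k) • b
  spans : Submodule.span (RatFunc k) (Aff G : Set V) = ⊤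

/-- the Hilbert polynomial is `r n + e` -/
def HasChi (G : ℤ → Submodule k V) (r e : ℤ) : Prop :=
  ∀ᶠ n : ℤ in atTop, (finrank k (G n) : ℤ) = r * n + e

open Classical in
/-- the constant term of the Hilbert polynomial -/
noncomputable def chi (G : ℤ → Submodule k V) : ℤ :=
  if h : ∃ re : ℤ × ℤ, HasChi G re.1 re.2 then h.choose.2 else 0

/-- intersection with a `κ`-subspace -/
noncomputable def capW (G : ℤ → Submodule k V) (W : Submodule (RatFunc k) V) : ℤ → Submodule k V :=
  fun n => G n ⊓ W.restrictScalars k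

omit [Module (RatFunc k) V] [IsScalarTower k (RatFunc k) V] in
theorem HasChi.unique {G : ℤ → Submodule k V} {r e r' e' : ℤ} (h : HasChi G r e)
    (h' : HasChi G r' e') : r = r' ∧ e = e' := by
  obtain ⟨n, hn⟩ := eventually_atTop.1 (h.and h')
  have h1 := hn n le_rfl
  have h2 := hn (n + 1) (by omega)
  have h3 : r = r' := by linarith [h1.1, h1.2, h2.1, h2.2]
  subst h3
  exact ⟨rfl, by linarith [h1.1, h1.2]⟩

omit [Module (RatFunc k) V] [IsScalarTower k (RatFunc k) V] in
theorem HasChi.chi_eq {G : ℤ → Submodule k V} {r e : ℤ} (h : HasChi G r e) : chi G = e := by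
  have h0 : ∃ re : ℤ × ℤ, HasChi G re.1 re.2 := ⟨(r, e), h⟩
  unfold chi
  rw [dif_pos h0]
  exact (h0.choose_spec.unique h).2

@[simp] theorem capW_top (G : ℤ → Submodule k V) : capW G ⊤ = G := by
  funext n; simp [capW]

omit [Module (RatFunc k) V] [IsScalarTower k (RatFunc k) V] in
theorem le_Aff (G : ℤ → Submodule k V) (n : ℤ) : G n ≤ Aff G := le_iSup G n

omit [Module (RatFunc k) V] [IsScalarTower k (RatFunc k) V] in
theorem mem_Aff {G : ℤ → Submodule k V} (hG : ∀ n, G n ≤ G (n + 1)) {v : V} :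
    v ∈ Aff G ↔ ∃ n, v ∈ G n :=
  Submodule.mem_iSup_of_directed G (monotone_int_of_le_succ hG).directed_le

omit [IsScalarTower k (RatFunc k) V] in
theorem GLat.monotone {G : ℤ → Submodule k V} (hG : GLat G) : Monotone G :=
  monotone_int_of_le_succ hG.mono

variable (k V) in
/-- multiplication by `λ` -/
noncomputable def mulX : V →ₗ[k] V :=
  (LinearMap.lsmul (RatFunc k) V (RatFunc.X : RatFunc k)).restrictScalars k

@[simp] theorem mulX_apply (v : V) : mulX k V v = (RatFunc.X : RatFunc k) • v := rfl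

theorem smul_poly_eq (g : k[X]) (v : V) (d : ℕ) (hd : g.natDegree < d) :
    algebraMap k[X] (RatFunc k) g • v =
      ∑ i ∈ Finset.range d, g.coeff i • ((RatFunc.X : RatFunc k) ^ i • v) := by
  conv_lhs => rw [g.as_sum_range' d hd]
  rw [map_sum, Finset.sum_smul]
  refine Finset.sum_congr rfl fun i _ => ?_
  rw [← C_mul_X_pow_eq_monomial, map_mul, map_pow, RatFunc.algebraMap_X, RatFunc.algebraMap_C,
    mul_smul, ← RatFunc.algebraMap_eq_C, algebraMap_smul]

omit [IsScalarTower k (RatFunc k) V] in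
theorem GLat.smul_pow {G : ℤ → Submodule k V} (hG : GLat G) (i : ℕ) (n : ℤ) (v : V)
    (hv : v ∈ G n) : (RatFunc.X : RatFunc k) ^ i • v ∈ G (n + i) := by
  induction i with
  | zero => simpa using hv
  | succ i ih =>
    rw [pow_succ', mul_smul]
    have := hG.smulX _ _ ih
    push_cast
    rwa [← add_assoc]

/-- multiplication by a polynomial of degree at most `d` raises the degree by `d` -/
theorem GLat.smul_poly {G : ℤ → Submodule k V} (hG : GLat G) (g : k[X]) (d : ℕ)
    (hd : g.natDegree ≤ d) (n : ℤ) (v : V) (hv : v ∈ G n) :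
    algebraMap k[X] (RatFunc k) g • v ∈ G (n + d) := by
  rw [smul_poly_eq g v (d + 1) (by omega)]
  refine Submodule.sum_mem _ fun i hi => Submodule.smul_mem _ _ ?_
  have hi' := Finset.mem_range.1 hi
  exact hG.monotone (by omega) (hG.smul_pow i n v hv)

theorem le_of_smulX (U : Submodule k V) [FiniteDimensional k U] (D : Submodule (RatFunc k) V)
    (h : ∀ v ∈ U, ∃ u ∈ U, (RatFunc.X : RatFunc k) • v - u ∈ D) : ∀ v ∈ U, v ∈ D := by
  let q : V →ₗ[k] (V ⧸ D) := D.mkQ.restrictScalars k
  let Ub : Submodule k (V ⧸ D) := U.map q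
  have hX : ∀ w ∈ Ub, mulX k (V ⧸ D) w ∈ Ub := by
    rintro _ ⟨v, hv, rfl⟩
    obtain ⟨u, hu, huv⟩ := h v hv
    refine ⟨u, hu, ?_⟩
    change D.mkQ u = (RatFunc.X : RatFunc k) • D.mkQ v
    rw [← map_smul, Submodule.mkQ_apply, Submodule.mkQ_apply, eq_comm, Submodule.Quotient.eq]
    exact huv
  let f : Module.End k Ub := (mulX k (V ⧸ D)).restrict hX
  obtain ⟨P, hP, hP0⟩ := LinearMap.exists_monic_and_aeval_eq_zero k f
  have hpow : ∀ (i : ℕ) (w : Ub), ((f ^ i) w : V ⧸ D) = (RatFunc.X : RatFunc k) ^ i • (w : V ⧸ D) := by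
    intro i
    induction i with
    | zero => intro w; simp
    | succ i ih =>
      intro w
      rw [pow_succ', Module.End.mul_apply, pow_succ', mul_smul, ← ih]
      rfl
  intro v hv
  have h1 : algebraMap k[X] (RatFunc k) P • (q v) = 0 := by
    have h2 := congrArg (fun F : Module.End k Ub => ((F ⟨q v, v, hv, rfl⟩ : Ub) : V ⧸ D)) hP0
    rw [aeval_eq_sum_range] at h2
    rw [smul_poly_eq P (q v) (P.natDegree + 1) (by omega)]
    simpa [hpow] using h2
  have h3 : algebraMap k[X] (RatFunc k) P ≠ 0 := by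
    simpa using hP.ne_zero
  have h4 : q v = 0 := (smul_eq_zero.1 h1).resolve_left h3
  simpa [q] using h4

omit [Module (RatFunc k) V] [IsScalarTower k (RatFunc k) V] in
theorem exists_compl_sub {A B : Submodule k V} (h : B ≤ A) :
    ∃ C, C ≤ A ∧ B ⊓ C = ⊥ ∧ B ⊔ C = A := by
  obtain ⟨C, hC⟩ := B.exists_isCompl
  refine ⟨C ⊓ A, inf_le_right, ?_, ?_⟩
  · rw [← inf_assoc, hC.inf_eq_bot, bot_inf_eq]
  · rw [← sup_inf_assoc_of_le C h, hC.sup_eq_top, top_inf_eq]

/-- increment lemma: `dim (U + λ U) ≥ dim U + rank U` -/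
theorem finrank_incr [FiniteDimensional (RatFunc k) V] (U U' : Submodule k V)
    [FiniteDimensional k U'] (h : U ≤ U') (hX : ∀ v ∈ U, (RatFunc.X : RatFunc k) • v ∈ U') :
    finrank k U + finrank (RatFunc k) (Submodule.span (RatFunc k) (U : Set V)) ≤ finrank k U' := by
  haveI : FiniteDimensional k U := Submodule.finiteDimensional_of_le h
  let U1 : Submodule k V := U ⊓ U.comap (mulX k V)
  have h1 : idx U U1 ≤ idx U' U :=
    (idx_le_of_inj (mulX k V) (A := U) (B := U1) (A' := U') (B' := U) (fun x hx => hX x hx)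
      (fun x _ hx => hx.2) (fun x hx hx' => ⟨hx, hx'⟩) (finIdx_of_finite U' U)).2
  have h2 := idx_add_finrank h
  have h3 : idx U U1 + finrank k U1 = finrank k U := idx_add_finrank (inf_le_left : U1 ≤ U)
  obtain ⟨C, hC, hdis, hsup⟩ := exists_compl_sub (inf_le_left : U1 ≤ U)
  haveI : FiniteDimensional k C := Submodule.finiteDimensional_of_le hC
  have h4 := Submodule.finrank_sup_add_finrank_inf_eq U1 C
  rw [hsup, hdis, finrank_bot] at h4
  let b := Module.finBasis k C
  let D : Submodule (RatFunc k) V := Submodule.span (RatFunc k) (Set.range fun i => (b i : V))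
  have hCD : ∀ c ∈ C, c ∈ D := by
    intro c hc
    have := congrArg Subtype.val (b.sum_repr ⟨c, hc⟩)
    simp only [Submodule.coe_sum, Submodule.coe_smul] at this
    rw [← this]
    refine Submodule.sum_mem _ fun i _ => ?_
    exact (D.restrictScalars k).smul_mem _ (Submodule.subset_span ⟨i, rfl⟩)
  have h5 : ∀ v ∈ U, v ∈ D := by
    refine le_of_smulX U D fun v hv => ?_
    rw [← hsup] at hv
    obtain ⟨u, hu, c, hc, rfl⟩ := Submodule.mem_sup.1 hv
    refine ⟨_, hu.2, ?_⟩
    rw [mulX_apply, smul_add, add_sub_cancel_left]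
    exact D.smul_mem _ (hCD c hc)
  have h6 : finrank (RatFunc k) (Submodule.span (RatFunc k) (U : Set V)) ≤ finrank (RatFunc k) D :=
    Submodule.finrank_mono (Submodule.span_le.2 h5)
  have h7 : finrank (RatFunc k) D ≤ finrank k C := by
    have := finrank_range_le_card (R := RatFunc k) (fun i => (b i : V))
    simpa [Set.finrank] using this
  omega

theorem eventually_const (a : ℤ → ℕ) (h : ∀ᶠ n in atTop, a (n + 1) ≤ a n) :
    ∃ c, ∀ᶠ n in atTop, a n = c := by
  classical
  obtain ⟨n0, hn0⟩ := eventually_atTop.1 h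
  have hex : ∃ c, ∃ n, n0 ≤ n ∧ a n = c := ⟨_, n0, le_rfl, rfl⟩
  obtain ⟨n1, h1, h2⟩ := Nat.find_spec hex
  refine ⟨Nat.find hex, eventually_atTop.2 ⟨n1, fun n hn => ?_⟩⟩
  have h3 : a n ≤ a n1 := by
    induction n, hn using Int.leInduction with
    | base => exact le_rfl
    | succ m hm ih => exact (hn0 m (by omega)).trans ih
  have h4 : Nat.find hex ≤ a n := Nat.find_min' hex ⟨n, by omega, rfl⟩
  omega

theorem idx_inj_of_surj {V' : Type} [AddCommGroup V'] [Module k V'] (f : V →ₗ[k] V')
    {A B : Submodule k V} {A' B' : Submodule k V'}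
    (hA : ∀ x ∈ A, f x ∈ A') (hB : ∀ x ∈ A, x ∈ B → f x ∈ B')
    (hsurj : ∀ y ∈ A', ∃ x ∈ A, y - f x ∈ B') (hf : FinIdx A B) (he : idx A B ≤ idx A' B') :
    ∀ x ∈ A, f x ∈ B' → x ∈ B := by
  let B1 : Submodule k V := A ⊓ B'.comap f
  have h1 := idx_le_of_surj f (B := B1) hA (fun x _ hx => hx.2) hsurj
    ((finIdx_inf A B).2 hf |>.mono le_rfl (fun x hx => ⟨hx.1, hB x hx.1 hx.2⟩))
  have h2 := idx_add' (A := A) (B := B1) (C := A ⊓ B) inf_le_left
    (fun x hx => ⟨hx.1, hB x hx.1 hx.2⟩) ((finIdx_inf A B).2 hf)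
  rw [idx_inf] at h2
  have h3 : idx B1 (A ⊓ B) = 0 := by omega
  have h4 := le_of_idx_eq_zero (((finIdx_inf A B).2 hf).mono inf_le_left le_rfl) h3
  intro x hx hx'
  exact (h4 ⟨hx, hx'⟩).2

omit [IsScalarTower k (RatFunc k) V] in
theorem GLat.span_top [FiniteDimensional (RatFunc k) V] {G : ℤ → Submodule k V} (hG : GLat G) :
    ∀ᶠ n in atTop, Submodule.span (RatFunc k) (G n : Set V) = ⊤ := by
  obtain ⟨s, hs, hspan, hli⟩ := exists_linearIndependent (RatFunc k) (Aff G : Set V)
  have hfin : s.Finite := hli.setFinite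
  have h1 : ∀ᶠ n in atTop, ∀ v ∈ s, v ∈ G n := by
    rw [eventually_all_finite hfin]
    intro v hv
    obtain ⟨m, hm⟩ := (mem_Aff hG.mono).1 (hs hv)
    exact eventually_atTop.2 ⟨m, fun n hn => hG.monotone hn hm⟩
  filter_upwards [h1] with n hn
  rw [eq_top_iff, ← hG.spans, ← hspan]
  exact Submodule.span_mono hn

theorem GLat.hasChi_top [FiniteDimensional (RatFunc k) V] {G : ℤ → Submodule k V} (hG : GLat G) :
    ∃ e, HasChi G (finrank (RatFunc k) V) e := by
  haveI := hG.fin
  obtain ⟨n1, hgen⟩ := eventually_atTop.1 hG.gen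
  have hsurj : ∀ n, n1 ≤ n → ∀ y ∈ G (n + 1 + 1), ∃ x ∈ G (n + 1), y - mulX k V x ∈ G (n + 1) := by
    intro n hn y hy
    obtain ⟨a, ha, b, hb, rfl⟩ := hgen (n + 1) (by omega) y hy
    exact ⟨b, hb, by simpa using ha⟩
  obtain ⟨c, hc⟩ := eventually_const (fun n => idx (G (n + 1)) (G n)) (by
    filter_upwards [eventually_ge_atTop n1] with n hn
    exact (idx_le_of_surj (mulX k V) (fun x hx => hG.smulX _ x hx) (fun x _ hx => hG.smulX _ x hx)
      (hsurj n hn) (finIdx_of_finite _ _)).2)
  obtain ⟨n0, hn0⟩ := eventually_atTop.1 (hc.and ((eventually_ge_atTop n1).and hG.span_top))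
  have hinc : ∀ n, n0 ≤ n → finrank k (G (n + 1)) = c + finrank k (G n) := by
    intro n hn
    rw [← idx_add_finrank (hG.mono n), (hn0 n hn).1]
  have hge : finrank (RatFunc k) V ≤ c := by
    have := finrank_incr (G n0) (G (n0 + 1)) (hG.mono n0) (hG.smulX n0)
    rw [(hn0 n0 le_rfl).2.2, finrank_top, hinc n0 le_rfl] at this
    omega
  have hinj : ∀ n, n0 ≤ n → ∀ x ∈ G (n + 1), (RatFunc.X : RatFunc k) • x ∈ G (n + 1) → x ∈ G n := by
    intro n hn
    refine idx_inj_of_surj (mulX k V) (fun x hx => hG.smulX _ x hx)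
      (fun x _ hx => hG.smulX _ x hx) (hsurj n (hn0 n hn).2.1) (finIdx_of_finite _ _) ?_
    rw [(hn0 n hn).1, (hn0 (n + 1) (by omega)).1]
  have hinj' : ∀ (j : ℕ), ∀ x ∈ G (n0 + 1), (RatFunc.X : RatFunc k) ^ j • x ∈ G (n0 + j) →
      x ∈ G n0 := by
    intro j
    induction j with
    | zero => intro x _ hx; simpa using hx
    | succ j ih =>
      intro x hx hx'
      refine ih x hx (hinj _ (by omega) _ ?_ ?_)
      · have := hG.smul_pow j _ x hx
        rwa [show n0 + 1 + j = n0 + j + 1 by ring] at this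
      · rw [← mul_smul, ← pow_succ']
        push_cast at hx'
        rwa [← add_assoc] at hx'
  obtain ⟨C, hC, hdis, hsup⟩ := exists_compl_sub (hG.mono n0)
  haveI : FiniteDimensional k C := Submodule.finiteDimensional_of_le hC
  have h4 := Submodule.finrank_sup_add_finrank_inf_eq (G n0) C
  rw [hsup, hdis, finrank_bot, hinc n0 le_rfl] at h4
  have hind : ∀ (m : ℕ) (u : ℕ → V), (∀ j, u j ∈ C) →
      ∑ j ∈ Finset.range m, (RatFunc.X : RatFunc k) ^ j • u j = 0 → ∀ j < m, u j = 0 := by
    intro m u hu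
    induction m with
    | zero => intro _ j hj; omega
    | succ m ih =>
      intro hs
      rw [Finset.sum_range_succ] at hs
      have h5 : (RatFunc.X : RatFunc k) ^ m • u m ∈ G (n0 + m) := by
        rw [eq_neg_of_add_eq_zero_right hs]
        refine Submodule.neg_mem _ (Submodule.sum_mem _ fun j hj => ?_)
        have hj' := Finset.mem_range.1 hj
        exact hG.monotone (by omega) (hG.smul_pow j _ _ (hC (hu j)))
      have h6 : u m = 0 := by
        have : u m ∈ G n0 ⊓ C := ⟨hinj' m _ (hC (hu m)) h5, hu m⟩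
        rwa [hdis] at this
      rw [h6, smul_zero, add_zero] at hs
      intro j hj
      rcases Nat.lt_succ_iff_lt_or_eq.1 hj with hj | rfl
      · exact ih hs j hj
      · exact h6
  let b := Module.finBasis k C
  have hli : LinearIndependent (RatFunc k) (fun i => (b i : V)) := by
    rw [Fintype.linearIndependent_iff]
    intro a ha
    obtain ⟨δ, hδ⟩ := IsLocalization.exist_integer_multiples_of_finite (nonZeroDivisors k[X]) a
    choose P hP using hδ
    let m := (Finset.univ.sup fun i => (P i).natDegree) + 1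
    have hm : ∀ i, (P i).natDegree < m := fun i =>
      Nat.lt_succ_of_le (Finset.le_sup (f := fun i => (P i).natDegree) (Finset.mem_univ i))
    have h5 := hind m (fun j => ∑ i, (P i).coeff j • (b i : V))
      (fun j => Submodule.sum_mem _ fun i _ => Submodule.smul_mem _ _ (b i).2) (by
        have h6 : ∑ i, algebraMap k[X] (RatFunc k) (P i) • (b i : V) = 0 := by
          have := congrArg (fun v => algebraMap k[X] (RatFunc k) δ • v) ha
          simp only [Finset.smul_sum, smul_zero] at this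
          rw [← this]
          refine Finset.sum_congr rfl fun i _ => ?_
          rw [hP, Algebra.smul_def, mul_smul]
        rw [← h6]
        simp only [Finset.smul_sum]
        rw [Finset.sum_comm]
        refine Finset.sum_congr rfl fun i _ => ?_
        rw [smul_poly_eq _ _ m (hm i)]
        refine Finset.sum_congr rfl fun j _ => ?_
        rw [smul_comm])
    intro i
    have h7 : P i = 0 := by
      ext j
      by_cases hj : j < m
      · have h8 := h5 j hj
        have h9 : ∑ i, (P i).coeff j • b i = 0 := by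
          apply Subtype.ext
          simpa using h8
        simpa using Fintype.linearIndependent_iff.1 b.linearIndependent _ h9 i
      · rw [coeff_eq_zero_of_natDegree_lt (by have := hm i; omega), coeff_zero]
    have h8 := hP i
    rw [h7, map_zero, Algebra.smul_def] at h8
    have h9 : algebraMap k[X] (RatFunc k) δ ≠ 0 := by
      simp
    exact (mul_eq_zero.1 h8.symm).resolve_left h9
  have hle := hli.fintype_card_le_finrank
  rw [Fintype.card_fin] at hle
  have hcr : c = finrank (RatFunc k) V := by omega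
  refine ⟨finrank k (G n0) - c * n0, eventually_atTop.2 ⟨n0, fun n hn => ?_⟩⟩
  rw [← hcr]
  induction n, hn using Int.leInduction with
  | base => ring
  | succ m hm ih => rw [hinc m hm]; push_cast; rw [ih]; ring

/-- the image in a quotient -/
noncomputable def quoW (G : ℤ → Submodule k V) (W : Submodule (RatFunc k) V) :
    ℤ → Submodule k (V ⧸ W) :=
  fun n => (G n).map (W.mkQ.restrictScalars k)

theorem GLat.quoW {G : ℤ → Submodule k V} (hG : GLat G) (W : Submodule (RatFunc k) V) :
    GLat (quoW G W) where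
  mono n := Submodule.map_mono (hG.mono n)
  smulX n := by
    rintro _ ⟨v, hv, rfl⟩
    exact ⟨_, hG.smulX n v hv, by simp⟩
  fin n := by
    haveI := hG.fin n
    unfold Crest.Agent.R169.quoW
    infer_instance
  gen := by
    filter_upwards [hG.gen] with n hn
    rintro _ ⟨v, hv, rfl⟩
    obtain ⟨a, ha, b, hb, rfl⟩ := hn v hv
    exact ⟨_, ⟨a, ha, rfl⟩, _, ⟨b, hb, rfl⟩, by simp⟩
  spans := by
    rw [eq_top_iff, ← W.range_mkQ, ← Submodule.map_top, ← hG.spans, Submodule.map_span,
      Submodule.span_le]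
    rintro _ ⟨v, hv, rfl⟩
    obtain ⟨n, hn⟩ := (mem_Aff hG.mono).1 hv
    exact Submodule.subset_span (le_Aff (Crest.Agent.R169.quoW G W) n ⟨v, hn, rfl⟩)

theorem finrank_quoW (G : ℤ → Submodule k V) (W : Submodule (RatFunc k) V) (n : ℤ)
    [FiniteDimensional k (G n)] :
    finrank k (quoW G W n) + finrank k (capW G W n) = finrank k (G n) := by
  have h := LinearMap.finrank_range_add_finrank_ker ((W.mkQ.restrictScalars k).domRestrict (G n))
  rw [LinearMap.range_domRestrict, LinearMap.ker_domRestrict] at h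
  rw [← h]
  congr 1
  have e : (LinearMap.ker (W.mkQ.restrictScalars k)).comap (G n).subtype =
      (capW G W n).comap (G n).subtype := by
    ext x
    simp [capW]
  rw [e]
  exact (Submodule.comapSubtypeEquivOfLe (inf_le_left : capW G W n ≤ G n)).finrank_eq.symm

/-- existence of the Hilbert polynomial -/
theorem GLat.hasChi [FiniteDimensional (RatFunc k) V] {G : ℤ → Submodule k V} (hG : GLat G)
    (W : Submodule (RatFunc k) V) : HasChi (capW G W) (finrank (RatFunc k) W) (chi (capW G W)) := by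
  haveI := hG.fin
  obtain ⟨e, he⟩ := hG.hasChi_top
  obtain ⟨e', he'⟩ := (hG.quoW W).hasChi_top
  have h : HasChi (capW G W) (finrank (RatFunc k) W) (e - e') := by
    filter_upwards [he, he'] with n h1 h2
    have h3 := finrank_quoW G W n
    have h4 := W.finrank_quotient_add_finrank
    have h5 : (finrank k (capW G W n) : ℤ) = finrank k (G n) -
        finrank k (Crest.Agent.R169.quoW G W n) := by
      omega
    have h6 : (finrank (RatFunc k) V : ℤ) = finrank (RatFunc k) (V ⧸ W) + finrank (RatFunc k) W := by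
      omega
    rw [h5, h1, h2, h6]
    ring
  rw [h.chi_eq]
  exact h

theorem GLat.step_sup {G G' : ℤ → Submodule k V} (hG : GLat G) (g : k[X]) (hg : g ≠ 0)
    (hkill : ∀ n, ∀ v ∈ G n, algebraMap k[X] (RatFunc k) g • v ∈ G' (n + g.natDegree)) :
    ∀ᶠ n in atTop, ∀ y ∈ G (n + 1), ∃ x ∈ G n, y - x ∈ G' (n + 1) := by
  obtain ⟨n1, hgen⟩ := eventually_atTop.1 hG.gen
  have h1 : ∀ n, n1 ≤ n → ∀ j : ℕ, ∀ y ∈ G (n + j), ∃ v ∈ G n,
      y - (RatFunc.X : RatFunc k) ^ j • v ∈ G (n + j - 1) := by
    intro n hn j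
    induction j with
    | zero => intro y hy; exact ⟨y, by simpa using hy, by simp⟩
    | succ j ih =>
      intro y hy
      push_cast at hy ⊢
      rw [← add_assoc] at hy
      obtain ⟨a, ha, b, hb, rfl⟩ := hgen (n + j) (by omega) y hy
      obtain ⟨v, hv, hb'⟩ := ih b hb
      refine ⟨v, hv, ?_⟩
      have h2 := hG.smulX _ _ hb'
      rw [sub_add_cancel] at h2
      rw [show n + (j + 1) - 1 = n + j by ring, pow_succ', mul_smul, add_sub_assoc, ← smul_sub]
      exact Submodule.add_mem _ ha h2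
  filter_upwards [eventually_ge_atTop (n1 + g.natDegree)] with n hn y hy
  have e1 : n + 1 - g.natDegree + g.natDegree = n + 1 := by ring
  obtain ⟨v, hv, hy'⟩ := h1 (n + 1 - g.natDegree) (by omega) g.natDegree y (by rwa [e1])
  rw [e1, add_sub_cancel_right] at hy'
  have h2 := hkill _ v hv
  rw [e1] at h2
  have h3 : algebraMap k[X] (RatFunc k) g.eraseLead • v ∈ G n := by
    rcases g.eraseLead_natDegree_lt_or_eraseLead_eq_zero with h | h
    · exact hG.monotone (by omega) (hG.smul_poly _ _ le_rfl _ v hv)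
    · rw [h, map_zero, zero_smul]; exact zero_mem _
  have hlc : g.leadingCoeff ≠ 0 := leadingCoeff_ne_zero.2 hg
  have h4 : algebraMap k[X] (RatFunc k) g • v = algebraMap k[X] (RatFunc k) g.eraseLead • v +
      g.leadingCoeff • ((RatFunc.X : RatFunc k) ^ g.natDegree • v) := by
    conv_lhs => rw [← g.eraseLead_add_C_mul_X_pow]
    rw [map_add, add_smul, map_mul, map_pow, RatFunc.algebraMap_X, RatFunc.algebraMap_C,
      mul_smul, ← RatFunc.algebraMap_eq_C, algebraMap_smul (RatFunc k) g.leadingCoeff]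
  refine ⟨y - (RatFunc.X : RatFunc k) ^ g.natDegree • v -
    g.leadingCoeff⁻¹ • (algebraMap k[X] (RatFunc k) g.eraseLead • v),
    Submodule.sub_mem _ hy' (Submodule.smul_mem _ _ h3), ?_⟩
  have h5 := Submodule.smul_mem _ g.leadingCoeff⁻¹ h2
  rw [h4, smul_add, smul_smul g.leadingCoeff⁻¹ g.leadingCoeff, inv_mul_cancel₀ hlc, one_smul] at h5
  convert h5 using 1
  abel

/-- `x` is eventually injective on a quotient killed by a polynomial of exact degree -/
theorem GLat.lemmaX_inf {G G' : ℤ → Submodule k V} (hG : GLat G) (hle : ∀ n, G' n ≤ G n)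
    (hmono : ∀ n, G' n ≤ G' (n + 1)) (g : k[X]) (hg : g ≠ 0)
    (hkill : ∀ n, ∀ v ∈ G n, algebraMap k[X] (RatFunc k) g • v ∈ G' (n + g.natDegree)) :
    ∀ᶠ n in atTop, G n ⊓ Aff G' ≤ G' n := by
  haveI := hG.fin
  have hs := hG.step_sup g hg hkill
  obtain ⟨c, hc⟩ := eventually_const (fun n => idx (G n) (G' n)) (by
    filter_upwards [hs] with n hn
    exact (idx_le_of_surj LinearMap.id (fun x hx => hG.mono n hx) (fun x _ hx => hmono n hx)
      hn (finIdx_of_finite _ _)).2)
  obtain ⟨n0, hn0⟩ := eventually_atTop.1 (hc.and hs)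
  have hinj : ∀ n, n0 ≤ n → ∀ x ∈ G n, x ∈ G' (n + 1) → x ∈ G' n := by
    intro n hn
    refine idx_inj_of_surj LinearMap.id (fun x hx => hG.mono n hx) (fun x _ hx => hmono n hx)
      (hn0 n hn).2 (finIdx_of_finite _ _) ?_
    rw [(hn0 n hn).1, (hn0 (n + 1) (by omega)).1]
  filter_upwards [eventually_ge_atTop n0] with n hn x hx
  obtain ⟨m, hm⟩ := (mem_Aff hmono).1 hx.2
  have hm' : x ∈ G' (max m n) := monotone_int_of_le_succ hmono (le_max_left _ _) hm
  have key : ∀ m, n ≤ m → x ∈ G' m → x ∈ G' n := by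
    intro m hm
    induction m, hm using Int.leInduction with
    | base => exact id
    | succ j hj ih => exact fun h => ih (hinj j (by omega) x (hG.monotone hj hx.1) h)
  exact key _ (le_max_right _ _) hm'

theorem GLat.finIdx_Aff {G G' : ℤ → Submodule k V} (hG : GLat G) (hle : ∀ n, G' n ≤ G n)
    (hmono : ∀ n, G' n ≤ G' (n + 1)) (g : k[X]) (hg : g ≠ 0)
    (hkill : ∀ n, ∀ v ∈ G n, algebraMap k[X] (RatFunc k) g • v ∈ G' (n + g.natDegree))
    (W : Submodule (RatFunc k) V) :
    FinIdx (Aff G ⊓ W.restrictScalars k) (Aff G' ⊓ W.restrictScalars k) := by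
  haveI := hG.fin
  obtain ⟨n0, hn0⟩ := eventually_atTop.1 (hG.step_sup g hg hkill)
  have key : ∀ m, n0 ≤ m → ∀ y ∈ G m, ∃ x ∈ G n0, y - x ∈ Aff G' := by
    intro m hm
    induction m, hm using Int.leInduction with
    | base => exact fun y hy => ⟨y, hy, by simp⟩
    | succ j hj ih =>
      intro y hy
      obtain ⟨x, hx, hxy⟩ := hn0 j hj y hy
      obtain ⟨z, hz, hzx⟩ := ih x hx
      refine ⟨z, hz, ?_⟩
      have := Submodule.add_mem _ (le_Aff G' _ hxy) hzx
      rwa [sub_add_sub_cancel] at this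
  have h1 : FinIdx (Aff G) (Aff G') := by
    refine (idx_le_of_surj LinearMap.id (A := G n0) (B := ⊥) (fun x hx => le_Aff G n0 hx)
      (fun x _ hx => by rw [(Submodule.mem_bot k).1 hx]; simp) (fun y hy => ?_)
      (finIdx_of_finite _ _)).1
    obtain ⟨m, hm⟩ := (mem_Aff hG.mono).1 hy
    exact key (max m n0) (le_max_right _ _) y (hG.monotone (le_max_left _ _) hm)
  exact (idx_le_of_inj LinearMap.id (A := Aff G ⊓ W.restrictScalars k)
    (B := Aff G' ⊓ W.restrictScalars k) (A' := Aff G) (B' := Aff G')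
    (fun x hx => hx.1) (fun x _ hx => hx.1) (fun x hx hx' => ⟨hx', hx.2⟩) h1).1

theorem GLat.lemmaX_sup {G G' : ℤ → Submodule k V} (hG : GLat G) (hle : ∀ n, G' n ≤ G n)
    (hmono : ∀ n, G' n ≤ G' (n + 1)) (g : k[X]) (hg : g ≠ 0)
    (hkill : ∀ n, ∀ v ∈ G n, algebraMap k[X] (RatFunc k) g • v ∈ G' (n + g.natDegree))
    (W : Submodule (RatFunc k) V) :
    ∀ᶠ n in atTop, Aff G ⊓ W.restrictScalars k ≤
      (G n ⊓ W.restrictScalars k) ⊔ (Aff G' ⊓ W.restrictScalars k) := by
  have hf := hG.finIdx_Aff hle hmono g hg hkill W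
  set A := Aff G ⊓ W.restrictScalars k
  set B := Aff G' ⊓ W.restrictScalars k
  haveI := (finIdx_iff A B).1 hf
  let b := Module.finBasis k (A.map B.mkQ)
  have h1 : ∀ᶠ n in atTop, ∀ i, (b i : V ⧸ B) ∈ (G n ⊓ W.restrictScalars k).map B.mkQ := by
    rw [eventually_all]
    intro i
    obtain ⟨v, hv, hvi⟩ := (b i).2
    obtain ⟨m, hm⟩ := (mem_Aff hG.mono).1 hv.1
    exact eventually_atTop.2 ⟨m, fun n hn => ⟨v, ⟨hG.monotone hn hm, hv.2⟩, hvi⟩⟩
  filter_upwards [h1] with n hn x hx
  have h2 : B.mkQ x ∈ (G n ⊓ W.restrictScalars k).map B.mkQ := by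
    have := congrArg Subtype.val (b.sum_repr ⟨B.mkQ x, x, hx, rfl⟩)
    simp only [Submodule.coe_sum, Submodule.coe_smul] at this
    rw [← this]
    exact Submodule.sum_mem _ fun i _ => Submodule.smul_mem _ _ (hn i)
  obtain ⟨y, hy, hyx⟩ := h2
  rw [Submodule.mkQ_apply, Submodule.mkQ_apply, eq_comm, Submodule.Quotient.eq] at hyx
  exact Submodule.mem_sup.2 ⟨y, hy, x - y, hyx, by abel⟩

theorem GLat.chi_sub [FiniteDimensional (RatFunc k) V] {G G' : ℤ → Submodule k V} (hG : GLat G)
    (hG' : GLat G') (hle : ∀ n, G' n ≤ G n) (g : k[X]) (hg : g ≠ 0)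
    (hkill : ∀ n, ∀ v ∈ G n, algebraMap k[X] (RatFunc k) g • v ∈ G' (n + g.natDegree))
    (W : Submodule (RatFunc k) V) :
    chi (capW G W) - chi (capW G' W) =
      idx (Aff G ⊓ W.restrictScalars k) (Aff G' ⊓ W.restrictScalars k) := by
  haveI := hG.fin
  obtain ⟨n, ⟨h1, h2⟩, h3, h4⟩ := (((hG.hasChi W).and (hG'.hasChi W)).and
    ((hG.lemmaX_inf hle hG'.mono g hg hkill).and (hG.lemmaX_sup hle hG'.mono g hg hkill W))).exists
  have hf := hG.finIdx_Aff hle hG'.mono g hg hkill W
  haveI : FiniteDimensional k (capW G W n) := Submodule.finiteDimensional_of_le inf_le_left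
  have h5 := idx_add_finrank (A := capW G W n) (B := capW G' W n) (inf_le_inf_right _ (hle n))
  have h6 := (idx_le_of_inj LinearMap.id (A := capW G W n) (B := capW G' W n)
    (A' := Aff G ⊓ W.restrictScalars k) (B' := Aff G' ⊓ W.restrictScalars k)
    (fun x hx => ⟨le_Aff G n hx.1, hx.2⟩) (fun x _ hx => ⟨le_Aff G' n hx.1, hx.2⟩)
    (fun x hx hx' => ⟨h3 ⟨hx.1, hx'.1⟩, hx.2⟩) hf).2
  have h7 := (idx_le_of_surj LinearMap.id (A := capW G W n) (B := capW G' W n)
    (A' := Aff G ⊓ W.restrictScalars k) (B' := Aff G' ⊓ W.restrictScalars k)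
    (fun x hx => ⟨le_Aff G n hx.1, hx.2⟩) (fun x _ hx => ⟨le_Aff G' n hx.1, hx.2⟩)
    (fun y hy => by
      obtain ⟨a, ha, b, hb, rfl⟩ := Submodule.mem_sup.1 (h4 hy)
      exact ⟨a, ha, by simpa using hb⟩) (finIdx_of_finite _ _)).2
  omega

theorem finrank_grow [FiniteDimensional (RatFunc k) V] {G : ℤ → Submodule k V}
    (hmono : ∀ n, G n ≤ G (n + 1))
    (hX : ∀ n, ∀ v ∈ G n, (RatFunc.X : RatFunc k) • v ∈ G (n + 1))
    (hfin : ∀ n, FiniteDimensional k (G n)) (n m : ℤ) (h : n ≤ m) :
    (finrank k (G n) : ℤ) +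
      finrank (RatFunc k) (Submodule.span (RatFunc k) (G n : Set V)) * (m - n) ≤
      finrank k (G m) := by
  induction m, h using Int.leInduction with
  | base => simp
  | succ j hj ih =>
    have h1 := finrank_incr (G j) (G (j + 1)) (hmono j) (hX j)
    have h2 : finrank (RatFunc k) (Submodule.span (RatFunc k) (G n : Set V)) ≤
        finrank (RatFunc k) (Submodule.span (RatFunc k) (G j : Set V)) :=
      Submodule.finrank_mono (Submodule.span_mono (monotone_int_of_le_succ hmono hj))
    have h3 : (finrank k (G j) : ℤ) +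
      finrank (RatFunc k) (Submodule.span (RatFunc k) (G n : Set V)) ≤ finrank k (G (j + 1)) := by
      omega
    nlinarith

theorem GLat.chi_bdd [FiniteDimensional (RatFunc k) V] {G : ℤ → Submodule k V} (hG : GLat G) :
    ∃ B : ℤ, ∀ W : Submodule (RatFunc k) V, chi (capW G W) ≤ B := by
  haveI := hG.fin
  obtain ⟨n1, hn1⟩ := hG.span_top.exists
  refine ⟨chi G + finrank (RatFunc k) V * |n1|, fun W => ?_⟩
  have h0 := hG.hasChi ⊤
  rw [capW_top, finrank_top] at h0
  obtain ⟨n, ⟨h1, h2⟩, h3⟩ := ((h0.and (hG.hasChi W)).and (eventually_ge_atTop n1)).exists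
  have hq := hG.quoW W
  have h4 := finrank_grow hq.mono hq.smulX hq.fin n1 n h3
  have h5 : Submodule.span (RatFunc k) (Crest.Agent.R169.quoW G W n1 : Set (V ⧸ W)) = ⊤ := by
    rw [eq_top_iff, ← W.range_mkQ, ← Submodule.map_top, ← hn1, Submodule.map_span,
      Submodule.span_le]
    rintro _ ⟨v, hv, rfl⟩
    exact Submodule.subset_span ⟨v, hv, rfl⟩
  rw [h5, finrank_top] at h4
  have h6 := finrank_quoW G W n
  have h7 := W.finrank_quotient_add_finrank
  have h8 : (finrank (RatFunc k) V : ℤ) = finrank (RatFunc k) (V ⧸ W) + finrank (RatFunc k) W := by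
    omega
  have h9 : (finrank k (Crest.Agent.R169.quoW G W n) : ℤ) + finrank k (capW G W n) =
      finrank k (G n) := by omega
  have h10 := le_abs_self n1
  have h11 := abs_nonneg n1
  have h12 : (0 : ℤ) ≤ finrank (RatFunc k) (V ⧸ W) := by positivity
  have h13 : (0 : ℤ) ≤ finrank (RatFunc k) W := by positivity
  have h14 : (0 : ℤ) ≤ finrank k (Crest.Agent.R169.quoW G W n1) := by positivity
  rw [h8] at h1 ⊢
  nlinarith

/-- `W` maximises `e - μ r` -/
def IsMaxi (G : ℤ → Submodule k V) (μ : ℤ) (W : Submodule (RatFunc k) V) : Prop :=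
  ∀ W' : Submodule (RatFunc k) V, chi (capW G W') - μ * finrank (RatFunc k) W' ≤
    chi (capW G W) - μ * finrank (RatFunc k) W

theorem GLat.exists_maxi [FiniteDimensional (RatFunc k) V] {G : ℤ → Submodule k V} (hG : GLat G)
    (μ : ℤ) : ∃ W, IsMaxi G μ W := by
  obtain ⟨B, hB⟩ := hG.chi_bdd
  obtain ⟨_, ⟨W, rfl⟩, hW⟩ := Int.exists_greatest_of_bdd
    (P := fun z => ∃ W : Submodule (RatFunc k) V, chi (capW G W) - μ * finrank (RatFunc k) W = z)
    ⟨B + |μ| * finrank (RatFunc k) V, by
      rintro _ ⟨W, rfl⟩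
      have h1 := hB W
      have h2 : (finrank (RatFunc k) W : ℤ) ≤ finrank (RatFunc k) V := by
        exact_mod_cast W.finrank_le
      have h3 : (0 : ℤ) ≤ finrank (RatFunc k) W := by positivity
      have h4 := neg_abs_le μ
      have h5 := abs_nonneg μ
      nlinarith⟩ ⟨_, ⊥, rfl⟩
  exact ⟨W, fun W' => hW _ ⟨W', rfl⟩⟩

theorem GLat.maxi_stable [FiniteDimensional (RatFunc k) V] {G : ℤ → Submodule k V} (hG : GLat G)
    {μ μ' : ℤ} {E : ℕ} (hμ : μ' + E < μ) {W : Submodule (RatFunc k) V} (h1 : IsMaxi G μ W)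
    (h2 : IsMaxi G μ' W) (f : V →ₗ[k] V) (hf : ∀ n, ∀ v ∈ G n, f v ∈ G (n + E))
    (hlin : ∀ (a : RatFunc k), ∀ v ∈ W, f (a • v) - a • f v ∈ W) : ∀ v ∈ W, f v ∈ W := by
  haveI := hG.fin
  let fb : W →ₗ[RatFunc k] (V ⧸ W) :=
    { toFun := fun v => W.mkQ (f v)
      map_add' := fun a b => by simp
      map_smul' := fun a v => by
        rw [RingHom.id_apply, ← map_smul, Submodule.mkQ_apply, Submodule.mkQ_apply,
          Submodule.Quotient.eq]
        exact hlin a v v.2 }
  let K : Submodule (RatFunc k) V := (LinearMap.ker fb).map W.subtype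
  let I : Submodule (RatFunc k) V := (LinearMap.range fb).comap W.mkQ
  have hK : finrank (RatFunc k) (LinearMap.range fb) + finrank (RatFunc k) K =
      finrank (RatFunc k) W := by
    rw [← LinearMap.finrank_range_add_finrank_ker fb]
    congr 1
    exact Submodule.finrank_map_subtype_eq W _
  have hWI : W ≤ I := fun v hv => by
    change W.mkQ v ∈ LinearMap.range fb
    rw [Submodule.mkQ_apply, (Submodule.Quotient.mk_eq_zero W).2 hv]
    exact zero_mem _
  have hI : finrank (RatFunc k) (LinearMap.range fb) + finrank (RatFunc k) W =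
      finrank (RatFunc k) I := by
    have h := LinearMap.finrank_range_add_finrank_ker (W.mkQ.domRestrict I)
    rw [LinearMap.range_domRestrict, LinearMap.ker_domRestrict, Submodule.ker_mkQ,
      Submodule.map_comap_eq_of_surjective W.mkQ_surjective,
      (Submodule.comapSubtypeEquivOfLe hWI).finrank_eq] at h
    exact h
  have hmemK : ∀ v, v ∈ K ↔ v ∈ W ∧ f v ∈ W := by
    intro v
    constructor
    · rintro ⟨w, hw, rfl⟩
      exact ⟨w.2, (Submodule.Quotient.mk_eq_zero W).1 hw⟩
    · rintro ⟨a, b⟩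
      exact ⟨⟨v, a⟩, (Submodule.Quotient.mk_eq_zero W).2 b, rfl⟩
  have sh : Tendsto (fun n : ℤ => n + E) atTop atTop := tendsto_atTop_add_const_right _ _ tendsto_id
  obtain ⟨n, ⟨e1, e2⟩, e3, e4⟩ := (((hG.hasChi W).and (hG.hasChi K)).and
    ((sh.eventually (hG.hasChi W)).and (sh.eventually (hG.hasChi I)))).exists
  haveI : ∀ (W : Submodule (RatFunc k) V) n, FiniteDimensional k (capW G W n) := fun W n =>
    Submodule.finiteDimensional_of_le inf_le_left
  have i1 := idx_add_finrank (A := capW G W n) (B := capW G K n)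
    (fun x hx => ⟨hx.1, ((hmemK x).1 hx.2).1⟩)
  have i2 := idx_add_finrank (A := capW G I (n + E)) (B := capW G W (n + E))
    (fun x hx => ⟨hx.1, hWI hx.2⟩)
  have i3 := (idx_le_of_inj f (A := capW G W n) (B := capW G K n) (A' := capW G I (n + E))
    (B' := capW G W (n + E)) (fun x hx => ⟨hf n x hx.1, ⟨⟨x, hx.2⟩, rfl⟩⟩)
    (fun x hx hx' => ⟨hf n x hx.1, ((hmemK x).1 hx'.2).2⟩)
    (fun x hx hx' => ⟨hx.1, (hmemK x).2 ⟨hx.2, hx'.2⟩⟩) (finIdx_of_finite _ _)).2
  have m1 := h1 K
  have m2 := h2 I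
  set s := finrank (RatFunc k) (LinearMap.range fb) with hs
  have a1 : (finrank (RatFunc k) K : ℤ) = finrank (RatFunc k) W - s := by omega
  have a2 : (finrank (RatFunc k) I : ℤ) = finrank (RatFunc k) W + s := by omega
  have a3 : (finrank k (capW G W n) : ℤ) - finrank k (capW G K n) ≤
      finrank k (capW G I (n + E)) - finrank k (capW G W (n + E)) := by omega
  rw [e1, e2, e3, e4] at a3
  rw [a1] at m1 a3
  rw [a2] at m2 a3
  have a4 : (s : ℤ) * (μ - μ' - E) ≤ 0 := by nlinarith
  have a5 : s = 0 := by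
    by_contra h
    have : (0 : ℤ) < s := by omega
    have : (0 : ℤ) < μ - μ' - E := by omega
    nlinarith
  have a6 : LinearMap.range fb = ⊥ := Submodule.finrank_eq_zero.1 a5
  intro v hv
  have : fb ⟨v, hv⟩ ∈ LinearMap.range fb := ⟨_, rfl⟩
  rw [a6, Submodule.mem_bot] at this
  exact (Submodule.Quotient.mk_eq_zero W).1 this

theorem GLat.exists_double [FiniteDimensional (RatFunc k) V] {G : ℤ → Submodule k V} (hG : GLat G)
    (μ0 : ℤ) (E : ℕ) : ∃ (μ μ' : ℤ) (W : Submodule (RatFunc k) V), μ' + E < μ ∧ μ0 ≤ μ' ∧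
      μ ≤ μ0 + (finrank (RatFunc k) V + 1) * (E + 1) ∧ IsMaxi G μ W ∧ IsMaxi G μ' W := by
  choose Wm hWm using fun i : ℕ => hG.exists_maxi (μ0 + i * (E + 1))
  have key : ∀ i j : ℕ, i < j → j < finrank (RatFunc k) V + 2 →
      finrank (RatFunc k) (Wm i) = finrank (RatFunc k) (Wm j) →
      ∃ (μ μ' : ℤ) (W : Submodule (RatFunc k) V), μ' + E < μ ∧ μ0 ≤ μ' ∧
      μ ≤ μ0 + (finrank (RatFunc k) V + 1) * (E + 1) ∧ IsMaxi G μ W ∧ IsMaxi G μ' W := by
    intro i j hij hj he
    have hij' : (i : ℤ) + 1 ≤ j := by omega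
    have hj' : (j : ℤ) ≤ finrank (RatFunc k) V + 1 := by omega
    have hE : (0 : ℤ) ≤ E := by positivity
    have hi : (0 : ℤ) ≤ i := by positivity
    refine ⟨μ0 + j * (E + 1), μ0 + i * (E + 1), Wm i, by nlinarith, by nlinarith, by nlinarith,
      fun W' => ?_, hWm i⟩
    have h1 := hWm j W'
    have h2 := hWm i (Wm j)
    rw [he] at h2 ⊢
    linarith
  obtain ⟨i, hi, j, hj, hne, he⟩ := Finset.exists_ne_map_eq_of_card_lt_of_maps_to
    (s := Finset.range (finrank (RatFunc k) V + 2)) (t := Finset.range (finrank (RatFunc k) V + 1))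
    (by simp) (f := fun i => finrank (RatFunc k) (Wm i))
    (fun i _ => Finset.mem_coe.2 (Finset.mem_range.2 (Nat.lt_succ_of_le (Wm i).finrank_le)))
  rcases lt_or_gt_of_ne hne with h | h
  · exact key i j h (Finset.mem_range.1 hj) he
  · exact key j i h (Finset.mem_range.1 hi) he.symm

theorem GLat.finrank_le_span [FiniteDimensional (RatFunc k) V] {G : ℤ → Submodule k V}
    (hG : GLat G) (n : ℤ) : ∃ W : Submodule (RatFunc k) V,
      (finrank k (G n) : ℤ) ≤ finrank (RatFunc k) W * n + chi (capW G W) := by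
  haveI := hG.fin
  let W := Submodule.span (RatFunc k) (G n : Set V)
  refine ⟨W, ?_⟩
  obtain ⟨m, h1, h2⟩ := ((hG.hasChi W).and (eventually_ge_atTop n)).exists
  have h3 := finrank_grow (G := capW G W) (fun n => inf_le_inf_right _ (hG.mono n))
    (fun n v hv => ⟨hG.smulX n v hv.1, W.smul_mem _ hv.2⟩)
    (fun n => Submodule.finiteDimensional_of_le inf_le_left) n m h2
  have h4 : capW G W n = G n := inf_eq_left.2 fun v hv => Submodule.subset_span hv
  rw [h4, h1] at h3
  change _ + (finrank (RatFunc k) W : ℤ) * _ ≤ _ at h3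
  linarith

theorem chi_capW_bot (G : ℤ → Submodule k V) : chi (capW G ⊥) = 0 := by
  refine HasChi.chi_eq (r := 0) (Eventually.of_forall fun n => ?_)
  have : capW G ⊥ n = ⊥ := by simp [capW]
  rw [this]
  simp

omit [Module (RatFunc k) V] [IsScalarTower k (RatFunc k) V] in
theorem eigen_sep {ι : Type} (θ : V →ₗ[k] V) (W : Submodule k V) (hW : ∀ v ∈ W, θ v ∈ W)
    (μ : ι → k) (s : Finset ι) (hμ : Set.InjOn μ s) (w : ι → V) (hw : ∀ l ∈ s, θ (w l) = μ l • w l)
    (hs : ∑ l ∈ s, w l ∈ W) : ∀ l ∈ s, w l ∈ W := by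
  classical
  induction s using Finset.induction_on generalizing w with
  | empty => simp
  | insert a s ha ih =>
    have h1 : ∑ l ∈ s, (μ l - μ a) • w l ∈ W := by
      have h2 := W.sub_mem (hW _ hs) (W.smul_mem (μ a) hs)
      rw [map_sum, Finset.smul_sum, ← Finset.sum_sub_distrib, Finset.sum_insert ha,
        hw a (Finset.mem_insert_self _ _), sub_self, zero_add] at h2
      convert h2 using 1
      refine Finset.sum_congr rfl fun l hl => ?_
      rw [hw l (Finset.mem_insert_of_mem hl), sub_smul]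
    have h3 := ih (hμ.mono (by simp)) (fun l => (μ l - μ a) • w l) (fun l hl => by
      rw [map_smul, hw l (Finset.mem_insert_of_mem hl), smul_comm]) h1
    have h4 : ∀ l ∈ s, w l ∈ W := by
      intro l hl
      have hne : μ l - μ a ≠ 0 := by
        rw [sub_ne_zero]
        intro e
        have := hμ (by simp [hl]) (by simp) e
        exact ha (this ▸ hl)
      exact (W.smul_mem_iff hne).1 (h3 l hl)
    intro l hl
    rcases Finset.mem_insert.1 hl with rfl | hl
    · rw [Finset.sum_insert ha] at hs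
      have := W.sub_mem hs (W.sum_mem h4)
      rwa [add_sub_cancel_right] at this
    · exact h4 l hl

end General

section Frob
variable {k : Type} [Field k] {N : ℕ}

/-- the ambient space -/
abbrev WW (k : Type) [Field k] (N : ℕ) : Type := Fin N → RatFunc k

/-- the derivative on rational functions -/
noncomputable def dK (k : Type) [Field k] : RatFunc k →+ RatFunc k :=
  locDer (nonZeroDivisors k[X]) (Polynomial.derivative (R := k)).toAddMonoidHom
    (fun a b => by simp [Polynomial.derivative_mul]; ring)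

theorem dK_mul (a b : RatFunc k) : dK k (a * b) = a * dK k b + b * dK k a := locDer_mul _ _ _ a b

theorem dK_algebraMap (g : k[X]) :
    dK k (algebraMap k[X] (RatFunc k) g) = algebraMap k[X] (RatFunc k) (derivative g) :=
  locDer_algebraMap _ _ _ g

/-- the entrywise derivative -/
noncomputable def dW (v : WW k N) : WW k N := fun i => dK k (v i)

/-- the entrywise `p`-th power -/
noncomputable def phi (p : ℕ) (v : WW k N) : WW k N := fun i => v i ^ p

/-- the Frobenius pull-back of a graded module -/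
noncomputable def FG (p : ℕ) (G : ℤ → Submodule k (WW k N)) (n : ℤ) : Submodule k (WW k N) :=
  Submodule.span k {w | ∃ l : ℕ, l < p ∧ ∃ v ∈ G ((n - l) / p),
    w = (RatFunc.X : RatFunc k) ^ l • phi p v}

/-- stable under the derivative -/
def DStb (W : Submodule (RatFunc k) (WW k N)) : Prop := ∀ v ∈ W, dW v ∈ W

/-- stable under a family of matrices -/
def MStb {ι : Type} (T : ι → Matrix (Fin N) (Fin N) (RatFunc k))
    (W : Submodule (RatFunc k) (WW k N)) : Prop := ∀ i, ∀ v ∈ W, (T i).mulVec v ∈ W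

/-- the constant in the bound on the projective line -/
def cC (N E : ℕ) : ℕ := (N + 2) * (E + 1) + 2

theorem dK_C (c : k) : dK k (algebraMap k (RatFunc k) c) = 0 := by
  rw [IsScalarTower.algebraMap_apply k k[X] (RatFunc k), dK_algebraMap]
  simp

theorem dK_pow (a : RatFunc k) (n : ℕ) : dK k (a ^ (n + 1)) = (n + 1 : ℕ) * a ^ n * dK k a := by
  induction n with
  | zero => simp
  | succ n ih => rw [pow_succ, dK_mul, ih]; push_cast; ring

theorem dK_X : dK k (RatFunc.X : RatFunc k) = 1 := by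
  rw [← RatFunc.algebraMap_X, dK_algebraMap]
  simp

theorem dW_smul (a : RatFunc k) (v : WW k N) : dW (a • v) = a • dW v + dK k a • v := by
  funext i
  simp only [dW, Pi.smul_apply, smul_eq_mul, Pi.add_apply, dK_mul]
  ring

/-- `g • dW` as a `k`-linear map -/
noncomputable def gdW (g : RatFunc k) : WW k N →ₗ[k] WW k N where
  toFun v := g • dW v
  map_add' a b := by
    rw [← smul_add]
    congr 1
    funext i
    simp [dW]
  map_smul' c v := by
    rw [← algebraMap_smul (RatFunc k) c v, dW_smul, dK_C, zero_smul, add_zero, smul_comm,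
      algebraMap_smul, RingHom.id_apply]

theorem gdW_apply (g : RatFunc k) (v : WW k N) : gdW g v = g • dW v := rfl

section P
variable (p : ℕ) [Fact p.Prime] [CharP k p]

theorem charP_ratFunc : CharP (RatFunc k) p :=
  charP_of_injective_algebraMap (algebraMap k (RatFunc k)).injective p

theorem phi_add (v w : WW k N) : phi p (v + w) = phi p v + phi p w := by
  haveI := charP_ratFunc (k := k) p
  funext i
  simp [phi, add_pow_char]

theorem phi_smul (a : RatFunc k) (v : WW k N) : phi p (a • v) = a ^ p • phi p v := by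
  funext i
  simp [phi, mul_pow]

theorem phi_smul' (a : k) (v : WW k N) : phi p (a • v) = a ^ p • phi p v := by
  rw [← algebraMap_smul (RatFunc k) a v, phi_smul, ← map_pow, algebraMap_smul]

theorem phi_zero : phi p (0 : WW k N) = 0 := by
  funext i
  simp [phi, (Fact.out : p.Prime).ne_zero]

theorem phi_eq_zero {v : WW k N} (h : phi p v = 0) : v = 0 := by
  funext i
  exact pow_eq_zero_iff (Fact.out : p.Prime).ne_zero |>.1 (congrFun h i)

theorem phi_mulVec (T : Matrix (Fin N) (Fin N) (RatFunc k)) (v : WW k N) :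
    phi p (T.mulVec v) = (T.map (· ^ p)).mulVec (phi p v) := by
  haveI := charP_ratFunc (k := k) p
  funext i
  simp [phi, Matrix.mulVec, dotProduct, sum_pow_char, mul_pow]

theorem dW_phi (v : WW k N) : dW (phi p v) = 0 := by
  haveI := charP_ratFunc (k := k) p
  funext i
  obtain ⟨m, hm⟩ := Nat.exists_eq_succ_of_ne_zero (Fact.out : p.Prime).ne_zero
  have h : ((m + 1 : ℕ) : RatFunc k) = 0 := by
    rw [← Nat.succ_eq_add_one, ← hm]
    exact CharP.cast_eq_zero _ p
  change dK k (v i ^ p) = 0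
  rw [hm, Nat.succ_eq_add_one, dK_pow, h, zero_mul, zero_mul]

theorem theta_eigen (l : ℕ) (v : WW k N) :
    gdW RatFunc.X ((RatFunc.X : RatFunc k) ^ l • phi p v) =
      (l : k) • ((RatFunc.X : RatFunc k) ^ l • phi p v) := by
  rw [gdW_apply, dW_smul, dW_phi, smul_zero, zero_add, ← algebraMap_smul (RatFunc k) (l : k),
    smul_smul, smul_smul, map_natCast]
  congr 1
  cases l with
  | zero =>
    have := dK_C (k := k) 1
    rw [map_one] at this
    simp [this]
  | succ l => rw [dK_pow, dK_X]; ring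

/-- the descended subspace -/
def desc (W : Submodule (RatFunc k) (WW k N)) : Submodule (RatFunc k) (WW k N) where
  carrier := {v | phi p v ∈ W}
  add_mem' {a b} ha hb := by
    change phi p (a + b) ∈ W
    rw [phi_add]
    exact W.add_mem ha hb
  zero_mem' := by
    change phi p 0 ∈ W
    rw [phi_zero]
    exact W.zero_mem
  smul_mem' c v hv := by
    change phi p (c • v) ∈ W
    rw [phi_smul]
    exact W.smul_mem _ hv

theorem finrank_FG [IsAlgClosed k] (G : ℤ → Submodule k (WW k N))
    (W : Submodule (RatFunc k) (WW k N)) (hW : DStb W) (a : ℤ) :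
    finrank k (capW (FG p G) W (p * a + (p - 1))) = p * finrank k (capW G (desc p W) a) := by
  have hp : 0 < p := (Fact.out : p.Prime).pos
  have hdiv : ∀ l : ℕ, l < p → ((p : ℤ) * a + (p - 1) - l) / p = a := by
    intro l hl
    have hp' : (0 : ℤ) < p := by omega
    rw [show (p : ℤ) * a + (p - 1) - l = (p - 1 - l) + p * a by ring,
      Int.add_mul_ediv_left _ _ hp'.ne', Int.ediv_eq_zero_of_lt (by omega) (by omega), zero_add]
  have hinj : Set.InjOn (fun l : Fin p => ((l : ℕ) : k)) (Finset.univ : Finset (Fin p)) := by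
    intro a _ b _ h
    exact Fin.ext (CharP.natCast_injOn_Iio k p a.2 b.2 h)
  have hXne : ∀ l : ℕ, (RatFunc.X : RatFunc k) ^ l ≠ 0 := fun l => pow_ne_zero _ RatFunc.X_ne_zero
  let j0 : (Fin p → capW G (desc p W) a) →+ capW (FG p G) W (p * a + (p - 1)) :=
    { toFun := fun u => ⟨∑ l : Fin p, (RatFunc.X : RatFunc k) ^ (l : ℕ) • phi p (u l), by
        refine Submodule.sum_mem _ fun l _ => ⟨Submodule.subset_span ⟨l, l.2, u l, ?_, rfl⟩, ?_⟩
        · rw [hdiv l l.2]; exact (u l).2.1
        · exact W.smul_mem _ (u l).2.2⟩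
      map_zero' := by
        apply Subtype.ext
        simp [phi_zero]
      map_add' := fun u v => by
        apply Subtype.ext
        simp [phi_add, Finset.sum_add_distrib] }
  have hj0 : Function.Bijective j0 := by
    constructor
    · rw [injective_iff_map_eq_zero]
      intro u hu
      have h1 := eigen_sep (gdW RatFunc.X) ⊥ (fun v hv => by
          rw [(Submodule.mem_bot k).1 hv]; simp) _ Finset.univ hinj
        (fun l : Fin p => (RatFunc.X : RatFunc k) ^ (l : ℕ) • phi p (u l : WW k N))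
        (fun l _ => theta_eigen p l _) (congrArg Subtype.val hu)
      funext l
      apply Subtype.ext
      exact phi_eq_zero p ((smul_eq_zero.1 (h1 l (Finset.mem_univ _))).resolve_left (hXne l))
    · rintro ⟨w, hw1, hw2⟩
      have h1 : ∃ u : Fin p → WW k N, (∀ l, u l ∈ G a) ∧
          w = ∑ l : Fin p, (RatFunc.X : RatFunc k) ^ (l : ℕ) • phi p (u l) := by
        clear hw2
        induction hw1 using Submodule.span_induction with
        | mem w hw =>
          obtain ⟨l, hl, v, hv, rfl⟩ := hw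
          rw [hdiv l hl] at hv
          refine ⟨Pi.single ⟨l, hl⟩ v, fun i => ?_, ?_⟩
          · by_cases h : i = ⟨l, hl⟩
            · rw [h, Pi.single_eq_same]; exact hv
            · rw [Pi.single_eq_of_ne h]; exact zero_mem _
          · rw [Finset.sum_eq_single ⟨l, hl⟩]
            · simp
            · intro i _ h
              rw [Pi.single_eq_of_ne h, phi_zero, smul_zero]
            · simp
        | zero => exact ⟨0, fun _ => zero_mem _, by simp [phi_zero]⟩
        | add x y _ _ hx hy =>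
          obtain ⟨u, hu, rfl⟩ := hx
          obtain ⟨v, hv, rfl⟩ := hy
          exact ⟨u + v, fun l => add_mem (hu l) (hv l), by simp [phi_add, Finset.sum_add_distrib]⟩
        | smul c x _ hx =>
          obtain ⟨u, hu, rfl⟩ := hx
          obtain ⟨γ, rfl⟩ := IsAlgClosed.exists_pow_nat_eq c hp
          refine ⟨γ • u, fun l => Submodule.smul_mem _ _ (hu l), ?_⟩
          rw [Finset.smul_sum]
          refine Finset.sum_congr rfl fun l _ => ?_
          rw [Pi.smul_apply, phi_smul', smul_comm]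
      obtain ⟨u, hu, rfl⟩ := h1
      have h2 := eigen_sep (gdW RatFunc.X) (W.restrictScalars k)
        (fun v hv => W.smul_mem _ (hW v hv)) _ Finset.univ hinj
        (fun l : Fin p => (RatFunc.X : RatFunc k) ^ (l : ℕ) • phi p (u l : WW k N))
        (fun l _ => theta_eigen p l _) hw2
      exact ⟨fun l => ⟨u l, hu l, (W.smul_mem_iff (hXne l)).1 (h2 l (Finset.mem_univ _))⟩, rfl⟩
  have hfr : Function.Bijective (fun c : k => c ^ p) := by
    constructor
    · exact frobenius_inj k p
    · exact fun c => IsAlgClosed.exists_pow_nat_eq c hp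
  have hr := rank_eq_of_equiv_equiv (fun c : k => c ^ p) (AddEquiv.ofBijective j0 hj0) hfr
    (fun r u => by
      apply Subtype.ext
      change ∑ l : Fin p, (RatFunc.X : RatFunc k) ^ (l : ℕ) • phi p (r • (u l : WW k N)) =
        r ^ p • ∑ l : Fin p, (RatFunc.X : RatFunc k) ^ (l : ℕ) • phi p (u l : WW k N)
      rw [Finset.smul_sum]
      refine Finset.sum_congr rfl fun l _ => ?_
      rw [phi_smul', smul_comm])
  have h3 : finrank k (Fin p → capW G (desc p W) a) =
      finrank k (capW (FG p G) W (p * a + (p - 1))) := by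
    unfold finrank
    rw [hr]
  rw [← h3]
  unfold finrank
  rw [rank_pi]
  simp

theorem chi_FG [IsAlgClosed k] {G : ℤ → Submodule k (WW k N)} (hG : GLat G) (hF : GLat (FG p G))
    (W : Submodule (RatFunc k) (WW k N)) (hW : DStb W) :
    finrank (RatFunc k) (desc p W) = finrank (RatFunc k) W ∧
      chi (capW (FG p G) W) = p * chi (capW G (desc p W)) - finrank (RatFunc k) W * (p - 1) := by
  have hp : (0 : ℤ) < p := by exact_mod_cast (Fact.out : p.Prime).pos
  have sh : Tendsto (fun a : ℤ => p * a + (p - 1)) atTop atTop :=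
    tendsto_atTop_add_const_right _ _ (tendsto_id.const_mul_atTop' hp)
  obtain ⟨a0, ha0⟩ := eventually_atTop.1 ((sh.eventually (hF.hasChi W)).and (hG.hasChi (desc p W)))
  have h : ∀ a, a0 ≤ a → (finrank (RatFunc k) W : ℤ) * (p * a + (p - 1)) + chi (capW (FG p G) W) =
      p * (finrank (RatFunc k) (desc p W) * a + chi (capW G (desc p W))) := by
    intro a ha
    rw [← (ha0 a ha).1, ← (ha0 a ha).2, finrank_FG p G W hW a]
    push_cast
    ring
  have h1 := h a0 le_rfl
  have h2 := h (a0 + 1) (by omega)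
  have h3 : (p : ℤ) * finrank (RatFunc k) (desc p W) = p * finrank (RatFunc k) W := by linarith
  have h4 : (finrank (RatFunc k) (desc p W) : ℤ) = finrank (RatFunc k) W :=
    mul_left_cancel₀ hp.ne' h3
  refine ⟨by omega, ?_⟩
  rw [h4] at h1
  linarith

end P

/-- The bound on the projective line. -/
theorem curve_bound (p : ℕ) [Fact p.Prime] [CharP k p] [IsAlgClosed k] {ι : Type}
    (T : ι → Matrix (Fin N) (Fin N) (RatFunc k)) (G L : ℤ → Submodule k (WW k N))
    (hG : GLat G) (hF : GLat (FG p G)) (hL : GLat L)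
    (hwin : ∀ W, MStb T W →
      chi (capW G W) ≤ finrank (RatFunc k) W ∧ chi (capW G W) ≤ chi G)
    (E : ℕ) (S : ι → WW k N →ₗ[RatFunc k] WW k N)
    (hS : ∀ i n, ∀ v ∈ L n, S i v ∈ L (n + E))
    (hST : ∀ W : Submodule (RatFunc k) (WW k N), (∀ i, ∀ v ∈ W, S i v ∈ W) →
      MStb (fun i => (T i).map (· ^ p)) W)
    (g : RatFunc k) (hg : g ≠ 0) (hgd : ∀ n, ∀ v ∈ L n, g • dW v ∈ L (n + E))
    (hcmp : ∀ W, MStb (fun i => (T i).map (· ^ p)) W → DStb W →
      chi (capW L W) ≤ chi (capW (FG p G) W))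
    (he : chi (FG p G) ≤ chi L) (n : ℤ) :
    (finrank k (L n) : ℤ) ≤ N * max 0 (n + cC N E) ∧
      (p + cC N E ≤ n → (finrank k (L n) : ℤ) ≤ N * n + chi (FG p G)) := by
  have hp : (2 : ℤ) ≤ p := by exact_mod_cast (Fact.out : p.Prime).two_le
  have hN : finrank (RatFunc k) (WW k N) = N := by simp
  have hrk : ∀ W : Submodule (RatFunc k) (WW k N), (finrank (RatFunc k) W : ℤ) ≤ N := fun W => by
    have := W.finrank_le
    omega
  have hrk0 : ∀ W : Submodule (RatFunc k) (WW k N), (0 : ℤ) ≤ finrank (RatFunc k) W :=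
    fun W => by positivity
  have hdt : desc p (⊤ : Submodule (RatFunc k) (WW k N)) = ⊤ := eq_top_iff.2 fun v _ => trivial
  have htop := (chi_FG p hG hF ⊤ (fun v _ => trivial)).2
  rw [hdt, capW_top, capW_top, finrank_top, hN] at htop
  have hstab : ∀ (μ μ' : ℤ) (W : Submodule (RatFunc k) (WW k N)), μ' + E < μ → IsMaxi L μ W →
      IsMaxi L μ' W → chi (capW L W) ≤ chi (capW (FG p G) W) ∧
        chi (capW L W) ≤ finrank (RatFunc k) W ∧
        chi (capW L W) ≤ chi L + (N - finrank (RatFunc k) W) * (p - 1) := by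
    intro μ μ' W hμ h1 h2
    have s1 : MStb (fun i => (T i).map (· ^ p)) W := hST W fun i =>
      hL.maxi_stable hμ h1 h2 ((S i).restrictScalars k) (hS i) (fun a v _ => by simp)
    have s2 : DStb W := fun v hv => by
      refine (W.smul_mem_iff hg).1 (hL.maxi_stable hμ h1 h2 (gdW g) hgd (fun a v hv => ?_) v hv)
      rw [gdW_apply, gdW_apply, dW_smul, smul_add, smul_comm, add_sub_cancel_left]
      exact W.smul_mem _ (W.smul_mem _ hv)
    have s3 : MStb T (desc p W) := fun i v hv => by
      change phi p _ ∈ W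
      rw [phi_mulVec]
      exact s1 i _ hv
    obtain ⟨c1, c2⟩ := chi_FG p hG hF W s2
    obtain ⟨c3, c4⟩ := hwin _ s3
    have c5 := hcmp W s1 s2
    rw [c1] at c3
    refine ⟨c5, by nlinarith, by nlinarith⟩
  obtain ⟨W', hW'⟩ := hL.finrank_le_span n
  have hE : (0 : ℤ) ≤ E := by positivity
  have hC : (cC N E : ℤ) = (N + 2) * (E + 1) + 2 := by simp [cC]
  constructor
  · obtain ⟨μ, μ', W, hμ, l1, l2, h1, h2⟩ := hL.exists_double 2 E
    rw [hN] at l2
    have c := (hstab μ μ' W hμ h1 h2).2.1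
    have b0 := h1 ⊥
    rw [chi_capW_bot, finrank_bot] at b0
    have r0 : (finrank (RatFunc k) W : ℤ) = 0 := by
      have := hrk0 W
      push_cast at b0
      nlinarith
    have b1 := h1 W'
    rw [r0] at c b1
    have m1 := le_max_left 0 (n + cC N E)
    have m2 := le_max_right 0 (n + cC N E)
    have := hrk W'
    have := hrk0 W'
    have b2 : n + μ ≤ max 0 (n + cC N E) := by nlinarith
    nlinarith
  · intro hn
    obtain ⟨μ, μ', W, hμ, l1, l2, h1, h2⟩ := hL.exists_double (-p - (N + 1) * (E + 1)) E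
    rw [hN] at l2
    obtain ⟨c0, -, c⟩ := hstab μ μ' W hμ h1 h2
    have b0 := h1 ⊤
    rw [capW_top, finrank_top, hN] at b0
    have r0 : (finrank (RatFunc k) W : ℤ) = N := by
      have := hrk W
      nlinarith
    have hWt : W = ⊤ := Submodule.eq_top_of_finrank_eq (by omega)
    subst hWt
    rw [capW_top, capW_top] at c0
    have b1 := h1 W'
    rw [capW_top, r0] at b1
    have := hrk W'
    have b2 : 0 ≤ n + μ := by nlinarith
    nlinarith

end Frob

end Crest.Agent.R169
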