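import Crest.Agent.R169.Rel

set_option autoImplicit false

namespace Crest.Agent.R169

namespace FreeAux

open scoped Pointwise TensorProduct

variable {R : Type*} [CommRing R]

/-- a matrix over `R` acting on tuples of elements of a module -/
def app {N ι κ : Type*} [AddCommGroup N] [Module R N] [Fintype κ] (a : ι → κ → R) (v : κ → N) :
    ι → N := fun i => ∑ j, a i j • v j

section
variable {N ι κ : Type*} [AddCommGroup N] [Module R N] [Fintype κ] (a : ι → κ → R)

theorem app_add (v w : κ → N) : app a (v + w) = app a v + app a w := by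
  funext i; simp [app, Finset.sum_add_distrib]

theorem app_smul (r : R) (v : κ → N) : app a (r • v) = r • app a v := by
  funext i; simp [app, Finset.smul_sum, smul_comm r]

theorem app_zero : app a (0 : κ → N) = 0 := by funext i; simp [app]

theorem app_map {N' : Type*} [AddCommGroup N'] [Module R N'] (f : N →ₗ[R] N') (v : κ → N) :
    app a (fun j => f (v j)) = fun i => f (app a v i) := by
  funext i; simp [app]

end

/-- exactness of `N^μ → N^κ → N^ι` -/
def Ex (N : Type*) {ι κ μ : Type*} [AddCommGroup N] [Module R N] [Fintype κ] [Fintype μ]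
    (b : μ → κ → R) (a : κ → ι → R) [Fintype ι] : Prop :=
  ∀ v : κ → N, app b v = 0 → ∃ w : ι → N, v = app a w

theorem step {N ι κ μ ν : Type*} [AddCommGroup N] [Module R N] [Fintype ι] [Fintype κ] [Fintype μ]
    [Fintype ν] (b : ν → μ → R) (a : μ → κ → R) (c : κ → ι → R) {r : R} (hr : IsSMulRegular N r)
    (hac : ∀ u : ι → N, app a (app c u) = 0) (hex : Ex (QuotSMulTop r N) a c)
    {t : Fin 3 → R} (hnil : ∃ e : ℕ, r ^ e ∈ Ideal.span (Set.range t))
    (hhom : ∀ v : μ → N, app b v = 0 → ∀ i, ∃ w, t i • v = app a w) : Ex N b a := by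
  have key : ∀ v : μ → N, (∃ w, r • v = app a w) → ∃ w, v = app a w := by
    rintro v ⟨w, hw⟩
    let π : N →ₗ[R] QuotSMulTop r N := Submodule.mkQ _
    have hπ : ∀ n, π n = 0 ↔ ∃ n', r • n' = n := fun n => by
      simp [π, Submodule.mem_smul_pointwise_iff_exists]
    obtain ⟨u', hu'⟩ := hex (fun j => π (w j)) (by
      rw [app_map, ← hw]; funext i; exact (hπ _).mpr ⟨v i, rfl⟩)
    choose u hu using fun i => Submodule.mkQ_surjective (r • (⊤ : Submodule R N)) (u' i)
    have hu2 : u' = fun i => π (u i) := funext fun i => (hu i).symm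
    rw [hu2, app_map] at hu'
    have : ∀ j, ∃ n', r • n' = w j - app c u j := fun j =>
      (hπ _).mp (by rw [map_sub, congrFun hu' j, sub_self])
    choose w' hw' using this
    refine ⟨w', funext fun i => hr ?_⟩
    have e : w = r • w' + app c u := funext fun j => by simp [hw']
    rw [e, app_add, hac, add_zero, app_smul] at hw
    exact congrFun hw i
  intro v hv
  obtain ⟨e, he⟩ := hnil
  have h1 : ∀ s ∈ Ideal.span (Set.range t), ∃ w, s • v = app a w := by
    intro s hs
    induction hs using Submodule.span_induction with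
    | mem s hs => obtain ⟨i, rfl⟩ := hs; exact hhom v hv i
    | zero => exact ⟨0, by rw [app_zero, zero_smul]⟩
    | add s s' _ _ h h' =>
      obtain ⟨w, hw⟩ := h
      obtain ⟨w', hw'⟩ := h'
      exact ⟨w + w', by rw [app_add, add_smul, hw, hw']⟩
    | smul q s _ h =>
      obtain ⟨w, hw⟩ := h
      exact ⟨q • w, by rw [app_smul, smul_eq_mul, mul_smul, hw]⟩
  have h2 := h1 _ he
  clear he
  induction e with
  | zero => simpa using h2
  | succ e ih => exact ih (key _ (by rwa [pow_succ', mul_smul] at h2))

/-- Koszul differentials -/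
def d1 (t : Fin 3 → R) : Unit → Fin 3 → R := fun _ => t

/-- Koszul differentials -/
def d2 (t : Fin 3 → R) : Fin 3 → Fin 3 → R :=
  ![![0, -t 2, t 1], ![t 2, 0, -t 0], ![-t 1, t 0, 0]]

/-- Koszul differentials -/
def d3 (t : Fin 3 → R) : Fin 3 → Unit → R := fun i _ => t i

theorem koszul {M : Type*} [AddCommGroup M] [Module R M] (t : Fin 3 → R) (r₁ r₂ r₃ : R)
    (h₁ : ∃ e : ℕ, r₁ ^ e ∈ Ideal.span (Set.range t))
    (h₂ : ∃ e : ℕ, r₂ ^ e ∈ Ideal.span (Set.range t))
    (h₃ : ∃ e : ℕ, r₃ ^ e ∈ Ideal.span (Set.range t))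
    (hreg : RingTheory.Sequence.IsWeaklyRegular M [r₁, r₂, r₃]) : Ex M (d1 t) (d2 t) := by
  simp only [RingTheory.Sequence.isWeaklyRegular_cons_iff] at hreg
  obtain ⟨g₁, g₂, g₃, -⟩ := hreg
  refine step (d1 t) (d2 t) (d3 t) g₁ (fun u => ?_) ?_ h₁ (fun v hv i => ?_)
  · funext i
    fin_cases i <;> simp [app, d2, d3, Fin.sum_univ_three, smul_smul, mul_comm]
  · refine step (d2 t) (d3 t) (fun _ (_ : Empty) => 0) g₂ (fun u => ?_) ?_ h₂ (fun v hv i => ?_)
    · funext i; simp [app]
    · refine step (d3 t) (fun _ (_ : Empty) => 0) (fun _ (_ : Empty) => 0) g₃ (fun u => ?_) ?_ h₃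
        (fun v hv i => ?_)
      · funext i; simp [app]
      · intro v _
        exact ⟨fun i => i.elim, funext fun i => i.elim⟩
      · refine ⟨fun i => i.elim, funext fun j => ?_⟩
        simpa [app, d3] using congrFun hv i
    · refine ⟨fun _ => v i, funext fun j => ?_⟩
      have a0 := congrFun hv 0
      have a1 := congrFun hv 1
      have a2 := congrFun hv 2
      simp [app, d2, Fin.sum_univ_three] at a0 a1 a2
      fin_cases i <;> fin_cases j <;> simp [app, d3]
      · linear_combination (norm := abel1) a2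
      · linear_combination (norm := abel1) -a1
      · linear_combination (norm := abel1) -a2
      · linear_combination (norm := abel1) a0
      · linear_combination (norm := abel1) a1
      · linear_combination (norm := abel1) -a0
  · have a0 := congrFun hv ()
    simp [app, d1, Fin.sum_univ_three] at a0
    fin_cases i
    · refine ⟨![0, v 2, -v 1], funext fun j => ?_⟩
      fin_cases j <;> simp [app, d2, Fin.sum_univ_three]
      linear_combination (norm := abel1) a0
    · refine ⟨![-v 2, 0, v 0], funext fun j => ?_⟩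
      fin_cases j <;> simp [app, d2, Fin.sum_univ_three]
      linear_combination (norm := abel1) a0
    · refine ⟨![v 1, -v 0, 0], funext fun j => ?_⟩
      fin_cases j <;> simp [app, d2, Fin.sum_univ_three]
      linear_combination (norm := abel1) a0

end FreeAux

open FreeAux in
open scoped TensorProduct in
/-- A finite module with a regular sequence of length three (acting through a ring `R`, the
elements being nilpotent modulo the maximal ideal of `A`) is free over a local ring `A` whose
maximal ideal has three generators. -/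
theorem free_of_isWeaklyRegular {A R M : Type*} [CommRing A] [IsLocalRing A] [IsNoetherianRing A]
    [CommRing R] [Algebra A R] [AddCommGroup M] [Module R M] [Module A M] [IsScalarTower A R M]
    [Module.Finite A M] (x y z : A) (hm : IsLocalRing.maximalIdeal A = Ideal.span {x, y, z})
    (rs : List R) (hlen : rs.length = 3)
    (hnil : ∀ r ∈ rs, ∃ n : ℕ, r ^ n ∈ (IsLocalRing.maximalIdeal A).map (algebraMap A R))
    (hreg : RingTheory.Sequence.IsWeaklyRegular M rs) : Module.Free A M := by
  obtain ⟨r₁, r₂, r₃, rfl⟩ := List.length_eq_three.mp hlen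
  let t : Fin 3 → R := ![algebraMap A R x, algebraMap A R y, algebraMap A R z]
  have ht : (IsLocalRing.maximalIdeal A).map (algebraMap A R) = Ideal.span (Set.range t) := by
    rw [hm, Ideal.map_span]
    congr 1
    simp only [t, Matrix.range_cons, Matrix.range_empty, Set.image_insert_eq, Set.image_singleton]
    ext; simp; tauto
  rw [ht] at hnil
  have hex := koszul (M := M) t r₁ r₂ r₃ (hnil _ (by simp)) (hnil _ (by simp)) (hnil _ (by simp))
    hreg
  have := Module.finitePresentation_of_finite A M
  apply Module.free_of_maximalIdeal_rTensor_injective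
  let x' : IsLocalRing.maximalIdeal A := ⟨x, by rw [hm]; exact Ideal.subset_span (by simp)⟩
  let y' : IsLocalRing.maximalIdeal A := ⟨y, by rw [hm]; exact Ideal.subset_span (by simp)⟩
  let z' : IsLocalRing.maximalIdeal A := ⟨z, by rw [hm]; exact Ideal.subset_span (by simp)⟩
  have hrep : ∀ w : IsLocalRing.maximalIdeal A ⊗[A] M,
      ∃ a b c : M, w = x' ⊗ₜ a + y' ⊗ₜ b + z' ⊗ₜ c := by
    intro w
    induction w using TensorProduct.induction_on with
    | zero => exact ⟨0, 0, 0, by simp⟩
    | tmul s n =>
      have hs : (s : A) ∈ Ideal.span {x, y, z} := hm ▸ s.2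
      obtain ⟨a, b, c, habc⟩ := Submodule.mem_span_triple.mp hs
      have : s = a • x' + b • y' + c • z' := Subtype.ext (by simpa using habc.symm)
      refine ⟨a • n, b • n, c • n, ?_⟩
      rw [this]
      simp only [TensorProduct.add_tmul, TensorProduct.smul_tmul]
    | add w w' h h' =>
      obtain ⟨a, b, c, rfl⟩ := h
      obtain ⟨a', b', c', rfl⟩ := h'
      exact ⟨a + a', b + b', c + c', by simp only [TensorProduct.tmul_add]; abel⟩
  rw [injective_iff_map_eq_zero]
  intro w hw
  obtain ⟨a, b, c, rfl⟩ := hrep w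
  have h1 : x • a + y • b + z • c = 0 := by
    have := congrArg (TensorProduct.lid A M) hw
    simpa [x', y', z'] using this
  obtain ⟨g, hg⟩ := hex ![a, b, c] (funext fun _ => by
    simpa [app, d1, t, Fin.sum_univ_three] using h1)
  have ha : a = -(z • g 1) + y • g 2 := by
    simpa [app, d2, t, Fin.sum_univ_three] using congrFun hg 0
  have hb : b = z • g 0 + -(x • g 2) := by
    simpa [app, d2, t, Fin.sum_univ_three] using congrFun hg 1
  have hc : c = -(y • g 0) + x • g 1 := by
    simpa [app, d2, t, Fin.sum_univ_three] using congrFun hg 2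
  have e1 : y • x' = x • y' := Subtype.ext (mul_comm _ _)
  have e2 : z • x' = x • z' := Subtype.ext (mul_comm _ _)
  have e3 : z • y' = y • z' := Subtype.ext (mul_comm _ _)
  rw [ha, hb, hc]
  simp only [TensorProduct.tmul_add, TensorProduct.tmul_neg, ← TensorProduct.smul_tmul, e1, e2, e3]
  abel

/-- the relations have a solution in any algebraically closed field of characteristic zero -/
theorem exists_rel (m : ℕ) {Ω : Type*} [Field Ω] [IsAlgClosed Ω] [CharZero Ω] (X Y Z : Ω)
    (hX : X ≠ 0) (hZ : Z ≠ 0) : ∃ u : Var m → Ω, Rel m X Y Z u := by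
  have sq : ∀ c : Ω, ∃ d : Ω, d ^ 2 = c := fun c => IsAlgClosed.exists_pow_nat_eq c two_pos
  choose rt hrt using sq
  set W := rt (Z ^ 2 + 4 * X * Y) with hW
  have hW2 : W ^ 2 = Z ^ 2 + 4 * X * Y := hrt _
  let a : P m → Ω := fun i => rt ((W + Z) / 2 - (pc i : Ω) * X)
  let b : P m → Ω := fun l => rt ((W - Z) / 2 / X - (pc l : Ω))
  have ha : ∀ i, a i ^ 2 = (W + Z) / 2 - (pc i : Ω) * X := fun i => hrt _
  have hb : ∀ l, b l ^ 2 = (W - Z) / 2 / X - (pc l : Ω) := fun l => hrt _
  have hs : ∀ i l, (a i * b l) ^ 2 = Y - (pc l : Ω) * ((W + Z) / 2) - (pc i : Ω) * ((W - Z) / 2) +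
      ((pc i * pc l : ℤ) : Ω) * X := by
    intro i l
    rw [mul_pow, ha, hb]
    push_cast
    field_simp
    linear_combination hW2
  let mu : Fin (4 * m) → Ω := fun i => rt (a (em i) * b 0 + a 0 * b (em i))
  have hmu : ∀ i, mu i ^ 2 = a (em i) * b 0 + a 0 * b (em i) := fun i => hrt _
  have hprod : ∀ i : Fin (4 * m), mu i ^ 2 * (a (em i) * b 0 - a 0 * b (em i)) =
      (((i : ℕ) + 1 : ℕ) : Ω) ^ 2 * Z := by
    intro i
    have h1 := hs (em i) 0
    have h2 := hs 0 (em i)
    have h3 : (pc (em i) : Ω) = 1 + (((i : ℕ) + 1 : ℕ) : Ω) ^ 2 := by simp [pc, em]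
    have h4 : (pc (0 : P m) : Ω) = 1 := by simp [pc]
    rw [Int.cast_mul, h3, h4] at h1 h2
    rw [hmu]
    linear_combination h1 - h2
  have hmu0 : ∀ i, mu i ≠ 0 := by
    intro i h0
    have := hprod i
    rw [h0] at this
    have h1 : (((i : ℕ) + 1 : ℕ) : Ω) ≠ 0 := Nat.cast_ne_zero.mpr (Nat.succ_ne_zero _)
    exact mul_ne_zero (pow_ne_zero 2 h1) hZ (by rw [← this]; ring)
  refine ⟨fun v => match v with
    | .e01 => (W - Z) / 2
    | .e10 => (W + Z) / 2
    | .s i l => a i * b l
    | .mu true i => mu i
    | .mu false i => (((i : ℕ) + 1 : ℕ) : Ω) * rt Z / mu i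
    | .w => rt Z, fun _ _ => mul_comm _ _, by ring, ?_, fun i l i' l' => by ring,
    fun i l => hs i l, fun c i => ?_, fun i => ?_, hrt Z⟩
  · linear_combination (1 / 4) * hW2
  · cases c
    · have := hmu0 i
      simp only [sg, Bool.false_eq_true, if_false]
      rw [div_pow, mul_pow, hrt, ← hprod]
      field_simp
      push_cast
      ring
    · simpa [sg] using hmu i
  · have := hmu0 i
    simp only
    field_simp

/-- all generators are integral over the ring of `X, Y, Z` -/
theorem Rel.isIntegral {m : ℕ} {A O : Type*} [CommRing A] [CommRing O] [Algebra A O] {X Y Z : A}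
    {u : Var m → O} (h : Rel m (algebraMap A O X) (algebraMap A O Y) (algebraMap A O Z) u)
    (v : Var m) : IsIntegral A (u v) := by
  have hint : ∀ n : ℤ, IsIntegral A (n : O) := fun n => by
    rw [← map_intCast (algebraMap A O)]; exact isIntegral_algebraMap
  have h10 : IsIntegral A (u .e10) := by
    refine ⟨Polynomial.X ^ 2 - (Polynomial.C Z * Polynomial.X + Polynomial.C (X * Y)),
      Polynomial.monic_X_pow_sub (lt_of_le_of_lt Polynomial.degree_linear_le (by norm_num)), ?_⟩
    simp only [Polynomial.eval₂_sub, Polynomial.eval₂_add, Polynomial.eval₂_mul,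
      Polynomial.eval₂_X_pow, Polynomial.eval₂_C, Polynomial.eval₂_X, map_mul]
    linear_combination u .e10 * h.hE + h.hEE
  have h01 : IsIntegral A (u .e01) := by
    have : u .e01 = u .e10 - algebraMap A O Z := by linear_combination -h.hE
    rw [this]; exact h10.sub isIntegral_algebraMap
  have hs : ∀ i l, IsIntegral A (u (.s i l)) := fun i l => by
    refine IsIntegral.of_pow two_pos ?_
    rw [h.hs2]
    exact ((isIntegral_algebraMap.sub ((hint _).mul h10)).sub ((hint _).mul h01)).add
      ((hint _).mul isIntegral_algebraMap)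
  cases v with
  | e01 => exact h01
  | e10 => exact h10
  | s i l => exact hs i l
  | mu b i =>
    refine IsIntegral.of_pow two_pos ?_
    rw [h.hmu]
    exact (hs _ _).add ((hint _).mul (hs _ _))
  | w =>
    refine IsIntegral.of_pow two_pos ?_
    rw [h.hw]
    exact isIntegral_algebraMap

/-- A nonzero finite free module over a local ring `A` mapping to the power series ring, with an
action of a ring `R` containing a solution of the relations, contradicts `NoRep`. -/
theorem false_of_free {m : ℕ} (hno : ∀ N, 0 < N → NoRep m N ℂ) {A R M : Type*} [CommRing A]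
    [CommRing R] [Algebra A R] [AddCommGroup M] [Module R M] [Module A M] [IsScalarTower A R M]
    [Module.Finite A M] [Module.Free A M] [Nontrivial M] (φ : A →+* MvPowerSeries (Fin 3) ℂ)
    (x y z : A) (hx : φ x = MvPowerSeries.X 1) (hy : φ y = MvPowerSeries.X 2)
    (hz : φ z = MvPowerSeries.X 0) (u : Var m → R)
    (h : Rel m (algebraMap A R x) (algebraMap A R (((cc m : ℤ) : A) * x + z)) (algebraMap A R y) u) :
    False := by
  have : Nontrivial A := φ.domain_nontrivial
  let b := Module.finBasis A M
  have hN : 0 < Module.finrank A M := by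
    rcases Nat.eq_zero_or_pos (Module.finrank A M) with h0 | h0
    · have : IsEmpty (Fin (Module.finrank A M)) := by rw [h0]; infer_instance
      exact absurd b.repr.toEquiv.subsingleton (not_subsingleton M)
    · exact h0
  let ρ : R →ₐ[A] Matrix (Fin (Module.finrank A M)) (Fin (Module.finrank A M)) A :=
    (LinearMap.toMatrixAlgEquiv b).toAlgHom.comp (Algebra.lsmul A A M)
  let ψ := φ.mapMatrix.comp ρ.toRingHom
  have hψ : ∀ a : A, ψ (algebraMap A R a) = Matrix.scalar _ (φ a) := fun a => by
    have : ρ (algebraMap A R a) = Matrix.scalar _ a := ρ.commutes a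
    simp only [ψ, RingHom.comp_apply, AlgHom.toRingHom_eq_coe, RingHom.coe_coe, this]
    simp [Matrix.diagonal_map]
  have := h.map ψ
  rw [hψ, hψ, hψ, map_add, map_mul, map_intCast, hx, hy, hz] at this
  exact hno _ hN _ this

end Crest.Agent.R169
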