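import Crest.Agent.R169.Rel

set_option autoImplicit false
set_option linter.style.haveILetI false

namespace Crest.Agent.R169

open Module

section Idx
variable {k : Type*} [Field k] {V V' : Type*} [AddCommGroup V] [Module k V] [AddCommGroup V']
  [Module k V']

/-- the dimension of `A / (A ∩ B)` -/
noncomputable def idx (A B : Submodule k V) : ℕ := finrank k (A ⧸ B.comap A.subtype)

/-- `A / (A ∩ B)` is finite dimensional -/
def FinIdx (A B : Submodule k V) : Prop := FiniteDimensional k (A ⧸ B.comap A.subtype)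

/-- `A / (A ∩ B)` as a subspace of `V / B` -/
noncomputable def idxEquiv (A B : Submodule k V) :
    (A ⧸ B.comap A.subtype) ≃ₗ[k] A.map B.mkQ :=
  (Submodule.quotEquivOfEq _ _ (by
      ext x; simp [LinearMap.mem_ker, Submodule.Quotient.mk_eq_zero])).trans
    ((LinearMap.quotKerEquivRange (B.mkQ.comp A.subtype)).trans
      (LinearEquiv.ofEq _ _ (by rw [LinearMap.range_comp, Submodule.range_subtype])))

theorem idx_eq (A B : Submodule k V) : idx A B = finrank k (A.map B.mkQ) :=
  (idxEquiv A B).finrank_eq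

theorem finIdx_iff (A B : Submodule k V) : FinIdx A B ↔ FiniteDimensional k (A.map B.mkQ) :=
  ⟨fun h => by
    haveI : FiniteDimensional k (A ⧸ B.comap A.subtype) := h
    exact (idxEquiv A B).finiteDimensional, fun h => (idxEquiv A B).symm.finiteDimensional⟩

theorem idx_inf (A B : Submodule k V) : idx A (A ⊓ B) = idx A B := by
  unfold idx
  have : (A ⊓ B).comap A.subtype = B.comap A.subtype := by ext x; simp
  rw [this]

theorem finIdx_inf (A B : Submodule k V) : FinIdx A (A ⊓ B) ↔ FinIdx A B := by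
  unfold FinIdx
  have : (A ⊓ B).comap A.subtype = B.comap A.subtype := by ext x; simp
  rw [this]

theorem idx_sup (A B : Submodule k V) : idx (A ⊔ B) B = idx A B := by
  rw [idx_eq, idx_eq, Submodule.map_sup, Submodule.mkQ_map_self, sup_bot_eq]

theorem finIdx_sup (A B : Submodule k V) : FinIdx (A ⊔ B) B ↔ FinIdx A B := by
  rw [finIdx_iff, finIdx_iff, Submodule.map_sup, Submodule.mkQ_map_self, sup_bot_eq]

theorem idx_of_le {A B : Submodule k V} (h : A ≤ B) : idx A B = 0 := by
  rw [idx_eq]
  have : A.map B.mkQ = ⊥ := by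
    rw [eq_bot_iff]; rintro _ ⟨x, hx, rfl⟩; simpa using h hx
  rw [this]; simp

theorem finIdx_of_le {A B : Submodule k V} (h : A ≤ B) : FinIdx A B := by
  rw [finIdx_iff]
  have : A.map B.mkQ = ⊥ := by
    rw [eq_bot_iff]; rintro _ ⟨x, hx, rfl⟩; simpa using h hx
  rw [this]; infer_instance

theorem finIdx_of_finite (A B : Submodule k V) [FiniteDimensional k A] : FinIdx A B := by
  unfold FinIdx; infer_instance

theorem le_of_idx_eq_zero {A B : Submodule k V} (hf : FinIdx A B) (h : idx A B = 0) : A ≤ B := by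
  rw [idx_eq] at h
  haveI := (finIdx_iff A B).1 hf
  have hb : A.map B.mkQ = ⊥ := Submodule.finrank_eq_zero.1 h
  intro x hx
  have : B.mkQ x ∈ A.map B.mkQ := ⟨x, hx, rfl⟩
  rw [hb] at this
  simpa using this

/-- the map induced on quotients -/
noncomputable def idxMap (f : V →ₗ[k] V') {A B : Submodule k V} {A' B' : Submodule k V'}
    (hA : ∀ x ∈ A, f x ∈ A') (hB : ∀ x ∈ A, x ∈ B → f x ∈ B') :
    (A ⧸ B.comap A.subtype) →ₗ[k] (A' ⧸ B'.comap A'.subtype) :=
  Submodule.mapQ _ _ (f.restrict hA) (fun x hx => hB x x.2 hx)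

theorem idx_le_of_inj (f : V →ₗ[k] V') {A B : Submodule k V} {A' B' : Submodule k V'}
    (hA : ∀ x ∈ A, f x ∈ A') (hB : ∀ x ∈ A, x ∈ B → f x ∈ B')
    (hinj : ∀ x ∈ A, f x ∈ B' → x ∈ B) (hf : FinIdx A' B') :
    FinIdx A B ∧ idx A B ≤ idx A' B' := by
  haveI : FiniteDimensional k (A' ⧸ B'.comap A'.subtype) := hf
  have hi : Function.Injective (idxMap f hA hB) := by
    rw [← LinearMap.ker_eq_bot, eq_bot_iff]
    intro q hq
    obtain ⟨x, rfl⟩ := Submodule.Quotient.mk_surjective _ q
    have : f x ∈ B' := by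
      simpa [idxMap, LinearMap.mem_ker, Submodule.mapQ_apply, Submodule.Quotient.mk_eq_zero] using hq
    simpa [Submodule.Quotient.mk_eq_zero] using hinj x x.2 this
  exact ⟨FiniteDimensional.of_injective _ hi, LinearMap.finrank_le_finrank_of_injective hi⟩

theorem idx_le_of_surj (f : V →ₗ[k] V') {A B : Submodule k V} {A' B' : Submodule k V'}
    (hA : ∀ x ∈ A, f x ∈ A') (hB : ∀ x ∈ A, x ∈ B → f x ∈ B')
    (hsurj : ∀ y ∈ A', ∃ x ∈ A, y - f x ∈ B') (hf : FinIdx A B) :
    FinIdx A' B' ∧ idx A' B' ≤ idx A B := by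
  haveI : FiniteDimensional k (A ⧸ B.comap A.subtype) := hf
  have hs : Function.Surjective (idxMap f hA hB) := by
    intro q
    obtain ⟨y, rfl⟩ := Submodule.Quotient.mk_surjective _ q
    obtain ⟨x, hx, hxy⟩ := hsurj y y.2
    refine ⟨Submodule.Quotient.mk ⟨x, hx⟩, ?_⟩
    simp only [idxMap, Submodule.mapQ_apply]
    rw [Submodule.Quotient.eq]
    have := B'.neg_mem hxy
    simpa using this
  exact ⟨Module.Finite.of_surjective _ hs, LinearMap.finrank_le_finrank_of_surjective hs⟩

theorem FinIdx.mono {A B A' B' : Submodule k V} (h : FinIdx A B) (hA : A' ≤ A) (hB : B ≤ B') :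
    FinIdx A' B' := by
  have h1 : FinIdx A' B := (idx_le_of_inj LinearMap.id (fun x hx => hA hx) (fun x _ hx => hx)
    (fun x _ hx => hx) h).1
  exact (idx_le_of_surj LinearMap.id (fun x hx => hx) (fun x _ hx => hB hx)
    (fun y hy => ⟨y, hy, by simp⟩) h1).1

theorem idx_mono {A B A' B' : Submodule k V} (h : FinIdx A B) (hA : A' ≤ A) (hB : B ≤ B') :
    idx A' B' ≤ idx A B := by
  have h1 := idx_le_of_inj (LinearMap.id : V →ₗ[k] V) (A := A') (B := B) (fun x hx => hA hx)
    (fun x _ hx => hx) (fun x _ hx => hx) h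
  have h2 := idx_le_of_surj (LinearMap.id : V →ₗ[k] V) (A := A') (B := B) (A' := A') (B' := B')
    (fun x hx => hx) (fun x _ hx => hB hx) (fun y hy => ⟨y, hy, by simp⟩) h1.1
  exact h2.2.trans h1.2

theorem idx_map (f : V →ₗ[k] V') (hf : Function.Injective f) (A B : Submodule k V) :
    idx (A.map f) (B.map f) = idx A B ∧ (FinIdx (A.map f) (B.map f) ↔ FinIdx A B) := by
  have hA : ∀ x ∈ A, f x ∈ A.map f := fun x hx => ⟨x, hx, rfl⟩
  have hB : ∀ x ∈ A, x ∈ B → f x ∈ B.map f := fun x _ hx => ⟨x, hx, rfl⟩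
  have hb : Function.Bijective (idxMap f hA hB) := by
    constructor
    · rw [← LinearMap.ker_eq_bot, eq_bot_iff]
      intro q hq
      obtain ⟨x, rfl⟩ := Submodule.Quotient.mk_surjective _ q
      have : f x ∈ B.map f := by
        simpa [idxMap, LinearMap.mem_ker, Submodule.mapQ_apply, Submodule.Quotient.mk_eq_zero]
          using hq
      obtain ⟨y, hy, hyx⟩ := this
      have : (x : V) ∈ B := hf hyx ▸ hy
      simpa [Submodule.Quotient.mk_eq_zero] using this
    · intro q
      obtain ⟨⟨_, x, hx, rfl⟩, rfl⟩ := Submodule.Quotient.mk_surjective _ q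
      exact ⟨Submodule.Quotient.mk ⟨x, hx⟩, rfl⟩
  let e := LinearEquiv.ofBijective _ hb
  refine ⟨e.finrank_eq.symm, fun h => ?_, fun h => ?_⟩
  · haveI : FiniteDimensional k (A.map f ⧸ (B.map f).comap (A.map f).subtype) := h
    exact e.symm.finiteDimensional
  · haveI : FiniteDimensional k (A ⧸ B.comap A.subtype) := h
    exact e.finiteDimensional

theorem idx_add {A B C : Submodule k V} (hBA : B ≤ A) (hCB : C ≤ B) (h1 : FinIdx A B)
    (h2 : FinIdx B C) : FinIdx A C ∧ idx A C = idx A B + idx B C := by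
  haveI : FiniteDimensional k (A ⧸ B.comap A.subtype) := h1
  haveI := (finIdx_iff B C).1 h2
  let f : (A ⧸ C.comap A.subtype) →ₗ[k] (A ⧸ B.comap A.subtype) :=
    idxMap LinearMap.id (fun x hx => hx) (fun x _ hx => hCB hx)
  have hs : Function.Surjective f := by
    intro q
    obtain ⟨y, rfl⟩ := Submodule.Quotient.mk_surjective _ q
    exact ⟨Submodule.Quotient.mk y, rfl⟩
  let g : (B ⧸ C.comap B.subtype) →ₗ[k] (A ⧸ C.comap A.subtype) :=
    idxMap LinearMap.id (fun x hx => hBA hx) (fun x _ hx => hx)
  have hgi : Function.Injective g := by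
    rw [← LinearMap.ker_eq_bot, eq_bot_iff]
    intro q hq
    obtain ⟨x, rfl⟩ := Submodule.Quotient.mk_surjective _ q
    have : (x : V) ∈ C := by
      simpa [g, idxMap, LinearMap.mem_ker, Submodule.mapQ_apply, Submodule.Quotient.mk_eq_zero]
        using hq
    simpa [Submodule.Quotient.mk_eq_zero] using this
  have hker : LinearMap.ker f = LinearMap.range g := by
    ext q
    obtain ⟨x, rfl⟩ := Submodule.Quotient.mk_surjective _ q
    constructor
    · intro hq
      have : (x : V) ∈ B := by
        simpa [f, idxMap, LinearMap.mem_ker, Submodule.mapQ_apply, Submodule.Quotient.mk_eq_zero]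
          using hq
      exact ⟨Submodule.Quotient.mk ⟨x, this⟩, rfl⟩
    · rintro ⟨q', hq'⟩
      obtain ⟨y, rfl⟩ := Submodule.Quotient.mk_surjective _ q'
      rw [← hq']
      simp [f, g, idxMap, LinearMap.mem_ker, Submodule.mapQ_apply, Submodule.Quotient.mk_eq_zero]
  haveI : FiniteDimensional k (B ⧸ C.comap B.subtype) := h2
  haveI : FiniteDimensional k (LinearMap.ker f) := by rw [hker]; infer_instance
  have hfin : FiniteDimensional k (A ⧸ C.comap A.subtype) := by
    haveI : FiniteDimensional k ((A ⧸ C.comap A.subtype) ⧸ LinearMap.ker f) :=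
      (LinearMap.quotKerEquivOfSurjective f hs).symm.finiteDimensional
    exact Module.Finite.of_submodule_quotient (LinearMap.ker f)
  refine ⟨hfin, ?_⟩
  have h3 := LinearMap.finrank_range_add_finrank_ker f
  rw [LinearMap.range_eq_top.2 hs, finrank_top, hker, LinearMap.finrank_range_of_inj hgi] at h3
  unfold idx
  omega

theorem idx_add' {A B C : Submodule k V} (hBA : B ≤ A) (hCB : C ≤ B) (h : FinIdx A C) :
    idx A C = idx A B + idx B C :=
  (idx_add hBA hCB (h.mono le_rfl hCB) (h.mono hBA le_rfl)).2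

theorem idx_bot (A : Submodule k V) : idx A ⊥ = finrank k A := by
  unfold idx
  rw [Submodule.comap_bot, Submodule.ker_subtype]
  exact (Submodule.quotEquivOfEqBot _ rfl).finrank_eq

theorem idx_add_finrank {A B : Submodule k V} (h : B ≤ A) [FiniteDimensional k A] :
    idx A B + finrank k B = finrank k A := by
  have := idx_add' h bot_le (finIdx_of_finite A ⊥)
  rw [idx_bot, idx_bot] at this
  omega

end Idx

section Der
variable {A R : Type*} [CommRing A] [CommRing R] [Algebra A R]

/-- `a ↦ a + ε d a` -/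
def derHom (d : A →+ A) (hd : ∀ a b, d (a * b) = a * d b + b * d a) :
    A →+* TrivSqZeroExt R R where
  toFun a := ⟨algebraMap A R a, algebraMap A R (d a)⟩
  map_one' := by
    have h1 : d 1 = 0 := by
      have := hd 1 1
      simp only [mul_one, one_mul] at this
      simpa using this
    ext <;> simp [h1]
  map_mul' a b := by
    ext
    · simp
    · simp [hd, mul_comm]
  map_zero' := by ext <;> simp
  map_add' a b := by ext <;> simp

theorem derHom_isUnit (S : Submonoid A) [IsLocalization S R] (d : A →+ A)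
    (hd : ∀ a b, d (a * b) = a * d b + b * d a) (s : S) : IsUnit (derHom (R := R) d hd s) := by
  rw [TrivSqZeroExt.isUnit_iff_isUnit_fst]
  exact IsLocalization.map_units R s

/-- extension of a derivation to a localization -/
noncomputable def locDer (S : Submonoid A) [IsLocalization S R] (d : A →+ A)
    (hd : ∀ a b, d (a * b) = a * d b + b * d a) : R →+ R :=
  (TrivSqZeroExt.sndHom R R).toAddMonoidHom.comp
    (IsLocalization.lift (M := S) (S := R) (derHom_isUnit (R := R) S d hd)).toAddMonoidHom

theorem locDer_fst (S : Submonoid A) [IsLocalization S R] (d : A →+ A)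
    (hd : ∀ a b, d (a * b) = a * d b + b * d a) (r : R) :
    TrivSqZeroExt.fst (IsLocalization.lift (M := S) (S := R) (derHom_isUnit (R := R) S d hd) r)
      = r := by
  have : (TrivSqZeroExt.fstHom R R R).toRingHom.comp
      (IsLocalization.lift (M := S) (S := R) (derHom_isUnit (R := R) S d hd)) = RingHom.id R := by
    apply IsLocalization.ringHom_ext S
    ext a
    simp [derHom]
  exact congrArg (fun f : R →+* R => f r) this

theorem locDer_algebraMap (S : Submonoid A) [IsLocalization S R] (d : A →+ A)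
    (hd : ∀ a b, d (a * b) = a * d b + b * d a) (a : A) :
    locDer (R := R) S d hd (algebraMap A R a) = algebraMap A R (d a) := by
  simp [locDer, derHom]

theorem locDer_mul (S : Submonoid A) [IsLocalization S R] (d : A →+ A)
    (hd : ∀ a b, d (a * b) = a * d b + b * d a) (r r' : R) :
    locDer (R := R) S d hd (r * r') = r * locDer S d hd r' + r' * locDer S d hd r := by
  simp [locDer, TrivSqZeroExt.snd_mul, locDer_fst, mul_comm]

end Der

end Crest.Agent.R169
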