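import Crest.Agent.R169.Amb

/-!
Calculus of shifts, symbols and invertibility on layers.
-/

set_option autoImplicit false
set_option linter.unusedSectionVars false

namespace Crest.Agent.R169

open Module Filter Polynomial

variable {k : Type} [Field k] {m N : ℕ} [Big k m]
variable {O : Type} [CommRing O] [Algebra (A3 k) O] [Module O (VV k m N)]
  [IsScalarTower (A3 k) O (VV k m N)]
variable {H : ℤ → Submodule (A3 k) (VV k m N)} {FS : Finset (Fac m)}

/-! ### shifts -/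

theorem ShH.congr {a a' : ℤ} {t t' : O} (h : ShH H a t) (ha : a = a') (ht : t = t') :
    ShH H a' t' := ha ▸ ht ▸ h

theorem ShH.mul {a b : ℤ} {t t' : O} (h : ShH H a t) (h' : ShH H b t') :
    ShH H (a + b) (t * t') := by
  intro i ξ hξ
  have := h _ _ (h' i ξ hξ)
  rwa [← mul_smul, show i + b + a = i + (a + b) by ring] at this

theorem ShH.add {a : ℤ} {t t' : O} (h : ShH H a t) (h' : ShH H a t') : ShH H a (t + t') := by
  intro i ξ hξ
  rw [add_smul]; exact (H _).add_mem (h i ξ hξ) (h' i ξ hξ)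

theorem ShH.neg {a : ℤ} {t : O} (h : ShH H a t) : ShH H a (-t) := by
  intro i ξ hξ
  rw [neg_smul]; exact (H _).neg_mem (h i ξ hξ)

theorem ShH.sub {a : ℤ} {t t' : O} (h : ShH H a t) (h' : ShH H a t') : ShH H a (t - t') := by
  rw [sub_eq_add_neg]; exact h.add h'.neg

theorem shH_zero (a : ℤ) : ShH H a (0 : O) := by
  intro i ξ hξ
  rw [zero_smul]; exact (H _).zero_mem

theorem ShH.sum {ι : Type*} {a : ℤ} (s : Finset ι) {t : ι → O} (h : ∀ i ∈ s, ShH H a (t i)) :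
    ShH H a (∑ i ∈ s, t i) :=
  Finset.sum_induction _ (ShH H a) (fun _ _ => ShH.add) (shH_zero a) h

theorem shH_alg (c : A3 k) : ShH H 0 (algebraMap (A3 k) O c) := by
  intro i ξ hξ
  rw [algebraMap_smul, add_zero]; exact (H _).smul_mem _ hξ

theorem shH_one : ShH H 0 (1 : O) := by simpa using shH_alg (O := O) (H := H) 1

theorem shH_intCast (n : ℤ) : ShH H 0 (n : O) := by simpa using shH_alg (O := O) (H := H) n

theorem ShH.pow {a : ℤ} {t : O} (h : ShH H a t) (n : ℕ) : ShH H (n * a) (t ^ n) := by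
  induction n with
  | zero => simpa using shH_one
  | succ n ih => exact (ih.mul h).congr (by push_cast; ring) (pow_succ t n).symm

theorem ShH.prod {ι : Type*} (s : Finset ι) {a : ι → ℤ} {t : ι → O}
    (h : ∀ i ∈ s, ShH H (a i) (t i)) : ShH H (∑ i ∈ s, a i) (∏ i ∈ s, t i) := by
  classical
  induction s using Finset.induction_on with
  | empty => simpa using shH_one
  | insert i s hi ih =>
    rw [Finset.prod_insert hi, Finset.sum_insert hi]
    exact (h i (Finset.mem_insert_self _ _)).mul (ih fun j hj => h j (Finset.mem_insert_of_mem hj))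

theorem Filt.antitone (hF : Filt H FS) : Antitone H := antitone_int_of_succ_le hF.anti

theorem ShH.mono (hF : Filt H FS) {a a' : ℤ} {t : O} (h : ShH H a t) (ha : a' ≤ a) :
    ShH H a' t := fun i ξ hξ => hF.antitone (by omega) (h i ξ hξ)

theorem Filt.shH_sA (hF : Filt H FS) : ShH H 2 (algebraMap (A3 k) O (sA k FS)) := by
  intro i ξ hξ
  rw [algebraMap_smul]; exact hF.kill i ξ hξ

/-- the ring of elements preserving the filtration -/
def sh0 (O : Type) [CommRing O] [Algebra (A3 k) O] [Module O (VV k m N)]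
    [IsScalarTower (A3 k) O (VV k m N)] (H : ℤ → Submodule (A3 k) (VV k m N)) :
    Subalgebra (A3 k) O where
  carrier := {t | ShH H 0 t}
  mul_mem' := fun {a b} ha hb => by simpa using ShH.mul ha hb
  add_mem' := fun {a b} ha hb => ShH.add ha hb
  algebraMap_mem' := shH_alg

theorem mem_sh0 {t : O} : t ∈ sh0 O H ↔ ShH H 0 t := Iff.rfl

theorem ShH.mem_mult {t : O} (h : ShH H 0 t) (i : ℤ) : t ∈ mult O (H i) := fun ξ hξ => by
  simpa using h i ξ hξ

/-- multipliers of a lattice can be tested at the branch divisors -/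
theorem Lat.mem_mult {L : Submodule (A3 k) (VV k m N)} (hL : Lat L) {t : O}
    (h : ∀ f : Fac m, ∃ σ ∈ Sig k f, algebraMap (A3 k) O σ * t ∈ mult O L) : t ∈ mult O L := by
  intro ξ hξ
  apply hL.closed
  intro f
  obtain ⟨σ, hσ, h1⟩ := h f
  refine ⟨σ, hσ, ?_⟩
  have := h1 ξ hξ
  rwa [mul_smul, algebraMap_smul] at this

/-! ### symbols -/

variable {cx : Cx k m N O}

theorem Sy.congr {t t' : O} {e e' : ℤ} (h : Sy cx t e) (ht : t = t') (he : e = e') :
    Sy cx t' e' := ht ▸ he ▸ h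

theorem Sy.mul {t t' : O} {e e' : ℤ} (h : Sy cx t e) (h' : Sy cx t' e') :
    Sy cx (t * t') (e + e') := by
  obtain ⟨S, h1, h2⟩ := h
  obtain ⟨S', h1', h2'⟩ := h'
  refine ⟨S ∘ₗ S', fun n ξ hξ => ?_, fun W hW v hv => h2 W hW _ (h2' W hW v hv)⟩
  obtain ⟨a1, a2⟩ := h1' n ξ hξ
  obtain ⟨b1, b2⟩ := h1 _ _ a1
  simp only [mul_smul]
  rw [show n + (e + e') = n + e' + e by ring]
  exact ⟨b1, by rw [b2, a2]; rfl⟩

theorem Sy.add {t t' : O} {e : ℤ} (h : Sy cx t e) (h' : Sy cx t' e) : Sy cx (t + t') e := by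
  obtain ⟨S, h1, h2⟩ := h
  obtain ⟨S', h1', h2'⟩ := h'
  refine ⟨S + S', fun n ξ hξ => ?_, fun W hW v hv => W.add_mem (h2 W hW v hv) (h2' W hW v hv)⟩
  obtain ⟨a1, a2⟩ := h1' n ξ hξ
  obtain ⟨b1, b2⟩ := h1 n ξ hξ
  simp only [add_smul]
  exact ⟨(FF _ _).add_mem b1 a1, by rw [map_add, b2, a2]; rfl⟩

theorem Sy.neg {t : O} {e : ℤ} (h : Sy cx t e) : Sy cx (-t) e := by
  obtain ⟨S, h1, h2⟩ := h
  refine ⟨-S, fun n ξ hξ => ?_, fun W hW v hv => W.neg_mem (h2 W hW v hv)⟩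
  obtain ⟨b1, b2⟩ := h1 n ξ hξ
  simp only [neg_smul]
  exact ⟨(FF cx.g (n + e)).neg_mem b1, by rw [map_neg, b2]; rfl⟩

theorem Sy.sub {t t' : O} {e : ℤ} (h : Sy cx t e) (h' : Sy cx t' e) : Sy cx (t - t') e := by
  rw [sub_eq_add_neg]; exact h.add h'.neg

theorem sy_zero (e : ℤ) : Sy cx (0 : O) e :=
  ⟨0, fun n ξ _ => by simp, fun W _ v _ => by simp⟩

theorem Sy.sum {ι : Type*} {e : ℤ} (s : Finset ι) {t : ι → O} (h : ∀ i ∈ s, Sy cx (t i) e) :
    Sy cx (∑ i ∈ s, t i) e :=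
  Finset.sum_induction _ (fun t => Sy cx t e) (fun _ _ => Sy.add) (sy_zero e) h

theorem HomA.sy {a : A3 k} {e : ℤ} {P : k[X]} (h : HomA a e P) :
    Sy cx (algebraMap (A3 k) O a) e := by
  refine ⟨algebraMap k[X] (RatFunc k) P • LinearMap.id, fun n ξ hξ => ?_,
    fun W _ v hv => W.smul_mem _ hv⟩
  have := h.hasSymb cx.g n ξ hξ
  simp only [algebraMap_smul (A := O)]
  exact this

theorem GoodAt.sy {f : Fac m} {a : A3 k} {e : ℤ} (h : GoodAt f a e) :
    Sy cx (algebraMap (A3 k) O a) e := h.choose_spec.1.sy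

theorem sy_one : Sy cx (1 : O) 0 := by simpa using (homA_one (k := k)).sy (cx := cx)

theorem sy_intCast (n : ℤ) : Sy cx (n : O) 0 := by
  simpa using (homA_intCast (k := k) n).sy (cx := cx)

theorem Sy.pow {t : O} {e : ℤ} (h : Sy cx t e) (n : ℕ) : Sy cx (t ^ n) (n * e) := by
  induction n with
  | zero => simpa using sy_one
  | succ n ih => exact (ih.mul h).congr (pow_succ t n).symm (by push_cast; ring)

theorem Sy.prod {ι : Type*} (s : Finset ι) {e : ι → ℤ} {t : ι → O}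
    (h : ∀ i ∈ s, Sy cx (t i) (e i)) : Sy cx (∏ i ∈ s, t i) (∑ i ∈ s, e i) := by
  classical
  induction s using Finset.induction_on with
  | empty => simpa using sy_one
  | insert i s hi ih =>
    rw [Finset.prod_insert hi, Finset.sum_insert hi]
    exact (h i (Finset.mem_insert_self _ _)).mul (ih fun j hj => h j (Finset.mem_insert_of_mem hj))

/-- division by a homogeneous element of `A` -/
theorem Sy.div {σ : A3 k} {e e' : ℤ} {P : k[X]} (hσ : HomA σ e P) (hP : P ≠ 0) {r t : O}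
    (hr : algebraMap (A3 k) O σ * r = t) (ht : Sy cx t e') : Sy cx r (e' - e) := by
  obtain ⟨S, h1, h2⟩ := ht
  have hP' : algebraMap k[X] (RatFunc k) P ≠ 0 := fun h0 =>
    hP (RatFunc.algebraMap_injective k (by rw [h0, map_zero]))
  refine ⟨(algebraMap k[X] (RatFunc k) P)⁻¹ • S, fun n ξ hξ => ?_,
    fun W hW v hv => W.smul_mem _ (h2 W hW v hv)⟩
  obtain ⟨b1, b2⟩ := h1 n ξ hξ
  have e1 : t • ξ = σ • (r • ξ) := by rw [← hr, mul_smul, algebraMap_smul]
  simp only [e1] at b1 b2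
  have e2 : n + e' = n + (e' - e) + e := by ring
  rw [e2] at b1 b2
  have c1 := hσ.mem_FF hP cx.g b1
  refine ⟨c1, ?_⟩
  have c2 := (hσ.hasSymb cx.g _ _ c1).2
  simp only at c2
  rw [b2] at c2
  simp only [LinearMap.smul_apply]
  rw [c2, smul_smul, inv_mul_cancel₀ hP', one_smul]

theorem GoodAt.ne_zero {f : Fac m} {P : k[X]} (h : IsCoprime P (ft k f)) : P ≠ 0 := by
  rintro rfl
  have h1 := natDegree_eq_zero_of_isUnit (isCoprime_zero_left.1 h)
  have h2 := natDegree_ft (k := k) f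
  have h3 := fdeg_pos f
  omega

theorem Sy.div_good {f : Fac m} {σ : A3 k} {e e' : ℤ} (hσ : GoodAt f σ e) {r t : O}
    (hr : algebraMap (A3 k) O σ * r = t) (ht : Sy cx t e') : Sy cx r (e' - e) := by
  obtain ⟨P, h1, -, h3⟩ := hσ
  exact ht.div h1 (GoodAt.ne_zero h3) hr

theorem Sy.presW {t : O} {e : ℤ} (h : Sy cx t e) : PresW cx (fun ξ => t • ξ) e := by
  obtain ⟨S, h1, h2⟩ := h
  intro n ξ hξ
  refine ⟨(h1 n ξ hξ).1, fun W hW _ hv => ?_⟩
  rw [(h1 n ξ hξ).2]
  exact h2 W hW _ hv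

theorem presW_dV : PresW cx (dV : VV k m N → VV k m N) (-1) := by
  intro n ξ hξ
  refine ⟨(cx.symb_d n ξ hξ).1, fun W _ hW hv => ?_⟩
  rw [(cx.symb_d n ξ hξ).2]
  exact hW _ hv

theorem PresW.congr {T T' : VV k m N → VV k m N} {e e' : ℤ} (h : PresW cx T e) (hT : T = T')
    (he : e = e') : PresW cx T' e' := hT ▸ he ▸ h

theorem PresW.comp {T T' : VV k m N → VV k m N} {e e' : ℤ} (h : PresW cx T e)
    (h' : PresW cx T' e') : PresW cx (fun ξ => T (T' ξ)) (e + e') := by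
  intro n ξ hξ
  obtain ⟨a1, a2⟩ := h' n ξ hξ
  obtain ⟨b1, b2⟩ := h _ _ a1
  rw [show n + (e + e') = n + e' + e by ring]
  exact ⟨b1, fun W hW hW' hv => b2 W hW hW' (a2 W hW hW' hv)⟩

theorem PresW.sub {T T' : VV k m N → VV k m N} {e : ℤ} (h : PresW cx T e)
    (h' : PresW cx T' e) : PresW cx (fun ξ => T ξ - T' ξ) e := by
  intro n ξ hξ
  obtain ⟨a1, a2⟩ := h' n ξ hξ
  obtain ⟨b1, b2⟩ := h n ξ hξ
  refine ⟨(FF cx.g (n + e)).sub_mem b1 a1, fun W hW hW' hv => ?_⟩
  simp only [map_sub]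
  exact W.sub_mem (b2 W hW hW' hv) (a2 W hW hW' hv)

/-! ### invertibility on the layers -/

theorem Inv.congr {ψ ψ' : O} {a a' e e' : ℤ} (h : Inv cx H FS ψ a e) (hψ : ψ = ψ') (ha : a = a')
    (he : e = e') : Inv cx H FS ψ' a' e' := hψ ▸ ha ▸ he ▸ h

theorem Inv.mul {ψ ψ' : O} {a a' e e' : ℤ} (h : Inv cx H FS ψ a e) (h' : Inv cx H FS ψ' a' e') :
    Inv cx H FS (ψ * ψ') (a + a') (e + e') := by
  refine ⟨h.1.mul h'.1, h.2.1.mul h'.2.1, fun f hf => ?_⟩
  obtain ⟨σ, d, t, g1, g2, g3, g4⟩ := h.2.2 f hf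
  obtain ⟨σ', d', t', g1', g2', g3', g4'⟩ := h'.2.2 f hf
  refine ⟨σ * σ', d + d', t * t', ?_, g2.mul g2', (g3.mul g3').congr (by ring) rfl, ?_⟩
  · have := g1.mul g1'
    rwa [show e + d + (e' + d') = e + e' + (d + d') by ring] at this
  · have b1 := (shH_alg (O := O) (H := H) σ').mul g4
    have b2 := (h.2.1.mul g3).mul g4'
    exact ((b1.congr (a' := 1) (by ring) rfl).add (b2.congr (by ring) rfl)).congr rfl
      (by rw [map_mul]; ring)

theorem Inv.good {σ : A3 k} {e : ℤ} (hs : Sy cx (algebraMap (A3 k) O σ) e)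
    (h : ∀ f ∈ FS, GoodAt f σ e) : Inv cx H FS (algebraMap (A3 k) O σ) 0 e :=
  ⟨hs, shH_alg σ, fun f hf => ⟨σ, 0, 1, by simpa using h f hf, sy_one, by simpa using shH_one,
    by simpa using shH_zero 1⟩⟩

theorem inv_one : Inv cx H FS (1 : O) 0 0 := by
  simpa using Inv.good (cx := cx) (H := H) (FS := FS) (σ := 1) (e := 0) (by simpa using sy_one)
    (fun f _ => goodAt_one f)

theorem inv_intCast {n : ℤ} (hn : (n : k) ≠ 0) : Inv cx H FS (n : O) 0 0 := by
  simpa using Inv.good (cx := cx) (H := H) (FS := FS) (σ := n) (e := 0)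
    (by simpa using sy_intCast n) (fun f _ => goodAt_intCast f hn)

theorem Inv.pow {ψ : O} {a e : ℤ} (h : Inv cx H FS ψ a e) (n : ℕ) :
    Inv cx H FS (ψ ^ n) (n * a) (n * e) := by
  induction n with
  | zero => simpa using inv_one
  | succ n ih => exact (ih.mul h).congr (pow_succ ψ n).symm (by push_cast; ring) (by push_cast; ring)

theorem Inv.prod {ι : Type*} (s : Finset ι) {a e : ι → ℤ} {t : ι → O}
    (h : ∀ i ∈ s, Inv cx H FS (t i) (a i) (e i)) :
    Inv cx H FS (∏ i ∈ s, t i) (∑ i ∈ s, a i) (∑ i ∈ s, e i) := by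
  classical
  induction s using Finset.induction_on with
  | empty => simpa using inv_one
  | insert i s hi ih =>
    rw [Finset.prod_insert hi, Finset.sum_insert hi, Finset.sum_insert hi]
    exact (h i (Finset.mem_insert_self _ _)).mul (ih fun j hj => h j (Finset.mem_insert_of_mem hj))

/-- a factor (up to higher shift) of an invertible element is invertible -/
theorem Inv.of_mul {ψ ψ' t₀ : O} {a e e₀ : ℤ} (h1 : Sy cx ψ e) (h2 : ShH H a ψ)
    (h3 : Sy cx t₀ e₀) (h4 : ShH H (-a) t₀) (h' : Inv cx H FS ψ' 0 (e + e₀))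
    (h5 : ShH H 1 (ψ' - ψ * t₀)) : Inv cx H FS ψ a e := by
  refine ⟨h1, h2, fun f hf => ?_⟩
  obtain ⟨σ, d, t, g1, g2, g3, g4⟩ := h'.2.2 f hf
  refine ⟨σ, e₀ + d, t₀ * t, by rwa [← add_assoc], h3.mul g2, (h4.mul g3).congr (by ring) rfl, ?_⟩
  exact (g4.add ((h5.mul g3).congr (by ring) rfl)).congr rfl (by ring)

theorem Inv.of_sub (hF : Filt H FS) {ψ ψ' : O} {a e : ℤ} (h : Inv cx H FS ψ a e)
    (h1 : Sy cx ψ' e) (h2 : ShH H (a + 1) (ψ - ψ')) : Inv cx H FS ψ' a e := by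
  refine ⟨h1, (h.2.1.sub (h2.mono hF (by omega))).congr rfl (by ring), fun f hf => ?_⟩
  obtain ⟨σ, d, t, g1, g2, g3, g4⟩ := h.2.2 f hf
  refine ⟨σ, d, t, g1, g2, g3, ?_⟩
  exact (g4.add ((h2.mul g3).congr (by ring) rfl)).congr rfl (by ring)

/-- invertible elements act injectively on the layers -/
theorem Inv.inj (hF : Filt H FS) {ψ : O} {a e : ℤ} (h : Inv cx H FS ψ a e) {i : ℤ}
    {ξ : VV k m N} (hξ : ξ ∈ H i) (h1 : ψ • ξ ∈ H (i + a + 1)) : ξ ∈ H (i + 1) := by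
  apply (hF.lat _).closed
  intro f
  by_cases hf : f ∈ FS
  · obtain ⟨σ, d, t, g1, g2, g3, g4⟩ := h.2.2 f hf
    refine ⟨σ, g1.mem_Sig, ?_⟩
    have b1 := g4 i ξ hξ
    have b2 := g3 _ _ h1
    rw [show i + a + 1 + -a = i + 1 by ring] at b2
    have := (H _).add_mem b1 b2
    rwa [← mul_smul, ← add_smul, mul_comm t, sub_add_cancel, algebraMap_smul] at this
  · exact ⟨sA k FS, (goodAt_sA hf).mem_Sig, hF.antitone (by omega) (hF.kill i ξ hξ)⟩

/-- the radical criterion -/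
theorem tau_of_prime {s f : O}
    (h : ∀ (D : Type) [CommRing D] [IsDomain D] (χ : sh0 O H →+* D),
      (∀ (t : sh0 O H) (s' : O), ShH H 2 s' → ShH H 3 ((t : O) * s - f * s') → χ t = 0) →
      χ (algebraMap (A3 k) (sh0 O H) zA) = 0) :
    ∃ (n : ℕ) (s' : O), ShH H 2 s' ∧ ShH H 3 (algebraMap (A3 k) O (zA ^ n) * s - f * s') := by
  let J : Ideal (sh0 O H) :=
    { carrier := {t | ∃ s' : O, ShH H 2 s' ∧ ShH H 3 ((t : O) * s - f * s')}
      add_mem' := by
        rintro a b ⟨s1, h1, h2⟩ ⟨s2, h3, h4⟩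
        exact ⟨s1 + s2, h1.add h3, (h2.add h4).congr rfl (by push_cast; ring)⟩
      zero_mem' := ⟨0, shH_zero 2, by simpa using shH_zero 3⟩
      smul_mem' := by
        rintro c a ⟨s1, h1, h2⟩
        exact ⟨c * s1, by simpa using ShH.mul c.2 h1, (ShH.mul c.2 h2).congr (by ring)
          (by simp only [smul_eq_mul]; push_cast; ring)⟩ }
  have : algebraMap (A3 k) (sh0 O H) zA ∈ J.radical := by
    rw [Ideal.radical_eq_sInf, Ideal.mem_sInf]
    rintro Q ⟨hQ, hQp⟩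
    have := h (sh0 O H ⧸ Q) (Ideal.Quotient.mk Q)
      (fun t s' h1 h2 => Ideal.Quotient.eq_zero_iff_mem.2 (hQ ⟨s', h1, h2⟩))
    exact Ideal.Quotient.eq_zero_iff_mem.1 this
  obtain ⟨n, s', h1, h2⟩ := this
  exact ⟨n, s', h1, h2.congr rfl (by simp)⟩

/-- an integer that is nonzero in `k` is nonzero in a nontrivial quotient of an `A`-algebra -/
theorem intCast_ne_zero_of_hom {B D : Type} [CommRing B] [Algebra (A3 k) B] [CommRing D]
    [Nontrivial D] (χ : B →+* D) {n : ℤ} (hn : (n : k) ≠ 0) : (n : D) ≠ 0 := by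
  have := (IsUnit.mk0 _ hn).map
    (χ.comp ((algebraMap (A3 k) B).comp (algebraMap k (A3 k))))
  rw [map_intCast] at this
  exact this.ne_zero

/-- products of an even number of factors -/
theorem even_prod {ι M : Type*} [CommMonoid M] (Q : M → ℕ → Prop) (h1 : Q 1 0)
    (hmul : ∀ a b n n', Q a n → Q b n' → Q (a * b) (n + n')) (g : ι → M) (n : ℕ) :
    ∀ T : Finset ι, T.card = 2 * n → (∀ i ∈ T, ∀ i' ∈ T, i ≠ i' → Q (g i * g i') 1) →
      Q (∏ i ∈ T, g i) n := by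
  classical
  induction n with
  | zero =>
    intro T hT _
    rw [Finset.card_eq_zero.1 hT]; simpa using h1
  | succ n ih =>
    intro T hT h
    obtain ⟨i, hi, i', hi', hne⟩ := Finset.one_lt_card.1 (show 1 < T.card by omega)
    have hi2 : i' ∈ T.erase i := Finset.mem_erase.2 ⟨hne.symm, hi'⟩
    rw [← Finset.mul_prod_erase T g hi, ← Finset.mul_prod_erase _ g hi2, ← mul_assoc, add_comm]
    refine hmul _ _ _ _ (h i hi i' hi' hne) (ih _ ?_ fun a ha b hb hab =>
      h a (Finset.mem_of_mem_erase (Finset.mem_of_mem_erase ha)) b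
        (Finset.mem_of_mem_erase (Finset.mem_of_mem_erase hb)) hab)
    rw [Finset.card_erase_of_mem hi2, Finset.card_erase_of_mem hi]; omega

end Crest.Agent.R169
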