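import Crest.Agent.R169.CtxDef
import Crest.Agent.R169.Sh

/-!
Symbols of the generators.
-/

set_option autoImplicit false
set_option linter.unusedSectionVars false
set_option linter.style.haveILetI false

namespace Crest.Agent.R169

open Module Filter Polynomial

variable {k : Type} [Field k] {m N : ℕ} [Big k m]
variable {O : Type} [CommRing O] [Algebra (A3 k) O] [Module O (VV k m N)]
  [IsScalarTower (A3 k) O (VV k m N)]

theorem sb_two_ne_zero (m : ℕ) [Big k m] : ((2 : ℤ) : k) ≠ 0 :=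
  Big.ne (m := m) 2 (by norm_num) (by
    have := cc_pos m; rw [abs_of_pos (by norm_num)]; omega)

theorem sb_succ_ne_zero (i : Fin (4 * m)) : ((((i : ℕ) + 1 : ℕ) : ℤ) : k) ≠ 0 := by
  refine Big.ne (m := m) _ (by positivity) ?_
  have h1 := i.2
  have h2 : (m : ℤ) ≤ cc m := by
    unfold cc
    have h3 : (0 : ℤ) ≤ m := by positivity
    nlinarith [sq_nonneg (1 + (4 * (m : ℤ) + 1) ^ 2), sq_nonneg ((4 * (m : ℤ) + 1) ^ 2),
      sq_nonneg (m : ℤ)]
  rw [abs_of_nonneg (by positivity)]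
  omega

theorem sb_isUnit_intCast {n : ℤ} (hn : (n : k) ≠ 0) : IsUnit (n : O) := by
  have := (IsUnit.mk0 _ hn).map ((algebraMap (A3 k) O).comp (algebraMap k (A3 k)))
  rwa [map_intCast] at this

/-- `(e01 + e10) ^ 2 = q` -/
theorem Ctx.wq_sq (cx : Ctx k m N O) :
    (cx.u .e01 + cx.u .e10) ^ 2 = algebraMap (A3 k) O (ff k (Fac.q : Fac m)) := by
  have h1 := cx.rel.hE
  have h2 := cx.rel.hEE
  simp only [ff, map_add, map_mul, map_pow, map_ofNat]
  rw [← h1]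
  linear_combination 4 * h2

/-- `s ^ 2` times its conjugate is a product of two linear forms -/
theorem Ctx.s_sq_conj (cx : Ctx k m N O) (i l : P m) :
    cx.u (.s i l) ^ 2 * (algebraMap (A3 k) O (YA k m) + ((pc l : ℤ) : O) * cx.u .e01 +
      ((pc i : ℤ) : O) * cx.u .e10 + ((pc i * pc l : ℤ) : O) * algebraMap (A3 k) O xA) =
    algebraMap (A3 k) O (ff k (Fac.a i) * ff k (Fac.b l)) := by
  have h1 := cx.rel.hE
  have h2 := cx.rel.hEE
  rw [cx.rel.hs2]
  simp only [ff, map_add, map_sub, map_mul, map_pow, map_intCast]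
  rw [← h1]
  push_cast
  linear_combination (-(((pc i : ℤ) : O) + ((pc l : ℤ) : O)) ^ 2) * h2

theorem Ctx.unit_s (cx : Ctx k m N O) (i l : P m) : IsUnit (cx.u (.s i l)) := by
  have h : IsUnit (algebraMap (A3 k) O (ff k (Fac.a i) * ff k (Fac.b l))) := by
    rw [map_mul]; exact (cx.unit_ff _).mul (cx.unit_ff _)
  rw [← cx.s_sq_conj] at h
  exact (isUnit_pow_iff two_ne_zero).1 (isUnit_of_mul_isUnit_left h)

theorem Ctx.unit_w (cx : Ctx k m N O) : IsUnit (cx.u .w) := by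
  have h : IsUnit (algebraMap (A3 k) O yA) := cx.unit_ff Fac.y
  rw [← cx.rel.hw] at h
  exact (isUnit_pow_iff two_ne_zero).1 h

theorem Ctx.unit_mu (cx : Ctx k m N O) (b : Bool) (i : Fin (4 * m)) : IsUnit (cx.u (.mu b i)) := by
  have h0 : IsUnit ((((i : ℕ) + 1 : ℕ) : O)) := by
    have := sb_isUnit_intCast (k := k) (O := O) (sb_succ_ne_zero (k := k) i)
    rwa [Int.cast_natCast] at this
  have h := h0.mul cx.unit_w
  rw [← cx.rel.hmm] at h
  cases b
  · exact isUnit_of_mul_isUnit_right h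
  · exact isUnit_of_mul_isUnit_left h

/-- `t` has a symbol and divides a homogeneous element of `A` -/
def SyU (cx : Cx k m N O) (t : O) (e : ℤ) : Prop :=
  Sy cx t e ∧ ∃ (t' : O) (σ : A3 k) (e' : ℤ) (Q : k[X]), Q ≠ 0 ∧ HomA σ (e + e') Q ∧
    Sy cx t' e' ∧ t * t' = algebraMap (A3 k) O σ

section SyU
variable {cx : Cx k m N O}

theorem SyU.congr {t t' : O} {e e' : ℤ} (h : SyU cx t e) (ht : t = t') (he : e = e') :
    SyU cx t' e' := ht ▸ he ▸ h

theorem HomA.syU {a : A3 k} {e : ℤ} {Q : k[X]} (h : HomA a e Q) (hQ : Q ≠ 0) :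
    SyU cx (algebraMap (A3 k) O a) e :=
  ⟨h.sy, 1, a, 0, Q, hQ, by simpa using h, sy_one, mul_one _⟩

theorem syU_one : SyU cx (1 : O) 0 := by
  simpa using (homA_one (k := k)).syU (cx := cx) one_ne_zero

theorem SyU.mul {t t' : O} {e e' : ℤ} (h : SyU cx t e) (h' : SyU cx t' e') :
    SyU cx (t * t') (e + e') := by
  obtain ⟨h1, r, σ, d, Q, hQ, h2, h3, h4⟩ := h
  obtain ⟨h1', r', σ', d', Q', hQ', h2', h3', h4'⟩ := h'
  refine ⟨h1.mul h1', r * r', σ * σ', d + d', Q * Q', mul_ne_zero hQ hQ',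
    (h2.mul h2').congr (by ring) rfl, h3.mul h3', ?_⟩
  rw [map_mul, ← h4, ← h4']; ring

theorem SyU.pow {t : O} {e : ℤ} (h : SyU cx t e) (n : ℕ) : SyU cx (t ^ n) (n * e) := by
  induction n with
  | zero => simpa using syU_one
  | succ n ih => exact (ih.mul h).congr (pow_succ t n).symm (by push_cast; ring)

theorem SyU.prod {ι : Type*} (s : Finset ι) {e : ι → ℤ} {t : ι → O}
    (h : ∀ i ∈ s, SyU cx (t i) (e i)) : SyU cx (∏ i ∈ s, t i) (∑ i ∈ s, e i) := by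
  classical
  induction s using Finset.induction_on with
  | empty => simpa using syU_one
  | insert i s hi ih =>
    rw [Finset.prod_insert hi, Finset.sum_insert hi]
    exact (h i (Finset.mem_insert_self _ _)).mul (ih fun j hj => h j (Finset.mem_insert_of_mem hj))

theorem SyU.div {t r s : O} {e e' : ℤ} (h : SyU cx t e) (hr : t * r = s) (hs : Sy cx s e') :
    Sy cx r (e' - e) := by
  obtain ⟨-, t', σ, d, Q, hQ, h2, h3, h4⟩ := h
  refine ((hs.mul h3).div h2 hQ (r := r) ?_).congr rfl (by ring)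
  rw [← h4, ← hr]; ring

/-- extraction of roots -/
theorem SyU.root {v : O} {e : ℤ} (h4 : SyU cx (v ^ 4) (4 * e)) (hp : Sy cx (v ^ cx.p) (cx.p * e)) :
    Sy cx v e := by
  refine ((h4.pow (cx.j * (cx.j + 1))).div (r := v) ?_ (hp.pow cx.p)).congr rfl ?_
  · rw [cx.hpj, ← pow_mul, ← pow_mul, ← pow_succ]
    congr 1
    ring
  · rw [cx.hpj]; push_cast; ring

end SyU

theorem Ctx.sb_sy_pow (cx : Ctx k m N O) (v : Gen m) :
    Sy cx.toCx (mon cx.u v ^ cx.p) (cx.p * gdeg v) :=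
  ⟨(cx.Φ v).mulVecLin, cx.hΦ v, fun W hW x hx => (cx.hStb W).1 hW v x hx⟩

theorem Ctx.sb_wq_pow (cx : Ctx k m N O) :
    (cx.u .e01 + cx.u .e10) ^ cx.p = cx.u .e01 ^ cx.p + cx.u .e10 ^ cx.p := by
  haveI := cx.charO
  haveI : Fact cx.p.Prime := ⟨cx.hp⟩
  exact add_pow_char _ _ _

theorem Ctx.sb_sy_wq (cx : Ctx k m N O) : Sy cx.toCx (cx.u .e01 + cx.u .e10) 1 := by
  refine SyU.root ?_ ?_
  · refine (((homA_ff (Fac.q : Fac m)).syU (ft_ne_zero _)).pow 2).congr ?_ (by simp [fdeg])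
    rw [← cx.wq_sq]; ring
  · rw [cx.sb_wq_pow]
    have h1 := cx.sb_sy_pow .e01
    have h2 := cx.sb_sy_pow .e10
    rw [mon_e01] at h1
    rw [mon_e10] at h2
    exact (h1.add h2).congr rfl (by simp [gdeg])

theorem sb_syU_two {cx : Cx k m N O} : SyU cx (2 : O) 0 := by
  have := (homA_intCast (k := k) 2).syU (cx := cx) (C_ne_zero.2 (sb_two_ne_zero m))
  rw [map_intCast] at this
  exact this.congr (by norm_num) rfl

theorem Ctx.sb_sy_e01 (cx : Ctx k m N O) : Sy cx.toCx (cx.u .e01) 1 := by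
  refine (sb_syU_two.div ?_ (cx.sb_sy_wq.sub homA_y.sy)).congr rfl (by ring)
  rw [← cx.rel.hE]; ring

theorem Ctx.sb_sy_e10 (cx : Ctx k m N O) : Sy cx.toCx (cx.u .e10) 1 := by
  refine (sb_syU_two.div ?_ (cx.sb_sy_wq.add homA_y.sy)).congr rfl (by ring)
  rw [← cx.rel.hE]; ring

theorem Ctx.sb_syU_s (cx : Ctx k m N O) (i l : P m) : SyU cx.toCx (cx.u (.s i l) ^ 2) 1 := by
  refine ⟨?_, _, _, 1, _, mul_ne_zero (ft_ne_zero _) (ft_ne_zero _),
    ((homA_ff (Fac.a i)).mul (homA_ff (Fac.b l))).congr (by simp [fdeg]) rfl, ?_,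
    cx.s_sq_conj i l⟩
  · rw [cx.rel.hs2]
    exact ((homA_Y.sy.sub (((sy_intCast _).mul cx.sb_sy_e10).congr rfl (by ring))).sub
      (((sy_intCast _).mul cx.sb_sy_e01).congr rfl (by ring))).add
      (((sy_intCast _).mul homA_x.sy).congr rfl (by ring))
  · exact ((homA_Y.sy.add (((sy_intCast _).mul cx.sb_sy_e01).congr rfl (by ring))).add
      (((sy_intCast _).mul cx.sb_sy_e10).congr rfl (by ring))).add
      (((sy_intCast _).mul homA_x.sy).congr rfl (by ring))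

theorem Ctx.sb_sy_ss (cx : Ctx k m N O) (i l i' l' : P m) :
    Sy cx.toCx (cx.u (.s i l) * cx.u (.s i' l')) 1 := by
  refine SyU.root ((((cx.sb_syU_s i l).mul (cx.sb_syU_s i' l')).pow 2).congr (by ring)
    (by norm_num)) ?_
  have := cx.sb_sy_pow (.ss i l i' l')
  rw [mon_ss] at this
  exact this.congr rfl (by simp [gdeg])

theorem Ctx.sb_sy_mu (cx : Ctx k m N O) (b : Bool) (i : Fin (4 * m)) :
    Sy cx.toCx (cx.u (.mu b i) ^ 4) 1 := by
  have h1 := cx.sb_sy_ss (em i) 0 (em i) 0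
  have h2 := ((sy_intCast (2 * sg b)).mul (cx.sb_sy_ss (em i) 0 0 (em i))).congr rfl
    (show (0 : ℤ) + 1 = 1 by ring)
  have h3 := ((sy_intCast (sg b ^ 2)).mul (cx.sb_sy_ss 0 (em i) 0 (em i))).congr rfl
    (show (0 : ℤ) + 1 = 1 by ring)
  refine ((h1.add h2).add h3).congr ?_ rfl
  rw [show cx.u (.mu b i) ^ 4 = (cx.u (.mu b i) ^ 2) ^ 2 by ring, cx.rel.hmu]
  push_cast; ring

theorem Ctx.sb_syU_mu (cx : Ctx k m N O) (b : Bool) (i : Fin (4 * m)) :
    SyU cx.toCx (cx.u (.mu b i) ^ 4) 1 := by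
  refine ⟨cx.sb_sy_mu b i, cx.u (.mu (!b) i) ^ 4,
    ((((i : ℕ) + 1 : ℕ) : ℤ) : A3 k) ^ 4 * yA ^ 2, 1, _,
    mul_ne_zero (pow_ne_zero 4 (C_ne_zero.2 (sb_succ_ne_zero (k := k) i))) (pow_ne_zero 2 X_ne_zero),
    (((homA_intCast _).pow 4).mul (homA_y.pow 2)).congr (by norm_num) rfl, cx.sb_sy_mu _ i, ?_⟩
  have h1 := cx.rel.hmm i
  have h2 : cx.u (.mu b i) * cx.u (.mu (!b) i) = (((i : ℕ) + 1 : ℕ) : O) * cx.u .w := by
    cases b
    · rw [mul_comm]; exact h1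
    · exact h1
  rw [← mul_pow, h2, map_mul, map_pow, map_pow, map_intCast, ← cx.rel.hw, Int.cast_natCast]
  ring

theorem Ctx.sb_syU_th (cx : Ctx k m N O) (J : Fin (4 * m) → Bool) :
    SyU cx.toCx (th cx.u J ^ 4) (4 * m) :=
  (SyU.prod Finset.univ fun i _ => cx.sb_syU_mu (J i) i).congr (by rw [th, Finset.prod_pow])
    (by simp)

theorem Ctx.sy_mon (cx : Ctx k m N O) (v : Gen m) : Sy cx.toCx (mon cx.u v) (gdeg v) := by
  cases v with
  | e01 => simpa [mon_e01, gdeg] using cx.sb_sy_e01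
  | e10 => simpa [mon_e10, gdeg] using cx.sb_sy_e10
  | ss i l i' l' => simpa [mon_ss, gdeg] using cx.sb_sy_ss i l i' l'
  | th J =>
    refine SyU.root ?_ (cx.sb_sy_pow _)
    rw [mon_th]
    exact cx.sb_syU_th J
  | om J =>
    refine SyU.root ?_ (cx.sb_sy_pow _)
    rw [mon_om]
    refine ((((homA_y.syU X_ne_zero).pow 2).mul ((cx.sb_syU_s 0 0).pow 2)).mul
      (cx.sb_syU_th J)).congr ?_ (by simp [gdeg]; ring)
    rw [om, ← cx.rel.hw]; ring

theorem Ctx.sy_e01 (cx : Ctx k m N O) : Sy cx.toCx (cx.u .e01) 1 := by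
  simpa [mon_e01, gdeg] using cx.sy_mon .e01

theorem Ctx.sy_e10 (cx : Ctx k m N O) : Sy cx.toCx (cx.u .e10) 1 := by
  simpa [mon_e10, gdeg] using cx.sy_mon .e10

theorem Ctx.sy_ss (cx : Ctx k m N O) (i l i' l' : P m) :
    Sy cx.toCx (cx.u (.s i l) * cx.u (.s i' l')) 1 := by
  simpa [mon_ss, gdeg] using cx.sy_mon (.ss i l i' l')

theorem Ctx.sy_th (cx : Ctx k m N O) (J : Fin (4 * m) → Bool) : Sy cx.toCx (th cx.u J) m := by
  simpa [mon_th, gdeg] using cx.sy_mon (.th J)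

theorem Ctx.sy_om (cx : Ctx k m N O) (J : Fin (4 * m) → Bool) :
    Sy cx.toCx (om cx.u J) (m + 1) := by
  simpa [mon_om, gdeg] using cx.sy_mon (.om J)

theorem Ctx.sb_sy_prod (cx : Ctx k m N O) (a b : Fin (4 * m) → P m) :
    Sy cx.toCx (∏ i, cx.u (.s (a i) (b i))) (2 * m) := by
  have := even_prod (fun (t : O) (n : ℕ) => Sy cx.toCx t n) (by simpa using sy_one)
    (fun a b n n' h h' => (h.mul h').congr rfl (by push_cast; ring))
    (fun i => cx.u (.s (a i) (b i))) (2 * m) Finset.univ (by simp; ring)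
    (fun i _ i' _ _ => by simpa using cx.sy_ss _ _ _ _)
  exact this.congr rfl (by push_cast; ring)

theorem Ctx.sy_al (cx : Ctx k m N O) : Sy cx.toCx (al cx.u) (2 * m) :=
  cx.sb_sy_prod _ _

theorem Ctx.sy_nu (cx : Ctx k m N O) : Sy cx.toCx (nu cx.u) (2 * m) :=
  cx.sb_sy_prod _ _

theorem Ctx.sy_hs (cx : Ctx k m N O) (ε : Bool) : Sy cx.toCx (hs cx.u ε) (2 * m) :=
  cx.sy_al.add (((sy_intCast _).mul cx.sy_nu).congr rfl (by ring))

theorem sb_hasSymb_pow {g : Matrix (Fin N) (Fin N) (LL k)} {t : O} {e : ℤ}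
    {S : WW k N →ₗ[RatFunc k] WW k N} (h : HasSymb g (fun ξ : VV k m N => t • ξ) e S) (n : ℕ) :
    HasSymb g (fun ξ : VV k m N => t ^ n • ξ) (n * e) (S ^ n : Module.End (RatFunc k) (WW k N)) := by
  induction n with
  | zero => intro n ξ hξ; simpa using hξ
  | succ r ih =>
    intro n ξ hξ
    obtain ⟨a1, a2⟩ := ih n ξ hξ
    obtain ⟨b1, b2⟩ := h _ _ a1
    simp only [pow_succ', mul_smul]
    rw [show n + ((r + 1 : ℕ) : ℤ) * e = n + r * e + e by push_cast; ring]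
    exact ⟨b1, by rw [b2, a2]; rfl⟩

theorem sb_symb_unique {g : Matrix (Fin N) (Fin N) (LL k)} (hg : IsUnit g)
    {T : VV k m N → VV k m N} {e : ℤ} {S S' : WW k N →ₗ[RatFunc k] WW k N}
    (h : HasSymb g T e S) (h' : HasSymb g T e S') : S = S' := by
  have hG := (lat_M0 (k := k) (m := m) (N := N)).gLat hg
  refine LinearMap.ext_on hG.spans fun x hx => ?_
  obtain ⟨n, hn⟩ := (mem_Aff hG.mono).1 hx
  obtain ⟨ξ, -, h1, rfl⟩ := mem_GV.1 hn
  rw [← (h n ξ h1).2, ← (h' n ξ h1).2]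

/-- the symbols of the generators determine the stable subspaces -/
theorem Ctx.exists_symb (cx : Ctx k m N O) :
    ∃ S : Gen m → WW k N →ₗ[RatFunc k] WW k N,
      (∀ v, HasSymb cx.g (fun ξ : VV k m N => mon cx.u v • ξ) (gdeg v) (S v)) ∧
      ∀ W : Submodule (RatFunc k) (WW k N), (∀ v, ∀ x ∈ W, S v x ∈ W) → MStb cx.Φ W := by
  choose S hS _ using cx.sy_mon
  refine ⟨S, hS, fun W hW v x hx => ?_⟩
  have h1 : (cx.Φ v).mulVecLin = (S v ^ cx.p : Module.End (RatFunc k) (WW k N)) :=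
    sb_symb_unique cx.hg (cx.hΦ v) (sb_hasSymb_pow (hS v) cx.p)
  have h2 : ∀ n : ℕ, ∀ x ∈ W, (S v ^ n : Module.End (RatFunc k) (WW k N)) x ∈ W := by
    intro n
    induction n with
    | zero => intro x hx; simpa using hx
    | succ n ih => intro x hx; rw [pow_succ']; exact hW v _ (ih x hx)
  have h3 := h2 cx.p x hx
  rw [← h1] at h3
  exact h3

end Crest.Agent.R169
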