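import Crest.Agent.R169.CtxDef
import Crest.Agent.R169.Sh

/-!
Algebraic identities for the theta steps.
-/

set_option autoImplicit false
set_option linter.unusedSectionVars false

namespace Crest.Agent.R169

open Finset

variable {m : ℕ} {O : Type*} [CommRing O] {X Y Z : O} {u : Var m → O}

/-- `λ_{b,i} = μ_{b,i} ^ 2` -/
def lm (u : Var m → O) (b : Bool) (i : Fin (4 * m)) : O :=
  u (.s (em i) 0) + ((sg b : ℤ) : O) * u (.s 0 (em i))

/-- the set where `J` and `J'` differ -/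
def dif (J J' : Fin (4 * m) → Bool) : Finset (Fin (4 * m)) := univ.filter fun i => J i ≠ J' i

/-- the constants `c_i` -/
def ci (i : Fin (4 * m)) : ℤ := (i : ℕ) + 1

theorem pc_em (i : Fin (4 * m)) : pc (em i) = pc (0 : P m) + ci i ^ 2 := by
  simp [pc, em, ci]

theorem Rel.mu_mul (h : Rel m X Y Z u) {b b' : Bool} (hb : b ≠ b') (i : Fin (4 * m)) :
    u (.mu b i) * u (.mu b' i) = ((ci i : ℤ) : O) * u .w := by
  have := h.hmm i
  cases b <;> cases b' <;> simp at hb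
  · rw [mul_comm, this]; simp [ci]
  · rw [this]; simp [ci]

theorem Rel.th_mul (h : Rel m X Y Z u) (J J' : Fin (4 * m) → Bool) :
    th u J * th u J' = ((∏ i ∈ dif J J', ci i : ℤ) : O) * u .w ^ (dif J J').card *
      ∏ i ∈ (dif J J')ᶜ, lm u (J i) i := by
  rw [th, th, ← prod_mul_distrib, ← prod_mul_prod_compl (dif J J')]
  congr 1
  · rw [prod_congr (s₁ := dif J J') rfl (g := fun i => ((ci i : ℤ) : O) * u .w)
      fun i hi => h.mu_mul (mem_filter.1 hi).2 i, prod_mul_distrib, prod_const]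
    push_cast; rfl
  · refine prod_congr rfl fun i hi => ?_
    have : J i = J' i := by simpa [dif] using hi
    rw [← this, ← sq, h.hmu]; rfl

theorem sgn_mul (J J' : Fin (4 * m) → Bool) : sgn J * sgn J' = (-1) ^ (dif J J').card := by
  rw [sgn, sgn, ← prod_mul_distrib, ← prod_mul_prod_compl (dif J J')]
  rw [prod_congr rfl (g := fun _ => (-1 : ℤ)), prod_congr rfl (s₁ := (dif J J')ᶜ) (g := fun _ => (1 : ℤ))]
  · simp
  · intro i hi
    have : J i = J' i := by simpa [dif] using hi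
    rw [← this]; cases J i <;> simp [sg]
  · intro i hi
    have : J i ≠ J' i := (mem_filter.1 hi).2
    revert this
    cases J i <;> cases J' i <;> simp [sg]

theorem sgn_cases (J : Fin (4 * m) → Bool) : sgn J = 1 ∨ sgn J = -1 := by
  refine prod_induction _ (fun a => a = 1 ∨ a = -1) ?_ (Or.inl rfl) ?_
  · rintro a b (rfl | rfl) (rfl | rfl) <;> simp
  · intro i _; cases J i <;> simp [sg]

theorem even_dif {J J' : Fin (4 * m) → Bool} (h : sgn J = sgn J') : Even (dif J J').card := by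
  have h1 := sgn_mul J J'
  rw [h] at h1
  by_contra hc
  rw [(Nat.not_even_iff_odd.1 hc).neg_one_pow] at h1
  rcases sgn_cases J' with h2 | h2 <;> rw [h2] at h1 <;> norm_num at h1

theorem odd_dif {J J' : Fin (4 * m) → Bool} (h : sgn J ≠ sgn J') : Odd (dif J J').card := by
  have h1 := sgn_mul J J'
  by_contra hc
  rw [(Nat.not_odd_iff_even.1 hc).neg_one_pow] at h1
  rcases sgn_cases J' with h2 | h2 <;> rcases sgn_cases J with h3 | h3 <;>
    simp [h2, h3] at h h1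

theorem sg_not (e : Bool) : sg (!e) = -sg e := by cases e <;> simp [sg]

theorem sgn_ne_iff (J : Fin (4 * m) → Bool) (e : Bool) : sgn J ≠ sg e ↔ sgn J = sg (!e) := by
  rcases sgn_cases J with h | h <;> cases e <;> simp [h, sg]

theorem exists_sgn (hm : 0 < m) (e : Bool) : ∃ J : Fin (4 * m) → Bool, sgn J = sg e := by
  refine ⟨Function.update (fun _ => true) ⟨0, by omega⟩ e, ?_⟩
  rw [sgn, ← mul_prod_erase univ _ (mem_univ ⟨0, by omega⟩), prod_eq_one]
  · simp
  · intro i hi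
    rw [Function.update_of_ne (mem_erase.1 hi).1]; rfl

theorem Rel.th_sq (h : Rel m X Y Z u) (J : Fin (4 * m) → Bool) :
    th u J ^ 2 = ∏ i, lm u (J i) i := by
  rw [th, ← prod_pow]
  exact prod_congr rfl fun i _ => h.hmu _ _

theorem Rel.th_sq_mul (h : Rel m X Y Z u) (J : Fin (4 * m) → Bool) :
    th u J ^ 2 * th u (fun i => !J i) ^ 2 = ((∏ i : Fin (4 * m), ci i : ℤ) : O) ^ 2 * Z ^ (4 * m) := by
  have hd : dif J (fun i => !J i) = univ := by ext i; simp [dif]
  rw [← mul_pow, h.th_mul, hd, ← h.hw]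
  simp only [compl_univ, prod_empty, card_univ, Fintype.card_fin, mul_one]
  ring

theorem Rel.sum_th_sq (h : Rel m X Y Z u) : ∑ J, th u J ^ 2 = 2 ^ (4 * m) * al u := by
  simp only [h.th_sq]
  have := prod_univ_sum (fun _ : Fin (4 * m) => (univ : Finset Bool)) (fun i b => lm u b i)
  rw [Fintype.piFinset_univ] at this
  rw [← this, al]
  rw [prod_congr rfl (g := fun i => 2 * u (.s (em i) 0)), prod_mul_distrib]
  · simp
  · intro i _; simp [lm, sg]; ring

theorem Rel.sum_sgn_th_sq (h : Rel m X Y Z u) :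
    ∑ J, ((sgn J : ℤ) : O) * th u J ^ 2 = 2 ^ (4 * m) * nu u := by
  simp only [h.th_sq, sgn, Int.cast_prod, ← prod_mul_distrib]
  have := prod_univ_sum (fun _ : Fin (4 * m) => (univ : Finset Bool))
    (fun i b => ((sg b : ℤ) : O) * lm u b i)
  rw [Fintype.piFinset_univ] at this
  rw [← this, nu]
  rw [prod_congr rfl (g := fun i => 2 * u (.s 0 (em i))), prod_mul_distrib]
  · simp
  · intro i _; simp [lm, sg]; ring

theorem Rel.sum_filter_th_sq (h : Rel m X Y Z u) (e : Bool) :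
    2 * ∑ J ∈ univ.filter (fun J => sgn J = sg e), th u J ^ 2 = 2 ^ (4 * m) * hs u e := by
  rw [hs, mul_add, mul_left_comm, ← h.sum_th_sq, ← h.sum_sgn_th_sq, sum_filter, mul_sum, mul_sum,
    ← sum_add_distrib]
  refine sum_congr rfl fun J _ => ?_
  rcases sgn_cases J with h1 | h1 <;> cases e <;> simp [h1, sg] <;> ring

theorem Rel.s_sq_sub (h : Rel m X Y Z u) (i l : P m) :
    u (.s i l) ^ 2 - u (.s l i) ^ 2 = ((pc i - pc l : ℤ) : O) * Z := by
  rw [h.hs2, h.hs2, ← h.hE]; push_cast; ring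

section Mem
variable (h : Rel m X Y Z u) (S : Subring O) (hZ : Z ∈ S)
  (hss : ∀ i l i' l', u (.s i l) * u (.s i' l') ∈ S)
include hss

theorem s_mul_lm_mem (i l : P m) (b : Bool) (i' : Fin (4 * m)) : u (.s i l) * lm u b i' ∈ S := by
  rw [lm, mul_add, mul_left_comm]
  exact add_mem (hss _ _ _ _) (mul_mem (intCast_mem _ _) (hss _ _ _ _))

theorem lm_mul_lm_mem (b b' : Bool) (i i' : Fin (4 * m)) : lm u b i * lm u b' i' ∈ S := by
  rw [lm, add_mul, mul_assoc]
  exact add_mem (s_mul_lm_mem S hss _ _ _ _) (mul_mem (intCast_mem _ _) (s_mul_lm_mem S hss _ _ _ _))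

omit hss in
theorem even_prod_mem {ι : Type*} (g : ι → O) (T : Finset ι) (hT : Even T.card)
    (hg : ∀ i i', g i * g i' ∈ S) : ∏ i ∈ T, g i ∈ S := by
  obtain ⟨n, hn⟩ := hT
  exact even_prod (fun t _ => t ∈ S) (one_mem _) (fun a b _ _ => mul_mem) g n T (by omega)
    (fun i _ i' _ _ => hg i i')

theorem al_mem : al u ∈ S := even_prod_mem S _ _ (by simp [Nat.even_mul]; left; decide) fun _ _ => hss _ _ _ _

theorem nu_mem : nu u ∈ S := even_prod_mem S _ _ (by simp [Nat.even_mul]; left; decide) fun _ _ => hss _ _ _ _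

theorem hs_mem (e : Bool) : hs u e ∈ S :=
  add_mem (al_mem S hss) (mul_mem (intCast_mem _ _) (nu_mem S hss))

theorem s_sq_mem (i l : P m) : u (.s i l) ^ 2 ∈ S := by rw [sq]; exact hss _ _ _ _

include h hZ

theorem Rel.th_mul_even {J J' : Fin (4 * m) → Bool} (hJ : sgn J = sgn J') :
    ∃ r ∈ S, th u J * th u J' = Z ^ ((dif J J').card / 2) * r := by
  have he := even_dif hJ
  have hc : Even ((dif J J')ᶜ).card := by
    rw [card_compl, Fintype.card_fin]
    have : (dif J J').card ≤ 4 * m := by simpa using card_le_univ (dif J J')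
    obtain ⟨n, hn⟩ := he
    exact ⟨2 * m - n, by omega⟩
  refine ⟨((∏ i ∈ dif J J', ci i : ℤ) : O) * ∏ i ∈ (dif J J')ᶜ, lm u (J i) i,
    mul_mem (intCast_mem _ _) (even_prod_mem S _ _ hc fun _ _ => lm_mul_lm_mem S hss _ _ _ _), ?_⟩
  obtain ⟨n, hn⟩ := he
  rw [h.th_mul, hn, ← h.hw, show (n + n) / 2 = n by omega]
  ring

theorem Rel.th_mul_mem {J J' : Fin (4 * m) → Bool} (hJ : sgn J = sgn J') :
    th u J * th u J' ∈ S := by
  obtain ⟨r, hr, h1⟩ := h.th_mul_even S hZ hss hJ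
  rw [h1]; exact mul_mem (pow_mem hZ _) hr

theorem Rel.th_sq_mem (J : Fin (4 * m) → Bool) : th u J ^ 2 ∈ S := by
  rw [sq]; exact h.th_mul_mem S hZ hss rfl

theorem Rel.th_mul_ne {J J' : Fin (4 * m) → Bool} (hJ : sgn J = sgn J') (hne : J ≠ J') :
    ∃ r ∈ S, th u J * th u J' = Z * r := by
  obtain ⟨r, hr, h1⟩ := h.th_mul_even S hZ hss hJ
  obtain ⟨n, hn⟩ := even_dif hJ
  have : (dif J J').card ≠ 0 := by
    intro h0
    apply hne
    funext i
    by_contra hi
    have : i ∈ dif J J' := by simpa [dif] using hi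
    rw [card_eq_zero.1 h0] at this
    simp at this
  refine ⟨Z ^ (n - 1) * r, mul_mem (pow_mem hZ _) hr, ?_⟩
  rw [h1, hn, show (n + n) / 2 = n - 1 + 1 by omega]; ring

theorem Rel.th_mul_odd {J J' : Fin (4 * m) → Bool} (hJ : sgn J ≠ sgn J') :
    ∃ ρ ∈ S, u .w * ρ = u (.s 0 0) * th u J * th u J' := by
  obtain ⟨n, hn⟩ := odd_dif hJ
  have hle : (dif J J').card ≤ 4 * m := by simpa using card_le_univ (dif J J')
  have hc : ((dif J J')ᶜ).card = 4 * m - (2 * n + 1) := by rw [card_compl, Fintype.card_fin, hn]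
  obtain ⟨i0, hi0⟩ : ((dif J J')ᶜ).Nonempty := card_pos.1 (by omega)
  have he : Even (((dif J J')ᶜ).erase i0).card := by
    rw [card_erase_of_mem hi0, hc]
    exact ⟨2 * m - n - 1, by omega⟩
  refine ⟨((∏ i ∈ dif J J', ci i : ℤ) : O) * Z ^ n * (u (.s 0 0) * lm u (J i0) i0) *
    ∏ i ∈ ((dif J J')ᶜ).erase i0, lm u (J i) i,
    mul_mem (mul_mem (mul_mem (intCast_mem _ _) (pow_mem hZ _)) (s_mul_lm_mem S hss _ _ _ _))
      (even_prod_mem S _ _ he fun _ _ => lm_mul_lm_mem S hss _ _ _ _), ?_⟩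
  rw [mul_assoc (u (.s 0 0)), h.th_mul, hn, ← h.hw, ← mul_prod_erase _ _ hi0]
  ring

theorem Rel.sum_th_sq_sub (T : Finset (Fin (4 * m) → Bool)) (hT : ∀ J ∈ T, ∀ J' ∈ T, sgn J = sgn J') :
    ∃ r ∈ S, (∑ J ∈ T, th u J) ^ 2 = ∑ J ∈ T, th u J ^ 2 + Z * r := by
  induction T using Finset.induction_on with
  | empty => exact ⟨0, zero_mem _, by simp⟩
  | insert J T hJ ih =>
    obtain ⟨r, hr, h1⟩ := ih fun a ha b hb => hT a (mem_insert_of_mem ha) b (mem_insert_of_mem hb)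
    have : ∀ J' ∈ T, ∃ r ∈ S, th u J * th u J' = Z * r := fun J' hJ' =>
      h.th_mul_ne S hZ hss (hT _ (mem_insert_self _ _) _ (mem_insert_of_mem hJ'))
        (fun e => hJ (e ▸ hJ'))
    choose! ρ hρ hρ' using this
    refine ⟨r + 2 * ∑ J' ∈ T, ρ J', add_mem hr (mul_mem (ofNat_mem _ _) (sum_mem hρ)), ?_⟩
    have h2 : th u J * ∑ J' ∈ T, th u J' = Z * ∑ J' ∈ T, ρ J' := by
      rw [mul_sum, mul_sum]; exact sum_congr rfl hρ'
    rw [sum_insert hJ, sum_insert hJ]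
    linear_combination h1 + 2 * h2

theorem Rel.chart_rel (l : P m) :
    ∃ r ∈ S, (u (.s 0 0) ^ 2) ^ m * ∏ i : Fin (4 * m), u (.s (em i) l) -
      (u (.s l l) ^ 2) ^ m * al u = Z * r := by
  let I : Finset (Fin (4 * m)) := univ.filter fun i => (i : ℕ) < 2 * m
  have hI : I.card = 2 * m := by
    rw [Fin.card_filter_val_lt]; omega
  have hI' : Iᶜ.card = 2 * m := by rw [card_compl, hI, Fintype.card_fin]; omega
  have e1 : (u (.s 0 0) ^ 2) ^ m * ∏ i ∈ I, u (.s (em i) l) =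
      (u (.s 0 l) ^ 2) ^ m * ∏ i ∈ I, u (.s (em i) 0) := by
    rw [← pow_mul, ← pow_mul, ← hI, ← prod_const, ← prod_const, ← prod_mul_distrib,
      ← prod_mul_distrib]
    exact prod_congr rfl fun i _ => h.hss _ _ _ _
  have e2 : (u (.s l l) ^ 2) ^ m * ∏ i ∈ Iᶜ, u (.s (em i) 0) =
      (u (.s l 0) ^ 2) ^ m * ∏ i ∈ Iᶜ, u (.s (em i) l) := by
    rw [← pow_mul, ← pow_mul, ← hI', ← prod_const, ← prod_const, ← prod_mul_distrib,
      ← prod_mul_distrib]
    exact prod_congr rfl fun i _ => h.hss _ _ _ _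
  have m1 : ∏ i ∈ I, u (.s (em i) 0) ∈ S :=
    even_prod_mem S _ _ (by rw [hI]; simp) fun _ _ => hss _ _ _ _
  have m2 : ∏ i ∈ Iᶜ, u (.s (em i) l) ∈ S :=
    even_prod_mem S _ _ (by rw [hI']; simp) fun _ _ => hss _ _ _ _
  have e3 := Commute.mul_geom_sum₂ (Commute.all (u (.s 0 l) ^ 2) (u (.s l 0) ^ 2)) m
  rw [h.s_sq_sub] at e3
  refine ⟨((pc (0 : P m) - pc l : ℤ) : O) * (∑ i ∈ range m, (u (.s 0 l) ^ 2) ^ i *
    (u (.s l 0) ^ 2) ^ (m - 1 - i)) * (∏ i ∈ I, u (.s (em i) 0)) * ∏ i ∈ Iᶜ, u (.s (em i) l),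
    mul_mem (mul_mem (mul_mem (intCast_mem _ _) (sum_mem fun i _ =>
      mul_mem (pow_mem (s_sq_mem S hss _ _) _) (pow_mem (s_sq_mem S hss _ _) _))) m1) m2, ?_⟩
  rw [al, ← prod_mul_prod_compl I, ← prod_mul_prod_compl I]
  linear_combination (∏ i ∈ Iᶜ, u (.s (em i) l)) * e1 - (∏ i ∈ I, u (.s (em i) 0)) * e2 -
    (∏ i ∈ I, u (.s (em i) 0)) * (∏ i ∈ Iᶜ, u (.s (em i) l)) * e3

omit h hss in
theorem prod_sub_first_order {ι : Type*} [DecidableEq ι] (T : Finset ι) (a d : ι → O)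
    (ha : ∀ i, a i ∈ S) (hd : ∀ i, d i ∈ S) :
    ∃ r ∈ S, ∏ i ∈ T, a i - ∏ i ∈ T, (a i - d i * Z) =
      Z * ∑ i ∈ T, d i * ∏ j ∈ T.erase i, a j + Z ^ 2 * r := by
  induction T using Finset.induction_on with
  | empty => exact ⟨0, zero_mem _, by simp⟩
  | insert i T hi ih =>
    obtain ⟨r, hr, h1⟩ := ih
    have hsum : ∑ i ∈ T, d i * ∏ j ∈ T.erase i, a j ∈ S :=
      sum_mem fun i _ => mul_mem (hd i) (prod_mem fun j _ => ha j)
    refine ⟨a i * r - d i * (∑ i ∈ T, d i * ∏ j ∈ T.erase i, a j + Z * r),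
      sub_mem (mul_mem (ha i) hr) (mul_mem (hd i) (add_mem hsum (mul_mem hZ hr))), ?_⟩
    have h2 : ∑ i' ∈ T, d i' * ∏ j ∈ (insert i T).erase i', a j =
        a i * ∑ i' ∈ T, d i' * ∏ j ∈ T.erase i', a j := by
      rw [mul_sum]
      refine sum_congr rfl fun i' hi' => ?_
      have hne : i ≠ i' := fun e => hi (e ▸ hi')
      rw [erase_insert_of_ne hne, prod_insert (fun hh => hi (mem_of_mem_erase hh))]; ring
    rw [prod_insert hi, prod_insert hi, sum_insert hi, erase_insert hi, h2]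
    linear_combination (a i - d i * Z) * h1

/-- `γ₀` -/
def gam (u : Var m → O) : O :=
  ∑ i : Fin (4 * m), ((ci i ^ 2 : ℤ) : O) * ∏ j ∈ univ.erase i, u (.s (em j) 0) ^ 2

theorem Rel.hs_mul (e : Bool) : ∃ r ∈ S, hs u e * hs u (!e) = Z * gam u + Z ^ 2 * r := by
  obtain ⟨r, hr, h1⟩ := prod_sub_first_order S hZ univ (fun i : Fin (4 * m) => u (.s (em i) 0) ^ 2)
    (fun i => ((ci i ^ 2 : ℤ) : O)) (fun i => s_sq_mem S hss _ _) (fun i => intCast_mem _ _)
  refine ⟨r, hr, ?_⟩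
  have h2 : ∀ i : Fin (4 * m), u (.s (em i) 0) ^ 2 - ((ci i ^ 2 : ℤ) : O) * Z =
      u (.s 0 (em i)) ^ 2 := fun i => by
    have := h.s_sq_sub (em i) 0
    rw [pc_em, add_sub_cancel_left] at this
    linear_combination this
  simp only [h2] at h1
  rw [gam, ← h1]
  simp only [prod_pow]
  cases e <;> simp [hs, sg, al, nu] <;> ring

end Mem

theorem pc_sub_abs (i l : P m) : |pc i - pc l| ≤ 4 * cc m := by
  have h1 := pc_lt i
  have h2 := pc_lt l
  have h3 := pc_pos i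
  have h4 := pc_pos l
  rw [abs_le]; constructor <;> omega

theorem pc_injective : Function.Injective (pc : P m → ℤ) := by
  intro i l h
  simp only [pc, add_right_inj] at h
  have := (pow_left_inj₀ (by positivity) (by positivity) (by norm_num)).1 h
  exact Fin.ext (by exact_mod_cast this)

theorem em_injective : Function.Injective (em : Fin (4 * m) → P m) := by
  intro i l h
  have := congrArg Fin.val h
  simp only [em] at this
  exact Fin.ext (by omega)

theorem em_ne_zero (i : Fin (4 * m)) : em i ≠ 0 := by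
  intro h
  have := congrArg Fin.val h
  simp [em] at this

/-- the common zeros of the chart functions -/
theorem theta_domain {D : Type*} [CommRing D] [IsDomain D]
    (hD : ∀ n : ℤ, n ≠ 0 → |n| ≤ 4 * cc m → (n : D) ≠ 0) (X Y E : D) (t : P m → P m → D)
    (ht : ∀ i l, t i l = Y - ((pc l : ℤ) : D) * E - ((pc i : ℤ) : D) * E + ((pc i * pc l : ℤ) : D) * X)
    (l : P m) (hl : l ≠ 0) (h1 : ∏ i : Fin (4 * m), t (em i) 0 = 0)
    (h2 : ∑ i : Fin (4 * m), ((ci i ^ 2 : ℤ) : D) * ∏ j ∈ univ.erase i, t (em j) 0 = 0)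
    (h3 : ∏ i : Fin (4 * m), t (em i) l = 0) : X = 0 ∧ Y = 0 := by
  have hp : ∀ i l : P m, i ≠ l → ((pc i : ℤ) : D) - ((pc l : ℤ) : D) ≠ 0 := fun i l hil => by
    have := hD (pc i - pc l) (sub_ne_zero.2 fun e => hil (pc_injective e)) (pc_sub_abs i l)
    rwa [Int.cast_sub] at this
  obtain ⟨i, -, hi⟩ := prod_eq_zero_iff.1 h1
  rw [sum_eq_single i (fun j _ hj => by
    rw [prod_eq_zero (mem_erase.2 ⟨hj.symm, mem_univ _⟩) hi, mul_zero]) (by simp)] at h2
  have hc : ((ci i ^ 2 : ℤ) : D) ≠ 0 := by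
    have := hp (em i) 0 (em_ne_zero i)
    rw [pc_em] at this
    simpa using this
  obtain ⟨j, hj, hj0⟩ := prod_eq_zero_iff.1 ((mul_eq_zero.1 h2).resolve_left hc)
  obtain ⟨a, -, ha⟩ := prod_eq_zero_iff.1 h3
  rw [ht] at hi hj0 ha
  push_cast at hi hj0 ha
  have e1 : E = ((pc (0 : P m) : ℤ) : D) * X := by
    have := hp (em j) (em i) fun e => (mem_erase.1 hj).1 (em_injective e)
    apply mul_left_cancel₀ this
    linear_combination hi - hj0
  have e2 : Y = ((pc (0 : P m) : ℤ) : D) ^ 2 * X := by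
    rw [e1] at hi
    linear_combination hi
  have e3 : X = 0 := by
    have := mul_ne_zero (hp (em a) 0 (em_ne_zero a)) (hp l 0 hl)
    apply mul_left_cancel₀ this
    rw [e1, e2] at ha
    linear_combination ha
  exact ⟨e3, by rw [e2, e3, mul_zero]⟩

end Crest.Agent.R169
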