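import Crest.Agent.R169.Step
import Crest.Agent.R169.Symb
import Crest.Agent.R169.ThetaAlg

/-!
The steps along the two families of lines.
-/

set_option autoImplicit false
set_option linter.unusedSectionVars false

namespace Crest.Agent.R169

open Module Filter Polynomial

variable {k : Type} [Field k] {m N : ℕ} [Big k m]
variable {O : Type} [CommRing O] [Algebra (A3 k) O] [Module O (VV k m N)]
  [IsScalarTower (A3 k) O (VV k m N)]

/-- generic step along one family of lines -/
theorem stepLine (cx : Cx k m N O) (L : Submodule (A3 k) (VV k m N)) (hL : Lat L)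
    (X Y F F' : O) (hX : X = algebraMap (A3 k) O xA) (hY : Y = algebraMap (A3 k) O (YA k m))
    (S : P m → P m → O) (la lb : P m → Fac m) (hla : Function.Injective la)
    (hlb : Function.Injective lb) (hab : ∀ i l, la i ≠ lb l)
    (da : ∀ i, fdeg (la i) = 1) (db : ∀ i, fdeg (lb i) = 1)
    (hFF : F * F' = X * Y)
    (hS2 : ∀ i l, S i l ^ 2 =
      Y - ((pc l : ℤ) : O) * F' - ((pc i : ℤ) : O) * F + ((pc i * pc l : ℤ) : O) * X)
    (hSS : ∀ i l i' l', S i l * S i' l' = S i l' * S i' l)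
    (hLa : ∀ i, algebraMap (A3 k) O (ff k (la i)) =
      Y + ((pc i : ℤ) : O) * (F' - F) - ((pc i : ℤ) : O) ^ 2 * X)
    (hLb : ∀ i, algebraMap (A3 k) O (ff k (lb i)) =
      Y - ((pc i : ℤ) : O) * (F' - F) - ((pc i : ℤ) : O) ^ 2 * X)
    (mF : F ∈ mult O L) (mF' : F' ∈ mult O L) (mS : ∀ i l, S i l ^ cx.p ∈ mult O L)
    (sF : Sy cx F 1) (sF' : Sy cx F' 1) (sS : ∀ i l i' l', Sy cx (S i l * S i' l') 1)
    (μ : A3 k) (eμ : ℤ) (gμ : ∀ i, GoodAt (la i) μ eμ) (hμ : ∀ ξ ∈ L, μ • dV ξ ∈ L) :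
    ∃ H : ℤ → Submodule (A3 k) (VV k m N),
      NumData cx L H (Finset.univ.image la) (2 * m + 1) 0 ∧
      mult O L ≤ mult O (H cx.j) ∧ (∀ i i' l, S i l * S i' l ∈ mult O (H cx.j)) ∧
      ∀ ξ ∈ H cx.j, (sA k (Finset.univ.image la) * μ) • dV ξ ∈ H cx.j := by
  classical
  obtain ⟨c, hc⟩ : ∃ c : P m → P m → O, ∀ i l, c i l =
      Y + ((pc l : ℤ) : O) * F + ((pc i : ℤ) : O) * F' + ((pc i * pc l : ℤ) : O) * X :=
    ⟨_, fun _ _ => rfl⟩
  choose nx hnx using fun i : P m => exists_ne i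
  have htc : ∀ i l, S i l ^ 2 * c i l =
      algebraMap (A3 k) O (ff k (la i)) * algebraMap (A3 k) O (ff k (lb l)) := fun i l => by
    rw [hS2, hc, hLa, hLb]; push_cast
    linear_combination (-(((pc i : ℤ) : O) + ((pc l : ℤ) : O)) ^ 2) * hFF
  have mX : X ∈ mult O L := hX ▸ (mult O L).algebraMap_mem _
  have mY : Y ∈ mult O L := hY ▸ (mult O L).algebraMap_mem _
  have mt : ∀ i l, S i l ^ 2 ∈ mult O L := fun i l => by
    rw [hS2]
    exact add_mem (sub_mem (sub_mem mY (mul_mem (intCast_mem _ _) mF'))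
      (mul_mem (intCast_mem _ _) mF)) (mul_mem (intCast_mem _ _) mX)
  have mc : ∀ i l, c i l ∈ mult O L := fun i l => by
    rw [hc]
    exact add_mem (add_mem (add_mem mY (mul_mem (intCast_mem _ _) mF))
      (mul_mem (intCast_mem _ _) mF')) (mul_mem (intCast_mem _ _) mX)
  have sX : Sy cx X 1 := hX ▸ homA_x.sy
  have sY : Sy cx Y 1 := hY ▸ homA_Y.sy
  have sc : ∀ i l, Sy cx (c i l) 1 := fun i l => by
    rw [hc]
    exact ((sY.add (((sy_intCast _).mul sF).congr rfl (by ring))).add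
      (((sy_intCast _).mul sF').congr rfl (by ring))).add
      (((sy_intCast _).mul sX).congr rfl (by ring))
  have ga : ∀ {f : Fac m} {i : P m}, la i ≠ f → GoodAt f (ff k (la i)) 1 := fun {f i} h => by
    have := goodAt_ff (k := k) h
    rwa [da] at this
  have gb : ∀ {f : Fac m} {i : P m}, lb i ≠ f → GoodAt f (ff k (lb i)) 1 := fun {f i} h => by
    have := goodAt_ff (k := k) h
    rwa [db] at this
  have h1L : (1 : O) ∈ mult O L := one_mem _
  have lua : ∀ {f : Fac m} {i : P m}, la i ≠ f →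
      LU f (1 : O) L (algebraMap (A3 k) O (ff k (la i))) := fun h => lu_sig h1L (ga h).mem_Sig
  have lub : ∀ {f : Fac m} {i : P m}, lb i ≠ f →
      LU f (1 : O) L (algebraMap (A3 k) O (ff k (lb i))) := fun h => lu_sig h1L (gb h).mem_Sig
  have lut : ∀ {f : Fac m} {i l : P m}, la i ≠ f → lb l ≠ f → LU f (1 : O) L (S i l ^ 2) :=
    fun {f i l} h h' => LU.of_mul (by rw [htc]; exact (lua h).mul (lub h'))
      (mult_le_loc h1L (mc i l))
  have uS : ∀ i l, IsUnit (S i l) := fun i l => by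
    have h1 : IsUnit (S i l ^ 2 * c i l) := by rw [htc]; exact (cx.unit_ff _).mul (cx.unit_ff _)
    rw [sq, mul_assoc] at h1
    exact isUnit_of_mul_isUnit_left h1
  have et0 : ∀ {f : Fac m} {j j' l : P m}, la j ≠ f → la j' ≠ f → lb l ≠ f →
      S j l * S j' l ∈ mult O (loc f (1 : O) L) := fun {f j j' l} h h' h'' =>
    LU.etale cx (by rw [mul_pow]; exact (lut h h'').mul (lut h' h''))
      (by rw [mul_pow]; exact mult_le_loc h1L (mul_mem (mS _ _) (mS _ _)))
  have et : ∀ {f : Fac m} {j j' : P m} (l : P m), la j ≠ f → la j' ≠ f →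
      S j l * S j' l ∈ mult O (loc f (1 : O) L) := fun {f j j'} l h h' => by
    by_cases hl : lb l = f
    · have h2 : lb (nx l) ≠ f := fun e => hnx l (hlb (e.trans hl.symm))
      refine (lut h h2).mem_mult ?_
      have h3 := mul_mem (et0 h h' h2) (mult_le_loc (f := f) h1L (mt j l))
      convert h3 using 1
      linear_combination (S j l * S j (nx l)) * hSS j' l j (nx l)
    · exact et0 h h' hl
  obtain ⟨W, hW⟩ : ∃ W : P m → Oˣ, ∀ i, (W i : O) = S i 0 * S (nx i) 0 :=
    ⟨fun i => ((uS i 0).mul (uS (nx i) 0)).unit, fun _ => rfl⟩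
  have hW2 : ∀ i, (W i : O) ^ 2 = S i 0 ^ 2 * S (nx i) 0 ^ 2 := fun i => by rw [hW, mul_pow]
  have nla : ∀ {i j : P m}, j ≠ i → la j ≠ la i := fun h e => h (hla e)
  have nlb : ∀ i l, lb l ≠ la i := fun i l => (hab i l).symm
  have hsA : ∀ i, sA k (Finset.univ.image la) =
      ff k (la i) * ∏ j ∈ Finset.univ.erase i, ff k (la j) := fun i => by
    rw [sA, Finset.prod_image fun _ _ _ _ e => hla e,
      Finset.mul_prod_erase Finset.univ (fun j => ff k (la j)) (Finset.mem_univ i)]
  -- the charts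
  let fc : P m ⊕ {f : Fac m // ∀ i, la i ≠ f} → Fac m := Sum.elim la Subtype.val
  let w : P m ⊕ {f : Fac m // ∀ i, la i ≠ f} → Oˣ := Sum.elim W fun _ => 1
  have hd : StepData cx L (Finset.univ.image la) fc (fun _ => (1 : O)) w := by
    refine ⟨hL, fun _ => h1L, ?_, ?_, ?_, ?_⟩
    · rintro (i | f)
      · change (W i : O) ^ 2 ∈ _
        rw [hW2]; exact mul_mem (mt _ _) (mt _ _)
      · simp [w]
    · rintro (i | f)
      · change (W i : O) ^ cx.p ∈ _
        rw [hW, mul_pow]; exact mul_mem (mS _ _) (mS _ _)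
      · simp [w]
    · intro f
      by_cases hf : ∃ i, la i = f
      · obtain ⟨i, rfl⟩ := hf
        exact ⟨1, one_mem _, 1, one_mem _, {Sum.inl i}, by simp [fc], by simp⟩
      · exact ⟨1, one_mem _, 1, one_mem _, {Sum.inr ⟨f, fun i e => hf ⟨i, e⟩⟩}, by simp [fc],
          by simp⟩
    · rintro (i | f)
      · refine ⟨algebraMap (A3 k) O (sA k (Finset.univ.image la)) * (((W i)⁻¹ : Oˣ) : O) ^ 2,
          ?_, ?_⟩
        · refine ((lub (nlb i 0)).mul (lut (nla (hnx i)) (nlb i 0))).mem_mult ?_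
          have h3 := mult_le_loc (f := la i) h1L (mul_mem (mc i 0)
            ((mult O L).algebraMap_mem (∏ j ∈ Finset.univ.erase i, ff k (la j))))
          convert h3 using 1
          apply ((W i).isUnit.pow 2).mul_left_cancel
          have h4 : (W i : O) ^ 2 * (((W i)⁻¹ : Oˣ) : O) ^ 2 = 1 := by
            rw [← mul_pow, Units.mul_inv, one_pow]
          rw [hsA i, map_mul]
          have h5 := hW2 i
          have h6 := htc i 0
          set Q := algebraMap (A3 k) O (∏ j ∈ Finset.univ.erase i, ff k (la j))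
          linear_combination (algebraMap (A3 k) O (ff k (lb 0)) * S (nx i) 0 ^ 2 *
            (algebraMap (A3 k) O (ff k (la i)) * Q)) * h4 - (c i 0 * Q) * h5 -
            (S (nx i) 0 ^ 2 * Q) * h6
        · change _ = (W i : O) ^ 2 * _
          rw [mul_left_comm, ← mul_pow, Units.mul_inv, one_pow, mul_one]
      · exact ⟨_, Subalgebra.algebraMap_mem _ (sA k (Finset.univ.image la)), by simp [w]⟩
  set H := StepH L fc (fun _ => (1 : O)) w with hH
  have hF : Filt H (Finset.univ.image la) := hd.filt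
  have m0 : ∀ t ∈ mult O L, ShH H 0 t := fun t ht => hd.shH_mult ht
  -- the ramified products in the chart of `la i`
  have ram : ∀ {i j : P m} (l : P m), j ≠ i → ∃ r ∈ mult O (loc (la i) (1 : O) L),
      S i l * S j l = ((W i ^ (1 : ℤ) : Oˣ) : O) * r := fun {i j} l h => by
    refine ⟨(((W i)⁻¹ : Oˣ) : O) * (S i l * S j l), ?_, by
      rw [zpow_one, ← mul_assoc, Units.mul_inv, one_mul]⟩
    refine (lut (l := 0) (nla (hnx i)) (nlb i 0)).mem_mult ?_
    convert et l (nla h) (nla (hnx i)) using 1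
    apply (W i).isUnit.mul_left_cancel
    have h4 : (W i : O) * (((W i)⁻¹ : Oˣ) : O) = 1 := Units.mul_inv _
    have h5 := hW i
    linear_combination (S (nx i) 0 ^ 2 * (S i l * S j l)) * h4 - (S j l * S (nx i) l) * h5 +
      (S (nx i) 0 * S j l) * hSS i l (nx i) 0
  have shS : ∀ j j' l, ShH H 0 (S j l * S j' l) := fun j j' l => by
    refine hd.shH ?_
    rintro (i | f)
    · by_cases h : j = i
      · by_cases h' : j' = i
        · refine ⟨0, le_rfl, _, mult_le_loc h1L (mt i l), ?_⟩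
          rw [h, h', zpow_zero, Units.val_one, one_mul, sq]
        · obtain ⟨r, hr, h1⟩ := ram l h'
          exact ⟨1, by norm_num, r, hr, by rw [h]; exact h1⟩
      · by_cases h' : j' = i
        · obtain ⟨r, hr, h1⟩ := ram l h
          exact ⟨1, by norm_num, r, hr, by rw [h', mul_comm]; exact h1⟩
        · exact ⟨0, le_rfl, _, et l (nla h) (nla h'), by simp⟩
    · exact ⟨0, le_rfl, _, et l (f.2 j) (f.2 j'), by simp⟩
  have evp : ∀ (f : Fac m) (l : P m) (n : ℕ) (T : Finset (P m)), T.card = 2 * n →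
      (∀ j ∈ T, la j ≠ f) → ∏ j ∈ T, S j l ∈ mult O (loc f (1 : O) L) := fun f l n T hT h =>
    even_prod (fun t _ => t ∈ mult O (loc f (1 : O) L)) (one_mem _)
      (fun _ _ _ _ => mul_mem) (fun j => S j l) n T hT fun j hj j' hj' _ => et l (h j hj) (h j' hj')
  have shg : ∀ l, ShH H 1 (∏ j, S j l) := fun l => by
    refine hd.shH ?_
    rintro (i | f)
    · obtain ⟨r, hr, h1⟩ := ram l (hnx i)
      have hi2 : nx i ∈ Finset.univ.erase i := Finset.mem_erase.2 ⟨hnx i, Finset.mem_univ _⟩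
      refine ⟨1, le_rfl, r * ∏ j ∈ (Finset.univ.erase i).erase (nx i), S j l,
        mul_mem hr (evp _ l (2 * m) _ ?_ fun j hj =>
          nla (Finset.mem_erase.1 (Finset.mem_of_mem_erase hj)).1), ?_⟩
      · rw [Finset.card_erase_of_mem hi2, Finset.card_erase_of_mem (Finset.mem_univ _)]
        simp; omega
      · rw [← Finset.mul_prod_erase Finset.univ (fun j => S j l) (Finset.mem_univ i),
          ← Finset.mul_prod_erase _ (fun j => S j l) hi2, ← mul_assoc, h1, mul_assoc]
        rfl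
    · exact ⟨1, le_rfl, _, evp f l (2 * m + 1) Finset.univ (by simp; omega) fun j _ => f.2 j,
        by simp [w]⟩
  have syg : ∀ l, Sy cx (∏ j, S j l) ((2 * m + 1 : ℕ) : ℤ) := fun l =>
    even_prod (fun t n => Sy cx t (n : ℤ)) (by simpa using sy_one)
      (fun _ _ _ _ h h' => (h.mul h').congr rfl (by push_cast; ring)) (fun j => S j l) (2 * m + 1)
      Finset.univ (by simp; omega) fun j _ j' _ _ => by simpa using sS j l j' l
  -- the inverse of the uniformiser along `la i`
  have rho : ∀ i, ∃ ρ : O, S i 0 ^ 2 * ρ = algebraMap (A3 k) O (ff k (lb 0)) ∧ Sy cx ρ 0 ∧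
      ShH H (-2) ρ := fun i => by
    obtain ⟨ρ, hρ⟩ : ∃ ρ : O, algebraMap (A3 k) O (ff k (la i)) * ρ = c i 0 :=
      ⟨((cx.unit_ff (la i)).unit⁻¹ : Oˣ) * c i 0, by
        rw [← mul_assoc, (cx.unit_ff (la i)).mul_val_inv, one_mul]⟩
    have h1 : S i 0 ^ 2 * ρ = algebraMap (A3 k) O (ff k (lb 0)) := by
      apply (cx.unit_ff (la i)).mul_left_cancel
      rw [mul_left_comm, hρ, htc]
    refine ⟨ρ, h1, ((sc i 0).div (homA_ff (la i)) (ft_ne_zero _) hρ).congr rfl (by simp [da]), ?_⟩
    have h2 : ∀ {f : Fac m}, la i ≠ f → ρ ∈ mult O (loc f (1 : O) L) := fun h =>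
      (lua h).mem_mult (by rw [hρ]; exact mult_le_loc h1L (mc i 0))
    refine hd.shH ?_
    rintro (i' | f)
    · by_cases h : i = i'
      · subst h
        refine ⟨-2, le_rfl, algebraMap (A3 k) O (ff k (lb 0)) * S (nx i) 0 ^ 2,
          mult_le_loc h1L (mul_mem ((mult O L).algebraMap_mem _) (mt _ _)), ?_⟩
        change _ = ((W i ^ (-2 : ℤ) : Oˣ) : O) * _
        rw [zpow_neg, Units.eq_inv_mul_iff_mul_eq, zpow_two, Units.val_mul, ← sq, hW2, ← h1]
        ring
      · exact ⟨0, by norm_num, _, h2 (nla h), by simp⟩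
    · exact ⟨0, by norm_num, _, h2 (f.2 i), by simp⟩
  have ig : Inv cx H (Finset.univ.image la) (∏ j, S j 0) 1 ((2 * m + 1 : ℕ) : ℤ) := by
    refine ⟨syg 0, shg 0, fun f hf => ?_⟩
    obtain ⟨i, -, rfl⟩ := Finset.mem_image.1 hf
    obtain ⟨ρ, h1, h2, h3⟩ := rho i
    have hcard : (Finset.univ.erase i).card = 4 * m + 1 := by
      rw [Finset.card_erase_of_mem (Finset.mem_univ _)]; simp
    refine ⟨ff k (lb 0) * ∏ j ∈ Finset.univ.erase i, (ff k (la j) * ff k (lb 0)), 6 * m + 2,
      (∏ j, S j 0) * ρ * ∏ j ∈ Finset.univ.erase i, c j 0, ?_, ?_, ?_, ?_⟩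
    · have := (gb (nlb i 0)).mul (GoodAt.prod (Finset.univ.erase i) fun j hj =>
        (ga (nla (Finset.mem_erase.1 hj).1)).mul (gb (nlb i 0)))
      convert this using 1
      rw [Finset.sum_const, hcard]; simp; ring
    · refine (((syg 0).mul h2).mul (Sy.prod (Finset.univ.erase i) fun j _ => sc j 0)).congr rfl ?_
      rw [Finset.sum_const, hcard]; simp; ring
    · exact (((shg 0).mul h3).mul (m0 _ (prod_mem fun j _ => mc j 0))).congr (by ring) rfl
    · refine (shH_zero 1).congr rfl ?_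
      have h4 : (∏ j, S j 0) * ∏ j, S j 0 = S i 0 ^ 2 * ∏ j ∈ Finset.univ.erase i, S j 0 ^ 2 := by
        rw [Finset.mul_prod_erase Finset.univ (fun j => S j 0 ^ 2) (Finset.mem_univ i),
          Finset.prod_pow, sq]
      have h5 : algebraMap (A3 k) O (∏ j ∈ Finset.univ.erase i, (ff k (la j) * ff k (lb 0))) =
          (∏ j ∈ Finset.univ.erase i, S j 0 ^ 2) * ∏ j ∈ Finset.univ.erase i, c j 0 := by
        rw [← Finset.prod_mul_distrib, map_prod]
        exact Finset.prod_congr rfl fun j _ => by rw [map_mul, htc]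
      rw [map_mul, h5, ← h1]
      linear_combination (ρ * ∏ j ∈ Finset.univ.erase i, c j 0) * h4
  have hμ' : ∀ ξ ∈ L, algebraMap (A3 k) O μ • dV ξ ∈ L := fun ξ hξ => by
    rw [algebraMap_smul]; exact hμ ξ hξ
  refine ⟨H, hd.numData (eμ := eμ) hμ' (Inv.good (gμ 0).sy fun f hf => ?_) ⟨_, ig⟩ ?_,
    fun t ht => (m0 t ht).mem_mult _, fun i i' l => (shS i i' l).mem_mult _, fun ξ hξ => ?_⟩
  · obtain ⟨i, -, rfl⟩ := Finset.mem_image.1 hf
    exact gμ i
  · -- the local equation of the branch curve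
    have mG : ∀ l : P m, F - ((pc l : ℤ) : O) * X ∈ mult O L := fun l =>
      sub_mem mF (mul_mem (intCast_mem _ _) mX)
    have iG : Inv cx H (Finset.univ.image la) (F - ((pc (0 : P m) : ℤ) : O) * X) 0 1 := by
      have g1 : ∀ i, GoodAt (la i) (-(xA * ff k (lb 0))) (1 + 1) := fun i =>
        ((goodAt_x _).mul (gb (nlb i 0))).neg
      refine Inv.of_mul (t₀ := -F' - ((pc (0 : P m) : ℤ) : O) * X) (e₀ := 1)
        (sF.sub (((sy_intCast _).mul sX).congr rfl (by ring))) (m0 _ (mG 0))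
        (sF'.neg.sub (((sy_intCast _).mul sX).congr rfl (by ring)))
        (by simpa using m0 _ (sub_mem (neg_mem mF') (mul_mem (intCast_mem _ _) mX)))
        (Inv.good (g1 0).sy fun f hf => ?_) ((shH_zero 1).congr rfl ?_)
      · obtain ⟨i, -, rfl⟩ := Finset.mem_image.1 hf
        exact g1 i
      · rw [map_neg, map_mul, hLb, ← hX]
        linear_combination -hFF
    have sg2 : ∀ l, ShH H 2 ((∏ j, S j l) * ∏ j, S j l) := fun l =>
      ((shg l).mul (shg l)).congr (by norm_num) rfl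
    have hg2 : ∀ l, (∏ j, S j l) * ∏ j, S j l = ∏ j, S j l ^ 2 := fun l => by
      rw [Finset.prod_pow, sq]
    obtain ⟨n, s', h1, h2⟩ := tau_of_prime (H := H) (s := (∏ j, S j 0) * ∏ j, S j 0)
      (f := (F - ((pc (0 : P m) : ℤ) : O) * X) ^ (4 * m + 2)) (by
      intro D _ _ χ hχ
      let T : P m → P m → sh0 O H := fun i l => ⟨S i l ^ 2, m0 _ (mt i l)⟩
      let E0 : sh0 O H := ⟨F, m0 _ mF⟩
      let E1 : sh0 O H := ⟨F', m0 _ mF'⟩
      let X0 : sh0 O H := algebraMap (A3 k) (sh0 O H) xA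
      let Y0 : sh0 O H := algebraMap (A3 k) (sh0 O H) (YA k m)
      have hX0 : (X0 : O) = X := hX.symm
      have hY0 : (Y0 : O) = Y := hY.symm
      have hG : ∀ l : P m, χ E0 - ((pc l : ℤ) : D) * χ X0 = 0 := fun l => by
        have h3 := hχ ((E0 - ((pc l : ℤ) : sh0 O H) * X0) ^ (4 * m + 2)) _ (sg2 l)
          ((shH_zero 3).congr rfl (by
            have h4 : ∏ j, (S j 0 ^ 2 * (F - ((pc l : ℤ) : O) * X)) =
                ∏ j, (S j l ^ 2 * (F - ((pc (0 : P m) : ℤ) : O) * X)) :=
              Finset.prod_congr rfl fun j _ => by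
                rw [hS2, hS2]; push_cast
                linear_combination (((pc l : ℤ) : O) - ((pc (0 : P m) : ℤ) : O)) * hFF
            simp only [Finset.prod_mul_distrib, Finset.prod_const, Finset.card_univ,
              Fintype.card_fin] at h4
            rw [hg2, hg2]
            push_cast
            rw [hX0]
            linear_combination -h4))
        rw [map_pow] at h3
        simpa only [map_sub, map_mul, map_intCast] using pow_eq_zero_iff (by omega) |>.1 h3
      have hp : ((pc (0 : P m) - pc (1 : P m) : ℤ) : D) ≠ 0 :=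
        intCast_ne_zero_of_hom (k := k) χ (Big.ne (m := m) _
          (sub_ne_zero.2 fun e => Fin.zero_ne_one (pc_injective e)) (pc_sub_abs _ _))
      have x0 : χ X0 = 0 := by
        apply mul_left_cancel₀ hp
        push_cast
        linear_combination hG 1 - hG 0
      have e0 : χ E0 = 0 := by simpa [x0] using hG 0
      have hT : ∀ l : P m, χ Y0 - ((pc l : ℤ) : D) * χ E1 = 0 := fun l => by
        have h3 := hχ (∏ j, T j l) 0 (shH_zero 2)
          ((((sg2 l).mul (sg2 0)).mono hF (by norm_num)).congr rfl (by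
            rw [hg2 l]; simp [T]))
        rw [map_prod] at h3
        obtain ⟨j, -, hj⟩ := Finset.prod_eq_zero_iff.1 h3
        have : T j l = Y0 - ((pc l : ℤ) : sh0 O H) * E1 - ((pc j : ℤ) : sh0 O H) * E0 +
            ((pc j * pc l : ℤ) : sh0 O H) * X0 := Subtype.ext (by
          push_cast
          rw [hX0, hY0]
          have := hS2 j l
          push_cast at this
          exact this)
        rw [this] at hj
        simpa only [map_add, map_sub, map_mul, map_intCast, x0, e0, mul_zero, sub_zero, add_zero]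
          using hj
      have e1 : χ E1 = 0 := by
        apply mul_left_cancel₀ hp
        push_cast
        linear_combination hT 1 - hT 0
      have y0 : χ Y0 = 0 := by simpa [e1] using hT 0
      have : (zA : A3 k) = YA k m - ((cc m : ℤ) : A3 k) * xA := by rw [YA]; ring
      rw [this]
      simp only [map_sub, map_mul]
      change χ Y0 - _ * χ X0 = 0
      rw [x0, y0, mul_zero, sub_zero])
    exact ⟨_, _, s', 4 * m + 2, n, (ig.mul ig).congr rfl (by ring) (by push_cast; ring),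
      (iG.pow (4 * m + 2)).congr rfl (by ring) (by push_cast; ring), h1, h2⟩
  · have h1 := hF.kill _ _ (hd.conn hμ' _ hξ)
    rwa [algebraMap_smul, ← mul_smul, sub_add_cancel] at h1

/-- after both line steps all products `s s'` preserve the lattice -/
theorem Ctx.ss_mem (cx : Ctx k m N O) {L : Submodule (A3 k) (VV k m N)} (hL : Lat L)
    (h01 : cx.u .e01 ∈ mult O L) (h10 : cx.u .e10 ∈ mult O L)
    (ha : ∀ i i' l, cx.u (.s i l) * cx.u (.s i' l) ∈ mult O L)
    (hb : ∀ i l l', cx.u (.s i l) * cx.u (.s i l') ∈ mult O L) (i l i' l' : P m) :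
    cx.u (.s i l) * cx.u (.s i' l') ∈ mult O L := by
  refine hL.mem_mult fun f => ?_
  obtain ⟨i'', hi⟩ : ∃ i'' : P m, Fac.a i'' ≠ f := by
    by_cases h : Fac.a (0 : P m) = f
    · exact ⟨1, fun e => Fin.zero_ne_one (Fac.a.inj (h.trans e.symm))⟩
    · exact ⟨0, h⟩
  obtain ⟨l'', hl⟩ : ∃ l'' : P m, Fac.b l'' ≠ f := by
    by_cases h : Fac.b (0 : P m) = f
    · exact ⟨1, fun e => Fin.zero_ne_one (Fac.b.inj (h.trans e.symm))⟩
    · exact ⟨0, h⟩
  refine ⟨_, ((goodAt_ff (k := k) hi).mul (goodAt_ff hl)).mem_Sig, ?_⟩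
  rw [← cx.s_sq_conj]
  have h1 := mul_mem (mul_mem (ha i i' l'') (hb i'' l l'))
    (add_mem (add_mem (add_mem ((mult O L).algebraMap_mem (YA k m))
      (mul_mem (intCast_mem _ (pc l'')) h01)) (mul_mem (intCast_mem _ (pc i'')) h10))
      (mul_mem (intCast_mem _ (pc i'' * pc l'')) ((mult O L).algebraMap_mem xA)))
  convert h1 using 1
  have h2 := cx.rel.hss i l i'' l''
  have h3 := cx.rel.hss i' l' i'' l''
  set C := algebraMap (A3 k) O (YA k m) + ((pc l'' : ℤ) : O) * cx.u .e01 +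
      ((pc i'' : ℤ) : O) * cx.u .e10 + ((pc i'' * pc l'' : ℤ) : O) * algebraMap (A3 k) O xA
  linear_combination (C * cx.u (.s i' l') * cx.u (.s i'' l'')) * h2 +
    (C * cx.u (.s i l'') * cx.u (.s i'' l)) * h3

end Crest.Agent.R169
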