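import Crest.Agent.R169.Step
import Crest.Agent.R169.Symb

/-!
The step adjoining `e01 + e10 = √q`.
-/

set_option autoImplicit false
set_option linter.unusedSectionVars false

namespace Crest.Agent.R169

open Module Filter Polynomial

variable {k : Type} [Field k] {m N : ℕ} [Big k m]
variable {O : Type} [CommRing O] [Algebra (A3 k) O] [Module O (VV k m N)]
  [IsScalarTower (A3 k) O (VV k m N)]

theorem Ctx.iq_unit (cx : Ctx k m N O) : IsUnit (cx.u .e01 + cx.u .e10) := by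
  have h := cx.unit_ff Fac.q
  rw [← cx.wq_sq] at h
  exact (isUnit_pow_iff two_ne_zero).1 h

/-- the local square roots -/
noncomputable def iqW (cx : Ctx k m N O) : Fac m → Oˣ :=
  fun c => if c = Fac.q then cx.iq_unit.unit else 1

theorem iqW_q (cx : Ctx k m N O) : iqW cx Fac.q = cx.iq_unit.unit := if_pos rfl

theorem iqW_ne (cx : Ctx k m N O) {c : Fac m} (h : c ≠ Fac.q) : iqW cx c = 1 := if_neg h

theorem Ctx.iq_pow_mem (cx : Ctx k m N O) :
    (cx.u .e01 + cx.u .e10) ^ cx.p ∈ mult O (M0 k m N) := by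
  rw [cx.sb_wq_pow]
  exact add_mem (cx.hup _) (cx.hup _)

theorem iq_sA : sA k ({Fac.q} : Finset (Fac m)) = ff k (Fac.q : Fac m) := by simp [sA]

theorem Ctx.iqData (cx : Ctx k m N O) :
    StepData cx.toCx (M0 k m N) {Fac.q} (id : Fac m → Fac m) (fun _ => (1 : O)) (iqW cx) := by
  refine ⟨lat_M0, fun _ => one_mem _, fun c => ?_, fun c => ?_, fun f => ?_, fun c => ?_⟩
  · by_cases h : c = Fac.q
    · rw [h, iqW_q, IsUnit.unit_spec, cx.wq_sq]
      exact Subalgebra.algebraMap_mem _ _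
    · rw [iqW_ne cx h]; simp
  · by_cases h : c = Fac.q
    · rw [h, iqW_q, IsUnit.unit_spec]
      exact cx.iq_pow_mem
    · rw [iqW_ne cx h]; simp
  · exact ⟨1, one_mem _, 1, one_mem _, {f}, by simp, by simp⟩
  · by_cases h : c = Fac.q
    · refine ⟨1, one_mem _, ?_⟩
      rw [h, iqW_q, IsUnit.unit_spec, cx.wq_sq, iq_sA, mul_one]
    · exact ⟨_, Subalgebra.algebraMap_mem _ (sA k ({Fac.q} : Finset (Fac m))), by rw [iqW_ne cx h]; simp⟩

theorem Ctx.iq_lu (cx : Ctx k m N O) {c : Fac m} (h : c ≠ Fac.q) :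
    LU c (1 : O) (M0 k m N) ((cx.u .e01 + cx.u .e10) ^ 2) := by
  rw [cx.wq_sq]
  exact lu_sig (one_mem _) (goodAt_ff h.symm).mem_Sig

theorem Ctx.iq_mem (cx : Ctx k m N O) {c : Fac m} (h : c ≠ Fac.q) :
    cx.u .e01 + cx.u .e10 ∈ mult O (loc c (1 : O) (M0 k m N)) :=
  (cx.iq_lu h).etale cx.toCx (mult_le_loc (one_mem _) cx.iq_pow_mem)

theorem Ctx.iq_sh (cx : Ctx k m N O) :
    ShH (StepH (M0 k m N) (id : Fac m → Fac m) (fun _ => (1 : O)) (iqW cx)) 1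
      (cx.u .e01 + cx.u .e10) := by
  refine cx.iqData.shH fun c => ⟨1, le_rfl, ?_⟩
  by_cases h : c = Fac.q
  · exact ⟨1, one_mem _, by rw [h, iqW_q]; simp⟩
  · exact ⟨_, cx.iq_mem h, by rw [iqW_ne cx h]; simp⟩

theorem Ctx.iq_sh_inv (cx : Ctx k m N O) :
    ShH (StepH (M0 k m N) (id : Fac m → Fac m) (fun _ => (1 : O)) (iqW cx)) (-1)
      ((cx.iq_unit.unit⁻¹ : Oˣ) : O) := by
  refine cx.iqData.shH fun c => ⟨-1, le_rfl, ?_⟩
  by_cases h : c = Fac.q
  · exact ⟨1, one_mem _, by rw [h, iqW_q]; simp⟩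
  · refine ⟨((cx.iq_unit.unit⁻¹ : Oˣ) : O), (cx.iq_lu h).mem_mult ?_, by rw [iqW_ne cx h]; simp⟩
    rw [sq, mul_assoc, cx.iq_unit.mul_val_inv, mul_one]
    exact cx.iq_mem h

theorem Ctx.iq_inv (cx : Ctx k m N O) :
    Inv cx.toCx (StepH (M0 k m N) (id : Fac m → Fac m) (fun _ => (1 : O)) (iqW cx)) {Fac.q}
      (cx.u .e01 + cx.u .e10) 1 1 := by
  refine ⟨cx.sb_sy_wq, cx.iq_sh, fun f _ => ⟨1, -1, _, by simpa using goodAt_one f, ?_,
    cx.iq_sh_inv, ?_⟩⟩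
  · refine (cx.sb_sy_wq.div (homA_ff (Fac.q : Fac m)) (ft_ne_zero _) ?_).congr rfl
      (by simp [fdeg])
    rw [← cx.wq_sq, sq, mul_assoc, cx.iq_unit.mul_val_inv, mul_one]
  · rw [cx.iq_unit.mul_val_inv, map_one, sub_self]
    exact shH_zero 1

theorem iq_half (m : ℕ) [Big k m] {S : Subalgebra (A3 k) O} {t : O} (h : 2 * t ∈ S) : t ∈ S := by
  have h1 := mul_mem (S.algebraMap_mem (algebraMap k (A3 k) ((2 : ℤ) : k)⁻¹)) h
  have h2 : (2 : O) = algebraMap (A3 k) O (algebraMap k (A3 k) ((2 : ℤ) : k)) := by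
    rw [map_intCast, map_intCast]; norm_num
  rwa [← mul_assoc, h2, ← map_mul, ← map_mul, inv_mul_cancel₀ (sb_two_ne_zero m), map_one,
    map_one, one_mul] at h1

theorem stepQ (cx : Ctx k m N O) :
    ∃ H : ℤ → Submodule (A3 k) (VV k m N), NumData cx.toCx (M0 k m N) H {Fac.q} 1 (-2) ∧
      mult O (M0 k m N) ≤ mult O (H cx.j) ∧
      cx.u .e01 ∈ mult O (H cx.j) ∧ cx.u .e10 ∈ mult O (H cx.j) ∧
      ∀ ξ ∈ H cx.j, ff k (Fac.q : Fac m) • dV ξ ∈ H cx.j := by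
  have h := cx.iqData
  have hμ : ∀ ξ ∈ M0 k m N, (1 : O) • dV ξ ∈ M0 k m N := by
    intro ξ hξ i
    obtain ⟨a, ha⟩ := hξ i
    exact ⟨dA k a, by rw [one_smul, dV_apply, ha, dR_algebraMap]⟩
  have hw := (cx.iq_sh.mono h.filt (show (0 : ℤ) ≤ 1 by norm_num)).mem_mult cx.j
  refine ⟨_, h.numData hμ inv_one ⟨_, cx.iq_inv.congr rfl rfl (by simp)⟩
    ⟨_, 1, _, 1 + 1, 0, (cx.iq_inv.mul cx.iq_inv).congr rfl (by norm_num) rfl,
      inv_one.congr rfl rfl (by norm_num), (cx.iq_sh.mul cx.iq_sh).congr (by norm_num) rfl, ?_⟩,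
    fun t ht => (h.shH_mult ht).mem_mult _, iq_half m ?_, iq_half m ?_,
    fun ξ hξ => ?_⟩
  · simpa using shH_zero 3
  · have := sub_mem hw (Subalgebra.algebraMap_mem _ yA)
    rw [← cx.rel.hE] at this
    convert this using 1
    ring
  · have := add_mem hw (Subalgebra.algebraMap_mem _ yA)
    rw [← cx.rel.hE] at this
    convert this using 1
    ring
  · have := h.filt.kill _ _ (h.conn hμ _ hξ)
    rwa [iq_sA, one_smul, sub_add_cancel] at this

end Crest.Agent.R169
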