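import Crest.Agent.R169.Step
import Crest.Agent.R169.Symb
import Crest.Agent.R169.ThetaAlg

/-!
The two steps ramified along the graphs of automorphisms.
-/

set_option autoImplicit false
set_option linter.unusedSectionVars false

namespace Crest.Agent.R169

open Module Filter Polynomial

variable {k : Type} [Field k] {m N : ℕ} [Big k m]
variable {O : Type} [CommRing O] [Algebra (A3 k) O] [Module O (VV k m N)]
  [IsScalarTower (A3 k) O (VV k m N)]

/-- the conjugate of `s ^ 2` -/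
noncomputable def Ctx.cj (cx : Ctx k m N O) (i l : P m) : O :=
  algebraMap (A3 k) O (YA k m) + ((pc l : ℤ) : O) * cx.u .e01 +
    ((pc i : ℤ) : O) * cx.u .e10 + ((pc i * pc l : ℤ) : O) * algebraMap (A3 k) O xA

theorem Ctx.s_cj (cx : Ctx k m N O) (i l : P m) : cx.u (.s i l) ^ 2 * cx.cj i l =
    algebraMap (A3 k) O (ff k (Fac.a i) * ff k (Fac.b l)) := cx.s_sq_conj i l

theorem Ctx.cj_mem (cx : Ctx k m N O) {S : Subalgebra (A3 k) O} (h01 : cx.u .e01 ∈ S)
    (h10 : cx.u .e10 ∈ S) (i l : P m) : cx.cj i l ∈ S :=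
  add_mem (add_mem (add_mem (S.algebraMap_mem _) (mul_mem (intCast_mem _ _) h01))
    (mul_mem (intCast_mem _ _) h10)) (mul_mem (intCast_mem _ _) (S.algebraMap_mem _))

theorem Ctx.sy_cj (cx : Ctx k m N O) (i l : P m) : Sy cx.toCx (cx.cj i l) 1 :=
  ((homA_Y.sy.add (((sy_intCast _).mul cx.sy_e01).congr rfl (by ring))).add
    (((sy_intCast _).mul cx.sy_e10).congr rfl (by ring))).add
    (((sy_intCast _).mul homA_x.sy).congr rfl (by ring))

theorem Ctx.sy_t (cx : Ctx k m N O) (i l : P m) : Sy cx.toCx (cx.u (.s i l) ^ 2) 1 := by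
  rw [sq]; exact cx.sy_ss _ _ _ _

theorem goodAt_ab_y (i l : P m) : GoodAt (Fac.y : Fac m) (ff k (Fac.a i) * ff k (Fac.b l)) 2 :=
  (goodAt_ff (f' := Fac.a i) (fun h => by cases h)).mul
    (goodAt_ff (f' := Fac.b l) (fun h => by cases h))

theorem Ctx.unit_th (cx : Ctx k m N O) (J : Fin (4 * m) → Bool) : IsUnit (th cx.u J) :=
  IsUnit.prod_univ_iff.2 fun _ => cx.unit_mu _ _

theorem Ctx.unit_om (cx : Ctx k m N O) (J : Fin (4 * m) → Bool) : IsUnit (om cx.u J) :=
  (cx.unit_w.mul (cx.unit_s _ _)).mul (cx.unit_th J)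

theorem two_ne_zero_k (m : ℕ) [Big k m] : ((2 : ℤ) : k) ≠ 0 := Big.ne (m := m) 2 (by norm_num) (by
  have := cc_pos m; rw [abs_of_pos (by norm_num)]; omega)

theorem ci_ne_zero (i : Fin (4 * m)) : ((ci i : ℤ) : k) ≠ 0 := by
  have h1 := pc_em i
  have h2 := pc_lt (em i)
  have h3 := pc_pos (0 : P m)
  have h4 : 0 < ci i := by unfold ci; positivity
  exact Big.ne (m := m) _ h4.ne' (by rw [abs_of_pos h4]; nlinarith)

/-- the charts of a theta step -/
abbrev ThC (m : ℕ) : Type := {f : Fac m // f ≠ Fac.y} ⊕ (Fin (4 * m) → Bool)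

def thF : ThC m → Fac m := Sum.elim (·.1) fun _ => Fac.y

noncomputable def thE (cx : Ctx k m N O) : ThC m → O := Sum.elim (fun _ => 1) fun J => th cx.u J ^ 2

noncomputable def thW (cx : Ctx k m N O) (ε : Bool) : ThC m → Oˣ :=
  Sum.elim (fun _ => 1) fun J => if sgn J = sg ε then 1 else (cx.unit_om J).unit

/-- `ω_J / Z` -/
noncomputable def Ctx.om' (cx : Ctx k m N O) (J : Fin (4 * m) → Bool) : O :=
  ((cx.unit_ff Fac.y).unit⁻¹ : Oˣ) * om cx.u J

theorem Ctx.mul_om' (cx : Ctx k m N O) (J : Fin (4 * m) → Bool) :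
    algebraMap (A3 k) O yA * cx.om' J = om cx.u J := by
  have := (cx.unit_ff Fac.y).mul_val_inv
  rw [Ctx.om', ← mul_assoc]
  change algebraMap (A3 k) O (ff k (Fac.y : Fac m)) * _ * _ = _
  rw [this, one_mul]

theorem Ctx.unit_Z (cx : Ctx k m N O) : IsUnit (algebraMap (A3 k) O yA) := cx.unit_ff Fac.y

theorem Ctx.om_sq (cx : Ctx k m N O) (J : Fin (4 * m) → Bool) :
    om cx.u J ^ 2 = algebraMap (A3 k) O yA * (cx.u (.s 0 0) ^ 2 * th cx.u J ^ 2) := by
  rw [om, ← cx.rel.hw]; ring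

section
variable (cx : Ctx k m N O) {L : Submodule (A3 k) (VV k m N)}
  (h0 : mult O (M0 k m N) ≤ mult O L) (h01 : cx.u .e01 ∈ mult O L) (h10 : cx.u .e10 ∈ mult O L)
  (hss : ∀ i l i' l', cx.u (.s i l) * cx.u (.s i' l') ∈ mult O L)

include h0 in
theorem Ctx.th_pow_mem (J : Fin (4 * m) → Bool) : th cx.u J ^ cx.p ∈ mult O L := by
  rw [th, ← Finset.prod_pow]
  exact prod_mem fun i _ => h0 (cx.hup _)

include h0 in
theorem Ctx.om_pow_mem (J : Fin (4 * m) → Bool) : om cx.u J ^ cx.p ∈ mult O L := by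
  rw [om, mul_pow, mul_pow]
  exact mul_mem (mul_mem (h0 (cx.hup _)) (h0 (cx.hup _))) (cx.th_pow_mem h0 J)

include hss in
theorem Ctx.th_sq_mem (J : Fin (4 * m) → Bool) : th cx.u J ^ 2 ∈ mult O L :=
  cx.rel.th_sq_mem (mult O L).toSubring ((mult O L).algebraMap_mem _) hss J

include h01 h10 in
theorem Ctx.lu_t00 {η : O} (hη : η ∈ mult O L) : LU Fac.y η L (cx.u (.s 0 0) ^ 2) :=
  LU.of_mul (by rw [cx.s_cj]; exact lu_sig hη (goodAt_ab_y _ _).mem_Sig)
    (mult_le_loc hη (cx.cj_mem h01 h10 0 0))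

include hss in
theorem Ctx.lu_th {f : Fac m} (hf : f ≠ Fac.y) (J : Fin (4 * m) → Bool) :
    LU f (1 : O) L (th cx.u J ^ 2) := by
  refine LU.of_mul (b := th cx.u (fun i => !J i) ^ 2) ?_
    (mult_le_loc (one_mem _) (cx.th_sq_mem hss _))
  rw [cx.rel.th_sq_mul]
  have h1 : ((∏ i : Fin (4 * m), ci i : ℤ) : k) ≠ 0 := by
    push_cast
    exact Finset.prod_ne_zero_iff.2 fun i _ => ci_ne_zero i
  have h2 := lu_sig (O := O) (L := L) (one_mem _) (goodAt_intCast f h1).mem_Sig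
  have h3 := lu_sig (O := O) (L := L) (one_mem _) (goodAt_ff (k := k) hf.symm).mem_Sig
  rw [map_intCast] at h2
  exact (h2.pow 2).mul (h3.pow _)

include h0 hss in
theorem Ctx.unram {f : Fac m} {η : O} (hη : η ∈ mult O L) {J1 : Fin (4 * m) → Bool}
    (hu : LU f η L (th cx.u J1 ^ 2)) (J : Fin (4 * m) → Bool) :
    (sgn J = sgn J1 → th cx.u J ∈ mult O (loc f η L)) ∧
      (sgn J ≠ sgn J1 → cx.om' J ∈ mult O (loc f η L)) := by
  have h1 : th cx.u J1 ∈ mult O (loc f η L) :=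
    hu.etale cx.toCx (mult_le_loc hη (cx.th_pow_mem h0 J1))
  refine ⟨fun hJ => hu.mem_mult ?_, fun hJ => hu.mem_mult ?_⟩
  · have := cx.rel.th_mul_mem (mult O L).toSubring ((mult O L).algebraMap_mem _) hss hJ
    have h2 := mul_mem (mult_le_loc (f := f) hη this) h1
    convert h2 using 1; ring
  · obtain ⟨ρ, hρ, h2⟩ :=
      cx.rel.th_mul_odd (mult O L).toSubring ((mult O L).algebraMap_mem _) hss hJ
    have h3 := mul_mem (mult_le_loc (f := f) hη hρ) h1
    convert h3 using 1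
    apply cx.unit_Z.mul_left_cancel
    rw [mul_left_comm, cx.mul_om', om, ← cx.rel.hw]
    linear_combination (-(cx.u .w * th cx.u J1)) * h2

include h0 h01 h10 hss in
theorem Ctx.thData (hL : Lat L) (ε : Bool) :
    StepData cx.toCx L {Fac.y} thF (thE cx) (thW cx ε) where
  lat := hL
  hη := by
    rintro (f | J)
    · exact one_mem _
    · exact cx.th_sq_mem hss J
  hq := by
    rintro (f | J)
    · simp [thW]
    · simp only [thW, Sum.elim_inr]
      split_ifs
      · simp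
      · rw [IsUnit.unit_spec, cx.om_sq]
        exact mul_mem ((mult O L).algebraMap_mem _)
          (mul_mem (by rw [sq]; exact hss _ _ _ _) (cx.th_sq_mem hss J))
  hp := by
    rintro (f | J)
    · simp [thW]
    · simp only [thW, Sum.elim_inr]
      split_ifs
      · simp
      · rw [IsUnit.unit_spec]; exact cx.om_pow_mem h0 J
  cover := by
    intro f
    by_cases hf : f = Fac.y
    · subst hf
      have g2 : GoodAt (Fac.y : Fac m) (((2 ^ (4 * m) : ℤ) : A3 k) *
          ∏ i : Fin (4 * m), (ff k (Fac.a (em i)) * ff k (Fac.b (0 : P m)))) _ :=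
        (goodAt_intCast _ (by
          have := two_ne_zero_k (k := k) m
          push_cast at this ⊢; exact pow_ne_zero _ this)).mul
          (GoodAt.prod Finset.univ fun i _ => goodAt_ab_y (em i) 0)
      refine ⟨_, g2.mem_Sig, al cx.u * ∏ i : Fin (4 * m), cx.cj (em i) 0,
        mul_mem (al_mem (mult O L).toSubring hss) (prod_mem fun i _ => cx.cj_mem h01 h10 _ _),
        Finset.univ.map ⟨Sum.inr, Sum.inr_injective⟩, ?_, ?_⟩
      · intro c hc
        obtain ⟨J, -, rfl⟩ := Finset.mem_map.1 hc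
        rfl
      · rw [Finset.sum_map]
        change _ = _ * ∑ J, th cx.u J ^ 2
        rw [cx.rel.sum_th_sq, map_mul, map_prod, map_intCast]
        simp only [← cx.s_cj, Finset.prod_mul_distrib, Finset.prod_pow, al]
        push_cast
        ring
    · exact ⟨1, one_mem _, 1, one_mem _, {Sum.inl ⟨f, hf⟩}, by simp [thF], by simp [thE]⟩
  hs := by
    rintro (f | J)
    · exact ⟨_, Subalgebra.algebraMap_mem _ (sA k ({Fac.y} : Finset (Fac m))), by simp [thW]⟩
    · simp only [thW, Sum.elim_inr]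
      split_ifs
      · exact ⟨_, Subalgebra.algebraMap_mem _ (sA k ({Fac.y} : Finset (Fac m))), by simp⟩
      · have hη := cx.th_sq_mem hss J
        refine ⟨algebraMap (A3 k) O yA * (((cx.unit_om J).unit⁻¹ : Oˣ) : O) ^ 2, ?_, ?_⟩
        · refine ((cx.lu_t00 h01 h10 hη).mul (lu_eta hη)).mem_mult ?_
          have h1 := (cx.unit_om J).mul_val_inv
          have h2 := cx.om_sq J
          have : cx.u (.s 0 0) ^ 2 * th cx.u J ^ 2 * (algebraMap (A3 k) O yA *
              (((cx.unit_om J).unit⁻¹ : Oˣ) : O) ^ 2) = 1 := by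
            rw [← mul_assoc, mul_comm _ (algebraMap (A3 k) O yA), ← h2, ← mul_pow, h1, one_pow]
          rw [this]; exact one_mem _
        · rw [mul_left_comm, ← mul_pow, Units.mul_inv]
          simp [sA, ff]

include h0 h01 h10 hss in
theorem Ctx.th_sh (hm : 0 < m) (hL : Lat L) (ε : Bool) (J : Fin (4 * m) → Bool) :
    (sgn J = sg ε → ShH (StepH L thF (thE cx) (thW cx ε)) 1 (th cx.u J)) ∧
      (sgn J ≠ sg ε → ShH (StepH L thF (thE cx) (thW cx ε)) (-1) (cx.om' J)) := by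
  have hd := cx.thData h0 h01 h10 hss hL ε
  obtain ⟨J1, hJ1⟩ := exists_sgn hm ε
  constructor
  · intro hJ
    refine hd.shH ?_
    rintro (f | J0)
    · exact ⟨1, le_rfl, _, (cx.unram h0 hss (one_mem _) (cx.lu_th hss f.2 J1) J).1
        (hJ.trans hJ1.symm), by simp [thW]⟩
    · have hη := cx.th_sq_mem hss J0
      simp only [thW, Sum.elim_inr]
      split_ifs with h
      · exact ⟨1, le_rfl, _, (cx.unram h0 hss hη (lu_eta hη) J).1 (hJ.trans h.symm), by simp⟩
      · refine ⟨1, le_rfl, th cx.u J * (((cx.unit_om J0).unit⁻¹ : Oˣ) : O), ?_, ?_⟩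
        · obtain ⟨ρ, hρ, h2⟩ := cx.rel.th_mul_odd (mult O L).toSubring
            ((mult O L).algebraMap_mem _) hss (J := J) (J' := J0) (by rw [hJ]; exact Ne.symm h)
          refine ((cx.lu_t00 h01 h10 hη).mul (lu_eta hη)).mem_mult ?_
          have h3 := mult_le_loc (f := Fac.y) hη hρ
          convert h3 using 1
          apply (cx.unit_om J0).mul_left_cancel
          have h1 := (cx.unit_om J0).mul_val_inv
          have h4 : om cx.u J0 = cx.u .w * cx.u (.s 0 0) * th cx.u J0 := rfl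
          linear_combination (cx.u (.s 0 0) ^ 2 * th cx.u J0 ^ 2 * th cx.u J) * h1 -
            (cx.u (.s 0 0) * th cx.u J0) * h2 - ρ * h4
        · rw [zpow_one, mul_left_comm, Units.mul_inv, mul_one]
  · intro hJ
    refine hd.shH ?_
    rintro (f | J0)
    · exact ⟨-1, le_rfl, _, (cx.unram h0 hss (one_mem _) (cx.lu_th hss f.2 J1) J).2
        (by rwa [hJ1]), by simp [thW]⟩
    · have hη := cx.th_sq_mem hss J0
      simp only [thW, Sum.elim_inr]
      split_ifs with h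
      · exact ⟨-1, le_rfl, _, (cx.unram h0 hss hη (lu_eta hη) J).2 (by rwa [h]), by simp⟩
      · have h2 := cx.rel.th_mul_mem (mult O L).toSubring ((mult O L).algebraMap_mem _) hss
          (J := J) (J' := J0) (((sgn_ne_iff _ _).1 hJ).trans ((sgn_ne_iff _ _).1 h).symm)
        refine ⟨-1, le_rfl, cx.u (.s 0 0) ^ 2 * (th cx.u J * th cx.u J0),
          mult_le_loc hη (mul_mem (by rw [sq]; exact hss _ _ _ _) h2), ?_⟩
        rw [zpow_neg_one, Units.eq_inv_mul_iff_mul_eq, IsUnit.unit_spec]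
        apply cx.unit_Z.mul_left_cancel
        rw [mul_left_comm, cx.mul_om', om, om, ← cx.rel.hw]
        ring

end

theorem stepTheta (cx : Ctx k m N O) (hm : 0 < m) (L : Submodule (A3 k) (VV k m N)) (hL : Lat L)
    (h0 : mult O (M0 k m N) ≤ mult O L)
    (h01 : cx.u .e01 ∈ mult O L) (h10 : cx.u .e10 ∈ mult O L)
    (hss : ∀ i l i' l', cx.u (.s i l) * cx.u (.s i' l') ∈ mult O L)
    (ε : Bool) (a : ℕ) (μ : A3 k) (eμ : ℤ) (gμ : GoodAt (Fac.y : Fac m) μ eμ)
    (hμ : ∀ ξ ∈ L, (hs cx.u (!ε) ^ a * algebraMap (A3 k) O μ) • dV ξ ∈ L) :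
    ∃ H : ℤ → Submodule (A3 k) (VV k m N),
      NumData cx.toCx L H {Fac.y} (m + 1) (m - 1) ∧
      (∀ t ∈ mult O L, ShH H 0 t) ∧
      (∀ J, sgn J = sg ε → ShH H 0 (th cx.u J)) ∧
      (∀ J, sgn J ≠ sg ε → ShH H 0 (om cx.u J)) ∧
      ShH H 2 (hs cx.u ε) ∧
      (∃ b' : O, algebraMap (A3 k) O yA * b' = hs cx.u (!ε) * cx.u (.s 0 0) ^ 2 ∧ ShH H (-2) b') ∧
      ∀ μ' : O, (∀ ξ ∈ L, μ' • dV ξ ∈ L) → ∀ i, ∀ ξ ∈ H i, μ' • dV ξ ∈ H (i - 2) := by
  have hd := cx.thData h0 h01 h10 hss hL ε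
  have hsh := cx.th_sh h0 h01 h10 hss hm hL ε
  set H := StepH L thF (thE cx) (thW cx ε) with hH
  have hF := hd.filt
  have m0 : ∀ t ∈ mult O L, ShH H 0 t := fun t ht => hd.shH_mult ht
  set Z := algebraMap (A3 k) O yA with hZ
  have ZS : Z ∈ (mult O L).toSubring := (mult O L).algebraMap_mem _
  have sZ : ShH H 2 Z := hF.shH_sA.congr rfl (by simp [sA, ff, hZ])
  have yZ : Sy cx.toCx Z 1 := homA_y.sy
  have st : ∀ i l, ShH H 0 (cx.u (.s i l) ^ 2) := fun i l => m0 _ (by rw [sq]; exact hss _ _ _ _)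
  have som : ∀ J, sgn J ≠ sg ε → ShH H 1 (om cx.u J) := fun J hJ =>
    (sZ.mul ((hsh J).2 hJ)).congr (by ring) (cx.mul_om' J)
  -- the inverse of `2 ^ (4 m)`
  have two := two_ne_zero_k (k := k) m
  obtain ⟨c, hc0, hc⟩ : ∃ c : O, ShH H 0 c ∧ c * 2 ^ (4 * m) = 1 := by
    refine ⟨algebraMap (A3 k) O (algebraMap k (A3 k) ((2 : k) ^ (4 * m))⁻¹), shH_alg _, ?_⟩
    have h2 : (2 : O) ^ (4 * m) = algebraMap (A3 k) O (algebraMap k (A3 k) ((2 : k) ^ (4 * m))) := by
      simp [map_ofNat]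
    rw [h2, ← map_mul, ← map_mul, inv_mul_cancel₀ (pow_ne_zero _ (by simpa using two))]
    simp
  have s2 : ShH H 0 (2 : O) := by simpa using shH_intCast (O := O) (H := H) 2
  have shs : ShH H 2 (hs cx.u ε) := by
    have h1 : ShH H 2 (∑ J ∈ Finset.univ.filter (fun J => sgn J = sg ε), th cx.u J ^ 2) :=
      ShH.sum _ fun J hJ => (((hsh J).1 (Finset.mem_filter.1 hJ).2).pow 2).congr (by norm_num) rfl
    refine (hc0.mul (s2.mul h1)).congr (by ring) ?_
    rw [cx.rel.sum_filter_th_sq, ← mul_assoc, hc, one_mul]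
  set R := Finset.univ.filter (fun J : Fin (4 * m) → Bool => sgn J = sg (!ε)) with hR
  have hRm : ∀ J ∈ R, sgn J ≠ sg ε := fun J hJ => (sgn_ne_iff _ _).2 (Finset.mem_filter.1 hJ).2
  have om'sq : ∀ J, Z * cx.om' J ^ 2 = cx.u (.s 0 0) ^ 2 * th cx.u J ^ 2 := fun J => by
    apply cx.unit_Z.mul_left_cancel
    rw [← cx.om_sq, ← cx.mul_om']; ring
  obtain ⟨b', hb', sb'⟩ : ∃ b' : O, Z * b' = hs cx.u (!ε) * cx.u (.s 0 0) ^ 2 ∧ ShH H (-2) b' := by
    refine ⟨c * (2 * ∑ J ∈ R, cx.om' J ^ 2), ?_, (hc0.mul (s2.mul (ShH.sum _ fun J hJ =>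
      (((hsh J).2 (hRm J hJ)).pow 2).congr (a' := -2) (by norm_num) rfl))).congr (by ring) rfl⟩
    have h1 := cx.rel.sum_filter_th_sq (!ε)
    have h2 : Z * ∑ J ∈ R, cx.om' J ^ 2 = cx.u (.s 0 0) ^ 2 * ∑ J ∈ R, th cx.u J ^ 2 := by
      rw [Finset.mul_sum, Finset.mul_sum]
      exact Finset.sum_congr rfl fun J _ => om'sq J
    linear_combination 2 * c * h2 + c * cx.u (.s 0 0) ^ 2 * h1 +
      hs cx.u (!ε) * cx.u (.s 0 0) ^ 2 * hc
  -- invertible elements
  have it : ∀ i l, Inv cx.toCx H {Fac.y} (cx.u (.s i l) ^ 2) 0 1 := fun i l =>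
    Inv.of_mul (e₀ := 1) (cx.sy_t i l) (st i l) (cx.sy_cj i l)
      (by simpa using m0 _ (cx.cj_mem h01 h10 i l))
      (Inv.good (goodAt_ab_y i l).sy (fun f hf => by
        rw [Finset.mem_singleton.1 hf]; exact goodAt_ab_y i l))
      (by rw [cx.s_cj, sub_self]; exact shH_zero 1)
  have sal : ShH H 0 (al cx.u) := m0 _ (al_mem (mult O L).toSubring hss)
  have ial : Inv cx.toCx H {Fac.y} (al cx.u) 0 (2 * m) :=
    Inv.of_mul (e₀ := 2 * m) cx.sy_al sal cx.sy_al (by simpa using sal)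
      ((Inv.prod Finset.univ fun (i : Fin (4 * m)) _ => it (em i) 0).congr rfl (by simp)
        (by simp; ring))
      (by rw [Finset.prod_pow, ← sq, al, sub_self]; exact shH_zero 1)
  have i2 : Inv cx.toCx H {Fac.y} (2 : O) 0 0 := by simpa using inv_intCast (cx := cx.toCx) two
  have ih' : Inv cx.toCx H {Fac.y} (hs cx.u (!ε)) 0 (2 * m) :=
    ((i2.mul ial).congr rfl (by ring) (by ring)).of_sub hF (cx.sy_hs _)
      ((shs.mono hF (by norm_num)).congr rfl (by
        simp only [hs, sg_not]; push_cast; ring))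
  refine ⟨H, hd.numData (eμ := a * (2 * m) + eμ) hμ
    (((ih'.pow a).mul (Inv.good gμ.sy fun f hf => by
      rw [Finset.mem_singleton.1 hf]; exact gμ)).congr rfl (by ring) rfl) ?_ ?_, m0,
    fun J hJ => ((hsh J).1 hJ).mono hF (by norm_num), fun J hJ => (som J hJ).mono hF (by norm_num),
    shs, ⟨b', hb', sb'⟩, fun μ' h i ξ hξ => hd.conn h i hξ⟩
  · -- the global uniformiser
    have yw : Sy cx.toCx (∑ J ∈ R, om cx.u J) (m + 1) := Sy.sum _ fun J _ => cx.sy_om J
    have hwt : Z * ∑ J ∈ R, cx.om' J = ∑ J ∈ R, om cx.u J := by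
      rw [Finset.mul_sum]; exact Finset.sum_congr rfl fun J _ => cx.mul_om' J
    obtain ⟨r, hr, h1⟩ := cx.rel.sum_th_sq_sub (mult O L).toSubring ZS hss R fun J hJ J' hJ' =>
      (Finset.mem_filter.1 hJ).2.trans (Finset.mem_filter.1 hJ').2.symm
    have h2 := cx.rel.sum_filter_th_sq (!ε)
    have h3 : ∑ J ∈ R, om cx.u J = cx.u .w * cx.u (.s 0 0) * ∑ J ∈ R, th cx.u J := by
      rw [Finset.mul_sum]; rfl
    have h4 : (∑ J ∈ R, om cx.u J) * ∑ J ∈ R, cx.om' J =
        cx.u (.s 0 0) ^ 2 * (∑ J ∈ R, th cx.u J) ^ 2 := by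
      apply cx.unit_Z.mul_left_cancel
      rw [mul_left_comm, hwt, h3, ← cx.rel.hw]; ring
    refine ⟨∑ J ∈ R, om cx.u J, Inv.of_mul (t₀ := 2 * ∑ J ∈ R, cx.om' J) (e₀ := m)
      (ψ' := 2 ^ (4 * m) * (hs cx.u (!ε) * cx.u (.s 0 0) ^ 2)) (by simpa using yw)
      (ShH.sum _ fun J hJ => som J (hRm J hJ))
      ((i2.1.mul (yw.div homA_y X_ne_zero hwt)).congr rfl (by ring))
      ((s2.mul (ShH.sum _ fun J hJ => (hsh J).2 (hRm J hJ))).congr (by ring) rfl)
      (((i2.pow (4 * m)).mul (ih'.mul (it 0 0))).congr rfl (by ring) (by push_cast; ring)) ?_⟩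
    refine (((s2.mul (st 0 0)).mul (sZ.mul (m0 r hr))).neg.mono hF (by norm_num)).congr rfl ?_
    linear_combination 2 * h4 + 2 * cx.u (.s 0 0) ^ 2 * h1 + cx.u (.s 0 0) ^ 2 * h2
  · -- the local equation of the branch curve
    have ss : ∀ l, ShH H 2 (Z * (cx.u (.s l l) ^ 2) ^ m) := fun l =>
      (sZ.mul ((st l l).pow m)).congr (by ring) rfl
    have is : Inv cx.toCx H {Fac.y} (Z * (cx.u (.s 0 0) ^ 2) ^ m) 2 (m + 1) :=
      Inv.of_mul (t₀ := b') (e₀ := 2 * m)
        (ψ' := (cx.u (.s 0 0) ^ 2) ^ m * (hs cx.u (!ε) * cx.u (.s 0 0) ^ 2))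
        ((yZ.mul ((cx.sy_t 0 0).pow m)).congr rfl (by ring)) (ss 0)
        ((((cx.sy_hs _).mul (cx.sy_t 0 0)).div homA_y X_ne_zero hb').congr rfl (by ring)) sb'
        ((((it 0 0).pow m).mul (ih'.mul (it 0 0))).congr rfl (by ring) (by ring))
        ((shH_zero 1).congr rfl (by rw [← hb']; ring))
    obtain ⟨n, s', h1, h2⟩ := tau_of_prime (H := H) (s := Z * (cx.u (.s 0 0) ^ 2) ^ m)
      (f := al cx.u) (by
      intro D _ _ χ hχ
      let l : P m := em ⟨0, by omega⟩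
      let T : P m → P m → sh0 O H := fun i l => ⟨cx.u (.s i l) ^ 2, st i l⟩
      let E0 : sh0 O H := ⟨cx.u .e01, m0 _ h01⟩
      let E1 : sh0 O H := ⟨cx.u .e10, m0 _ h10⟩
      have z0 : χ (algebraMap (A3 k) (sh0 O H) yA) = 0 := hχ _ 0 (shH_zero 2)
        (((sZ.mul (ss 0)).mono hF (by norm_num)).congr rfl (by simp [hZ]))
      have hE : χ E1 = χ E0 := by
        have : E1 - E0 = algebraMap (A3 k) (sh0 O H) yA := Subtype.ext cx.rel.hE
        rw [← sub_eq_zero, ← map_sub, this, z0]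
      have ht : ∀ i l, χ (T i l) = χ (algebraMap (A3 k) (sh0 O H) (YA k m)) -
          ((pc l : ℤ) : D) * χ E0 - ((pc i : ℤ) : D) * χ E0 +
          ((pc i * pc l : ℤ) : D) * χ (algebraMap (A3 k) (sh0 O H) xA) := fun i l => by
        have : T i l = algebraMap (A3 k) (sh0 O H) (YA k m) - ((pc l : ℤ) : sh0 O H) * E1 -
            ((pc i : ℤ) : sh0 O H) * E0 +
            ((pc i * pc l : ℤ) : sh0 O H) * algebraMap (A3 k) (sh0 O H) xA :=
          Subtype.ext (cx.rel.hs2 i l)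
        rw [this]
        simp only [map_add, map_sub, map_mul, map_intCast, hE]
      have a0 : χ ⟨al cx.u, sal⟩ = 0 := hχ _ _ (ss 0) ((shH_zero 3).congr rfl (by simp))
      have e1 : ∏ i : Fin (4 * m), χ (T (em i) 0) = 0 := by
        have : ∏ i : Fin (4 * m), T (em i) 0 = ⟨al cx.u, sal⟩ ^ 2 := Subtype.ext (by
          simp [T, al, Finset.prod_pow])
        rw [← map_prod, this, map_pow, a0]; simp
      have e2 : ∑ i : Fin (4 * m), ((ci i ^ 2 : ℤ) : D) *
          ∏ j ∈ Finset.univ.erase i, χ (T (em j) 0) = 0 := by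
        obtain ⟨r, hr, h1⟩ := cx.rel.hs_mul (mult O L).toSubring ZS hss ε
        have h2 : ((∑ i : Fin (4 * m), ((ci i ^ 2 : ℤ) : sh0 O H) *
            ∏ j ∈ Finset.univ.erase i, T (em j) 0 : sh0 O H) : O) = gam cx.u := by
          simp [T, gam]
        have h3 := hχ (∑ i : Fin (4 * m), ((ci i ^ 2 : ℤ) : sh0 O H) *
            ∏ j ∈ Finset.univ.erase i, T (em j) 0) (2 * (cx.u (.s 0 0) ^ 2) ^ m * hs cx.u ε)
          (((s2.mul ((st 0 0).pow m)).mul shs).congr (by ring) rfl)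
          (((((st 0 0).pow m).mul (((shs.mul shs).add
            (((sZ.mul sZ).mul (m0 r hr)).congr (by ring) rfl)))).neg.mono hF (by norm_num)).congr rfl
            (by
              rw [h2]
              have h4 : 2 * al cx.u = hs cx.u ε + hs cx.u (!ε) := by
                simp only [hs, sg_not]; push_cast; ring
              linear_combination (cx.u (.s 0 0) ^ 2) ^ m * h1 +
                (cx.u (.s 0 0) ^ 2) ^ m * hs cx.u ε * h4))
        simpa only [map_sum, map_mul, map_intCast, map_prod] using h3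
      have e3 : ∏ i : Fin (4 * m), χ (T (em i) l) = 0 := by
        obtain ⟨r, hr, h1⟩ := cx.rel.chart_rel (mult O L).toSubring ZS hss l
        have fm : ShH H 0 (∏ i : Fin (4 * m), cx.u (.s (em i) l)) :=
          m0 _ (even_prod_mem (mult O L).toSubring _ _ (by simp [Nat.even_mul]; left; decide)
            fun _ _ => hss _ _ _ _)
        have f0 : χ ⟨_, fm⟩ = 0 := hχ _ _ (ss l)
          ((((sZ.mul sZ).mul (m0 r hr)).mono hF (by norm_num)).congr rfl (by
            simp only; linear_combination (-Z) * h1))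
        have : ∏ i : Fin (4 * m), T (em i) l = ⟨_, fm⟩ ^ 2 := Subtype.ext (by
          simp [T, Finset.prod_pow])
        rw [← map_prod, this, map_pow, f0]; simp
      obtain ⟨x0, y0⟩ := theta_domain (fun n hn hle =>
        intCast_ne_zero_of_hom (k := k) χ (Big.ne (m := m) n hn hle)) _ _ _ (fun i l => χ (T i l)) ht
        l (em_ne_zero _) e1 e2 e3
      have : (zA : A3 k) = YA k m - ((cc m : ℤ) : A3 k) * xA := by rw [YA]; ring
      rw [this]
      simp only [map_sub, map_mul, x0, y0, mul_zero, sub_zero])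
    exact ⟨_, _, s', m + 1, n, is, ial.congr rfl rfl (by ring), h1, h2⟩

end Crest.Agent.R169
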