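import Crest.Agent.R169.Idx

/-!
Abstract index computations for the gain of the Hilbert function (task R169-Num2).
-/

set_option autoImplicit false
set_option linter.unusedSectionVars false

namespace Crest.Agent.R169

open Module

variable (k : Type) [Field k] {A V : Type} [CommRing A] [Algebra k A] [AddCommGroup V]
  [Module k V] [Module A V] [IsScalarTower k A V]

/-- the index of `A`-submodules, as a dimension over `k` -/
noncomputable def ix (P Q : Submodule A V) : ℕ := idx (P.restrictScalars k) (Q.restrictScalars k)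

/-- finiteness of the index -/
def Fx (P Q : Submodule A V) : Prop := FinIdx (P.restrictScalars k) (Q.restrictScalars k)

variable {k}

theorem Fx.mono {P Q P' Q' : Submodule A V} (h : Fx k P Q) (hP : P' ≤ P) (hQ : Q ≤ Q') :
    Fx k P' Q' := FinIdx.mono h (fun _ hx => hP hx) (fun _ hx => hQ hx)

theorem ix_mono {P Q P' Q' : Submodule A V} (h : Fx k P Q) (hP : P' ≤ P) (hQ : Q ≤ Q') :
    ix k P' Q' ≤ ix k P Q := idx_mono h (fun _ hx => hP hx) (fun _ hx => hQ hx)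

theorem ix_add {P Q R : Submodule A V} (h1 : Q ≤ P) (h2 : R ≤ Q) (h : Fx k P R) :
    ix k P R = ix k P Q + ix k Q R := idx_add' (fun _ hx => h1 hx) (fun _ hx => h2 hx) h

theorem Fx.trans {P Q R : Submodule A V} (h : Fx k P Q) (h' : Fx k Q R) (h1 : Q ≤ P)
    (h2 : R ≤ Q) : Fx k P R := (idx_add (fun _ hx => h1 hx) (fun _ hx => h2 hx) h h').1

theorem fx_of_le {P Q : Submodule A V} (h : P ≤ Q) : Fx k P Q :=
  finIdx_of_le (fun _ hx => h hx)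

theorem le_of_ix_eq_zero {P Q : Submodule A V} (hf : Fx k P Q) (h : ix k P Q = 0) : P ≤ Q :=
  fun _ hx => le_of_idx_eq_zero hf h hx

theorem fx_of_surj (f : V →ₗ[A] V) {P Q P' Q' : Submodule A V} (hP : ∀ x ∈ P, f x ∈ P')
    (hQ : ∀ x ∈ P, x ∈ Q → f x ∈ Q') (hsurj : ∀ y ∈ P', ∃ x ∈ P, y - f x ∈ Q')
    (hf : Fx k P Q) : Fx k P' Q' :=
  (idx_le_of_surj (f.restrictScalars k) hP hQ hsurj hf).1

theorem fx_of_inj (f : V →ₗ[A] V) {P Q P' Q' : Submodule A V} (hP : ∀ x ∈ P, f x ∈ P')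
    (hQ : ∀ x ∈ P, x ∈ Q → f x ∈ Q') (hinj : ∀ x ∈ P, f x ∈ Q' → x ∈ Q)
    (hf : Fx k P' Q') : Fx k P Q :=
  (idx_le_of_inj (f.restrictScalars k) hP hQ hinj hf).1

theorem ix_eq_of_bij (f : V →ₗ[A] V) {P Q P' Q' : Submodule A V} (hP : ∀ x ∈ P, f x ∈ P')
    (hQ : ∀ x ∈ P, x ∈ Q → f x ∈ Q') (hinj : ∀ x ∈ P, f x ∈ Q' → x ∈ Q)
    (hsurj : ∀ y ∈ P', ∃ x ∈ P, y - f x ∈ Q') (hf : Fx k P' Q') : ix k P Q = ix k P' Q' :=
  le_antisymm (idx_le_of_inj (f.restrictScalars k) hP hQ hinj hf).2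
    (idx_le_of_surj (f.restrictScalars k) hP hQ hsurj (fx_of_inj f hP hQ hinj hf)).2

/-- the multiples of `z` -/
def zm (z : A) (K : Submodule A V) : Submodule A V := K.map (LinearMap.lsmul A V z)

theorem mem_zm {z : A} {K : Submodule A V} {η : V} : η ∈ zm z K ↔ ∃ ξ ∈ K, z • ξ = η := Iff.rfl

theorem smul_mem_zm {z : A} {K : Submodule A V} {ξ : V} (h : ξ ∈ K) : z • ξ ∈ zm z K :=
  ⟨ξ, h, rfl⟩

theorem zm_le (z : A) (K : Submodule A V) : zm z K ≤ K := by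
  rintro _ ⟨ξ, h, rfl⟩
  exact K.smul_mem z h

/-- the `z`-saturation of `B` in `K` -/
def sat (z : A) (K B : Submodule A V) : Submodule A V where
  carrier := {η | η ∈ K ∧ ∃ t : ℕ, z ^ t • η ∈ B}
  add_mem' := by
    rintro a b ⟨ha, s, hs⟩ ⟨hb, t, ht⟩
    refine ⟨K.add_mem ha hb, s + t, ?_⟩
    rw [smul_add]
    refine B.add_mem ?_ ?_
    · rw [pow_add, mul_comm, mul_smul]; exact B.smul_mem _ hs
    · rw [pow_add, mul_smul]; exact B.smul_mem _ ht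
  zero_mem' := ⟨K.zero_mem, 0, by simp⟩
  smul_mem' := by
    rintro c a ⟨ha, s, hs⟩
    exact ⟨K.smul_mem c ha, s, by rw [smul_comm]; exact B.smul_mem c hs⟩

theorem mem_sat {z : A} {K B : Submodule A V} {η : V} :
    η ∈ sat z K B ↔ η ∈ K ∧ ∃ t : ℕ, z ^ t • η ∈ B := Iff.rfl

theorem sat_le (z : A) (K B : Submodule A V) : sat z K B ≤ K := fun _ h => h.1

theorem exists_sat_pow [IsNoetherianRing A] (z : A) {K : Submodule A V} (hK : K.FG)
    (B : Submodule A V) : ∃ t : ℕ, ∀ η ∈ sat z K B, z ^ t • η ∈ B := by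
  have hfg : (sat z K B).FG := hK.of_le (sat_le z K B)
  obtain ⟨s, hs⟩ := hfg
  have h1 : ∀ x ∈ s, ∃ t : ℕ, z ^ t • x ∈ B := fun x hx => by
    have : x ∈ sat z K B := hs ▸ Submodule.subset_span hx
    exact this.2
  choose! t ht using h1
  refine ⟨s.sup t, fun η hη => ?_⟩
  rw [← hs] at hη
  induction hη using Submodule.span_induction with
  | mem x hx =>
    obtain ⟨d, hd⟩ := Nat.exists_eq_add_of_le (Finset.le_sup (f := t) hx)
    rw [hd, pow_add, mul_comm, mul_smul]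
    exact B.smul_mem _ (ht x hx)
  | zero => simp
  | add x y _ _ hx hy => rw [smul_add]; exact B.add_mem hx hy
  | smul c x _ hx => rw [smul_comm]; exact B.smul_mem c hx

/-- kernel and cokernel of `z` on the finite dimensional space `sat / B` -/
theorem core_index [IsNoetherianRing A] (z : A) {K B : Submodule A V} (hK : K.FG) (hB : B ≤ K)
    (hf : Fx k K (B ⊔ zm z K)) :
    Fx k (K ⊓ B.comap (LinearMap.lsmul A V z)) B ∧
      ix k K (B ⊔ zm z K) =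
        ix k K (sat z K B ⊔ zm z K) + ix k (K ⊓ B.comap (LinearMap.lsmul A V z)) B := by
  set S := sat z K B with hS
  set C := K ⊓ B.comap (LinearMap.lsmul A V z) with hC
  have hBS : B ≤ S := fun x hx => ⟨hB hx, 0, by simpa using hx⟩
  have hcl : ∀ η ∈ K, z • η ∈ S → η ∈ S := by
    rintro η hη ⟨-, t, ht⟩
    exact ⟨hη, t + 1, by rwa [pow_succ, mul_smul]⟩
  have hBC : B ≤ C := fun x hx => ⟨hB hx, B.smul_mem z hx⟩
  have hCS : C ≤ S := fun x hx => ⟨hx.1, 1, by simpa using hx.2⟩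
  -- `S / (B + z S)` is `(S + z K) / (B + z K)`
  have a1 : ∀ x ∈ S, (LinearMap.id : V →ₗ[A] V) x ∈ S ⊔ zm z K := fun x hx =>
    Submodule.mem_sup_left hx
  have a2 : ∀ x ∈ S, x ∈ B ⊔ zm z S → (LinearMap.id : V →ₗ[A] V) x ∈ B ⊔ zm z K := fun x _ hx =>
    sup_le_sup_left (Submodule.map_mono (sat_le z K B)) B hx
  have a3 : ∀ x ∈ S, (LinearMap.id : V →ₗ[A] V) x ∈ B ⊔ zm z K → x ∈ B ⊔ zm z S := by
    intro x hx h
    obtain ⟨b, hb, _, ⟨η, hη, rfl⟩, rfl⟩ := Submodule.mem_sup.1 h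
    have h1 : z • η ∈ S := by
      have := S.sub_mem hx (hBS hb)
      simpa using this
    exact Submodule.add_mem_sup hb (smul_mem_zm (hcl η hη h1))
  have a4 : ∀ y ∈ S ⊔ zm z K, ∃ x ∈ S, y - (LinearMap.id : V →ₗ[A] V) x ∈ B ⊔ zm z K := by
    intro y hy
    obtain ⟨s, hs, w, hw, rfl⟩ := Submodule.mem_sup.1 hy
    exact ⟨s, hs, by simpa using Submodule.mem_sup_right hw⟩
  have hSK : S ⊔ zm z K ≤ K := sup_le (sat_le z K B) (zm_le z K)
  have f1 : Fx k (S ⊔ zm z K) (B ⊔ zm z K) := hf.mono hSK le_rfl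
  have f2 : Fx k S (B ⊔ zm z S) := fx_of_inj _ a1 a2 a3 f1
  have e1 := ix_eq_of_bij (k := k) _ a1 a2 a3 a4 f1
  -- `S / B` is finite dimensional
  have f3 : ∀ i : ℕ, Fx k S (B ⊔ zm (z ^ i) S) := by
    intro i
    induction i with
    | zero =>
      refine fx_of_le fun x hx => Submodule.mem_sup_right ⟨x, hx, by simp⟩
    | succ i ih =>
      refine ih.trans ?_ (sup_le hBS (zm_le _ _)) (sup_le_sup_left ?_ _)
      · refine fx_of_surj (LinearMap.lsmul A V (z ^ i)) (fun x hx => ?_) (fun x _ hx => ?_)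
          (fun y hy => ?_) f2
        · exact Submodule.mem_sup_right (smul_mem_zm hx)
        · obtain ⟨b, hb, _, ⟨η, hη, rfl⟩, rfl⟩ := Submodule.mem_sup.1 hx
          rw [map_add]
          refine Submodule.add_mem_sup (B.smul_mem _ hb) ⟨η, hη, ?_⟩
          simp only [LinearMap.lsmul_apply]
          rw [pow_succ, mul_smul]
        · obtain ⟨b, hb, _, ⟨η, hη, rfl⟩, rfl⟩ := Submodule.mem_sup.1 hy
          exact ⟨η, hη, by simpa using Submodule.mem_sup_left hb⟩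
      · rintro _ ⟨η, hη, rfl⟩
        exact ⟨z • η, S.smul_mem z hη, by simp only [LinearMap.lsmul_apply]; rw [pow_succ, mul_smul]⟩
  obtain ⟨t, ht⟩ := exists_sat_pow z hK B
  have f4 : Fx k S B := (f3 t).mono le_rfl (sup_le le_rfl (by
    rintro _ ⟨η, hη, rfl⟩
    exact ht η hη))
  have e2 := ix_add (k := k) hCS hBC f4
  have e3 := ix_add (k := k) (sup_le hBS (zm_le z S)) le_sup_left f4
  have e4 : ix k S C = ix k (B ⊔ zm z S) B := by
    refine ix_eq_of_bij (LinearMap.lsmul A V z) (fun x hx => ?_) (fun x _ hx => hx.2)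
      (fun x hx h => ⟨hx.1, h⟩) (fun y hy => ?_) (f4.mono (sup_le hBS (zm_le z S)) le_rfl)
    · exact Submodule.mem_sup_right (smul_mem_zm hx)
    · obtain ⟨b, hb, _, ⟨η, hη, rfl⟩, rfl⟩ := Submodule.mem_sup.1 hy
      exact ⟨η, hη, by simpa using hb⟩
  have e5 := ix_add (k := k) hSK (sup_le_sup_right hBS _) hf
  exact ⟨f4.mono hCS le_rfl, by omega⟩

/-- the exact comparison formula -/
theorem gain_formula [IsNoetherianRing A] (z : A) (ψ : V →ₗ[A] V) {L L' K K' F F' : Submodule A V}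
    (hL : L' ≤ L) (hK : K' ≤ K) (hfg : K.FG) (hcl : ∀ ξ, z • ξ ∈ K' → ξ ∈ K')
    (h1 : ∀ ξ ∈ L, ψ ξ ∈ K) (h2 : ∀ ξ ∈ L', ψ ξ ∈ K') (hinj : ∀ ξ ∈ L, ψ ξ ∈ K' → ξ ∈ L')
    (hz' : ∀ ξ, z • ξ ∈ F') (hF : ∀ ξ ∈ F, ψ ξ ∈ F')
    (hsurj : K ⊓ F' ≤ (L ⊓ F).map ψ ⊔ K' ⊔ zm z K)
    (hfL : Fx k L (L' ⊔ L ⊓ F)) (hfK : Fx k K (K' ⊔ K ⊓ F')) :
    Fx k (L ⊓ (K' ⊔ zm z K).comap ψ) (L' ⊔ zm z L) ∧
    ix k K (K' ⊔ K ⊓ F') + ix k (L ⊓ (K' ⊔ zm z K).comap ψ) (L' ⊔ L ⊓ F) =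
      ix k K (sat z K (L.map ψ ⊔ K') ⊔ zm z K) +
        ix k (L ⊓ (K' ⊔ zm z K).comap ψ) (L' ⊔ zm z L) + ix k L (L' ⊔ L ⊓ F) := by
  set B := L.map ψ ⊔ K' with hB
  set Ker := L ⊓ (K' ⊔ zm z K).comap ψ with hKer
  set T := K' ⊔ K ⊓ F' with hT
  have hBK : B ≤ K := sup_le (by rintro _ ⟨ξ, h, rfl⟩; exact h1 ξ h) hK
  have hzT : zm z K ≤ T := by
    rintro _ ⟨ξ, h, rfl⟩
    exact Submodule.mem_sup_right ⟨K.smul_mem z h, hz' ξ⟩
  have hT1 : T ≤ (L ⊓ F).map ψ ⊔ K' ⊔ zm z K := sup_le (le_sup_right.trans le_sup_left) hsurj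
  have hTB : T ≤ B ⊔ zm z K :=
    hT1.trans (sup_le_sup_right (sup_le_sup_right (Submodule.map_mono inf_le_left) _) _)
  have hBzK : B ⊔ zm z K ≤ K := sup_le hBK (zm_le z K)
  obtain ⟨f1, e1⟩ := core_index (k := k) z hfg hBK (hfK.mono le_rfl hTB)
  set C := K ⊓ B.comap (LinearMap.lsmul A V z) with hC
  -- `C / B = ((K' + z K) ∩ B) / (K' + z B)`
  have b1 : ∀ x ∈ C, LinearMap.lsmul A V z x ∈ (K' ⊔ zm z K) ⊓ B := fun x hx =>
    ⟨Submodule.mem_sup_right (smul_mem_zm hx.1), hx.2⟩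
  have b2 : ∀ x ∈ C, x ∈ B → LinearMap.lsmul A V z x ∈ K' ⊔ zm z B := fun x _ hx =>
    Submodule.mem_sup_right (smul_mem_zm hx)
  have b3 : ∀ x ∈ C, LinearMap.lsmul A V z x ∈ K' ⊔ zm z B → x ∈ B := by
    intro x _ h
    obtain ⟨a, ha, _, ⟨b, hb, rfl⟩, hab⟩ := Submodule.mem_sup.1 h
    have h3 : x - b ∈ K' := hcl _ (by
      have : z • (x - b) = a := by
        rw [smul_sub]
        simp only [LinearMap.lsmul_apply] at hab
        rw [← hab]; abel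
      rwa [this])
    simpa using B.add_mem (Submodule.mem_sup_right h3) hb
  have b4 : ∀ y ∈ (K' ⊔ zm z K) ⊓ B, ∃ x ∈ C, y - LinearMap.lsmul A V z x ∈ K' ⊔ zm z B := by
    rintro y ⟨hy, hyB⟩
    obtain ⟨a, ha, _, ⟨η, hη, rfl⟩, rfl⟩ := Submodule.mem_sup.1 hy
    refine ⟨η, ⟨hη, ?_⟩, by simpa using Submodule.mem_sup_left ha⟩
    have := B.sub_mem hyB (Submodule.mem_sup_right ha)
    simpa using this
  have f2 := fx_of_surj _ b1 b2 b4 f1
  have e2 := ix_eq_of_bij (k := k) _ b1 b2 b3 b4 f2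
  -- `Ker / (L' + z L)` is the same
  have c1 : ∀ x ∈ Ker, ψ x ∈ (K' ⊔ zm z K) ⊓ B := fun x hx =>
    ⟨hx.2, Submodule.mem_sup_left ⟨x, hx.1, rfl⟩⟩
  have c2 : ∀ x ∈ Ker, x ∈ L' ⊔ zm z L → ψ x ∈ K' ⊔ zm z B := by
    intro x _ hx
    obtain ⟨a, ha, _, ⟨η, hη, rfl⟩, rfl⟩ := Submodule.mem_sup.1 hx
    rw [map_add, LinearMap.lsmul_apply, map_smul]
    exact Submodule.add_mem_sup (h2 a ha) (smul_mem_zm (Submodule.mem_sup_left ⟨η, hη, rfl⟩))
  have c3 : ∀ x ∈ Ker, ψ x ∈ K' ⊔ zm z B → x ∈ L' ⊔ zm z L := by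
    intro x hx h
    obtain ⟨a, ha, _, ⟨b, hb, rfl⟩, hab⟩ := Submodule.mem_sup.1 h
    obtain ⟨_, ⟨l, hl, rfl⟩, a', ha', rfl⟩ := Submodule.mem_sup.1 hb
    have h3 : x - z • l ∈ L' := by
      refine hinj _ (L.sub_mem hx.1 (L.smul_mem z hl)) ?_
      have : ψ (x - z • l) = a + z • a' := by
        rw [map_sub, map_smul, ← hab, LinearMap.lsmul_apply, smul_add]; abel
      rw [this]
      exact K'.add_mem ha (K'.smul_mem z ha')
    simpa using Submodule.add_mem_sup h3 (smul_mem_zm (z := z) hl)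
  have c4 : ∀ y ∈ (K' ⊔ zm z K) ⊓ B, ∃ x ∈ Ker, y - ψ x ∈ K' ⊔ zm z B := by
    rintro y ⟨hy, hyB⟩
    obtain ⟨_, ⟨l, hl, rfl⟩, a, ha, rfl⟩ := Submodule.mem_sup.1 hyB
    refine ⟨l, ⟨hl, ?_⟩, by simpa using Submodule.mem_sup_left ha⟩
    have := (K' ⊔ zm z K).sub_mem hy (Submodule.mem_sup_left ha)
    simpa using this
  have f3 := fx_of_inj _ c1 c2 c3 f2
  have e3 := ix_eq_of_bij (k := k) _ c1 c2 c3 c4 f2
  -- `(B + z K) / T = L / (L ∩ F + Ker)`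
  have e4 : ix k L (L ⊓ F ⊔ Ker) = ix k (B ⊔ zm z K) T := by
    refine ix_eq_of_bij ψ (fun x hx => ?_) (fun x _ hx => ?_) (fun x hx h => ?_) (fun y hy => ?_)
      (hfK.mono hBzK le_rfl)
    · exact Submodule.mem_sup_left (Submodule.mem_sup_left ⟨x, hx, rfl⟩)
    · obtain ⟨a, ha, b, hb, rfl⟩ := Submodule.mem_sup.1 hx
      rw [map_add]
      exact T.add_mem (Submodule.mem_sup_right ⟨h1 a ha.1, hF a ha.2⟩)
        ((sup_le le_sup_left hzT : K' ⊔ zm z K ≤ T) hb.2)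
    · have h3 := hT1 h
      rw [sup_assoc] at h3
      obtain ⟨_, ⟨a, ha, rfl⟩, b, hb, hab⟩ := Submodule.mem_sup.1 h3
      have h4 : x - a ∈ Ker := ⟨L.sub_mem hx ha.1, by
        have : ψ (x - a) = b := by rw [map_sub, ← hab]; abel
        change ψ (x - a) ∈ K' ⊔ zm z K
        rwa [this]⟩
      simpa using Submodule.add_mem_sup ha h4
    · rw [hB, sup_assoc] at hy
      obtain ⟨_, ⟨l, hl, rfl⟩, a, ha, rfl⟩ := Submodule.mem_sup.1 hy
      exact ⟨l, hl, by simpa using (sup_le le_sup_left hzT : K' ⊔ zm z K ≤ T) ha⟩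
  have hL'Ker : L' ≤ Ker := fun x hx => ⟨hL hx, Submodule.mem_sup_left (h2 x hx)⟩
  have hFK : L ⊓ F ⊔ Ker ≤ L := sup_le inf_le_left inf_le_left
  have e5 : ix k Ker (L' ⊔ L ⊓ F) = ix k (L ⊓ F ⊔ Ker) (L' ⊔ L ⊓ F) := by
    refine ix_eq_of_bij LinearMap.id (fun x hx => Submodule.mem_sup_right hx) (fun x _ hx => hx)
      (fun x _ hx => hx) (fun y hy => ?_) (hfL.mono hFK le_rfl)
    obtain ⟨a, ha, b, hb, rfl⟩ := Submodule.mem_sup.1 hy
    exact ⟨b, hb, by simpa using Submodule.mem_sup_right ha⟩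
  have e6 := ix_add (k := k) hFK (sup_le (hL'Ker.trans le_sup_right) le_sup_left) hfL
  have e7 := ix_add (k := k) hBzK hTB hfK
  exact ⟨f3, by omega⟩

/-- splitting the Hilbert function along a sublattice -/
theorem ix_split {L L' F : Submodule A V} (h : L' ≤ L) (hf : Fx k L F) :
    Fx k L (L' ⊔ L ⊓ F) ∧ ix k L F = ix k L (L' ⊔ L ⊓ F) + ix k L' F := by
  have f1 : Fx k L (L ⊓ F) :=
    fx_of_inj LinearMap.id (fun _ hx => hx) (fun _ _ hx => hx.2) (fun _ hx h => ⟨hx, h⟩) hf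
  have e1 : ix k L (L ⊓ F) = ix k L F :=
    ix_eq_of_bij LinearMap.id (fun _ hx => hx) (fun _ _ hx => hx.2) (fun _ hx h => ⟨hx, h⟩)
      (fun y hy => ⟨y, hy, by simp⟩) hf
  have hle : L' ⊔ L ⊓ F ≤ L := sup_le h inf_le_left
  have e2 := ix_add (k := k) hle le_sup_right f1
  have e3 : ix k L' F = ix k (L' ⊔ L ⊓ F) (L ⊓ F) := by
    refine ix_eq_of_bij LinearMap.id (fun x hx => Submodule.mem_sup_left hx)
      (fun x hx hx' => ⟨h hx, hx'⟩) (fun x _ hx => hx.2) (fun y hy => ?_) (f1.mono hle le_rfl)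
    obtain ⟨a, ha, b, hb, rfl⟩ := Submodule.mem_sup.1 hy
    exact ⟨a, ha, by simpa using hb⟩
  exact ⟨f1.mono le_rfl le_sup_right, by omega⟩

end Crest.Agent.R169
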