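import Crest.Agent.R169.Num1
import Crest.Agent.R169.Num2Abs

/-!
The gain in the Hilbert function of the slice in one step.
-/

set_option autoImplicit false
set_option linter.unusedSectionVars false

namespace Crest.Agent.R169

open Module Filter Polynomial

variable {k : Type} [Field k] {m N : ℕ} [Big k m]
variable {O : Type} [CommRing O] [Algebra (A3 k) O] [Module O (VV k m N)]
  [IsScalarTower (A3 k) O (VV k m N)]
variable {cx : Cx k m N O} {L : Submodule (A3 k) (VV k m N)}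
  {H : ℤ → Submodule (A3 k) (VV k m N)} {FS : Finset (Fac m)} {ew : ℕ} {κ : ℤ}

/-- `⌊j² / 4⌋` -/
def tri (j : ℕ) : ℕ := ∑ t ∈ Finset.range (j + 1), t / 2

theorem tri_bounds (j : ℕ) : 4 * tri j ≤ j ^ 2 ∧ j ^ 2 ≤ 4 * tri j + 1 := by
  have key : ∀ j, 4 * tri j + j % 2 = j ^ 2 := by
    intro j
    induction j with
    | zero => simp [tri]
    | succ j ih =>
      have h1 : tri (j + 1) = tri j + (j + 1) / 2 := by
        unfold tri
        rw [Finset.sum_range_succ _ (j + 1)]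
      have h2 : (j + 1) ^ 2 = j ^ 2 + 2 * j + 1 := by ring
      omega
  have := key j
  omega

/-- the Hilbert function of the slice of a layer -/
noncomputable def gg (g : Matrix (Fin N) (Fin N) (LL k)) (L L' : Submodule (A3 k) (VV k m N))
    (n : ℤ) : ℕ := ix k L (L' ⊔ L ⊓ FF g n)

theorem gg_split {g : Matrix (Fin N) (Fin N) (LL k)} (hg : IsUnit g)
    {L L' : Submodule (A3 k) (VV k m N)} (hL : Lat L) (h : L' ≤ L) (n : ℤ) :
    hV g L n = gg g L L' n + hV g L' n := by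
  rw [hV_eq, hV_eq]
  exact (ix_split (k := k) h (hL.finIdx hg n)).2

theorem map_act_z (K : Submodule (A3 k) (VV k m N)) :
    K.map (act (algebraMap (A3 k) O zA)) = zm zA K := by
  ext η
  simp [mem_zm, algebraMap_smul]

theorem n2_FF_anti (g : Matrix (Fin N) (Fin N) (LL k)) {n n' : ℤ} (h : n ≤ n') :
    FF (m := m) g n' ≤ FF g n := Submodule.comap_mono (Fil_anti h)

theorem gain_eq {g : Matrix (Fin N) (Fin N) (LL k)} (hg : IsUnit g)
    (ψ : VV k m N →ₗ[A3 k] VV k m N) {L L' K K' : Submodule (A3 k) (VV k m N)} {n n' : ℤ}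
    (lL : Lat L) (lK : Lat K) (lK' : Lat K') (hL : L' ≤ L) (hK : K' ≤ K)
    (h1 : ∀ ξ ∈ L, ψ ξ ∈ K) (h2 : ∀ ξ ∈ L', ψ ξ ∈ K') (hinj : ∀ ξ ∈ L, ψ ξ ∈ K' → ξ ∈ L')
    (hF : ∀ ξ ∈ FF g n, ψ ξ ∈ FF g n')
    (hsurj : K ⊓ FF g n' ≤ (L ⊓ FF g n).map ψ ⊔ K' ⊔ zm zA K) :
    Fx k (L ⊓ (K' ⊔ zm zA K).comap ψ) (L' ⊔ zm zA L) ∧
    gg g K K' n' + ix k (L ⊓ (K' ⊔ zm zA K).comap ψ) (L' ⊔ L ⊓ FF g n) =
      ix k K (sat zA K (L.map ψ ⊔ K') ⊔ zm zA K) +
        ix k (L ⊓ (K' ⊔ zm zA K).comap ψ) (L' ⊔ zm zA L) + gg g L L' n :=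
  gain_formula zA ψ hL hK lK.fg (fun _ h => lK'.z_closed h) h1 h2 hinj
    (z_smul_mem_FF g n') hF hsurj (ix_split (k := k) hL (lL.finIdx hg n)).1
    (ix_split (k := k) hK (lK.finIdx hg n')).1

theorem zm_le_FF (g : Matrix (Fin N) (Fin N) (LL k)) (L : Submodule (A3 k) (VV k m N)) (n : ℤ) :
    zm zA L ≤ L ⊓ FF g n := by
  rintro _ ⟨ξ, h, rfl⟩
  exact ⟨L.smul_mem _ h, z_smul_mem_FF g n ξ⟩

/-- Lemma A -/
theorem gain_ge {g : Matrix (Fin N) (Fin N) (LL k)} (hg : IsUnit g)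
    (ψ : VV k m N →ₗ[A3 k] VV k m N) {L L' K K' : Submodule (A3 k) (VV k m N)} {n n' : ℤ}
    (lL : Lat L) (lK : Lat K) (lK' : Lat K') (hL : L' ≤ L) (hK : K' ≤ K)
    (h1 : ∀ ξ ∈ L, ψ ξ ∈ K) (h2 : ∀ ξ ∈ L', ψ ξ ∈ K') (hinj : ∀ ξ ∈ L, ψ ξ ∈ K' → ξ ∈ L')
    (hF : ∀ ξ ∈ FF g n, ψ ξ ∈ FF g n')
    (hsurj : K ⊓ FF g n' ≤ (L ⊓ FF g n).map ψ ⊔ K' ⊔ zm zA K) :
    ix k K (sat zA K (L.map ψ ⊔ K') ⊔ zm zA K) + gg g L L' n ≤ gg g K K' n' := by
  obtain ⟨f, e⟩ := gain_eq hg ψ lL lK lK' hL hK h1 h2 hinj hF hsurj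
  have := ix_mono f le_rfl (sup_le_sup_left (zm_le_FF g L n) L')
  omega

/-- the order filtration separates finite dimensional subquotients -/
theorem ix_stable {g : Matrix (Fin N) (Fin N) (LL k)} (hg : IsUnit g)
    {L L' Q : Submodule (A3 k) (VV k m N)} (lL : Lat L) (hL : L' ≤ L)
    (hQ : L' ⊔ zm zA L ≤ Q) (hf : Fx k Q (L' ⊔ zm zA L)) :
    ∀ᶠ n in atTop, ix k Q (L' ⊔ zm zA L) ≤ ix k Q (L' ⊔ L ⊓ FF g n) := by
  set S : ℤ → Submodule (A3 k) (VV k m N) := fun n => Q ⊓ (L' ⊔ L ⊓ FF g n) with hS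
  have hanti : ∀ n n', n ≤ n' → S n' ≤ S n := fun n n' h =>
    inf_le_inf_left _ (sup_le_sup_left (inf_le_inf_left _ (n2_FF_anti g h)) _)
  have hlow : ∀ n, L' ⊔ zm zA L ≤ S n := fun n =>
    le_inf hQ (sup_le_sup_left (zm_le_FF g L n) L')
  have hfin : ∀ n, Fx k (S n) (L' ⊔ zm zA L) := fun n => hf.mono inf_le_left le_rfl
  obtain ⟨c, hc⟩ := eventually_const (fun n => ix k (S n) (L' ⊔ zm zA L))
    (Eventually.of_forall fun n => ix_mono (hfin n) (hanti n (n + 1) (by omega)) le_rfl)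
  obtain ⟨n0, hn0⟩ := eventually_atTop.1 hc
  have hconst : ∀ n, S n0 ≤ S n := by
    intro n
    rcases le_total n n0 with h | h
    · exact hanti _ _ h
    · have e1 := ix_add (k := k) (hanti _ _ h) (hlow n) (hfin n0)
      have e2 := hn0 n h
      have e3 := hn0 n0 le_rfl
      exact le_of_ix_eq_zero ((hfin n0).mono le_rfl (hlow n)) (by omega)
  have hle : S n0 ≤ L' ⊔ zm zA L := fun ξ hξ =>
    lL.sep hg (sup_le hL (zm_le _ _)) (fun _ h => Submodule.mem_sup_right (smul_mem_zm h))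
      fun n => (sup_le_sup_right le_sup_left _ :
        L' ⊔ L ⊓ FF g n ≤ L' ⊔ zm zA L ⊔ L ⊓ FF g n) (hconst n hξ).2
  filter_upwards [eventually_ge_atTop n0] with n hn
  refine (ix_eq_of_bij (k := k) LinearMap.id (fun _ hx => hx) (fun x _ hx => (hlow n hx).2)
    (fun x hx h => hle (hanti _ _ hn ⟨hx, h⟩)) (fun y hy => ⟨y, hy, by simp⟩)
    (hf.mono le_rfl fun x hx => (hlow n hx).2)).le

theorem Sy.mem_FF {t : O} {e : ℤ} (h : Sy cx t e) (n : ℤ) :
    ∀ ξ ∈ FF (m := m) cx.g n, act t ξ ∈ FF cx.g (n + e) := by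
  obtain ⟨S, hS, -⟩ := h
  exact fun ξ hξ => (hS n ξ hξ).1

/-- Lemma A for an invertible element -/
theorem Inv.gain_ge (hF : Filt H FS) {ψ : O} {a e : ℤ} (hψ : Inv cx H FS ψ a e) (i : ℤ) :
    ∀ᶠ n in atTop, ix k (H (i + a)) (sat zA (H (i + a)) ((H i).map (act ψ) ⊔ H (i + a + 1)) ⊔
      zm zA (H (i + a))) + gg cx.g (H i) (H (i + 1)) n ≤
        gg cx.g (H (i + a)) (H (i + a + 1)) (n + e) := by
  filter_upwards [hψ.surj hF i] with n hn
  rw [map_act_z] at hn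
  refine R169.gain_ge cx.hg (act ψ) (hF.lat _) (hF.lat _) (hF.lat _) (hF.anti _) (hF.anti _)
    (hψ.2.1 i) (fun ξ hξ => ?_) (fun ξ hξ h => hψ.inj hF hξ h) (hψ.1.mem_FF n) hn
  have := hψ.2.1 (i + 1) ξ hξ
  rwa [show i + 1 + a = i + a + 1 by ring] at this

/-- Lemma B for an invertible element -/
theorem Inv.gain_le (hF : Filt H FS) {ψ : O} {a e : ℤ} (hψ : Inv cx H FS ψ a e) (i : ℤ) :
    ∀ᶠ n in atTop, gg cx.g (H (i + a)) (H (i + a + 1)) (n + e) ≤
      ix k (H (i + a)) (sat zA (H (i + a)) ((H i).map (act ψ) ⊔ H (i + a + 1)) ⊔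
        zm zA (H (i + a))) + gg cx.g (H i) (H (i + 1)) n := by
  have h2 : ∀ ξ ∈ H (i + 1), act ψ ξ ∈ H (i + a + 1) := fun ξ hξ => by
    have := hψ.2.1 (i + 1) ξ hξ
    rwa [show i + 1 + a = i + a + 1 by ring] at this
  have key : ∀ᶠ n in atTop, _ := (hψ.surj hF i).mono fun n hn => by
    rw [map_act_z] at hn
    exact gain_eq cx.hg (act ψ) (hF.lat _) (hF.lat _) (hF.lat _) (hF.anti _) (hF.anti _)
      (hψ.2.1 i) h2 (fun ξ hξ h => hψ.inj hF hξ h) (hψ.1.mem_FF n) hn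
  obtain ⟨n0, f, -⟩ := key.exists
  have hQ : H (i + 1) ⊔ zm zA (H i) ≤
      H i ⊓ (H (i + a + 1) ⊔ zm zA (H (i + a))).comap (act ψ) := by
    refine sup_le (fun ξ hξ => ⟨hF.anti _ hξ, Submodule.mem_sup_left (h2 ξ hξ)⟩) ?_
    rintro _ ⟨ξ, hξ, rfl⟩
    refine ⟨(H i).smul_mem _ hξ, Submodule.mem_sup_right ⟨act ψ ξ, hψ.2.1 i ξ hξ, ?_⟩⟩
    simp only [LinearMap.lsmul_apply, map_smul]
  filter_upwards [key, ix_stable cx.hg (hF.lat i) (hF.anti i) hQ f] with n h1 h3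
  have := h1.2
  omega

theorem eventually_linear (a : ℤ → ℤ) (l : ℤ) (h : ∀ᶠ n in atTop, a (n + 1) = a n + l) :
    ∃ c, ∀ᶠ n in atTop, a n = l * n + c := by
  obtain ⟨n0, hn0⟩ := eventually_atTop.1 h
  refine ⟨a n0 - l * n0, eventually_atTop.2 ⟨n0, fun n hn => ?_⟩⟩
  induction n, hn using Int.leInduction with
  | base => ring
  | succ n hn ih => rw [hn0 n hn, ih]; ring

theorem NumData.gg_linear (h : NumData cx L H FS ew κ) (i : ℤ) :
    ∃ c, ∀ᶠ n in atTop, (gg cx.g (H i) (H (i + 1)) n : ℤ) = lam cx.g H * n + c := by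
  refine eventually_linear _ _ ?_
  have h1 := ((h.filt.lat i).gLat cx.hg).hasChi ⊤
  have h2 := ((h.filt.lat (i + 1)).gLat cx.hg).hasChi ⊤
  rw [capW_top] at h1 h2
  filter_upwards [h1, h2] with n e1 e2
  have e3 := (h.filt.lat i).hV_succ cx.hg n
  have e4 := (h.filt.lat (i + 1)).hV_succ cx.hg n
  have e5 := gg_split cx.hg (h.filt.lat i) (h.filt.anti i) n
  have e6 := gg_split cx.hg (h.filt.lat i) (h.filt.anti i) (n + 1)
  have e7 := h.lam_eq i
  omega

theorem shift_eventually {p : ℤ → Prop} (h : ∀ᶠ n in atTop, p n) (e : ℤ) :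
    ∀ᶠ n in atTop, p (n + e) := (tendsto_atTop_add_const_right _ e tendsto_id).eventually h

theorem NumData.gain (h : NumData cx L H FS ew κ) :
    ∀ᶠ n in atTop, κ * lam cx.g H * tri cx.j - cx.j * ew * lam cx.g H ≤
      (hV cx.g (H cx.j) n : ℤ) - hV cx.g L n := by
  choose c hc using h.gg_linear
  have hF := h.filt
  set l := lam cx.g H with hl
  have hl0 : 0 ≤ l := h.lam_nonneg
  have step1 : ∀ i, c i - ew * l ≤ c (i + 1) := by
    intro i
    obtain ⟨w, hw⟩ := h.w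
    obtain ⟨n, h1, h2, h3⟩ :=
      ((hw.gain_ge hF i).and ((hc i).and (shift_eventually (hc (i + 1)) ew))).exists
    have h4 : (gg cx.g (H i) (H (i + 1)) n : ℤ) ≤ gg cx.g (H (i + 1)) (H (i + 1 + 1)) (n + ew) := by
      exact_mod_cast le_trans (Nat.le_add_left _ _) h1
    rw [h2, h3] at h4
    linarith
  have step2 : ∀ i, c i + κ * l ≤ c (i + 2) := by
    intro i
    obtain ⟨s, f, s', es, r, hs, hf, hs', hrel⟩ := h.tau
    have b1 := hf.gain_le hF (i + 2)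
    simp only [add_zero] at b1
    obtain ⟨n, h1, h2, h3⟩ :=
      ((hs.gain_ge hF i).and ((hc i).and (shift_eventually (hc (i + 2)) es))).exists
    obtain ⟨n', h4, h5, h6⟩ :=
      (b1.and ((hc (i + 2)).and (shift_eventually (hc (i + 2)) (es + κ)))).exists
    have hsat : sat zA (H (i + 2)) ((H i).map (act s) ⊔ H (i + 2 + 1)) ≤
        sat zA (H (i + 2)) ((H (i + 2)).map (act f) ⊔ H (i + 2 + 1)) := by
      rintro η ⟨hη, t, ht⟩
      refine ⟨hη, r + t, ?_⟩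
      obtain ⟨_, ⟨ξ, hξ, rfl⟩, b, hb, hab⟩ := Submodule.mem_sup.1 ht
      have e1 := hrel i ξ hξ
      rw [show i + 3 = i + 2 + 1 by ring] at e1
      have e2 : (zA : A3 k) ^ (r + t) • η = act f (s' • ξ) +
          ((algebraMap (A3 k) O (zA ^ r) * s - f * s') • ξ + (zA : A3 k) ^ r • b) := by
        rw [pow_add, mul_smul, ← hab, smul_add, sub_smul, mul_smul, mul_smul, algebraMap_smul]
        simp only [act_apply]
        abel
      rw [e2]
      exact Submodule.add_mem_sup ⟨_, hs' i ξ hξ, rfl⟩ ((H _).add_mem e1 ((H _).smul_mem _ hb))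
    have hfin : Fx k (H (i + 2)) (sat zA (H (i + 2)) ((H i).map (act s) ⊔ H (i + 2 + 1)) ⊔
        zm zA (H (i + 2))) := by
      obtain ⟨n0, hn0⟩ := (hs.surj hF i).exists
      rw [map_act_z] at hn0
      refine (ix_split (k := k) bot_le ((hF.lat (i + 2)).finIdx cx.hg (n0 + es))).1.mono le_rfl
        (sup_le bot_le (hn0.trans (sup_le_sup_right (fun x hx => ?_) _)))
      have h7 : (H i ⊓ FF cx.g n0).map (act s) ⊔ H (i + 2 + 1) ≤
          (H i).map (act s) ⊔ H (i + 2 + 1) := sup_le_sup_right (Submodule.map_mono inf_le_left) _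
      refine ⟨?_, 0, by simpa using h7 hx⟩
      refine (sup_le ?_ (hF.anti _) : (H i).map (act s) ⊔ H (i + 2 + 1) ≤ H (i + 2)) (h7 hx)
      rintro _ ⟨ξ, hξ, rfl⟩
      exact hs.2.1 i ξ hξ
    have h7 := ix_mono hfin le_rfl (sup_le_sup_right hsat _)
    have h8 : (gg cx.g (H (i + 2)) (H (i + 2 + 1)) (n' + (es + κ)) : ℤ) +
        gg cx.g (H i) (H (i + 1)) n ≤ gg cx.g (H (i + 2)) (H (i + 2 + 1)) n' +
        gg cx.g (H (i + 2)) (H (i + 2 + 1)) (n + es) := by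
      omega
    rw [h2, h3, h5, h6] at h8
    linarith
  have step3 : ∀ (d : ℕ) (i : ℤ), c i + κ * l * d ≤ c (i + 2 * d) := by
    intro d i
    induction d with
    | zero => simp
    | succ d ih =>
      have := step2 (i + 2 * d)
      push_cast
      rw [show i + 2 * ((d : ℤ) + 1) = i + 2 * d + 2 by ring]
      linarith
  have step4 : ∀ (d : ℕ) (i : ℤ), c i + κ * l * (d / 2 : ℕ) - ew * l ≤ c (i + d) := by
    intro d i
    have h0 : 0 ≤ (ew : ℤ) * l := by positivity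
    have h1 := step3 (d / 2) i
    rcases Nat.even_or_odd' d with ⟨q, hq | hq⟩
    · have h2 : d / 2 = q := by omega
      rw [h2] at h1 ⊢
      rw [hq]
      push_cast
      linarith
    · have h2 : d / 2 = q := by omega
      have h3 := step1 (i + 2 * q)
      rw [h2] at h1 ⊢
      rw [hq]
      push_cast
      rw [← add_assoc]
      linarith
  -- the even layers of `L`
  have step5 : ∀ t : ℕ, t < cx.j → ∀ᶠ n in atTop,
      gg cx.g (L ⊓ H (2 * t)) (L ⊓ H (2 * t + 1)) n ≤ gg cx.g (H (2 * t)) (H (2 * t + 1)) n := by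
    intro t ht
    filter_upwards [h.surj t ht] with n hn
    rw [map_act_z] at hn
    have := gain_ge cx.hg LinearMap.id (n := n) (n' := n) (h.latL.inf (hF.lat (2 * t)))
      (hF.lat (2 * t)) (hF.lat (2 * t + 1)) (inf_le_inf_left L (hF.anti (2 * t))) (hF.anti _)
      (fun _ hx => hx.2) (fun _ hx => hx.2) (fun _ hx hx' => ⟨hx.1, hx'⟩) (fun _ hx => hx)
      (by rwa [Submodule.map_id])
    omega
  have tel1 : ∀ (n : ℤ) (r : ℕ), (hV cx.g (H cx.j) n : ℤ) =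
      ∑ t ∈ Finset.range r, (gg cx.g (H (cx.j + t)) (H (cx.j + t + 1)) n : ℤ) +
        hV cx.g (H (cx.j + r)) n := by
    intro n r
    induction r with
    | zero => simp
    | succ r ih =>
      rw [Finset.sum_range_succ, ih, gg_split cx.hg (hF.lat (cx.j + r)) (hF.anti _) n]
      push_cast
      rw [← add_assoc, add_assoc (cx.j : ℤ)]
  have tel2 : ∀ (n : ℤ) (r : ℕ), r ≤ cx.j → (hV cx.g L n : ℤ) =
      ∑ t ∈ Finset.range r, (gg cx.g (L ⊓ H (2 * t)) (L ⊓ H (2 * t + 1)) n : ℤ) +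
        hV cx.g (L ⊓ H (2 * r)) n := by
    intro n r
    induction r with
    | zero =>
      intro _
      have : L ⊓ H 0 = L := inf_eq_left.2 h.le_H
      simp [this]
    | succ r ih =>
      intro hr
      have e1 : L ⊓ H (2 * r + 1) = L ⊓ H (2 * ((r + 1 : ℕ) : ℤ)) := by
        rw [show (2 * ((r + 1 : ℕ) : ℤ)) = 2 * r + 2 by push_cast; ring]
        exact le_antisymm (le_inf inf_le_left (h.odd r (by omega)))
          (inf_le_inf_left _ (hF.antitone (by omega)))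
      rw [Finset.sum_range_succ, ih (by omega), gg_split cx.hg (h.latL.inf (hF.lat (2 * r)))
        (inf_le_inf_left L (hF.anti (2 * r))) n, ← e1]
      push_cast
      ring
  have hall : ∀ᶠ n in atTop, ∀ t ∈ Finset.range cx.j,
      κ * l * ((cx.j - t) / 2 : ℕ) - ew * l ≤ (gg cx.g (H (cx.j + t)) (H (cx.j + t + 1)) n : ℤ) -
        gg cx.g (L ⊓ H (2 * t)) (L ⊓ H (2 * t + 1)) n := by
    rw [eventually_all_finset]
    intro t ht
    have ht' := Finset.mem_range.1 ht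
    filter_upwards [step5 t ht', hc (2 * t), hc (cx.j + t)] with n h1 h2 h3
    have h4 := step4 (cx.j - t) (2 * t)
    rw [show (2 * t : ℤ) + ((cx.j - t : ℕ) : ℤ) = cx.j + t by push_cast [ht'.le]; ring] at h4
    have h5 : (gg cx.g (L ⊓ H (2 * t)) (L ⊓ H (2 * t + 1)) n : ℤ) ≤
        gg cx.g (H (2 * t)) (H (2 * t + 1)) n := by exact_mod_cast h1
    linarith
  filter_upwards [hall] with n hn
  have h1 := Finset.sum_le_sum hn
  have h2 : L ⊓ H (2 * cx.j) = H (cx.j + cx.j) := by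
    rw [← two_mul]
    exact inf_eq_right.2 h.H_le
  rw [tel1 n cx.j, tel2 n cx.j le_rfl, h2]
  have h3 : tri cx.j = ∑ t ∈ Finset.range cx.j, (cx.j - t) / 2 := by
    unfold tri
    rw [← Finset.sum_range_reflect, Finset.sum_range_succ]
    simp
  rw [Finset.sum_sub_distrib, Finset.sum_sub_distrib, ← Finset.mul_sum] at h1
  simp only [Finset.sum_const, Finset.card_range, nsmul_eq_mul] at h1
  rw [h3]
  push_cast at h1 ⊢
  linarith

end Crest.Agent.R169
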