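import Crest.Agent.R169.InstQ
import Crest.Agent.R169.InstLine
import Crest.Agent.R169.InstTheta
import Crest.Agent.R169.Num2
import Crest.Agent.R169.Build

/-!
The contradiction in large characteristic.
-/

set_option autoImplicit false
set_option linter.unusedSectionVars false
set_option linter.style.haveILetI false

namespace Crest.Agent.R169

open Module Filter Polynomial

theorem slope_nonneg (f : ℤ → ℤ) (δ c : ℤ) (h1 : ∀ᶠ n in atTop, f (n + 1) = f n + δ)
    (h2 : ∀ᶠ n in atTop, c ≤ f n) : 0 ≤ δ := by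
  obtain ⟨n0, hn0⟩ := eventually_atTop.1 (h1.and h2)
  have key : ∀ t : ℕ, f (n0 + t) = f n0 + t * δ := by
    intro t
    induction t with
    | zero => simp
    | succ t ih =>
      have := (hn0 (n0 + t) (by omega)).1
      push_cast
      rw [← add_assoc, this, ih]; ring
  by_contra hδ
  push Not at hδ
  have h3 := (hn0 (n0 + ((f n0 - c).toNat + 1 : ℕ)) (by omega)).2
  rw [key] at h3
  have h4 : f n0 - c ≤ ((f n0 - c).toNat : ℤ) := Int.self_le_toNat _
  have h5 : (0 : ℤ) ≤ ((f n0 - c).toNat : ℤ) := by positivity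
  push_cast at h3
  nlinarith

theorem final_arith (N C j T l1 l2 l3 l4 l5 D : ℤ) (hN : 0 < N) (hC : 0 ≤ C)
    (hj : 100000 + 10 * C ≤ j) (hT : j ^ 2 ≤ 4 * T + 1) (h1 : 0 ≤ l1) (h2 : 0 ≤ l2) (h3 : 0 ≤ l3)
    (h4 : 0 ≤ l4) (h5 : 0 ≤ l5) (u1 : 2 * l1 ≤ N * 2) (u2 : 2 * l2 ≤ N * 122)
    (u3 : 2 * l3 ≤ N * 122) (u4 : 2 * l4 ≤ N * 1) (u5 : 2 * l5 ≤ N * 1)
    (lo : N ≤ 2 * l4 + 2 * l5)
    (hD : (-2 * l1 * T - j * 1 * l1) + (0 * l2 * T - j * 61 * l2) + (0 * l3 * T - j * 61 * l3) +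
      (29 * l4 * T - j * 31 * l4) + (29 * l5 * T - j * 31 * l5) ≤ D)
    (hU : 2 * D ≤ N * (2 * j + 1 + C + C) ^ 2) : False := by
  have hj0 : 0 ≤ j := by omega
  have hT0 : 0 ≤ T := by nlinarith
  have a1 : l1 * T ≤ N * T := mul_le_mul_of_nonneg_right (by omega) hT0
  have a2 : N * T ≤ (2 * l4 + 2 * l5) * T := mul_le_mul_of_nonneg_right lo hT0
  have a3 : j * l1 ≤ j * N := mul_le_mul_of_nonneg_left (by omega) hj0
  have a4 : j * l2 ≤ j * (61 * N) := mul_le_mul_of_nonneg_left (by omega) hj0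
  have a5 : j * l3 ≤ j * (61 * N) := mul_le_mul_of_nonneg_left (by omega) hj0
  have a6 : j * (l4 + l5) ≤ j * N := mul_le_mul_of_nonneg_left (by omega) hj0
  have b1 : N * (25 * T - 14948 * j) ≤ N * (2 * j + 1 + C + C) ^ 2 := by nlinarith
  have b2 : 25 * T - 14948 * j ≤ (2 * j + 1 + C + C) ^ 2 := le_of_mul_le_mul_left b1 hN
  have b3 : j * (100000 + 10 * C) ≤ j * j := mul_le_mul_of_nonneg_left hj hj0
  have b4 : (100000 + 10 * C) * C ≤ j * C := mul_le_mul_of_nonneg_right hj hC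
  nlinarith

variable {k : Type} [Field k] {m N : ℕ} [Big k m]
variable {O : Type} [CommRing O] [Algebra (A3 k) O] [Module O (VV k m N)]
  [IsScalarTower (A3 k) O (VV k m N)]

theorem sdeg_image {la : P m → Fac m} (hla : Function.Injective la) (da : ∀ i, fdeg (la i) = 1) :
    sdeg (Finset.univ.image la) = 4 * m + 2 := by
  rw [sdeg, Finset.sum_image (fun a _ b _ h => hla h)]
  simp [da]

theorem hV_sq_bound {g : Matrix (Fin N) (Fin N) (LL k)} (hg : IsUnit g)
    {L : Submodule (A3 k) (VV k m N)} (hL : Lat L) (C : ℤ)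
    (h : ∀ n, (finrank k (GV g L n) : ℤ) ≤ N * max 0 (n + C)) (n : ℤ) :
    2 * (hV g L n : ℤ) ≤ N * (max 0 (n + C)) ^ 2 := by
  obtain ⟨b, hb⟩ := hL.hV_zero g
  by_cases hn : n ≤ b
  · rw [hb n hn]; positivity
  · have hn' : b ≤ n := by omega
    clear hn
    induction n, hn' using Int.leInduction with
    | base => rw [hb b le_rfl]; positivity
    | succ n hn ih =>
      rw [hL.hV_succ hg n]
      have h1 := h n
      have hN : (0 : ℤ) ≤ N := by positivity
      push_cast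
      rcases le_total 0 (n + C) with hc | hc
      · rw [max_eq_right hc] at h1 ih
        rw [max_eq_right (by omega)]
        nlinarith
      · rw [max_eq_left hc] at h1 ih
        have : (0 : ℤ) ≤ N * max 0 (n + 1 + C) ^ 2 := by positivity
        nlinarith

/-- the tower of five steps -/
theorem tower (cx : Ctx k m N O) (hm : 0 < m) :
    ∃ (L : Submodule (A3 k) (VV k m N)) (l1 l2 l3 l4 l5 : ℤ), Lat L ∧
      (∀ v, mon cx.u v ∈ mult O L) ∧
      (∃ (μ : A3 k) (Q : k[X]), Q ≠ 0 ∧ HomA μ (8 * m + 8) Q ∧ ∀ ξ ∈ L, μ • dV ξ ∈ L) ∧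
      (∀ W, cx.Stb W → DStb W →
        chi (capW (GV cx.g L) W) ≤ chi (capW (GV cx.g (M0 k m N)) W)) ∧
      (0 ≤ l1 ∧ 0 ≤ l2 ∧ 0 ≤ l3 ∧ 0 ≤ l4 ∧ 0 ≤ l5) ∧
      (2 * l1 ≤ N * 2 ∧ 2 * l2 ≤ N * (4 * m + 2) ∧ 2 * l3 ≤ N * (4 * m + 2) ∧ 2 * l4 ≤ N * 1 ∧
        2 * l5 ≤ N * 1) ∧ (N : ℤ) ≤ 2 * l4 + 2 * l5 ∧
      ∀ᶠ n in atTop, (-2 * l1 * tri cx.j - cx.j * 1 * l1) +
        (0 * l2 * tri cx.j - cx.j * (2 * m + 1) * l2) +
        (0 * l3 * tri cx.j - cx.j * (2 * m + 1) * l3) +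
        ((m - 1) * l4 * tri cx.j - cx.j * (m + 1) * l4) +
        ((m - 1) * l5 * tri cx.j - cx.j * (m + 1) * l5) ≤
        (hV cx.g L n : ℤ) - hV cx.g (M0 k m N) n := by
  have ia : Function.Injective (Fac.a : P m → Fac m) := fun _ _ h => by cases h; rfl
  have ib : Function.Injective (Fac.b : P m → Fac m) := fun _ _ h => by cases h; rfl
  have hE := cx.rel.hE
  obtain ⟨H1, n1, m1, e1, e1', d1⟩ := stepQ cx
  obtain ⟨H2, n2, m2, s2, d2⟩ := stepLine cx.toCx (H1 cx.j) (n1.filt.lat _) _ _ (cx.u .e01)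
    (cx.u .e10) rfl rfl (fun i l => cx.u (.s i l)) Fac.a Fac.b ia ib (fun _ _ h => by cases h)
    (fun _ => rfl) (fun _ => rfl) (by rw [mul_comm]; exact cx.rel.hEE) cx.rel.hs2 cx.rel.hss
    (fun i => by rw [hE]; simp [ff]) (fun i => by rw [hE]; simp [ff]) e1 e1'
    (fun i l => m1 (cx.hup _)) cx.sy_e01 cx.sy_e10 cx.sy_ss (ff k Fac.q) 2
    (fun i => goodAt_ff (f' := Fac.q) (fun h => by cases h)) d1
  have na : ∀ f : Fac m, (∀ i, f ≠ Fac.a i) → f ∉ Finset.univ.image (Fac.a : P m → Fac m) := by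
    intro f hf h
    obtain ⟨i, -, rfl⟩ := Finset.mem_image.1 h
    exact hf i rfl
  have nb : ∀ f : Fac m, (∀ i, f ≠ Fac.b i) → f ∉ Finset.univ.image (Fac.b : P m → Fac m) := by
    intro f hf h
    obtain ⟨i, -, rfl⟩ := Finset.mem_image.1 h
    exact hf i rfl
  have hE' : cx.u .e01 - cx.u .e10 = -algebraMap (A3 k) O yA := by rw [← hE]; ring
  obtain ⟨H3, n3, m3, s3, d3⟩ := stepLine cx.toCx (H2 cx.j) (n2.filt.lat _) _ _ (cx.u .e10)
    (cx.u .e01) rfl rfl (fun i l => cx.u (.s l i)) Fac.b Fac.a ib ia (fun _ _ h => by cases h)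
    (fun _ => rfl) (fun _ => rfl) cx.rel.hEE
    (fun i l => by rw [cx.rel.hs2]; push_cast; ring)
    (fun i l i' l' => by rw [cx.rel.hss, mul_comm])
    (fun i => by rw [hE']; simp [ff]; ring) (fun i => by rw [hE']; simp [ff]) (m2 e1') (m2 e1)
    (fun i l => m2 (m1 (cx.hup _))) cx.sy_e10 cx.sy_e01 (fun i l i' l' => cx.sy_ss _ _ _ _) _ _
    (fun i => (goodAt_sA (na (Fac.b i) (fun _ h => by cases h))).mul
      (goodAt_ff (f' := Fac.q) (fun h => by cases h))) d2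
  set μ3 : A3 k := sA k (Finset.univ.image (Fac.b : P m → Fac m)) *
    (sA k (Finset.univ.image (Fac.a : P m → Fac m)) * ff k (Fac.q : Fac m)) with hμ3
  have g3 : GoodAt (Fac.y : Fac m) μ3 (8 * m + 6) := by
    have := (goodAt_sA (k := k) (nb Fac.y (fun _ h => by cases h))).mul
      ((goodAt_sA (k := k) (na Fac.y (fun _ h => by cases h))).mul
      (goodAt_ff (k := k) (f := (Fac.y : Fac m)) (f' := Fac.q) (fun h => by cases h)))
    rw [sdeg_image ia (fun _ => rfl), sdeg_image ib (fun _ => rfl)] at this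
    convert this using 1
    simp [fdeg]; ring
  have ss3 := cx.ss_mem (n3.filt.lat cx.j) (m3 (m2 e1)) (m3 (m2 e1')) (fun i i' l => m3 (s2 i i' l))
    (fun i l l' => s3 l l' i)
  have m03 : mult O (M0 k m N) ≤ mult O (H3 cx.j) := m1.trans (m2.trans m3)
  have d3' : ∀ ξ ∈ H3 cx.j, algebraMap (A3 k) O μ3 • dV ξ ∈ H3 cx.j := fun ξ hξ => by
    rw [algebraMap_smul]; exact d3 ξ hξ
  obtain ⟨H4, n4, m4, t4, o4, h4, ⟨b4, hb4, sb4⟩, d4⟩ := stepTheta cx hm (H3 cx.j) (n3.filt.lat _)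
    m03 (m3 (m2 e1)) (m3 (m2 e1')) ss3 true 0 μ3 _ g3 (by simpa using d3)
  have m4' : mult O (H3 cx.j) ≤ mult O (H4 cx.j) := fun t ht => (m4 t ht).mem_mult _
  have ss4 := fun i l i' l' => m4' (ss3 i l i' l')
  obtain ⟨H5, n5, m5, t5, o5, h5, ⟨b5, hb5, sb5⟩, d5⟩ := stepTheta cx hm (H4 cx.j) (n4.filt.lat _)
    (m03.trans m4') (m4' (m3 (m2 e1))) (m4' (m3 (m2 e1'))) ss4 false 1 μ3 _ g3 (fun ξ hξ => by
      have := h4 _ _ (d4 _ d3' _ ξ hξ)
      rwa [sub_add_cancel, ← mul_smul, ← pow_one (hs cx.u true)] at this)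
  have m5' : mult O (H4 cx.j) ≤ mult O (H5 cx.j) := fun t ht => (m5 t ht).mem_mult _
  have sy : sA k ({Fac.y} : Finset (Fac m)) = yA := by simp [sA, ff]
  have sgc : ∀ J : Fin (4 * m) → Bool, sgn J = sg true ∨ sgn J = sg false := by
    intro J
    refine Finset.prod_induction _ (fun a => a = sg true ∨ a = sg false) ?_ (Or.inl rfl) ?_
    · rintro a b (rfl | rfl) (rfl | rfl) <;> simp [sg]
    · intro i _; cases J i <;> simp
  refine ⟨H5 cx.j, lam cx.g H1, lam cx.g H2, lam cx.g H3, lam cx.g H4, lam cx.g H5,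
    n5.filt.lat _, ?_, ?_, ?_,
    ⟨n1.lam_nonneg, n2.lam_nonneg, n3.lam_nonneg, n4.lam_nonneg, n5.lam_nonneg⟩,
    ⟨?_, ?_, ?_, ?_, ?_⟩, ?_, ?_⟩
  · intro v
    cases v with
    | e01 => rw [mon_e01]; exact m5' (m4' (m3 (m2 e1)))
    | e10 => rw [mon_e10]; exact m5' (m4' (m3 (m2 e1')))
    | ss i l i' l' => rw [mon_ss]; exact m5' (ss4 i l i' l')
    | th J =>
      rw [mon_th]
      rcases sgc J with h | h
      · exact m5' ((t4 J h).mem_mult _)
      · exact (t5 J h).mem_mult _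
    | om J =>
      rw [mon_om]
      rcases sgc J with h | h
      · exact (o5 J (by rw [h]; simp [sg])).mem_mult _
      · exact m5' ((o4 J (by rw [h]; simp [sg])).mem_mult _)
  · obtain ⟨Q, hQ, -, hQ'⟩ := g3
    refine ⟨yA * (yA * μ3), X * (X * Q), by simp [GoodAt.ne_zero hQ'],
      (homA_y.mul (homA_y.mul hQ)).congr (by ring) rfl, fun ξ hξ => ?_⟩
    have k4 : ∀ ξ ∈ H4 cx.j, algebraMap (A3 k) O (yA * μ3) • dV ξ ∈ H4 cx.j := fun ξ hξ => by
      have := n4.filt.kill _ _ (d4 _ d3' _ ξ hξ)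
      rwa [sub_add_cancel, sy, algebraMap_smul, ← mul_smul, ← algebraMap_smul O] at this
    have := n5.filt.kill _ _ (d5 _ k4 _ ξ hξ)
    rwa [sub_add_cancel, sy, algebraMap_smul, ← mul_smul] at this
  · intro W hW hW'
    exact (n5.curve_cmp hW hW').trans ((n4.curve_cmp hW hW').trans ((n3.curve_cmp hW hW').trans
      ((n2.curve_cmp hW hW').trans (n1.curve_cmp hW hW'))))
  · simpa [sdeg, fdeg] using n1.lam_le
  · have := n2.lam_le
    rw [sdeg_image ia (fun _ => rfl)] at this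
    simpa using this
  · have := n3.lam_le
    rw [sdeg_image ib (fun _ => rfl)] at this
    simpa using this
  · simpa [sdeg, fdeg] using n4.lam_le
  · simpa [sdeg, fdeg] using n5.lam_le
  · -- the cross inequality
    let cj : P m → P m → O := fun i l => algebraMap (A3 k) O (YA k m) + ((pc l : ℤ) : O) * cx.u .e01 +
      ((pc i : ℤ) : O) * cx.u .e10 + ((pc i * pc l : ℤ) : O) * algebraMap (A3 k) O xA
    have cjm : ∀ i l, cj i l ∈ mult O (H4 cx.j) := fun i l =>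
      add_mem (add_mem (add_mem (Subalgebra.algebraMap_mem _ _)
        (mul_mem (intCast_mem _ _) (m4' (m3 (m2 e1)))))
        (mul_mem (intCast_mem _ _) (m4' (m3 (m2 e1')))))
        (mul_mem (intCast_mem _ _) (Subalgebra.algebraMap_mem _ _))
    have cjs : ∀ i l, Sy cx.toCx (cj i l) 1 := fun i l =>
      ((homA_Y.sy.add (((sy_intCast _).mul cx.sy_e01).congr rfl (by ring))).add
        (((sy_intCast _).mul cx.sy_e10).congr rfl (by ring))).add
        (((sy_intCast _).mul homA_x.sy).congr rfl (by ring))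
    have evm : ∀ g : Fin (4 * m) → O, (∀ i i', g i * g i' ∈ mult O (H4 cx.j)) →
        ∏ i, g i ∈ mult O (H4 cx.j) := fun g hg =>
      even_prod (fun t _ => t ∈ mult O (H4 cx.j)) (one_mem _) (fun a b _ _ => mul_mem) g (2 * m)
        Finset.univ (by simp; ring) (fun i _ i' _ _ => hg i i')
    have alm : al cx.u ∈ mult O (H4 cx.j) := evm _ fun i i' => ss4 _ _ _ _
    have num : nu cx.u ∈ mult O (H4 cx.j) := evm _ fun i i' => ss4 _ _ _ _
    have t0m : cx.u (.s 0 0) ^ 2 ∈ mult O (H4 cx.j) := by rw [sq]; exact ss4 _ _ _ _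
    have t0s : Sy cx.toCx (cx.u (.s 0 0) ^ 2) 1 := by rw [sq]; exact cx.sy_ss _ _ _ _
    have two : ((2 : ℤ) : k) ≠ 0 := Big.ne (m := m) 2 (by norm_num) (by
      have := cc_pos m; rw [abs_of_pos (by norm_num)]; omega)
    have gab : ∀ i l : P m, GoodAt (Fac.y : Fac m) (ff k (Fac.a i) * ff k (Fac.b l)) 2 :=
      fun i l => (goodAt_ff (f' := Fac.a i) (fun h => by cases h)).mul
        (goodAt_ff (f' := Fac.b l) (fun h => by cases h))
    refine n4.cross n5 (a := hs cx.u true * cx.u (.s 0 0) ^ 2)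
      (b := hs cx.u false * cx.u (.s 0 0) ^ 2) (a' := b5) (b' := b4)
      (t := al cx.u * (∏ i : Fin (4 * m), cj (em i) 0) * cj 0 0) (e := 2 * m + 1)
      (e' := 2 * m + 4 * m + 1)
      (σ := ((2 : ℤ) : A3 k) * (∏ i : Fin (4 * m), (ff k (Fac.a (em i)) * ff k (Fac.b (0 : P m)))) *
        (ff k (Fac.a (0 : P m)) * ff k (Fac.b (0 : P m))))
      hb5 hb4 sb5 sb4 (by simpa using h5.mul (m5 _ t0m))
      (m5 _ (mul_mem (add_mem alm (mul_mem (intCast_mem _ _) num)) t0m))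
      (m5 _ (mul_mem (mul_mem alm (prod_mem fun i _ => cjm _ _)) (cjm _ _)))
      ((cx.sy_hs _).mul t0s) ((cx.sy_hs _).mul t0s)
      (((cx.sy_al.mul (Sy.prod _ fun i _ => cjs _ _)).mul (cjs _ _)).congr rfl (by simp)) ?_ ?_
    · have := ((goodAt_intCast (Fac.y : Fac m) two).mul
        (GoodAt.prod Finset.univ fun (i : Fin (4 * m)) _ => gab (em i) 0)).mul (gab 0 0)
      convert this using 1
      simp; ring
    · have hc : ∀ i l, algebraMap (A3 k) O (ff k (Fac.a i) * ff k (Fac.b l)) =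
          cx.u (.s i l) ^ 2 * cj i l := fun i l => (cx.s_sq_conj i l).symm
      rw [map_mul, map_mul, map_prod, map_intCast]
      simp only [hc, Finset.prod_mul_distrib, Finset.prod_pow]
      simp only [hs, sg, al, if_true, Bool.false_eq_true, if_false]
      push_cast
      ring
  · filter_upwards [n1.gain, n2.gain, n3.gain, n4.gain, n5.gain] with n a1 a2 a3 a4 a5
    push_cast at a1 a2 a3 a4 a5 ⊢
    linarith

theorem core (N : ℕ) (hN : 0 < N) : ∃ M : ℕ, ∀ (p : ℕ) (k : Type) [Field k] [CharP k p]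
    [IsAlgClosed k], p.Prime → M < p → NoRep 30 N k := by
  refine ⟨(4 * cc 30).toNat + 2 * (100000 + 10 * cC N 248) + 3, ?_⟩
  intro p k _ _ _ hp hM U hU
  haveI : Fact p.Prime := ⟨hp⟩
  haveI : Big k 30 := ⟨fun n hn hle h0 => by
    have h1 := (CharP.intCast_eq_zero_iff k p n).1 h0
    have h2 := Int.le_of_dvd (abs_pos.2 hn) ((dvd_abs _ _).2 h1)
    have h3 : 4 * cc 30 ≤ ((4 * cc 30).toNat : ℤ) := Int.self_le_toNat _
    omega⟩
  obtain ⟨j, hj⟩ : ∃ j, p = 2 * j + 1 := hp.odd_of_ne_two (by omega)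
  obtain ⟨O, _, _, _, _, cx, g, T, hp', hj', hg, hg', hΦ, hwin⟩ := build hN p j hp hj U hU
  obtain ⟨L, l1, l2, l3, l4, l5, hL, hmon, ⟨μ, Q, hQ, hμ, hd⟩, hcmp, ⟨p1, p2, p3, p4, p5⟩,
    ⟨u1, u2, u3, u4, u5⟩, lo, hgain⟩ := tower cx (by norm_num)
  obtain ⟨S, hS, hST⟩ := cx.exists_symb
  have hF : GV cx.g (M0 k 30 N) = FG p (Gr (tw g)) := by
    rw [GV, map_M0, hg', Gr_frob]
  have gL := hL.gLat cx.hg
  have gF := (lat_M0 (k := k) (m := 30) (N := N)).gLat cx.hg
  have hrk : finrank (RatFunc k) (⊤ : Submodule (RatFunc k) (WW k N)) = N := by simp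
  have cL := gL.hasChi ⊤
  have cF := gF.hasChi ⊤
  rw [capW_top, hrk] at cL cF
  have he : chi (GV cx.g (M0 k 30 N)) ≤ chi (GV cx.g L) := by
    have := slope_nonneg (fun n => (hV cx.g L n : ℤ) - hV cx.g (M0 k 30 N) n)
      (chi (GV cx.g L) - chi (GV cx.g (M0 k 30 N))) _ (by
        filter_upwards [cL, cF] with n a1 a2
        rw [hL.hV_succ cx.hg, lat_M0.hV_succ cx.hg]
        push_cast
        linarith) hgain
    linarith
  have bound := curve_bound p T (Gr (tw g)) (GV cx.g L) ((sLat_tw g).gLat hg) (hF ▸ gF) gL hwin 248 S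
    (fun v n x hx => by
      obtain ⟨ξ, h1, h2, rfl⟩ := mem_GV.1 hx
      have h3 := hS v n ξ h2
      refine gL.monotone (show n + gdeg v ≤ n + (248 : ℕ) from ?_)
        (mem_GV.2 ⟨_, hmon v ξ h1, h3.1, h3.2⟩)
      have : gdeg v ≤ 248 := by cases v <;> simp [gdeg]
      omega)
    (fun W hW => hΦ ▸ hST W hW)
    (algebraMap k[X] (RatFunc k) Q)
    (fun h0 => hQ (RatFunc.algebraMap_injective k (by rw [h0, map_zero])))
    (fun n x hx => by
      obtain ⟨ξ, h1, h2, rfl⟩ := mem_GV.1 hx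
      have h3 := cx.symb_d n ξ h2
      have h4 := hμ.hasSymb cx.g _ _ h3.1
      refine gL.monotone (show n + -1 + (8 * (30 : ℕ) + 8) ≤ n + (248 : ℕ) by push_cast; omega)
        (mem_GV.2 ⟨_, hd ξ h1, h4.1, ?_⟩)
      rw [h4.2, h3.2])
    (fun W hW hW' => hF ▸ hcmp W ((cx.hStb W).2 (hΦ ▸ hW)) hW') (hF ▸ he)
  have hsq := hV_sq_bound cx.hg hL (cC N 248) (fun n => (bound n).1) (p + cC N 248)
  have hup : ∀ n, (p : ℤ) + cC N 248 ≤ n →
      (hV cx.g L n : ℤ) - hV cx.g (M0 k 30 N) n ≤ hV cx.g L (p + cC N 248) := by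
    intro n hn
    induction n, hn using Int.leInduction with
    | base => have : (0 : ℤ) ≤ hV cx.g (M0 k 30 N) (p + cC N 248) := by positivity
              linarith
    | succ n hn ih =>
      rw [hL.hV_succ cx.hg, lat_M0.hV_succ cx.hg]
      have a1 := (bound n).2 hn
      have a2 := tw_chi_le cx.hg n
      rw [← map_M0 (m := 30), ← GV, hF] at a2
      rw [hF]
      push_cast
      linarith
  obtain ⟨n, a1, a2⟩ := (hgain.and (eventually_ge_atTop ((p : ℤ) + cC N 248))).exists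
  have a3 := hup n a2
  rw [max_eq_right (by positivity)] at hsq
  have ht := (tri_bounds cx.j).2
  rw [hj'] at a1 ht
  refine final_arith N (cC N 248) j (tri j) l1 l2 l3 l4 l5 (hV cx.g L (p + cC N 248))
    (by exact_mod_cast hN) (by positivity) (by omega) (by exact_mod_cast ht) p1 p2 p3 p4 p5 u1
    (by simpa using u2) (by simpa using u3) u4 u5 lo ?_ ?_
  · push_cast at a1
    linarith
  · have : (p : ℤ) = 2 * j + 1 := by exact_mod_cast hj
    rw [← this]; exact hsq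

end Crest.Agent.R169
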