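import Crest.Agent.R169.Sh

/-!
Numerical consequences of a step on the projective line.
-/

set_option autoImplicit false
set_option linter.unusedSectionVars false
set_option linter.style.haveILetI false

namespace Crest.Agent.R169

open Module Filter Polynomial

variable {k : Type} [Field k] {m N : ℕ} [Big k m]
variable {O : Type} [CommRing O] [Algebra (A3 k) O] [Module O (VV k m N)]
  [IsScalarTower (A3 k) O (VV k m N)]
variable {cx : Cx k m N O} {L : Submodule (A3 k) (VV k m N)}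
  {H : ℤ → Submodule (A3 k) (VV k m N)} {FS : Finset (Fac m)} {ew : ℕ} {κ : ℤ}

/-- the affine part of the graded module of a lattice -/
noncomputable abbrev AV (g : Matrix (Fin N) (Fin N) (LL k)) (L : Submodule (A3 k) (VV k m N)) :
    Submodule k (WW k N) := Aff (GV g L)

section Basic
variable {g : Matrix (Fin N) (Fin N) (LL k)} {K K' L' : Submodule (A3 k) (VV k m N)}

theorem GV_mono (h : L ≤ K) (n : ℤ) : GV g L n ≤ GV g K n :=
  Gr_mono (Submodule.map_mono (f := piV g) h) n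

theorem AV_mono (h : L ≤ K) : AV g L ≤ AV g K := iSup_mono fun n => GV_mono h n

theorem Lat.mem_AV (hL : Lat L) (hg : IsUnit g) {v : WW k N} :
    v ∈ AV g L ↔ ∃ n, ∃ ξ ∈ L, ξ ∈ FF g n ∧ cV g n ξ = v := by
  rw [mem_Aff (hL.gLat hg).mono]; simp only [mem_GV]

theorem mem_AV_of {n : ℤ} {ξ : VV k m N} (h1 : ξ ∈ L) (h2 : ξ ∈ FF g n) : cV g n ξ ∈ AV g L :=
  le_Aff _ n (mem_GV.2 ⟨ξ, h1, h2, rfl⟩)

theorem Lat.smul_AV (hL : Lat L) (hg : IsUnit g) (P : k[X]) {v : WW k N} (hv : v ∈ AV g L) :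
    algebraMap k[X] (RatFunc k) P • v ∈ AV g L := by
  obtain ⟨n, hn⟩ := (mem_Aff (hL.gLat hg).mono).1 hv
  exact le_Aff _ _ ((hL.gLat hg).smul_poly P _ le_rfl n v hn)

theorem HasSymb.mem_GV {T : VV k m N → VV k m N} {e : ℤ} {S : WW k N → WW k N}
    (hS : HasSymb g T e S) (hT : ∀ ξ ∈ L, T ξ ∈ K) {n : ℤ} {v : WW k N} (hv : v ∈ GV g L n) :
    S v ∈ GV g K (n + e) := by
  obtain ⟨ξ, h1, h2, rfl⟩ := R169.mem_GV.1 hv
  exact R169.mem_GV.2 ⟨_, hT ξ h1, (hS n ξ h2).1, (hS n ξ h2).2⟩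

theorem HasSymb.mem_AV {T : VV k m N → VV k m N} {e : ℤ} {S : WW k N → WW k N}
    (hS : HasSymb g T e S) (hL : Lat L) (hg : IsUnit g) (hT : ∀ ξ ∈ L, T ξ ∈ K) {v : WW k N}
    (hv : v ∈ AV g L) : S v ∈ AV g K := by
  obtain ⟨n, hn⟩ := (mem_Aff (hL.gLat hg).mono).1 hv
  exact le_Aff _ _ (hS.mem_GV hT hn)

theorem FT_ne_zero (FS : Finset (Fac m)) : ∏ f ∈ FS, ft k f ≠ 0 :=
  Finset.prod_ne_zero_iff.2 fun f _ => ft_ne_zero f

theorem FT_natDegree (FS : Finset (Fac m)) : (∏ f ∈ FS, ft k f).natDegree = sdeg FS := by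
  rw [natDegree_prod _ _ fun f _ => ft_ne_zero f, sdeg]
  exact Finset.sum_congr rfl fun f _ => natDegree_ft f

theorem kill_GV (hk : ∀ ξ ∈ L, sA k FS • ξ ∈ L') : ∀ n, ∀ v ∈ GV g L n,
    algebraMap k[X] (RatFunc k) (∏ f ∈ FS, ft k f) • v ∈
      GV g L' (n + (∏ f ∈ FS, ft k f).natDegree) := by
  intro n v hv
  rw [FT_natDegree]
  exact ((homA_sA FS).hasSymb g).mem_GV hk hv

theorem bezout_mem (U : Submodule k (WW k N))
    (hU : ∀ P : k[X], ∀ v ∈ U, algebraMap k[X] (RatFunc k) P • v ∈ U) {v : WW k N}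
    (h1 : ∀ f ∈ FS, ∃ P, IsCoprime P (ft k f) ∧ algebraMap k[X] (RatFunc k) P • v ∈ U)
    (h2 : algebraMap k[X] (RatFunc k) (∏ f ∈ FS, ft k f) • v ∈ U) : v ∈ U := by
  classical
  induction FS using Finset.induction_on with
  | empty => simpa using h2
  | insert f T hf ih =>
    refine ih (fun f' hf' => h1 f' (Finset.mem_insert_of_mem hf')) ?_
    obtain ⟨P, ⟨a, b, hab⟩, hP⟩ := h1 f (Finset.mem_insert_self _ _)
    rw [Finset.prod_insert hf] at h2
    have := U.add_mem (hU (a * ∏ f ∈ T, ft k f) _ hP) (hU b _ h2)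
    rw [smul_smul, smul_smul, ← add_smul, ← map_mul, ← map_mul, ← map_add] at this
    convert this using 3
    linear_combination (-∏ f ∈ T, ft k f) * hab

theorem Lat.chi_sub (hL : Lat L) (hL' : Lat L') (hg : IsUnit g) (hle : L' ≤ L)
    (hk : ∀ ξ ∈ L, sA k FS • ξ ∈ L') (W : Submodule (RatFunc k) (WW k N)) :
    chi (capW (GV g L) W) - chi (capW (GV g L') W) =
      idx (AV g L ⊓ W.restrictScalars k) (AV g L' ⊓ W.restrictScalars k) :=
  (hL.gLat hg).chi_sub (hL'.gLat hg) (GV_mono hle) _ (FT_ne_zero FS) (kill_GV hk) W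

theorem Lat.finIdx_AV (hL : Lat L) (hL' : Lat L') (hg : IsUnit g) (hle : L' ≤ L)
    (hk : ∀ ξ ∈ L, sA k FS • ξ ∈ L') (W : Submodule (RatFunc k) (WW k N)) :
    FinIdx (AV g L ⊓ W.restrictScalars k) (AV g L' ⊓ W.restrictScalars k) :=
  (hL.gLat hg).finIdx_Aff (GV_mono hle) (hL'.gLat hg).mono _ (FT_ne_zero FS) (kill_GV hk) W

theorem FF_anti {n n' : ℤ} (h : n ≤ n') : FF (m := m) g n' ≤ FF g n :=
  Submodule.comap_mono (Fil_anti h)

theorem mem_FF_succ {n : ℤ} {ξ : VV k m N} : ξ ∈ FF g (n + 1) ↔ ξ ∈ FF g n ∧ cV g n ξ = 0 :=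
  mem_Fil_succ

theorem surj_of_aff (hg : IsUnit g) (hL : Lat L) (hL' : Lat L') (hK : Lat K) (hK' : Lat K')
    (hle : L' ≤ L) (hle' : K' ≤ K) (hk : ∀ ξ ∈ L, sA k FS • ξ ∈ L')
    (hk' : ∀ ξ ∈ K, sA k FS • ξ ∈ K') {t : O} {e : ℤ} {S : WW k N →ₗ[RatFunc k] WW k N}
    (hS : HasSymb g (fun ξ : VV k m N => t • ξ) e S) (ht : ∀ ξ ∈ L, t • ξ ∈ K)
    (ht' : ∀ ξ ∈ L', t • ξ ∈ K') (haff : ∀ v ∈ AV g K, ∃ v' ∈ AV g L, v - S v' ∈ AV g K') :
    ∀ᶠ n in atTop, K ⊓ FF g (n + e) ≤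
      (L ⊓ FF g n).map (act t) ⊔ K' ⊔ K.map (act (algebraMap (A3 k) O zA)) := by
  have a1 := (hL.gLat hg).lemmaX_sup (GV_mono hle) (hL'.gLat hg).mono _ (FT_ne_zero FS)
    (kill_GV hk) ⊤
  have a2 := (tendsto_atTop_add_const_right atTop e tendsto_id).eventually
    ((hK.gLat hg).lemmaX_inf (GV_mono hle') (hK'.gLat hg).mono _ (FT_ne_zero FS) (kill_GV hk'))
  have gr : ∀ᶠ n in atTop, ∀ v ∈ GV g K (n + e), ∃ v' ∈ GV g L n, v - S v' ∈ GV g K' (n + e) := by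
    filter_upwards [a1, a2] with n b1 b2 v hv
    obtain ⟨v', h1, h2⟩ := haff v (le_Aff _ _ hv)
    obtain ⟨x, hx, y, hy, rfl⟩ := Submodule.mem_sup.1 (b1 ⟨h1, trivial⟩)
    refine ⟨x, hx.1, b2 ⟨sub_mem hv (hS.mem_GV ht hx.1), ?_⟩⟩
    have := add_mem h2 (hS.mem_AV hL' hg ht' hy.1)
    rwa [map_add, show v - (S x + S y) + S y = v - S x by abel] at this
  obtain ⟨n0, hn0⟩ := eventually_atTop.1 gr
  filter_upwards [eventually_ge_atTop n0] with n hn ξ hξ
  set U := (L ⊓ FF g n).map (act t) ⊔ K' ⊔ K.map (act (algebraMap (A3 k) O zA)) with hU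
  have key : ∀ r : ℕ, ξ ∈ U ⊔ (K ⊓ FF g (n + r + e)) := by
    intro r
    induction r with
    | zero => exact Submodule.mem_sup_right (by simpa using hξ)
    | succ r ih =>
      obtain ⟨x, hx, y, hy, rfl⟩ := Submodule.mem_sup.1 ih
      refine add_mem (Submodule.mem_sup_left hx) ?_
      obtain ⟨v', h1, h2⟩ := hn0 (n + r) (by omega) _ (mem_GV.2 ⟨y, hy.1, hy.2, rfl⟩)
      obtain ⟨ζ, c1, c2, rfl⟩ := mem_GV.1 h1
      obtain ⟨κ', d1, d2, d3⟩ := mem_GV.1 h2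
      have e1 := hS _ ζ c2
      have : y = (t • ζ + κ') + (y - t • ζ - κ') := by abel
      rw [this]
      refine add_mem (Submodule.mem_sup_left (Submodule.mem_sup_left (add_mem
        (Submodule.mem_sup_left ⟨ζ, ⟨c1, FF_anti (by omega) c2⟩, rfl⟩)
        (Submodule.mem_sup_right d1)))) (Submodule.mem_sup_right
          ⟨sub_mem (sub_mem hy.1 (ht ζ c1)) (hle' d1), ?_⟩)
      rw [show n + ((r + 1 : ℕ) : ℤ) + e = n + r + e + 1 by push_cast; ring]
      refine mem_FF_succ.2 ⟨sub_mem (sub_mem hy.2 e1.1) d2, ?_⟩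
      rw [map_sub, map_sub, d3, e1.2, sub_self]
  refine hK.sep hg (S := U) ?_ (fun η hη => Submodule.mem_sup_right ⟨η, hη, by simp⟩) fun n' => ?_
  · refine sup_le (sup_le ?_ hle') ?_
    · rintro _ ⟨η, hη, rfl⟩; exact ht η hη.1
    · rintro _ ⟨η, hη, rfl⟩
      simpa using K.smul_mem zA hη
  · exact sup_le_sup_left (inf_le_inf_left K (FF_anti (by omega))) U (key (n' - n - e).toNat)

end Basic

theorem Filt.kill' (hF : Filt H FS) (i : ℤ) : ∀ ξ ∈ H i, sA k FS • ξ ∈ H (i + 1) :=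
  fun ξ hξ => hF.antitone (by omega) (hF.kill i ξ hξ)

theorem symb_rel (hF : Filt H FS) {σ : A3 k} {e e' : ℤ} {P : k[X]} (hσ : HomA σ (e + e') P)
    {ψ t : O} {S St : WW k N → WW k N} (hS : HasSymb cx.g (fun ξ : VV k m N => ψ • ξ) e S)
    (hSt : HasSymb cx.g (fun ξ : VV k m N => t • ξ) e' St)
    (h : ShH H 1 (algebraMap (A3 k) O σ - ψ * t)) (i : ℤ) {v : WW k N} (hv : v ∈ AV cx.g (H i)) :
    algebraMap k[X] (RatFunc k) P • v - S (St v) ∈ AV cx.g (H (i + 1)) := by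
  obtain ⟨n, ξ, h1, h2, rfl⟩ := ((hF.lat i).mem_AV cx.hg).1 hv
  have a1 := hσ.hasSymb cx.g n ξ h2
  have a2 := hSt n ξ h2
  have a3 := hS _ _ a2.1
  simp only at a1 a2 a3
  rw [show n + e' + e = n + (e + e') by ring] at a3
  have a4 := h i ξ h1
  rw [sub_smul, mul_smul, algebraMap_smul] at a4
  have := mem_AV_of a4 (sub_mem a1.1 a3.1)
  rwa [map_sub, a1.2, a3.2, a2.2] at this

theorem Inv.aff (hF : Filt H FS) {ψ : O} {a e : ℤ} (hψ : Inv cx H FS ψ a e) :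
    ∃ S : WW k N →ₗ[RatFunc k] WW k N, HasSymb cx.g (fun ξ : VV k m N => ψ • ξ) e S ∧
      (∀ W, cx.Stb W → ∀ v ∈ W, S v ∈ W) ∧
      (∀ i, ∀ v ∈ AV cx.g (H i), S v ∈ AV cx.g (H (i + a + 1)) → v ∈ AV cx.g (H (i + 1))) ∧
      ∀ i W, cx.Stb W → ∀ v ∈ AV cx.g (H (i + a)) ⊓ W.restrictScalars k,
        ∃ v' ∈ AV cx.g (H i) ⊓ W.restrictScalars k,
          v - S v' ∈ AV cx.g (H (i + a + 1)) ⊓ W.restrictScalars k := by
  obtain ⟨S, hS, hSW⟩ := hψ.1
  refine ⟨S, hS, hSW, fun i v hv h1 => ?_, fun i W hW v hv => ?_⟩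
  · refine bezout_mem (FS := FS) _ (fun P v hv => (hF.lat _).smul_AV cx.hg P hv) (fun f hf => ?_)
      (((homA_sA FS).hasSymb cx.g).mem_AV (hF.lat i) cx.hg (hF.kill' i) hv)
    obtain ⟨σ, e', t, ⟨P, g1, -, g1'⟩, ⟨St, g2, -⟩, g3, g4⟩ := hψ.2.2 f hf
    refine ⟨P, g1', ?_⟩
    have b1 := symb_rel hF (g1.congr (add_comm _ _) rfl) g2 hS (g4.congr rfl (by ring)) i hv
    have b2 := g2.mem_AV (hF.lat _) cx.hg (g3 _) h1
    rw [show i + a + 1 + -a = i + 1 by ring] at b2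
    simpa using add_mem b1 b2
  · let U : Submodule k (WW k N) :=
      (AV cx.g (H i) ⊓ W.restrictScalars k).map (S.restrictScalars k) ⊔
        (AV cx.g (H (i + a + 1)) ⊓ W.restrictScalars k)
    have : v ∈ U := by
      refine bezout_mem (FS := FS) U (fun P v hv => ?_) (fun f hf => ?_) (Submodule.mem_sup_right
        ⟨((homA_sA FS).hasSymb cx.g).mem_AV (hF.lat _) cx.hg (hF.kill' _) hv.1,
          W.smul_mem _ hv.2⟩)
      · obtain ⟨_, ⟨x, hx, rfl⟩, y, hy, rfl⟩ := Submodule.mem_sup.1 hv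
        rw [smul_add]
        exact add_mem (Submodule.mem_sup_left ⟨_, ⟨(hF.lat _).smul_AV cx.hg P hx.1,
          W.smul_mem _ hx.2⟩, by simp⟩)
          (Submodule.mem_sup_right ⟨(hF.lat _).smul_AV cx.hg P hy.1, W.smul_mem _ hy.2⟩)
      · obtain ⟨σ, e', t, ⟨P, g1, -, g1'⟩, ⟨St, g2, g2'⟩, g3, g4⟩ := hψ.2.2 f hf
        refine ⟨P, g1', ?_⟩
        have b1 := symb_rel hF g1 hS g2 g4 _ hv.1
        have b2 := g2.mem_AV (hF.lat _) cx.hg (g3 _) hv.1
        rw [show i + a + -a = i by ring] at b2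
        have b3 := g2' W hW v hv.2
        have := U.add_mem (Submodule.mem_sup_left ⟨St v, ⟨b2, b3⟩, rfl⟩)
          (Submodule.mem_sup_right ⟨b1, W.sub_mem (W.smul_mem _ hv.2) (hSW W hW _ b3)⟩)
        simpa using this
    obtain ⟨_, ⟨x, hx, rfl⟩, y, hy, rfl⟩ := Submodule.mem_sup.1 this
    exact ⟨x, hx, by simpa using hy⟩

/-- all layers have the same degree, also inside a stable subspace -/
theorem NumData.lamW (h : NumData cx L H FS ew κ) {W : Submodule (RatFunc k) (WW k N)}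
    (hW : cx.Stb W) (i : ℤ) :
    chi (capW (GV cx.g (H i)) W) - chi (capW (GV cx.g (H (i + 1))) W) =
      chi (capW (GV cx.g (H 0)) W) - chi (capW (GV cx.g (H 1)) W) := by
  have hF := h.filt
  obtain ⟨w, hw⟩ := h.w
  obtain ⟨S, hS, hSW, hinj, hsurj⟩ := hw.aff hF
  have step : ∀ i, chi (capW (GV cx.g (H i)) W) - chi (capW (GV cx.g (H (i + 1))) W) =
      chi (capW (GV cx.g (H (i + 1))) W) - chi (capW (GV cx.g (H (i + 1 + 1))) W) := by
    intro i
    rw [(hF.lat _).chi_sub (hF.lat _) cx.hg (hF.anti _) (hF.kill' _),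
      (hF.lat _).chi_sub (hF.lat _) cx.hg (hF.anti _) (hF.kill' _)]
    have hA : ∀ i, ∀ x ∈ AV cx.g (H i) ⊓ W.restrictScalars k,
        S.restrictScalars k x ∈ AV cx.g (H (i + 1)) ⊓ W.restrictScalars k := fun i x hx =>
      ⟨hS.mem_AV (hF.lat _) cx.hg (hw.2.1 i) hx.1, hSW W hW x hx.2⟩
    congr 1
    apply le_antisymm
    · exact (idx_le_of_inj (S.restrictScalars k) (hA i) (fun x _ hx => hA _ x hx)
        (fun x hx h1 => ⟨hinj i x hx.1 h1.1, hx.2⟩)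
        ((hF.lat _).finIdx_AV (hF.lat _) cx.hg (hF.anti _) (hF.kill' _) W)).2
    · exact (idx_le_of_surj (S.restrictScalars k) (hA i) (fun x _ hx => hA _ x hx)
        (fun y hy => hsurj i W hW y hy)
        ((hF.lat _).finIdx_AV (hF.lat _) cx.hg (hF.anti _) (hF.kill' _) W)).2
  induction i using Int.induction_on with
  | zero => simp
  | succ i ih => rw [← step, ih]
  | pred i ih => rw [step, sub_add_cancel, ih]

theorem NumData.lam_eq (h : NumData cx L H FS ew κ) (i : ℤ) :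
    chi (GV cx.g (H i)) - chi (GV cx.g (H (i + 1))) = lam cx.g H := by
  simpa [lam] using h.lamW cx.Stb_top i

theorem NumData.lam_nonneg (h : NumData cx L H FS ew κ) : 0 ≤ lam cx.g H := by
  have hF := h.filt
  have := (hF.lat 0).chi_sub (hF.lat (0 + 1)) cx.hg (hF.anti _) (hF.kill' _) ⊤
  rw [capW_top, capW_top, h.lam_eq] at this
  rw [this]; positivity

theorem Lat.hasChi {g : Matrix (Fin N) (Fin N) (LL k)} (hL : Lat L) (hg : IsUnit g) :
    HasChi (GV g L) N (chi (GV g L)) := by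
  simpa using (hL.gLat hg).hasChi ⊤

theorem NumData.lam_le (h : NumData cx L H FS ew κ) : 2 * lam cx.g H ≤ N * sdeg FS := by
  have hF := h.filt
  have a1 := (hF.lat 0).hasChi cx.hg
  have a2 := (tendsto_atTop_add_const_right atTop (sdeg FS : ℤ) tendsto_id).eventually
    ((hF.lat (0 + 2)).hasChi cx.hg)
  obtain ⟨n, b1, b2⟩ := (a1.and a2).exists
  have e1 := h.lam_eq 0
  have e2 := h.lam_eq (0 + 1)
  rw [show (0 : ℤ) + 1 + 1 = 0 + 2 by ring] at e2
  have hc : algebraMap k[X] (RatFunc k) (∏ f ∈ FS, ft k f) ≠ 0 := fun h0 =>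
    FT_ne_zero FS (RatFunc.algebraMap_injective k (by rw [h0, map_zero]))
  haveI := ((hF.lat (0 + 2)).gLat cx.hg).fin (n + sdeg FS)
  have := (idx_le_of_inj ((LinearMap.lsmul (RatFunc k) (WW k N)
    (algebraMap k[X] (RatFunc k) (∏ f ∈ FS, ft k f))).restrictScalars k) (A := GV cx.g (H 0) n)
    (B := ⊥) (A' := GV cx.g (H (0 + 2)) (n + sdeg FS)) (B' := ⊥)
    (fun x hx => ((homA_sA FS).hasSymb cx.g).mem_GV (hF.kill 0) hx)
    (fun x _ hx => by rw [(Submodule.mem_bot k).1 hx]; simp)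
    (fun x _ hx => (smul_eq_zero.1 ((Submodule.mem_bot k).1 hx)).resolve_left hc)
    (finIdx_of_finite _ _)).2
  rw [idx_bot, idx_bot] at this
  simp only [id] at b2
  have : (finrank k (GV cx.g (H 0) n) : ℤ) ≤ finrank k (GV cx.g (H (0 + 2)) (n + sdeg FS)) := by
    exact_mod_cast this
  linarith

theorem NumData.kill_inf (h : NumData cx L H FS ew κ) (i : ℤ) :
    ∀ ξ ∈ L ⊓ H i, sA k FS • ξ ∈ L ⊓ H (i + 1) :=
  fun ξ hξ => ⟨L.smul_mem _ hξ.1, h.filt.kill' i ξ hξ.2⟩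

theorem NumData.aff_full (h : NumData cx L H FS ew κ) {W : Submodule (RatFunc k) (WW k N)}
    (hW : cx.Stb W) (hW' : DStb W) (i : ℕ) (hi : i < cx.j) :
    ∀ v ∈ AV cx.g (H (2 * i)) ⊓ W.restrictScalars k,
      ∃ v' ∈ AV cx.g (L ⊓ H (2 * i)) ⊓ W.restrictScalars k,
        v - v' ∈ AV cx.g (H (2 * i + 1)) ⊓ W.restrictScalars k := by
  intro v hv
  have hF := h.filt
  let U : Submodule k (WW k N) := (AV cx.g (L ⊓ H (2 * i)) ⊓ W.restrictScalars k) ⊔
    (AV cx.g (H (2 * i + 1)) ⊓ W.restrictScalars k)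
  have : v ∈ U := by
    refine bezout_mem (FS := FS) U (fun P v hv => ?_) (fun f hf => ?_) (Submodule.mem_sup_right
      ⟨((homA_sA FS).hasSymb cx.g).mem_AV (hF.lat _) cx.hg (hF.kill' _) hv.1, W.smul_mem _ hv.2⟩)
    · obtain ⟨x, hx, y, hy, rfl⟩ := Submodule.mem_sup.1 hv
      rw [smul_add]
      exact add_mem (Submodule.mem_sup_left ⟨(h.latL.inf (hF.lat _)).smul_AV cx.hg P hx.1,
        W.smul_mem _ hx.2⟩)
        (Submodule.mem_sup_right ⟨(hF.lat _).smul_AV cx.hg P hy.1, W.smul_mem _ hy.2⟩)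
    · obtain ⟨σ, e, T, ⟨P, g1, -, g1'⟩, g2, g3⟩ := h.full i hi f hf
      refine ⟨P, g1', ?_⟩
      obtain ⟨n, ξ, h1, h2, rfl⟩ := ((hF.lat _).mem_AV cx.hg).1 hv.1
      have a1 := g1.hasSymb cx.g n ξ h2
      have a2 := g2 n ξ h2
      have a3 := g3 ξ h1
      simp only at a1
      have a4 : T ξ ∈ H (2 * i) := by
        have := add_mem (hF.anti _ a3.2) ((H _).smul_mem σ h1)
        rwa [sub_add_cancel] at this
      have b1 := mem_AV_of (L := L ⊓ H (2 * i)) ⟨a3.1, a4⟩ a2.1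
      have b2 := mem_AV_of a3.2 (sub_mem a2.1 a1.1)
      have b3 := a2.2 W hW hW' hv.2
      rw [map_sub, a1.2] at b2
      have := U.sub_mem (Submodule.mem_sup_left ⟨b1, b3⟩)
        (Submodule.mem_sup_right ⟨b2, W.sub_mem b3 (W.smul_mem _ hv.2)⟩)
      simpa using this
  obtain ⟨x, hx, y, hy, rfl⟩ := Submodule.mem_sup.1 this
  exact ⟨x, hx, by simpa using hy⟩

theorem NumData.odd_eq (h : NumData cx L H FS ew κ) (i : ℕ) (hi : i < cx.j) :
    L ⊓ H (2 * i + 1) = L ⊓ H (2 * i + 2) :=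
  le_antisymm (le_inf inf_le_left (h.odd i hi))
    (inf_le_inf_left _ (h.filt.antitone (by omega)))

/-- the degree of a stable subspace does not increase -/
theorem NumData.curve_cmp (h : NumData cx L H FS ew κ) {W : Submodule (RatFunc k) (WW k N)}
    (hW : cx.Stb W) (hW' : DStb W) :
    chi (capW (GV cx.g (H cx.j)) W) ≤ chi (capW (GV cx.g L) W) := by
  have hF := h.filt
  set l := chi (capW (GV cx.g (H 0)) W) - chi (capW (GV cx.g (H 1)) W) with hl
  have a1 : ∀ t : ℕ, chi (capW (GV cx.g (H cx.j)) W) - chi (capW (GV cx.g (H (cx.j + t))) W) =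
      t * l := by
    intro t
    induction t with
    | zero => simp
    | succ t ih =>
      have := h.lamW hW (cx.j + t)
      push_cast
      rw [← add_assoc]
      linarith
  have a2 : ∀ t : ℕ, t ≤ cx.j → t * l ≤ chi (capW (GV cx.g (L ⊓ H 0)) W) -
      chi (capW (GV cx.g (L ⊓ H (2 * t))) W) := by
    intro t
    induction t with
    | zero => simp
    | succ t ih =>
      intro ht
      have b1 := ih (by omega)
      have b2 := h.lamW hW (2 * t)
      have b3 := (h.latL.inf (hF.lat _)).chi_sub (h.latL.inf (hF.lat _)) cx.hg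
        (inf_le_inf_left _ (hF.anti (2 * t))) (h.kill_inf _) W
      have b4 := (hF.lat _).chi_sub (hF.lat _) cx.hg (hF.anti (2 * t)) (hF.kill' _) W
      have b5 := (idx_le_of_surj (LinearMap.id : WW k N →ₗ[k] WW k N)
        (A := AV cx.g (L ⊓ H (2 * t)) ⊓ W.restrictScalars k)
        (B := AV cx.g (L ⊓ H (2 * t + 1)) ⊓ W.restrictScalars k)
        (A' := AV cx.g (H (2 * t)) ⊓ W.restrictScalars k)
        (B' := AV cx.g (H (2 * t + 1)) ⊓ W.restrictScalars k)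
        (fun x hx => ⟨AV_mono inf_le_right hx.1, hx.2⟩)
        (fun x _ hx => ⟨AV_mono inf_le_right hx.1, hx.2⟩) (h.aff_full hW hW' t (by omega))
        ((h.latL.inf (hF.lat _)).finIdx_AV (h.latL.inf (hF.lat _)) cx.hg
          (inf_le_inf_left _ (hF.anti (2 * t))) (h.kill_inf _) W)).2
      have b6 : (idx (AV cx.g (H (2 * t)) ⊓ W.restrictScalars k)
          (AV cx.g (H (2 * t + 1)) ⊓ W.restrictScalars k) : ℤ) ≤
          idx (AV cx.g (L ⊓ H (2 * t)) ⊓ W.restrictScalars k)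
            (AV cx.g (L ⊓ H (2 * t + 1)) ⊓ W.restrictScalars k) := by exact_mod_cast b5
      rw [← b3, ← b4, h.odd_eq t (by omega)] at b6
      push_cast
      rw [show (2 * (t + 1) : ℤ) = 2 * t + 2 by ring]
      linarith
  have c1 := a1 cx.j
  have c2 := a2 cx.j le_rfl
  rw [inf_eq_left.2 h.le_H, inf_eq_right.2 h.H_le] at c2
  rw [← two_mul] at c1
  linarith

/-- an invertible element is surjective on the filtered slices of the layers -/
theorem Inv.surj (hF : Filt H FS) {ψ : O} {a e : ℤ} (hψ : Inv cx H FS ψ a e) (i : ℤ) :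
    ∀ᶠ n in atTop, H (i + a) ⊓ FF cx.g (n + e) ≤
      (H i ⊓ FF cx.g n).map (act ψ) ⊔ H (i + a + 1) ⊔ (H (i + a)).map (act (algebraMap (A3 k) O zA)) := by
  obtain ⟨S, hS, -, -, hsurj⟩ := hψ.aff hF
  refine surj_of_aff cx.hg (hF.lat i) (hF.lat (i + 1)) (hF.lat _) (hF.lat _) (hF.anti _)
    (hF.anti _) (hF.kill' _) (hF.kill' _) hS (hψ.2.1 i) (fun ξ hξ => ?_) fun v hv => ?_
  · have := hψ.2.1 _ ξ hξ
    rwa [show i + 1 + a = i + a + 1 by ring] at this
  · obtain ⟨v', h1, h2⟩ := hsurj i ⊤ cx.Stb_top v ⟨hv, trivial⟩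
    exact ⟨v', h1.1, h2.1⟩

/-- the even layers of `L` are full -/
theorem NumData.surj (h : NumData cx L H FS ew κ) (i : ℕ) (hi : i < cx.j) :
    ∀ᶠ n in atTop, H (2 * i) ⊓ FF cx.g n ≤
      (L ⊓ H (2 * i) ⊓ FF cx.g n) ⊔ H (2 * i + 1) ⊔
        (H (2 * i)).map (act (algebraMap (A3 k) O zA)) := by
  have hF := h.filt
  have := surj_of_aff (O := O) cx.hg (h.latL.inf (hF.lat (2 * i))) (h.latL.inf (hF.lat (2 * i + 1)))
    (hF.lat (2 * i)) (hF.lat (2 * i + 1)) (inf_le_inf_left _ (hF.anti _)) (hF.anti _) (h.kill_inf _)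
    (hF.kill' _) (t := 1) (e := 0) (S := LinearMap.id) (fun n ξ hξ => by simpa using hξ)
    (fun ξ hξ => by simpa using hξ.2) (fun ξ hξ => by simpa using hξ.2) (fun v hv => by
      obtain ⟨v', h1, h2⟩ := h.aff_full cx.Stb_top (fun _ _ => trivial) i hi v ⟨hv, trivial⟩
      exact ⟨v', h1.1, h2.1⟩)
  filter_upwards [this] with n hn
  rw [add_zero] at hn
  refine hn.trans (sup_le_sup_right (sup_le_sup_right ?_ _) _)
  rintro _ ⟨ξ, hξ, rfl⟩
  simpa using hξ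

theorem NumData.idx_two (h : NumData cx L H FS ew κ) (i : ℤ) :
    ∀ᶠ n in atTop, (idx (GV cx.g (H i) n) (GV cx.g (H (i + 2)) n) : ℤ) = 2 * lam cx.g H := by
  have hF := h.filt
  filter_upwards [(hF.lat i).hasChi cx.hg, (hF.lat (i + 2)).hasChi cx.hg] with n a1 a2
  haveI := ((hF.lat i).gLat cx.hg).fin n
  have a3 := idx_add_finrank (GV_mono (g := cx.g) (hF.antitone (show i ≤ i + 2 by omega)) n)
  have e1 := h.lam_eq i
  have e2 := h.lam_eq (i + 1)
  rw [show i + 1 + 1 = i + 2 by ring] at e2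
  have a4 : (idx (GV cx.g (H i) n) (GV cx.g (H (i + 2)) n) : ℤ) +
    finrank k (GV cx.g (H (i + 2)) n) = finrank k (GV cx.g (H i) n) := by exact_mod_cast a3
  linarith

/-- the two theta steps together see the whole divisor `y = 0` -/
theorem NumData.cross {H' : ℤ → Submodule (A3 k) (VV k m N)} {FS' : Finset (Fac m)} {ew' : ℕ}
    {κ' : ℤ} (h : NumData cx L H FS ew κ) (h' : NumData cx (H cx.j) H' FS' ew' κ')
    {a b a' b' t : O} {e e' : ℤ} {σ : A3 k} (ha : algebraMap (A3 k) O yA * a' = a)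
    (hb : algebraMap (A3 k) O yA * b' = b) (ha' : ShH H' (-2) a') (hb' : ShH H (-2) b')
    (hb2 : ShH H' 2 b) (ha0 : ShH H' 0 a) (ht : ShH H' 0 t) (sa : Sy cx a e) (sb : Sy cx b e)
    (st : Sy cx t e') (hσ : GoodAt (Fac.y : Fac m) σ (e + e'))
    (hσt : algebraMap (A3 k) O σ = (a + b) * t) :
    (N : ℤ) ≤ 2 * lam cx.g H + 2 * lam cx.g H' := by
  have hF := h.filt
  have hF' := h'.filt
  have hG := (hF'.lat 0).gLat cx.hg
  set G := GV cx.g (H' 0) with hGd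
  let mX : WW k N →ₗ[k] WW k N :=
    (LinearMap.lsmul (RatFunc k) (WW k N) RatFunc.X).restrictScalars k
  have mXi : Function.Injective mX := fun x y hxy =>
    smul_right_injective (WW k N) (RatFunc.X_ne_zero (K := k)) hxy
  let G' : ℤ → Submodule k (WW k N) := fun n => (G (n - 1)).map mX
  have hle : ∀ n, G' n ≤ G n := by
    rintro n _ ⟨x, hx, rfl⟩
    simpa [mX] using hG.smulX _ x hx
  have hmono : ∀ n, G' n ≤ G' (n + 1) := fun n => Submodule.map_mono (hG.monotone (by omega))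
  have lx := hG.lemmaX_inf hle hmono X X_ne_zero (fun n v hv => ⟨v, by simpa using hv, by simp [mX]⟩)
  have XA : ∀ v ∈ Aff G, (RatFunc.X : RatFunc k) • v ∈ Aff G' := fun v hv => by
    obtain ⟨n, hn⟩ := (mem_Aff hG.mono).1 hv
    exact le_Aff G' (n + 1) ⟨v, by simpa using hn, rfl⟩
  have XP : ∀ (P : k[X]), ∀ v ∈ Aff G', algebraMap k[X] (RatFunc k) P • v ∈ Aff G' := by
    intro P v hv
    obtain ⟨n, x, hx, rfl⟩ := (mem_Aff hmono).1 hv
    have := XA _ ((hF'.lat 0).smul_AV cx.hg P (le_Aff _ _ hx))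
    rwa [smul_comm] at this
  have hy : ∀ n, ∀ η ∈ H' 0, (yA : A3 k) • η ∈ FF cx.g n → cV cx.g n ((yA : A3 k) • η) ∈ Aff G' := by
    intro n η h1 h2
    obtain ⟨n', rfl⟩ : ∃ n', n = n' + 1 := ⟨n - 1, by ring⟩
    have h3 := homA_y.mem_FF X_ne_zero cx.g h2
    rw [(homA_y.hasSymb cx.g _ _ h3).2]
    simpa using XA _ (mem_AV_of h1 h3)
  have hb0 : ShH H' 0 b := hb2.mono hF' (by norm_num)
  have hr : ∀ n : ℕ, ∃ r, ShH H' 0 r ∧ Sy cx r (n * e) ∧ (a + b) ^ (n + 1) = b ^ (n + 1) + a * r := by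
    intro n
    induction n with
    | zero => exact ⟨1, shH_one, by simpa using sy_one, by ring⟩
    | succ n ih =>
      obtain ⟨r, r1, r2, r3⟩ := ih
      refine ⟨b ^ (n + 1) + (a + b) * r, ((hb0.pow _).congr (by simp) rfl).add
        (((ha0.add hb0).mul r1).congr (by simp) rfl),
        ((sb.pow _).congr rfl (by simp)).add (((sa.add sb).mul r2).congr rfl (by push_cast; ring)), ?_⟩
      rw [pow_succ, r3]; ring
  obtain ⟨r, r1, r2, r3⟩ := hr cx.j
  obtain ⟨Sb, hSb, -⟩ := sb.pow cx.j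
  obtain ⟨St, hSt, -⟩ := (st.pow (cx.j + 1)).mul sb
  obtain ⟨Sa, hSa, -⟩ := sa.mul (r2.mul (st.pow (cx.j + 1)))
  obtain ⟨P, hP, -, hP'⟩ := hσ
  have bj : ∀ ξ ∈ H' 0, b ^ cx.j • ξ ∈ H cx.j := fun ξ hξ => h'.H_le (by
    have := hb2.pow cx.j _ _ hξ
    rwa [zero_add, mul_comm] at this)
  have ker : ∀ n, ∀ v ∈ GV cx.g (H' (0 + 2)) n, Sb v ∈ GV cx.g (H (cx.j + 2)) (n + cx.j * e) →
      v ∈ Aff G' := by
    intro n v h1 h2
    obtain ⟨ξ, c1, c2, rfl⟩ := mem_GV.1 h1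
    obtain ⟨ζ, d1, d2, d3⟩ := mem_GV.1 h2
    have e0 := (hP.pow (cx.j + 1)).hasSymb cx.g n ξ c2
    have e1 := hSb n ξ c2
    have e2 := hSt _ _ e1.1
    have e3 := hSt _ _ d2
    have e4 := hSa n ξ c2
    simp only at e0 e1 e2 e3 e4
    have q1 : (t ^ (cx.j + 1) * b) • ζ = (yA : A3 k) • t ^ (cx.j + 1) • b' • ζ := by
      rw [← hb, ← algebraMap_smul O]; module
    have q2 : (a * (r * t ^ (cx.j + 1))) • ξ = (yA : A3 k) • a' • (r * t ^ (cx.j + 1)) • ξ := by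
      rw [← ha, ← algebraMap_smul O]; module
    have q3 : σ ^ (cx.j + 1) • ξ = (t ^ (cx.j + 1) * b) • b ^ cx.j • ξ +
        (a * (r * t ^ (cx.j + 1))) • ξ := by
      rw [← algebraMap_smul O, map_pow, hσt, mul_pow, r3]; module
    have f1 : t ^ (cx.j + 1) • b' • ζ ∈ H' 0 := by
      refine ((ht.pow _).congr (by simp) rfl).mem_mult 0 _ (h'.le_H ?_)
      simpa using hb' _ _ d1
    have f2 : a' • (r * t ^ (cx.j + 1)) • ξ ∈ H' 0 := by
      have := ha' _ _ (((r1.mul (ht.pow (cx.j + 1))).congr (by simp) rfl).mem_mult _ _ c1)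
      simpa using this
    have g1 := hy _ _ f1 (q1 ▸ e3.1)
    have g2 := hy _ _ f2 (q2 ▸ e4.1)
    rw [← q1, e3.2, d3, ← e1.2, ← e2.2] at g1
    rw [← q2] at g2
    have i1 : n + cx.j * e + (((cx.j + 1 : ℕ) : ℤ) * e' + e) = n + ((cx.j + 1 : ℕ) : ℤ) * (e + e') := by
      push_cast; ring
    have i2 : n + (e + (cx.j * e + ((cx.j + 1 : ℕ) : ℤ) * e')) = n + ((cx.j + 1 : ℕ) : ℤ) * (e + e') := by
      push_cast; ring
    rw [i1] at g1
    rw [i2] at g2
    have g3 := add_mem g1 g2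
    rw [← map_add, ← q3, e0.2] at g3
    obtain ⟨x, y, hxy⟩ := (hP'.pow_left (m := cx.j + 1))
    have g4 := add_mem (XP x _ g3) (XA _ ((hF'.lat 0).smul_AV cx.hg y
      (AV_mono (hF'.antitone (by omega)) (mem_AV_of c1 c2))))
    rw [smul_smul, smul_smul, ← add_smul, ← RatFunc.algebraMap_X, ← map_mul, ← map_mul, ← map_add,
      mul_comm X y] at g4
    change algebraMap k[X] (RatFunc k) (x * P ^ (cx.j + 1) + y * ft k (Fac.y : Fac m)) • _ ∈ _ at g4
    rwa [hxy, map_one, one_smul] at g4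
  have t1 := (tendsto_atTop_add_const_right atTop (cx.j * e) tendsto_id).eventually
    (h.idx_two cx.j)
  have t2 := (tendsto_atTop_add_const_right atTop (-1) tendsto_id).eventually
    ((hF'.lat 0).hasChi cx.hg)
  obtain ⟨n, ⟨⟨⟨u1, u2⟩, u3⟩, u4⟩, u5⟩ :=
    ((((lx.and t1).and t2).and ((hF'.lat 0).hasChi cx.hg)).and (h'.idx_two 0)).exists
  simp only [id] at u2 u3
  haveI := hG.fin n
  haveI := ((hF.lat cx.j).gLat cx.hg).fin (n + cx.j * e)
  let Ker : Submodule k (WW k N) := GV cx.g (H' (0 + 2)) n ⊓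
    (GV cx.g (H (cx.j + 2)) (n + cx.j * e)).comap (Sb.restrictScalars k)
  have l1 : GV cx.g (H' (0 + 2)) n ≤ G n := GV_mono (hF'.antitone (by omega)) n
  have v1 : idx (G n) (G' n) ≤ idx (G n) Ker := idx_mono (finIdx_of_finite _ _) le_rfl
    fun v hv => u1 ⟨l1 hv.1, ker n v hv.1 hv.2⟩
  have v2 := idx_add' l1 (inf_le_left : Ker ≤ _) (finIdx_of_finite _ _)
  have v3 : idx (GV cx.g (H' (0 + 2)) n) Ker ≤
      idx (GV cx.g (H cx.j) (n + cx.j * e)) (GV cx.g (H (cx.j + 2)) (n + cx.j * e)) :=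
    (idx_le_of_inj (Sb.restrictScalars k) (B := Ker) (fun x hx => hSb.mem_GV bj (l1 hx))
      (fun x _ hx => hx.2) (fun x hx h1 => ⟨hx, h1⟩) (finIdx_of_finite _ _)).2
  have v4 := idx_add_finrank (hle n)
  have v5 : finrank k (G' n) = finrank k (G (n + -1)) :=
    (Submodule.equivMapOfInjective mX mXi _).finrank_eq.symm
  rw [v5] at v4
  zify at v1 v2 v3 v4
  linarith

end Crest.Agent.R169
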