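import Mathlib

/-!
Row 169 (no small Cohen-Macaulay module).  The system of relations.

Geometric meaning: `x0 x1 y0 y1` are coordinates of `P1 x P1`, `X = x0 y0`, `Y = x1 y1`,
`E10 = x1 y0`, `E01 = x0 y1`, `Z = E10 - E01`; `a i ^ 2 = x1 - p i * x0`, `b l ^ 2 = y1 - p l * y0`,
`s i l = a i * b l`, `mu b i ^ 2 = s (i+1) 0 ± s 0 (i+1)`, `w ^ 2 = Z`.
-/

set_option autoImplicit false

namespace Crest.Agent.R169

/-- index set of the branch points -/
abbrev P (m : ℕ) : Type := Fin (4 * m + 2)

/-- the branch values `p i = 1 + i ^ 2` -/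
def pc {m : ℕ} (i : P m) : ℤ := 1 + ((i : ℕ) : ℤ) ^ 2

/-- the indices `1, …, 4 m` used for the square roots `mu` -/
def em {m : ℕ} (i : Fin (4 * m)) : P m := ⟨i + 1, by have := i.2; omega⟩

/-- the constant `c` of the slice `Y = c X` -/
def cc (m : ℕ) : ℤ := (1 + (4 * (m : ℤ) + 1) ^ 2) ^ 2 + 1

/-- sign of a Boolean -/
def sg (b : Bool) : ℤ := if b then 1 else -1

/-- the generators -/
inductive Var (m : ℕ) : Type
  | e01 : Var m
  | e10 : Var m
  | s : P m → P m → Var m
  | mu : Bool → Fin (4 * m) → Var m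
  | w : Var m
  deriving DecidableEq, Fintype

/-- The relations, in a ring that need not be commutative. -/
structure Rel (m : ℕ) {O : Type*} [Ring O] (X Y Z : O) (u : Var m → O) : Prop where
  comm : ∀ v v', u v * u v' = u v' * u v
  hE : u .e10 - u .e01 = Z
  hEE : u .e10 * u .e01 = X * Y
  hss : ∀ i l i' l', u (.s i l) * u (.s i' l') = u (.s i l') * u (.s i' l)
  hs2 : ∀ i l, u (.s i l) ^ 2 =
    Y - ((pc l : ℤ) : O) * u .e10 - ((pc i : ℤ) : O) * u .e01 + ((pc i * pc l : ℤ) : O) * X
  hmu : ∀ b i, u (.mu b i) ^ 2 = u (.s (em i) 0) + ((sg b : ℤ) : O) * u (.s 0 (em i))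
  hmm : ∀ i, u (.mu true i) * u (.mu false i) = (((i : ℕ) + 1 : ℕ) : O) * u .w
  hw : u .w ^ 2 = Z

/-- transfer of the relations between two quotients of one ring -/
theorem Rel.transfer {m : ℕ} {O O₁ O₂ : Type*} [Ring O] [Ring O₁] [Ring O₂] (f : O →+* O₁)
    (g : O →+* O₂) (hfg : ∀ a, f a = 0 → g a = 0) {X Y Z : O} {u : Var m → O}
    (h : Rel m (f X) (f Y) (f Z) (fun v => f (u v))) :
    Rel m (g X) (g Y) (g Z) (fun v => g (u v)) := by
  have key : ∀ a b : O, f a = f b → g a = g b := by
    intro a b hab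
    have := hfg (a - b) (by rw [map_sub, hab, sub_self])
    rwa [map_sub, sub_eq_zero] at this
  refine ⟨fun v v' => ?_, ?_, ?_, fun i l i' l' => ?_, fun i l => ?_, fun b i => ?_, fun i => ?_, ?_⟩
  · simpa using key (u v * u v') (u v' * u v) (by simpa using h.comm v v')
  · simpa using key (u .e10 - u .e01) Z (by simpa using h.hE)
  · simpa using key (u .e10 * u .e01) (X * Y) (by simpa using h.hEE)
  · simpa using key (u (.s i l) * u (.s i' l')) (u (.s i l') * u (.s i' l))
      (by simpa using h.hss i l i' l')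
  · have := key (u (.s i l) ^ 2) (Y - ((pc l : ℤ) : O) * u .e10 - ((pc i : ℤ) : O) * u .e01 +
      ((pc i * pc l : ℤ) : O) * X) (by
        simp only [map_add, map_sub, map_mul, map_pow, map_intCast]; exact h.hs2 i l)
    simpa only [map_add, map_sub, map_mul, map_pow, map_intCast] using this
  · have := key (u (.mu b i) ^ 2) (u (.s (em i) 0) + ((sg b : ℤ) : O) * u (.s 0 (em i))) (by
        simp only [map_add, map_mul, map_pow, map_intCast]; exact h.hmu b i)
    simpa only [map_add, map_mul, map_pow, map_intCast] using this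
  · have := key (u (.mu true i) * u (.mu false i)) ((((i : ℕ) + 1 : ℕ) : O) * u .w) (by
        simp only [map_mul, map_natCast]; exact h.hmm i)
    simpa only [map_mul, map_natCast] using this
  · have := key (u .w ^ 2) Z (by simp only [map_pow]; exact h.hw)
    simpa only [map_pow] using this

theorem Rel.map {m : ℕ} {O O₂ : Type*} [Ring O] [Ring O₂] (g : O →+* O₂) {X Y Z : O}
    {u : Var m → O} (h : Rel m X Y Z u) : Rel m (g X) (g Y) (g Z) (fun v => g (u v)) :=
  Rel.transfer (RingHom.id O) g (fun a ha => by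
    have : a = 0 := ha
    rw [this, map_zero]) h

theorem Rel.of_injective {m : ℕ} {O O₁ : Type*} [Ring O] [Ring O₁] (f : O →+* O₁)
    (hf : Function.Injective f) {X Y Z : O} {u : Var m → O}
    (h : Rel m (f X) (f Y) (f Z) (fun v => f (u v))) : Rel m X Y Z u :=
  Rel.transfer f (RingHom.id O) (fun a ha => hf (by
    change f a = f 0
    rw [ha, map_zero])) h

/-- The main non-existence statement over a field `K`: variables `0 = z`, `1 = x`, `2 = y`;
`X = x`, `Y = c x + z`, `Z = y`. -/
def NoRep (m N : ℕ) (K : Type) [Field K] : Prop :=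
  ∀ u : Var m → Matrix (Fin N) (Fin N) (MvPowerSeries (Fin 3) K),
    ¬ Rel m (Matrix.scalar (Fin N) (MvPowerSeries.X 1 : MvPowerSeries (Fin 3) K))
      (Matrix.scalar (Fin N) (((cc m : ℤ) : MvPowerSeries (Fin 3) K) * MvPowerSeries.X 1 +
        MvPowerSeries.X 0))
      (Matrix.scalar (Fin N) (MvPowerSeries.X 2 : MvPowerSeries (Fin 3) K)) u

end Crest.Agent.R169
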