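import Crest.Agent.R169.Rel

set_option autoImplicit false

namespace Crest.Agent.R169

namespace SepAux

open scoped TensorProduct

/-- an étale point is isolated in its fibre -/
theorem sep_key {D Λ K ι : Type*} [CommRing D] [CommRing Λ] [Field K] [Algebra D Λ] [Algebra D K]
    [Module.Flat D K] (φ : Λ →ₐ[D] K) (T : Finset ι) (x : ι → Λ)
    (hgen : Algebra.adjoin D (x '' (T : Set ι)) = ⊤) (p : ι → Polynomial D)
    (hp : ∀ i ∈ T, Polynomial.aeval (x i) (p i) = 0)
    (hp' : ∀ i ∈ T, Polynomial.aeval (φ (x i)) (p i).derivative ≠ 0) (h : Λ) (hh : φ h = 0) :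
    ∃ g, φ g ≠ 0 ∧ g * h = 0 := by
  let μ : K ⊗[D] Λ →ₐ[D] K := Algebra.TensorProduct.lift (AlgHom.id D K) φ fun _ _ => .all _ _
  let l : Λ →ₐ[D] K ⊗[D] Λ := Algebra.TensorProduct.includeRight
  let r : Λ →ₐ[D] K ⊗[D] Λ := (Algebra.TensorProduct.includeLeft).comp φ
  have hl : ∀ a, μ (l a) = φ a := fun a => by simp [μ, l]
  have hr : ∀ a, μ (r a) = φ a := fun a => by simp [μ, r]
  have hq : ∀ i, ∃ q : K ⊗[D] Λ, i ∈ T → μ q ≠ 0 ∧ q * (l (x i) - r (x i)) = 0 := by
    intro i
    obtain ⟨k, hk⟩ := ((p i).map (algebraMap D (K ⊗[D] Λ))).binomExpansion (r (x i))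
      (l (x i) - r (x i))
    rw [add_sub_cancel, Polynomial.derivative_map] at hk
    simp only [Polynomial.eval_map_algebraMap, Polynomial.aeval_algHom_apply] at hk
    refine ⟨r (Polynomial.aeval (x i) (p i).derivative) + k * (l (x i) - r (x i)), fun hi => ⟨?_, ?_⟩⟩
    · rw [map_add, map_mul, map_sub, hl, hr, hr, sub_self, mul_zero, add_zero,
        ← Polynomial.aeval_algHom_apply]
      exact hp' i hi
    · rw [hp i hi, map_zero, map_zero] at hk
      linear_combination -hk
  choose q hq using hq
  set G := ∏ i ∈ T, q i with hG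
  have hμG : μ G ≠ 0 := by
    rw [hG, map_prod]; exact Finset.prod_ne_zero_iff.mpr fun i hi => (hq i hi).1
  have hkill : ∀ a ∈ Algebra.adjoin D (x '' (T : Set ι)), G * (l a - r a) = 0 := by
    intro a ha
    induction ha using Algebra.adjoin_induction with
    | mem a ha =>
      obtain ⟨i, hi, rfl⟩ := ha
      obtain ⟨c, hc⟩ := Finset.dvd_prod_of_mem q hi
      rw [hG, hc, mul_right_comm, (hq i hi).2, zero_mul]
    | algebraMap d => rw [l.commutes, r.commutes, sub_self, mul_zero]
    | add a b _ _ ha hb => rw [map_add, map_add]; linear_combination ha + hb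
    | mul a b _ _ ha hb => rw [map_mul, map_mul]; linear_combination l a * hb + r b * ha
  have h1 : G * l h = 0 := by
    have := hkill h (hgen ▸ trivial)
    rwa [show r h = 0 by simp [r, hh], sub_zero] at this
  by_contra! hcon
  have hex := Module.Flat.lTensor_exact K (LinearMap.exact_subtype_ker_map (LinearMap.mulRight D h))
  have h2 : ∀ w : K ⊗[D] Λ, (LinearMap.mulRight D h).lTensor K w = w * l h := by
    intro w
    induction w using TensorProduct.induction_on with
    | zero => simp
    | tmul a b => simp [l]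
    | add a b ha hb => rw [map_add, ha, hb, add_mul]
  obtain ⟨w, hw⟩ := (hex G).mp (by rw [h2, h1])
  apply hμG
  rw [← hw]
  clear hw
  induction w using TensorProduct.induction_on with
  | zero => simp
  | tmul a b =>
    have : φ b = 0 := by
      by_contra h0
      exact hcon b h0 b.2
    simp [μ, this]
  | add a b ha hb => rw [map_add, map_add, ha, hb, add_zero]

theorem exists_sep_poly {D Ω : Type*} [CommRing D] [IsDomain D] [CharZero D] [CommRing Ω]
    [Algebra D Ω] (hinj : Function.Injective (algebraMap D Ω)) {y : Ω} (hy : IsAlgebraic D y) :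
    ∃ p : Polynomial D, Polynomial.aeval y p = 0 ∧ Polynomial.aeval y p.derivative ≠ 0 := by
  obtain ⟨p, hp0, hp⟩ := hy
  induction hn : p.natDegree using Nat.strong_induction_on generalizing p with
  | _ n ih =>
    by_cases h : Polynomial.aeval y p.derivative = 0
    · have hd : p.natDegree ≠ 0 := by
        intro h0
        rw [Polynomial.eq_C_of_natDegree_eq_zero h0] at hp hp0
        rw [Polynomial.aeval_C, map_eq_zero_iff _ hinj] at hp
        exact hp0 (by rw [hp, map_zero])
      exact ih _ (hn ▸ Polynomial.natDegree_derivative_lt hd) p.derivative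
        (fun h0 => hd (Polynomial.derivative_eq_zero.mp h0)) h rfl
    · exact ⟨p, hp, h⟩

theorem flat_of_injective {D K : Type*} [CommRing D] [IsDomain D] [Field K] [Algebra D K]
    (hinj : Function.Injective (algebraMap D K)) : Module.Flat D K := by
  have : FaithfulSMul D K := (faithfulSMul_iff_algebraMap_injective D K).mpr hinj
  let _ := FractionRing.liftAlgebra D K
  have := FractionRing.isScalarTower_liftAlgebra D K
  have : Module.Flat D (FractionRing D) := IsLocalization.flat _ (nonZeroDivisors D)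
  exact Module.Flat.trans D (FractionRing D) K

theorem pderiv_eval₂ {D ι : Type*} [CommRing D] [DecidableEq ι] (B : Set ι) {i : ι} (hi : i ∉ B)
    (p : Polynomial (MvPolynomial B D)) :
    MvPolynomial.pderiv i (p.eval₂ (MvPolynomial.rename ((↑) : B → ι)).toRingHom
      (MvPolynomial.X i : MvPolynomial ι D)) =
      p.derivative.eval₂ (MvPolynomial.rename ((↑) : B → ι)).toRingHom (MvPolynomial.X i) := by
  induction p using Polynomial.induction_on' with
  | add p q hp hq => simp only [Polynomial.eval₂_add, map_add, hp, hq]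
  | monomial n c =>
    have h0 : MvPolynomial.pderiv i (MvPolynomial.rename ((↑) : B → ι) c) = 0 := by
      refine MvPolynomial.pderiv_eq_zero_of_notMem_vars fun h => ?_
      obtain ⟨j, -, hj⟩ := Finset.mem_image.mp (MvPolynomial.vars_rename _ _ h)
      exact hi (hj ▸ j.2)
    simp [Polynomial.derivative_monomial, Polynomial.eval₂_monomial, h0, mul_assoc]

instance : IsJacobsonRing ℤ := by
  refine isJacobsonRing_iff_prime_eq.mpr fun P hP => ?_
  by_cases h : P = ⊥
  · subst h
    refine eq_bot_iff.mpr fun x hx => ?_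
    have := Ideal.mem_jacobson_bot.mp hx x
    rcases Int.isUnit_iff.mp this with h | h
    · have : x * x = 0 := by linarith
      simpa using this
    · nlinarith [mul_self_nonneg x]
  · have := hP.isMaximal h
    exact Ideal.jacobson_eq_self_of_isMaximal

end SepAux

open SepAux in
/-- Separating presentation of a point `y` over a domain `D` of characteristic zero. -/
theorem exists_sep {D Ω ι : Type*} [CommRing D] [IsDomain D] [CharZero D] [CommRing Ω] [IsDomain Ω]
    [Algebra D Ω] (hinj : Function.Injective (algebraMap D Ω)) [Finite ι] [DecidableEq ι]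
    (y : ι → Ω) :
    ∃ (T : Finset ι) (f : ι → MvPolynomial ι D),
      (∀ i ∈ T, ∀ j ∈ (f i).vars, j = i ∨ j ∉ T) ∧
      (∀ i ∈ T, MvPolynomial.aeval y (f i) = 0) ∧
      (∀ i ∈ T, MvPolynomial.aeval y (MvPolynomial.pderiv i (f i)) ≠ 0) ∧
      ∀ h : MvPolynomial ι D, MvPolynomial.aeval y h = 0 →
        ∃ g : MvPolynomial ι D, MvPolynomial.aeval y g ≠ 0 ∧
          g * h ∈ Ideal.span (f '' (T : Set ι)) := by
  classical
  obtain ⟨B, hB, hmax⟩ := (Set.toFinite {B : Set ι | AlgebraicIndepOn D y B}).exists_maximal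
    ⟨∅, algebraicIndependent_empty_type_iff.mpr hinj⟩
  have hB' : AlgebraicIndepOn D y B := hB
  let ev : MvPolynomial B D →ₐ[D] Ω := MvPolynomial.aeval fun i : B => y i
  let ρ : MvPolynomial B D →+* MvPolynomial ι D := (MvPolynomial.rename ((↑) : B → ι)).toRingHom
  have hρ : ∀ c, MvPolynomial.aeval y (ρ c) = ev c := fun c => by
    simp [ρ, ev, MvPolynomial.aeval_rename, Function.comp_def]
  have hρ' : (MvPolynomial.aeval y : MvPolynomial ι D →ₐ[D] Ω).toRingHom.comp ρ = ev.toRingHom :=
    RingHom.ext hρ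
  have hev : ∀ (i : ι) (p : Polynomial (MvPolynomial B D)),
      MvPolynomial.aeval y (p.eval₂ ρ (MvPolynomial.X i)) = p.eval₂ ev.toRingHom (y i) := by
    intro i p
    have := Polynomial.hom_eval₂ p ρ (MvPolynomial.aeval y : MvPolynomial ι D →ₐ[D] Ω).toRingHom
      (MvPolynomial.X i)
    rw [hρ'] at this
    simpa using this
  have hp : ∀ i, ∃ p : Polynomial (MvPolynomial B D), i ∉ B →
      p.eval₂ ev.toRingHom (y i) = 0 ∧ p.derivative.eval₂ ev.toRingHom (y i) ≠ 0 := by
    intro i
    by_cases hi : i ∈ B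
    · exact ⟨0, fun h => (h hi).elim⟩
    let _ : Algebra (MvPolynomial B D) Ω := ev.toRingHom.toAlgebra
    have halg : IsAlgebraic (Algebra.adjoin D (Set.range fun i : B => y i)) (y i) := by
      by_contra htr
      rw [← Set.image_eq_range] at htr
      exact hi (hmax (hB'.insert htr) (Set.subset_insert _ _) (Set.mem_insert _ _))
    have halg' : IsAlgebraic (MvPolynomial B D) (y i) :=
      IsAlgebraic.of_ringHom_of_comp_eq (AlgebraicIndependent.aevalEquiv hB') (RingHom.id Ω) halg
        (AlgebraicIndependent.aevalEquiv hB').surjective Function.injective_id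
        (RingHom.ext fun c => AlgebraicIndependent.algebraMap_aevalEquiv hB' c)
    obtain ⟨p, h1, h2⟩ := exists_sep_poly (D := MvPolynomial B D) hB' halg'
    exact ⟨p, fun _ => ⟨h1, h2⟩⟩
  choose p hp using hp
  let T : Finset ι := (Set.toFinite Bᶜ).toFinset
  have hT : ∀ i, i ∈ T ↔ i ∉ B := fun i => by simp [T]
  let f : ι → MvPolynomial ι D := fun i => (p i).eval₂ ρ (MvPolynomial.X i)
  have hf : ∀ i ∈ T, MvPolynomial.aeval y (f i) = 0 := fun i hi => by
    rw [hev]; exact (hp i ((hT i).mp hi)).1
  refine ⟨T, f, fun i hi j hj => ?_, hf, fun i hi => ?_, fun h hh => ?_⟩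
  · have : f i ∈ MvPolynomial.supported D (insert i B) := by
      simp only [f, Polynomial.eval₂_eq_sum, Polynomial.sum_def]
      refine Subalgebra.sum_mem _ fun n _ => Subalgebra.mul_mem _ ?_ (Subalgebra.pow_mem _ ?_ _)
      · refine MvPolynomial.supported_mono (Set.subset_insert _ _) ?_
        rw [MvPolynomial.supported_eq_range_rename]
        exact ⟨_, rfl⟩
      · exact MvPolynomial.X_mem_supported.mpr (Set.mem_insert _ _)
    rcases MvPolynomial.mem_supported.mp this hj with h | h
    · exact Or.inl h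
    · exact Or.inr fun h' => (hT j).mp h' h
  · rw [pderiv_eval₂ B ((hT i).mp hi), hev]
    exact (hp i ((hT i).mp hi)).2
  · let J : Ideal (MvPolynomial ι D) := Ideal.span (f '' (T : Set ι))
    let K := FractionRing Ω
    let θ : MvPolynomial ι D →+* K :=
      (algebraMap Ω K).comp (MvPolynomial.aeval y : MvPolynomial ι D →ₐ[D] Ω).toRingHom
    have hθ : ∀ a, θ a = algebraMap Ω K (MvPolynomial.aeval y a) := fun a => rfl
    have hK : Function.Injective (algebraMap Ω K) := IsFractionRing.injective Ω K
    have hJ : ∀ a ∈ J, θ a = 0 := by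
      intro a ha
      refine (show J ≤ RingHom.ker θ from Ideal.span_le.mpr ?_) ha
      rintro _ ⟨i, hi, rfl⟩
      change θ (f i) = 0
      rw [hθ, hf i hi, map_zero]
    let _ : Algebra (MvPolynomial B D) (MvPolynomial ι D ⧸ J) :=
      ((Ideal.Quotient.mk J).comp ρ).toAlgebra
    let _ : Algebra (MvPolynomial B D) K := (θ.comp ρ).toAlgebra
    have : Module.Flat (MvPolynomial B D) K := flat_of_injective (by
      intro a b hab
      have : algebraMap Ω K (MvPolynomial.aeval y (ρ a)) =
        algebraMap Ω K (MvPolynomial.aeval y (ρ b)) := hab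
      rw [hρ, hρ] at this
      exact hB' (hK this))
    let φ : (MvPolynomial ι D ⧸ J) →ₐ[MvPolynomial B D] K :=
      { Ideal.Quotient.lift J θ hJ with commutes' := fun _ => rfl }
    have hφ : ∀ a, φ (Ideal.Quotient.mk J a) = θ a := fun a => rfl
    obtain ⟨g, hg, hgh⟩ := sep_key φ T (fun i => Ideal.Quotient.mk J (MvPolynomial.X i)) (by
        refine eq_top_iff.mpr fun a _ => ?_
        obtain ⟨a, rfl⟩ := Ideal.Quotient.mk_surjective a
        induction a using MvPolynomial.induction_on with
        | C d =>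
          have : Ideal.Quotient.mk J (MvPolynomial.C d) =
              algebraMap (MvPolynomial B D) _ (MvPolynomial.C d) := by
            change _ = Ideal.Quotient.mk J (ρ (MvPolynomial.C d))
            simp [ρ]
          rw [this]; exact Subalgebra.algebraMap_mem _ _
        | add a b ha hb => rw [map_add]; exact add_mem (ha trivial) (hb trivial)
        | mul_X a i ha =>
          rw [map_mul]
          refine mul_mem (ha trivial) ?_
          by_cases hi : i ∈ B
          · have : Ideal.Quotient.mk J (MvPolynomial.X i) =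
                algebraMap (MvPolynomial B D) _ (MvPolynomial.X (⟨i, hi⟩ : B)) := by
              change _ = Ideal.Quotient.mk J (ρ (MvPolynomial.X (⟨i, hi⟩ : B)))
              simp [ρ]
            rw [this]; exact Subalgebra.algebraMap_mem _ _
          · exact Algebra.subset_adjoin ⟨i, (hT i).mpr hi, rfl⟩) p
      (fun i hi => by
        have := Polynomial.hom_eval₂ (p i) ρ (Ideal.Quotient.mk J) (MvPolynomial.X i)
        refine this.symm.trans ?_
        exact Ideal.Quotient.eq_zero_iff_mem.mpr (Ideal.subset_span ⟨i, hi, rfl⟩))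
      (fun i hi => by
        have := Polynomial.hom_eval₂ (p i).derivative ρ θ (MvPolynomial.X i)
        refine fun h0 => (hp i ((hT i).mp hi)).2 ?_
        rw [← hev]
        exact hK ((this.trans h0).trans (map_zero _).symm))
      (Ideal.Quotient.mk J h) (by rw [hφ, hθ, hh, map_zero])
    obtain ⟨g, rfl⟩ := Ideal.Quotient.mk_surjective g
    refine ⟨g, fun h0 => hg (by rw [hφ, hθ, h0, map_zero]), ?_⟩
    rw [← map_mul] at hgh
    exact Ideal.Quotient.eq_zero_iff_mem.mp hgh

open SepAux in
/-- a finitely generated subring of a field of characteristic zero maps to algebraically closed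
fields of arbitrarily large prime characteristic -/
theorem exists_hom_charP {K : Type} [Field K] [CharZero K] (s : Finset K) (M : ℕ) :
    ∃ (p : ℕ) (k : Type) (_ : Field k) (_ : CharP k p) (_ : IsAlgClosed k),
      p.Prime ∧ M < p ∧ Nonempty (Subring.closure (s : Set K) →+* k) := by
  classical
  let c : K := ((M.factorial : ℕ) : K)⁻¹
  let S : Subalgebra ℤ K := Algebra.adjoin ℤ ((insert c s : Finset K) : Set K)
  have hft : Algebra.FiniteType ℤ S :=
    (Subalgebra.fg_iff_finiteType S).mp ⟨insert c s, rfl⟩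
  obtain ⟨𝔪, h𝔪⟩ := Ideal.exists_maximal S
  let _ : Field (S ⧸ 𝔪) := Ideal.Quotient.field 𝔪
  have hft' : Algebra.FiniteType ℤ (S ⧸ 𝔪) :=
    hft.of_surjective (Ideal.Quotient.mkₐ ℤ 𝔪) (Ideal.Quotient.mkₐ_surjective ℤ 𝔪)
  have hfin : Module.Finite ℤ (S ⧸ 𝔪) := finite_of_finite_type_of_isJacobsonRing ℤ (S ⧸ 𝔪)
  obtain ⟨p, hp⟩ := CharP.exists (S ⧸ 𝔪)
  have hprime : p.Prime := by
    rcases CharP.char_is_prime_or_zero (S ⧸ 𝔪) p with h | rfl
    · exact h
    · have : CharZero (S ⧸ 𝔪) := CharP.charP_to_charZero _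
      exact absurd (isField_of_isIntegral_of_isField (R := ℤ) (S := S ⧸ 𝔪)
        (algebraMap ℤ (S ⧸ 𝔪)).injective_int (Field.toIsField _)) Int.not_isField
  have hc : c ∈ S := Algebra.subset_adjoin (by simp)
  have hM : M < p := by
    by_contra! hle
    have h1 : ((M.factorial : ℕ) : S) * ⟨c, hc⟩ = 1 := Subtype.ext (by
      have : ((M.factorial : ℕ) : K) ≠ 0 := Nat.cast_ne_zero.mpr (Nat.factorial_ne_zero M)
      simp [c, this])
    have h2 := congrArg (Ideal.Quotient.mk 𝔪) h1
    rw [map_mul, map_natCast, map_one,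
      (CharP.cast_eq_zero_iff (S ⧸ 𝔪) p _).mpr (Nat.dvd_factorial hprime.pos hle), zero_mul] at h2
    exact zero_ne_one h2
  have hle : Subring.closure (s : Set K) ≤ S.toSubring :=
    Subring.closure_le.mpr fun x hx => Algebra.subset_adjoin (by simp [Finset.mem_coe.mp hx])
  exact ⟨p, AlgebraicClosure (S ⧸ 𝔪), inferInstance, inferInstance, inferInstance, hprime, hM,
    ⟨(algebraMap (S ⧸ 𝔪) _).comp ((Ideal.Quotient.mk 𝔪).comp (Subring.inclusion hle))⟩⟩

end Crest.Agent.R169
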