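import Crest.Agent.R169.Curve

/-!
The slice `z = 0`, `y = λ x`: definitions and elementary facts.
-/

set_option autoImplicit false

namespace Crest.Agent.R169

open Module Filter Polynomial

/-- the power series ring in `z, x, y` -/
abbrev A3 (k : Type) [Field k] : Type := MvPowerSeries (Fin 3) k

/-- Laurent series in `x` over `k(λ)` -/
abbrev LL (k : Type) [Field k] : Type := LaurentSeries (RatFunc k)

variable {k : Type} [Field k] {N : ℕ}

instance : IsDomain (A3 k) := NoZeroDivisors.to_isDomain _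

instance charP_LL (p : ℕ) [CharP k p] : CharP (LL k) p :=
  charP_of_injective_ringHom (f := (HahnSeries.C (Γ := ℤ)).comp (algebraMap k (RatFunc k)))
    (RingHom.injective _) p

instance charP_A3 (p : ℕ) [CharP k p] : CharP (A3 k) p :=
  charP_of_injective_ringHom (f := algebraMap k (A3 k)) (RingHom.injective _) p

instance charP_RatFunc (p : ℕ) [CharP k p] : CharP (RatFunc k) p :=
  charP_of_injective_ringHom (f := algebraMap k (RatFunc k)) (RingHom.injective _) p

noncomputable abbrev zA : A3 k := MvPowerSeries.X 0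
noncomputable abbrev xA : A3 k := MvPowerSeries.X 1
noncomputable abbrev yA : A3 k := MvPowerSeries.X 2

/-- the substitution -/
noncomputable def slv (k : Type) [Field k] : Fin 3 → PowerSeries (RatFunc k) :=
  ![0, PowerSeries.X, PowerSeries.C RatFunc.X * PowerSeries.X]

theorem slv_hasSubst : MvPowerSeries.HasSubst (slv k) := by
  apply MvPowerSeries.hasSubst_of_constantCoeff_zero
  intro i
  change PowerSeries.constantCoeff (slv k i) = 0
  fin_cases i <;> simp [slv]

/-- the slice map to power series -/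
noncomputable def sP (k : Type) [Field k] : A3 k →ₐ[k] PowerSeries (RatFunc k) :=
  MvPowerSeries.substAlgHom (slv_hasSubst (k := k))

/-- the slice map -/
noncomputable def sl (k : Type) [Field k] : A3 k →+* LL k :=
  (HahnSeries.ofPowerSeries ℤ (RatFunc k)).comp (sP k).toRingHom

noncomputable instance : Algebra (A3 k) (LL k) := (sl k).toAlgebra

theorem algebraMap_LL (a : A3 k) : algebraMap (A3 k) (LL k) a = sl k a := rfl

theorem smul_LL (a : A3 k) (f : LL k) : a • f = sl k a * f := rfl

theorem sl_apply (a : A3 k) : sl k a = HahnSeries.ofPowerSeries ℤ (RatFunc k) (sP k a) := rfl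

theorem sl_algebraMap (c : k) :
    sl k (algebraMap k (A3 k) c) = HahnSeries.single 0 (algebraMap k (RatFunc k) c) := by
  rw [sl_apply, AlgHom.commutes, PowerSeries.algebraMap_apply, HahnSeries.ofPowerSeries_C]
  rfl

instance : IsScalarTower k (A3 k) (LL k) where
  smul_assoc c a f := by
    rw [smul_LL, smul_LL, Algebra.smul_def, map_mul, sl_algebraMap, mul_assoc,
      HahnSeries.single_zero_mul_eq_smul, algebraMap_smul]

theorem sl_z : sl k zA = 0 := by
  rw [sl_apply, sP, MvPowerSeries.substAlgHom_X]; simp [slv]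

theorem sl_x : sl k xA = HahnSeries.single 1 1 := by
  rw [sl_apply, sP, MvPowerSeries.substAlgHom_X]; simp [slv]

theorem sl_y : sl k yA = HahnSeries.single 1 RatFunc.X := by
  rw [sl_apply, sP, MvPowerSeries.substAlgHom_X]
  simp [slv, HahnSeries.C_apply, HahnSeries.single_mul_single]

theorem coeff_ofPS_neg (f : PowerSeries (RatFunc k)) {m : ℤ} (hm : m < 0) :
    (HahnSeries.ofPowerSeries ℤ (RatFunc k) f).coeff m = 0 := by
  rw [HahnSeries.ofPowerSeries_apply]
  apply HahnSeries.embDomain_of_notMem_range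
  rintro ⟨a, ha⟩
  have : (a : ℤ) = m := ha
  omega

/-- multiplication by a power series preserves the order filtration, with leading coefficient
multiplied by the constant coefficient -/
theorem coeff_ofPS_mul (f : PowerSeries (RatFunc k)) (a : LL k) (n : ℤ)
    (ha : ∀ m < n, a.coeff m = 0) :
    (∀ m < n, (HahnSeries.ofPowerSeries ℤ (RatFunc k) f * a).coeff m = 0) ∧
      (HahnSeries.ofPowerSeries ℤ (RatFunc k) f * a).coeff n =
        PowerSeries.constantCoeff f * a.coeff n := by
  have key : ∀ (g : PowerSeries (RatFunc k)) (b : LL k) (n : ℤ), (∀ m < n, b.coeff m = 0) →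
      ∀ m < n, (HahnSeries.ofPowerSeries ℤ (RatFunc k) g * b).coeff m = 0 := by
    intro g b n hb m hm
    rw [HahnSeries.coeff_mul]
    apply Finset.sum_eq_zero
    rintro ⟨i, j⟩ hij
    rw [Finset.mem_antidiagonal] at hij
    obtain ⟨h1, h2, h3⟩ := hij
    by_cases hi : i < 0
    · rw [coeff_ofPS_neg g hi, zero_mul]
    · rw [hb j (by simp only at h3; omega), mul_zero]
  refine ⟨key f a n ha, ?_⟩
  conv_lhs => rw [PowerSeries.eq_X_mul_shift_add_const f]
  rw [map_add, map_mul, add_mul, HahnSeries.coeff_add, HahnSeries.ofPowerSeries_X,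
    HahnSeries.ofPowerSeries_C, mul_assoc, HahnSeries.C_apply, HahnSeries.single_zero_mul_eq_smul]
  have h1 := HahnSeries.coeff_single_mul_add (r := (1 : RatFunc k))
    (x := HahnSeries.ofPowerSeries ℤ (RatFunc k) (PowerSeries.mk fun p => PowerSeries.coeff (p + 1) f) * a)
    (a := n - 1) (b := (1 : ℤ))
  rw [sub_add_cancel] at h1
  rw [h1, key _ a n ha (n - 1) (by omega)]
  simp

/-- the order filtration -/
def Fil (k : Type) [Field k] (N : ℕ) (n : ℤ) : Submodule (A3 k) (Fin N → LL k) where
  carrier := {v | ∀ i, ∀ m < n, (v i).coeff m = 0}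
  add_mem' := fun {a b} ha hb i m hm => by simp [ha i m hm, hb i m hm]
  zero_mem' := fun i m _ => by simp
  smul_mem' := fun c v hv i => (coeff_ofPS_mul (sP k c) (v i) n (hv i)).1

theorem mem_Fil {n : ℤ} {v : Fin N → LL k} : v ∈ Fil k N n ↔ ∀ i, ∀ m < n, (v i).coeff m = 0 :=
  Iff.rfl

theorem Fil_anti {n n' : ℤ} (h : n ≤ n') : Fil k N n' ≤ Fil k N n :=
  fun _ hv i m hm => hv i m (lt_of_lt_of_le hm h)

/-- the coefficient of `x ^ n` -/
noncomputable def co (n : ℤ) : (Fin N → LL k) →ₗ[k] WW k N where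
  toFun v := fun i => (v i).coeff n
  map_add' a b := by ext i; simp
  map_smul' c a := by ext i; simp

theorem co_apply (n : ℤ) (v : Fin N → LL k) (i : Fin N) : co n v i = (v i).coeff n := rfl

theorem mem_Fil_succ {n : ℤ} {v : Fin N → LL k} :
    v ∈ Fil k N (n + 1) ↔ v ∈ Fil k N n ∧ co n v = 0 := by
  constructor
  · intro h
    exact ⟨Fil_anti (by omega) h, funext fun i => h i n (by omega)⟩
  · rintro ⟨h1, h2⟩ i m hm
    rcases lt_or_eq_of_le (Int.lt_add_one_iff.1 hm) with h | h
    · exact h1 i m h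
    · rw [h]; exact congrFun h2 i

theorem exists_mem_Fil (v : Fin N → LL k) : ∃ n, v ∈ Fil k N n := by
  obtain ⟨n, hn⟩ := (Set.finite_range fun i => (v i).order).bddBelow
  exact ⟨n, fun i m hm => HahnSeries.coeff_eq_zero_of_lt_order (lt_of_lt_of_le hm (hn ⟨i, rfl⟩))⟩

theorem eq_zero_of_mem_Fil {v : Fin N → LL k} (h : ∀ n, v ∈ Fil k N n) : v = 0 := by
  ext i m
  exact h (m + 1) i m (by omega)

/-- multiplication by a monomial -/
theorem single_smul_Fil (e : ℤ) (c : RatFunc k) {n : ℤ} {v : Fin N → LL k} (hv : v ∈ Fil k N n) :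
    (HahnSeries.single e c : LL k) • v ∈ Fil k N (n + e) ∧
      co (n + e) ((HahnSeries.single e c : LL k) • v) = c • co n v := by
  constructor
  · intro i m hm
    have := HahnSeries.coeff_single_mul_add (r := c) (x := v i) (a := m - e) (b := e)
    rw [sub_add_cancel] at this
    simp only [Pi.smul_apply, smul_eq_mul]
    rw [this, hv i (m - e) (by omega), mul_zero]
  · ext i
    simp only [co_apply, Pi.smul_apply, smul_eq_mul]
    exact HahnSeries.coeff_single_mul_add

/-- action of a matrix of power series -/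
theorem mulVec_Fil (U : Matrix (Fin N) (Fin N) (PowerSeries (RatFunc k))) {n : ℤ}
    {v : Fin N → LL k} (hv : v ∈ Fil k N n) :
    (U.map (HahnSeries.ofPowerSeries ℤ (RatFunc k))).mulVec v ∈ Fil k N n ∧
      co n ((U.map (HahnSeries.ofPowerSeries ℤ (RatFunc k))).mulVec v) =
        (U.map PowerSeries.constantCoeff).mulVec (co n v) := by
  constructor
  · intro i m hm
    simp only [Matrix.mulVec, dotProduct, Matrix.map_apply, HahnSeries.coeff_sum]
    exact Finset.sum_eq_zero fun j _ => (coeff_ofPS_mul _ _ n (hv j)).1 m hm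
  · ext i
    simp only [co_apply, Matrix.mulVec, dotProduct, Matrix.map_apply, HahnSeries.coeff_sum]
    exact Finset.sum_congr rfl fun j _ => (coeff_ofPS_mul _ _ n (hv j)).2

/-- the graded pieces of a submodule -/
noncomputable def Gr (L : Submodule (A3 k) (Fin N → LL k)) (n : ℤ) : Submodule k (WW k N) :=
  ((L ⊓ Fil k N n).restrictScalars k).map (co n)

theorem mem_Gr {L : Submodule (A3 k) (Fin N → LL k)} {n : ℤ} {w : WW k N} :
    w ∈ Gr L n ↔ ∃ v ∈ L, v ∈ Fil k N n ∧ co n v = w := by
  simp only [Gr, Submodule.mem_map, Submodule.restrictScalars_mem, Submodule.mem_inf, and_assoc]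

theorem Gr_mono {L L' : Submodule (A3 k) (Fin N → LL k)} (h : L ≤ L') (n : ℤ) :
    Gr L n ≤ Gr L' n := by
  intro w hw
  obtain ⟨v, h1, h2, h3⟩ := mem_Gr.1 hw
  exact mem_Gr.2 ⟨v, h h1, h2, h3⟩

/-- the Hilbert function of a submodule -/
noncomputable def hh (L : Submodule (A3 k) (Fin N → LL k)) (n : ℤ) : ℕ :=
  idx (L.restrictScalars k) ((Fil k N n).restrictScalars k)

/-- the twist by `g` of the standard module -/
noncomputable def tw (g : Matrix (Fin N) (Fin N) (LL k)) : Submodule (A3 k) (Fin N → LL k) where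
  carrier := {v | ∃ a : Fin N → A3 k, v = g.mulVec fun i => sl k (a i)}
  add_mem' := by
    rintro _ _ ⟨a, rfl⟩ ⟨b, rfl⟩
    exact ⟨a + b, by rw [← Matrix.mulVec_add]; congr 1; ext1 i; simp⟩
  zero_mem' := ⟨0, by simp [← Pi.zero_def]⟩
  smul_mem' := by
    rintro c _ ⟨a, rfl⟩
    refine ⟨c • a, ?_⟩
    have : (fun i => sl k ((c • a) i)) = sl k c • fun i => sl k (a i) := by ext1 i; simp
    rw [this, Matrix.mulVec_smul]
    rfl

theorem mem_tw {g : Matrix (Fin N) (Fin N) (LL k)} {v : Fin N → LL k} :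
    v ∈ tw g ↔ ∃ a : Fin N → A3 k, v = g.mulVec fun i => sl k (a i) := Iff.rfl

/-- commensurable with the twisted standard module -/
def SLat (g : Matrix (Fin N) (Fin N) (LL k)) (L : Submodule (A3 k) (Fin N → LL k)) : Prop :=
  ∃ d : A3 k, sl k d ≠ 0 ∧ (∀ v ∈ L, d • v ∈ tw g) ∧ ∀ v ∈ tw g, d • v ∈ L

theorem sLat_tw (g : Matrix (Fin N) (Fin N) (LL k)) : SLat g (tw g) :=
  ⟨1, by simp, by simp, by simp⟩

/-- the coefficientwise `λ`-derivative -/
noncomputable def dL (k : Type) [Field k] : LL k →+ LL k where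
  toFun f := ⟨fun n => dK k (f.coeff n), f.isPWO_support.mono (by
    intro n hn h0
    exact hn (by simp [h0]))⟩
  map_zero' := by ext; simp
  map_add' a b := by ext; simp

theorem coeff_dL (f : LL k) (n : ℤ) : (dL k f).coeff n = dK k (f.coeff n) := rfl

/-- the derivative in `y` -/
noncomputable abbrev dA (k : Type) [Field k] : Derivation k (A3 k) (A3 k) :=
  MvPowerSeries.pderiv k 2

/-- the slice of `a` is `x ^ e * P(λ)` -/
def HomA (a : A3 k) (e : ℤ) (P : k[X]) : Prop :=
  sl k a = HahnSeries.single e (algebraMap k[X] (RatFunc k) P)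

end Crest.Agent.R169
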