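import Crest.Agent.R169.Sh

/-!
One quadratic step: from a lattice `L` and local square roots `w c` the filtration
`H i = ⋂ c, loc (w ^ i L + w ^ (i+1) L)`.
-/

set_option autoImplicit false
set_option linter.unusedSectionVars false
set_option linter.style.haveILetI false

namespace Crest.Agent.R169

open Module Filter Polynomial

variable {k : Type} [Field k] {m N : ℕ} [Big k m]
variable {O : Type} [CommRing O] [Algebra (A3 k) O] [Module O (VV k m N)]
  [IsScalarTower (A3 k) O (VV k m N)]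

/-- localisation of a submodule at `Sig f` and the powers of `η` -/
noncomputable def loc (f : Fac m) (η : O) (L : Submodule (A3 k) (VV k m N)) :
    Submodule (A3 k) (VV k m N) :=
  ⨆ s : Sig k f × ℕ, L.comap (act (η ^ s.2 * algebraMap (A3 k) O s.1))

section Loc
variable {f : Fac m} {η : O} {L : Submodule (A3 k) (VV k m N)}

theorem mem_loc (hη : η ∈ mult O L) {ξ : VV k m N} :
    ξ ∈ loc f η L ↔ ∃ σ ∈ Sig k f, ∃ n : ℕ, η ^ n • σ • ξ ∈ L := by
  rw [loc, Submodule.mem_iSup_of_directed]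
  · constructor
    · rintro ⟨⟨σ, n⟩, h⟩
      refine ⟨σ, σ.2, n, ?_⟩
      simpa [mul_smul] using h
    · rintro ⟨σ, hσ, n, h⟩
      exact ⟨(⟨σ, hσ⟩, n), by simpa [mul_smul] using h⟩
  · rintro ⟨σ, n⟩ ⟨σ', n'⟩
    refine ⟨(σ * σ', n + n'), fun ξ h => ?_, fun ξ h => ?_⟩
    · have := mul_mem (pow_mem hη n') ((mult O L).algebraMap_mem σ') _ h
      simp only [Submodule.mem_comap, act_apply, ← mul_smul] at this ⊢
      convert this using 2
      push_cast; ring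
    · have := mul_mem (pow_mem hη n) ((mult O L).algebraMap_mem σ) _ h
      simp only [Submodule.mem_comap, act_apply, ← mul_smul] at this ⊢
      convert this using 2
      push_cast; ring

/-- the multiplicative set of a chart -/
def SC (f : Fac m) (η s : O) : Prop := ∃ σ ∈ Sig k f, ∃ n : ℕ, s = η ^ n * algebraMap (A3 k) O σ

theorem mem_loc' (hη : η ∈ mult O L) {ξ : VV k m N} :
    ξ ∈ loc f η L ↔ ∃ s, SC (k := k) f η s ∧ s • ξ ∈ L := by
  rw [mem_loc hη]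
  constructor
  · rintro ⟨σ, hσ, n, h⟩
    exact ⟨_, ⟨σ, hσ, n, rfl⟩, by simpa [mul_smul] using h⟩
  · rintro ⟨_, ⟨σ, hσ, n, rfl⟩, h⟩
    exact ⟨σ, hσ, n, by simpa [mul_smul] using h⟩

theorem SC.mul {s s' : O} (h : SC (k := k) f η s) (h' : SC (k := k) f η s') :
    SC (k := k) f η (s * s') := by
  obtain ⟨σ, hσ, n, rfl⟩ := h
  obtain ⟨σ', hσ', n', rfl⟩ := h'
  exact ⟨σ * σ', mul_mem hσ hσ', n + n', by rw [map_mul]; ring⟩

theorem sc_one : SC (k := k) f η (1 : O) := ⟨1, one_mem _, 0, by simp⟩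

theorem SC.mem_mult (hη : η ∈ mult O L) {s : O} (h : SC (k := k) f η s) : s ∈ mult O L := by
  obtain ⟨σ, hσ, n, rfl⟩ := h
  exact mul_mem (pow_mem hη n) ((mult O L).algebraMap_mem σ)

theorem le_loc : L ≤ loc f η L := by
  intro ξ h
  refine le_iSup (fun s : Sig k f × ℕ => L.comap (act (η ^ s.2 * algebraMap (A3 k) O s.1)))
    (1, 0) ?_
  simpa using h

theorem mult_le_loc (hη : η ∈ mult O L) : mult O L ≤ mult O (loc f η L) := by
  intro t ht ξ hξ
  obtain ⟨s, hs, h⟩ := (mem_loc' hη).1 hξ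
  exact (mem_loc' hη).2 ⟨s, hs, by rw [smul_comm]; exact ht _ h⟩

/-- `a` is a local unit -/
def LU (f : Fac m) (η : O) (L : Submodule (A3 k) (VV k m N)) (a : O) : Prop :=
  ∀ ξ, a • ξ ∈ loc f η L → ξ ∈ loc f η L

theorem SC.lu (hη : η ∈ mult O L) {s : O} (h : SC (k := k) f η s) : LU f η L s := by
  intro ξ hξ
  obtain ⟨s', hs, h'⟩ := (mem_loc' hη).1 hξ
  exact (mem_loc' hη).2 ⟨s' * s, hs.mul h, by rwa [mul_smul]⟩

theorem lu_sig (hη : η ∈ mult O L) {σ : A3 k} (hσ : σ ∈ Sig k f) :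
    LU f η L (algebraMap (A3 k) O σ) := SC.lu hη ⟨σ, hσ, 0, by simp⟩

theorem lu_eta (hη : η ∈ mult O L) : LU f η L η := SC.lu hη ⟨1, one_mem _, 1, by simp⟩

theorem lu_one : LU f η L (1 : O) := fun ξ h => by simpa using h

theorem LU.mul {a b : O} (ha : LU f η L a) (hb : LU f η L b) : LU f η L (a * b) :=
  fun ξ h => hb ξ (ha _ (by rwa [← mul_smul]))

theorem LU.pow {a : O} (ha : LU f η L a) (n : ℕ) : LU f η L (a ^ n) := by
  induction n with
  | zero => simpa using lu_one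
  | succ n ih => rw [pow_succ]; exact ih.mul ha

theorem LU.prod {ι : Type*} (s : Finset ι) {a : ι → O} (h : ∀ i ∈ s, LU f η L (a i)) :
    LU f η L (∏ i ∈ s, a i) :=
  Finset.prod_induction _ (LU f η L) (fun _ _ => LU.mul) lu_one h

theorem LU.of_mul {a b : O} (h : LU f η L (a * b)) (hb : b ∈ mult O (loc f η L)) :
    LU f η L a := fun ξ hξ => h ξ (by rw [mul_comm, mul_smul]; exact hb _ hξ)

theorem LU.mem_mult {a r : O} (ha : LU f η L a) (h : a * r ∈ mult O (loc f η L)) :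
    r ∈ mult O (loc f η L) := fun ξ hξ => ha _ (by rw [← mul_smul]; exact h ξ hξ)

/-- étale elements preserve the localisation -/
theorem LU.etale (cx : Cx k m N O) {r : O} (h2 : LU f η L (r ^ 2))
    (hp : r ^ cx.p ∈ mult O (loc f η L)) : r ∈ mult O (loc f η L) :=
  (h2.pow cx.j).mem_mult (by rwa [← pow_mul, ← pow_succ, ← cx.hpj])

/-- `loc (w ^ a L + w ^ b L)` -/
noncomputable def KK (f : Fac m) (η : O) (L : Submodule (A3 k) (VV k m N)) (w : Oˣ) (a b : ℤ) :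
    Submodule (A3 k) (VV k m N) :=
  loc f η (L.map (act ((w ^ a : Oˣ) : O)) ⊔ L.map (act ((w ^ b : Oˣ) : O)))

variable {w : Oˣ} {a b : ℤ}

theorem KK_comm : KK f η L w a b = KK f η L w b a := by rw [KK, KK, sup_comm]

theorem mult_sup_map {t : O} (ht : t ∈ mult O L) (x y : O) :
    t ∈ mult O (L.map (act x) ⊔ L.map (act y)) := by
  intro ξ hξ
  obtain ⟨_, ⟨α, hα, rfl⟩, _, ⟨β, hβ, rfl⟩, rfl⟩ := Submodule.mem_sup.1 hξ
  refine Submodule.mem_sup.2 ⟨_, ⟨t • α, ht _ hα, rfl⟩, _, ⟨t • β, ht _ hβ, rfl⟩, ?_⟩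
  simp only [act_apply, smul_add, smul_comm t]

theorem mem_KK (hη : η ∈ mult O L) {ξ : VV k m N} :
    ξ ∈ KK f η L w a b ↔ ∃ s, SC (k := k) f η s ∧ ∃ α ∈ L, ∃ β ∈ L,
      s • ξ = ((w ^ a : Oˣ) : O) • α + ((w ^ b : Oˣ) : O) • β := by
  rw [KK, mem_loc' (mult_sup_map hη _ _)]
  refine exists_congr fun s => and_congr_right fun _ => ?_
  constructor
  · intro h
    obtain ⟨_, ⟨α, hα, rfl⟩, _, ⟨β, hβ, rfl⟩, h⟩ := Submodule.mem_sup.1 h
    exact ⟨α, hα, β, hβ, h.symm⟩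
  · rintro ⟨α, hα, β, hβ, h⟩
    exact Submodule.mem_sup.2 ⟨_, ⟨α, hα, rfl⟩, _, ⟨β, hβ, rfl⟩, h.symm⟩

theorem KK_sc (hη : η ∈ mult O L) {s : O} (hs : SC (k := k) f η s) {ξ : VV k m N}
    (h : s • ξ ∈ KK f η L w a b) : ξ ∈ KK f η L w a b := hs.lu (mult_sup_map hη _ _) ξ h

theorem KK_intro (hη : η ∈ mult O L) {α β : VV k m N} (hα : α ∈ loc f η L) (hβ : β ∈ loc f η L) :
    ((w ^ a : Oˣ) : O) • α + ((w ^ b : Oˣ) : O) • β ∈ KK f η L w a b := by
  obtain ⟨s, hs, h⟩ := (mem_loc' hη).1 hα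
  obtain ⟨s', hs', h'⟩ := (mem_loc' hη).1 hβ
  refine (mem_KK hη).2 ⟨s * s', hs.mul hs', s' • s • α, hs'.mem_mult hη _ h, s • s' • β,
    hs.mem_mult hη _ h', ?_⟩
  module

/-- elimination principle -/
theorem KK_elim (hη : η ∈ mult O L) {a' b' : ℤ} {t : O}
    (h : ∀ α ∈ L, ∀ β ∈ L, t • (((w ^ a : Oˣ) : O) • α + ((w ^ b : Oˣ) : O) • β) ∈ KK f η L w a' b')
    {ξ : VV k m N} (hξ : ξ ∈ KK f η L w a b) : t • ξ ∈ KK f η L w a' b' := by
  obtain ⟨s, hs, α, hα, β, hβ, h1⟩ := (mem_KK hη).1 hξ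
  refine KK_sc hη hs ?_
  rw [smul_comm, h1]
  exact h α hα β hβ

theorem KK_mult (hη : η ∈ mult O L) {r : O} (hr : r ∈ mult O (loc f η L)) {ξ : VV k m N}
    (hξ : ξ ∈ KK f η L w a b) : r • ξ ∈ KK f η L w a b := by
  refine KK_elim hη (fun α hα β hβ => ?_) hξ
  convert KK_intro (w := w) (a := a) (b := b) hη (hr _ (le_loc hα)) (hr _ (le_loc hβ)) using 1
  module

theorem KK_shift (hη : η ∈ mult O L) (c : ℤ) {ξ : VV k m N} (hξ : ξ ∈ KK f η L w a b) :
    ((w ^ c : Oˣ) : O) • ξ ∈ KK f η L w (a + c) (b + c) := by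
  refine KK_elim hη (fun α hα β hβ => ?_) hξ
  convert KK_intro (f := f) (w := w) (a := a + c) (b := b + c) hη (le_loc hα) (le_loc hβ) using 1
  simp only [zpow_add, Units.val_mul]
  module

theorem zpow_add_two_smul (w : Oˣ) (a : ℤ) (n : ℕ) (α : VV k m N) :
    ((w ^ (a + 2 * n) : Oˣ) : O) • α = ((w ^ a : Oˣ) : O) • ((w : O) ^ 2) ^ n • α := by
  rw [zpow_add, ← pow_mul, Units.val_mul, mul_smul]
  congr 2

theorem KK_even (hη : η ∈ mult O L) (hq : (w : O) ^ 2 ∈ mult O L) (n n' : ℕ) :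
    KK f η L w (a + 2 * n) (b + 2 * n') ≤ KK f η L w a b := by
  intro ξ hξ
  rw [← one_smul O ξ]
  refine KK_elim hη (fun α hα β hβ => ?_) hξ
  rw [one_smul, zpow_add_two_smul, zpow_add_two_smul]
  exact KK_intro hη (le_loc (pow_mem hq n _ hα)) (le_loc (pow_mem hq n' _ hβ))

theorem KK_anti (hη : η ∈ mult O L) (hq : (w : O) ^ 2 ∈ mult O L) :
    Antitone fun i : ℤ => KK f η L w i (i + 1) := by
  refine antitone_int_of_succ_le fun i => ?_
  have := KK_even (f := f) (a := i + 1) (b := i) hη hq 0 1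
  rw [KK_comm (a := i + 1) (b := i)] at this
  simpa [add_assoc] using this

theorem KK_le_loc (hη : η ∈ mult O L) (ha : ((w ^ a : Oˣ) : O) ∈ mult O L)
    (hb : ((w ^ b : Oˣ) : O) ∈ mult O L) : KK f η L w a b ≤ loc f η L := by
  intro ξ hξ
  obtain ⟨s, hs, α, hα, β, hβ, h1⟩ := (mem_KK hη).1 hξ
  exact (mem_loc' hη).2 ⟨s, hs, h1 ▸ L.add_mem (ha _ hα) (hb _ hβ)⟩

section Conn
variable (cx : Cx k m N O) {μ : O}

theorem conn_mult {L : Submodule (A3 k) (VV k m N)} (hμ : ∀ ξ ∈ L, μ • dV ξ ∈ L) {t : O}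
    (ht : t ∈ mult O L) : μ * cx.d t ∈ mult O L := by
  intro ξ hξ
  have := L.sub_mem (hμ _ (ht ξ hξ)) (ht _ (hμ ξ hξ))
  rw [cx.hd] at this
  convert this using 1
  module

include cx in
theorem conn_loc (hη : η ∈ mult O L) (hμ : ∀ ξ ∈ L, μ • dV ξ ∈ L) :
    ∀ ξ ∈ loc f η L, μ • dV ξ ∈ loc f η L := by
  intro ξ hξ
  obtain ⟨s, hs, h⟩ := (mem_loc' hη).1 hξ
  refine (mem_loc' hη).2 ⟨s * s, hs.mul hs, ?_⟩
  have := L.sub_mem (hs.mem_mult hη _ (hμ _ h)) (conn_mult cx hμ (hs.mem_mult hη) _ h)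
  rw [cx.hd] at this
  convert this using 1
  module

theorem Cx.d_one : cx.d 1 = 0 := by simpa using cx.d_alg 1

theorem Cx.d_zpow (w : Oˣ) (i : ℤ) :
    (w : O) * cx.d ((w ^ i : Oˣ) : O) = (i : O) * ((w ^ i : Oˣ) : O) * cx.d w := by
  have step : ∀ i : ℤ, cx.d ((w ^ (i + 1) : Oˣ) : O) =
      ((w ^ i : Oˣ) : O) * cx.d w + w * cx.d ((w ^ i : Oˣ) : O) := fun i => by
    rw [zpow_add_one, Units.val_mul, cx.d_mul]
  induction i using Int.induction_on with
  | zero => simp [cx.d_one]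
  | succ i ih =>
    rw [step, ih, zpow_add_one, Units.val_mul]; push_cast; ring
  | pred i ih =>
    have h1 := step (-i - 1)
    rw [sub_add_cancel] at h1
    have h2 : ((w ^ (-(i : ℤ)) : Oˣ) : O) = ((w ^ (-(i : ℤ) - 1) : Oˣ) : O) * w := by
      rw [← Units.val_mul, ← zpow_add_one, sub_add_cancel]
    apply w.isUnit.mul_left_cancel
    rw [h1, h2] at ih
    push_cast at ih ⊢
    linear_combination ih

theorem half_mem (S : Subalgebra (A3 k) O) (m : ℕ) [Big k m] {t : O} (h : 2 * t ∈ S) : t ∈ S := by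
  have h2 : (2 : k) ≠ 0 := by
    have := Big.ne (k := k) (m := m) 2 (by norm_num) (by
      have := cc_pos m; rw [abs_of_pos (by norm_num)]; omega)
    simpa using this
  have := mul_mem (S.algebraMap_mem (algebraMap k (A3 k) (2 : k)⁻¹)) h
  have h3 : (2 : O) = algebraMap (A3 k) O (algebraMap k (A3 k) 2) := by simp [map_ofNat]
  rwa [← mul_assoc, h3, ← map_mul, ← map_mul, inv_mul_cancel₀ h2, map_one, map_one, one_mul] at this

theorem vp_mem (hμ : ∀ ξ ∈ L, μ • dV ξ ∈ L) (hq : (w : O) ^ 2 ∈ mult O L) :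
    μ * w * cx.d w ∈ mult O L := by
  refine half_mem _ m ?_
  have := conn_mult cx hμ hq
  rw [sq, cx.d_mul] at this
  convert this using 1; ring

theorem conn_zpow (i : ℤ) (α : VV k m N) :
    μ • dV (((w ^ i : Oˣ) : O) • α) = ((w ^ (i - 2) : Oˣ) : O) •
      (((i : O) * (μ * w * cx.d w)) • α + (w : O) ^ 2 • μ • dV α) := by
  have h2 : ((w ^ i : Oˣ) : O) = ((w ^ (i - 2) : Oˣ) : O) * w ^ 2 := by
    rw [← Units.val_pow_eq_pow_val, ← Units.val_mul, ← zpow_natCast, ← zpow_add]; norm_num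
  have h1 : cx.d ((w ^ i : Oˣ) : O) = ((w ^ (i - 2) : Oˣ) : O) * (i * (w * cx.d w)) := by
    apply w.isUnit.mul_left_cancel
    rw [cx.d_zpow, h2]; ring
  rw [cx.hd, h1, h2]
  module

include cx in
theorem KK_conn (hη : η ∈ mult O L) (hq : (w : O) ^ 2 ∈ mult O L) (hμ : ∀ ξ ∈ L, μ • dV ξ ∈ L)
    {ξ : VV k m N} (hξ : ξ ∈ KK f η L w a b) : μ • dV ξ ∈ KK f η L w (a - 2) (b - 2) := by
  obtain ⟨s, hs, α, hα, β, hβ, h1⟩ := (mem_KK hη).1 hξ
  refine KK_sc hη hs ?_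
  have h2 : s • μ • dV ξ = μ • dV (s • ξ) - (μ * cx.d s) • ξ := by rw [cx.hd]; module
  have hv := vp_mem cx hμ hq
  rw [h2]
  refine sub_mem ?_ ?_
  · rw [h1, map_add, smul_add, conn_zpow cx, conn_zpow cx]
    exact KK_intro hη (le_loc (L.add_mem (mul_mem (intCast_mem _ _) hv _ hα) (hq _ (hμ _ hα))))
      (le_loc (L.add_mem (mul_mem (intCast_mem _ _) hv _ hβ) (hq _ (hμ _ hβ))))
  · refine KK_mult hη (mult_le_loc hη (conn_mult cx hμ (hs.mem_mult hη))) ?_
    refine KK_even hη hq 1 1 ?_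
    simpa using hξ

/-- the Euler operators -/
noncomputable def Eul (μ s : O) (i : ℤ) (ξ : VV k m N) : VV k m N :=
  (2 * s) • μ • dV ξ - ((i : O) * (μ * cx.d s)) • ξ

theorem Eul_add (s : O) (i : ℤ) (ξ ξ' : VV k m N) :
    Eul cx μ s i (ξ + ξ') = Eul cx μ s i ξ + Eul cx μ s i ξ' := by
  simp only [Eul, map_add]; module

theorem KK_eul (hη : η ∈ mult O L) (hq : (w : O) ^ 2 ∈ mult O L) (hμ : ∀ ξ ∈ L, μ • dV ξ ∈ L)
    {r : O} (hr : r ∈ mult O (loc f η L)) {i : ℤ} {ξ : VV k m N} (hξ : ξ ∈ KK f η L w b i) :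
    Eul cx μ ((w : O) ^ 2 * r) i ξ ∈ KK f η L w b (i + 2) := by
  obtain ⟨s, hs, α, hα, β, hβ, h1⟩ := (mem_KK hη).1 hξ
  refine KK_sc hη (hs.mul hs) ?_
  have h2 : (s * s) • Eul cx μ ((w : O) ^ 2 * r) i ξ = s • Eul cx μ ((w : O) ^ 2 * r) i (s • ξ) -
      (2 * r * (μ * cx.d s)) • (w : O) ^ 2 • s • ξ := by
    simp only [Eul]; rw [cx.hd]; module
  have hv := mult_le_loc (f := f) hη (vp_mem cx hμ hq)
  have hq' := mult_le_loc (f := f) hη hq
  have hμ' := conn_loc (f := f) cx hη hμ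
  have hdr := conn_mult cx hμ' hr
  have hα' := le_loc (f := f) (η := η) hα
  have hβ' := le_loc (f := f) (η := η) hβ
  have two : (2 : O) ∈ mult O (loc f η L) := ofNat_mem _ _
  have e1 : ∀ c : ℤ, ((w ^ c : Oˣ) : O) = ((w ^ (c - 2) : Oˣ) : O) * w ^ 2 := fun c => by
    rw [← Units.val_pow_eq_pow_val, ← Units.val_mul, ← zpow_natCast, ← zpow_add]; norm_num
  have e2 : ((w ^ (i + 2) : Oˣ) : O) = ((w ^ (i - 2) : Oˣ) : O) * w ^ 2 * w ^ 2 := by
    rw [e1, add_sub_cancel_right, e1 i]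
  have hd : cx.d ((w : O) ^ 2 * r) = w ^ 2 * cx.d r + 2 * r * (w * cx.d w) := by
    rw [cx.d_mul, sq, cx.d_mul]; ring
  rw [h2]
  refine sub_mem (KK_mult hη (mult_le_loc hη (hs.mem_mult hη)) ?_)
    (KK_mult hη (mul_mem (mul_mem two hr) (mult_le_loc hη (conn_mult cx hμ (hs.mem_mult hη)))) ?_)
  · rw [h1, Eul_add]
    have := KK_intro (w := w) (a := b) (b := i + 2) hη
      (α := (2 * r * ((b - i : ℤ) : O) * (μ * w * cx.d w) - (i : O) * w ^ 2 * (μ * cx.d r)) • α +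
        (2 * r * w ^ 2) • μ • dV α)
      (β := (2 * r) • μ • dV β - ((i : O) * (μ * cx.d r)) • β)
      (add_mem (sub_mem (mul_mem (mul_mem (mul_mem two hr) (intCast_mem _ _)) hv)
        (mul_mem (mul_mem (intCast_mem _ _) hq') hdr) _ hα')
        (mul_mem (mul_mem two hr) hq' _ (hμ' _ hα')))
      (sub_mem (mul_mem two hr _ (hμ' _ hβ')) (mul_mem (intCast_mem _ _) hdr _ hβ'))
    convert this using 2
    · rw [Eul, conn_zpow cx, hd, e1 b]; push_cast; module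
    · rw [Eul, conn_zpow cx, hd, e2, e1 i]; module
  · rw [h1]
    have := KK_intro (w := w) (a := b) (b := i + 2) hη (hq' _ hα') hβ'
    convert this using 1
    rw [e2, e1 i]; module

end Conn

end Loc

/-- the filtration of a step -/
noncomputable def StepH (L : Submodule (A3 k) (VV k m N)) {C : Type} (fc : C → Fac m) (η : C → O)
    (w : C → Oˣ) (i : ℤ) : Submodule (A3 k) (VV k m N) :=
  ⨅ c, loc (fc c) (η c) (L.map (act ((w c ^ i : Oˣ) : O)) ⊔ L.map (act ((w c ^ (i + 1) : Oˣ) : O)))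

/-- the data of a step -/
structure StepData (cx : Cx k m N O) (L : Submodule (A3 k) (VV k m N)) (FS : Finset (Fac m))
    {C : Type} (fc : C → Fac m) (η : C → O) (w : C → Oˣ) : Prop where
  lat : Lat L
  hη : ∀ c, η c ∈ mult O L
  hq : ∀ c, (w c : O) ^ 2 ∈ mult O L
  hp : ∀ c, (w c : O) ^ cx.p ∈ mult O L
  cover : ∀ f, ∃ σ ∈ Sig k f, ∃ t ∈ mult O L, ∃ T : Finset C, (∀ c ∈ T, fc c = f) ∧
    algebraMap (A3 k) O σ = t * ∑ c ∈ T, η c
  hs : ∀ c, ∃ a ∈ mult O (loc (fc c) (η c) L), algebraMap (A3 k) O (sA k FS) = (w c : O) ^ 2 * a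

variable {cx : Cx k m N O} {L : Submodule (A3 k) (VV k m N)} {FS : Finset (Fac m)} {C : Type}
  {fc : C → Fac m} {η : C → O} {w : C → Oˣ}

theorem mem_StepH {i : ℤ} {ξ : VV k m N} :
    ξ ∈ StepH L fc η w i ↔ ∀ c, ξ ∈ KK (fc c) (η c) L (w c) i (i + 1) := Submodule.mem_iInf _

/-- chartwise criterion for shifts -/
theorem StepData.shH (h : StepData cx L FS fc η w) {a : ℤ} {t : O}
    (ht : ∀ c, ∃ b : ℤ, a ≤ b ∧ ∃ r ∈ mult O (loc (fc c) (η c) L),
      t = ((w c ^ b : Oˣ) : O) * r) : ShH (StepH L fc η w) a t := by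
  intro i ξ hξ
  refine mem_StepH.2 fun c => ?_
  obtain ⟨b, hb, r, hr, rfl⟩ := ht c
  have := KK_shift (h.hη c) b (KK_mult (h.hη c) hr (mem_StepH.1 hξ c))
  rw [← mul_smul, show i + 1 + b = i + b + 1 by ring] at this
  exact KK_anti (h.hη c) (h.hq c) (show i + a ≤ i + b by omega) this

theorem StepData.shH_mult (h : StepData cx L FS fc η w) {t : O} (ht : t ∈ mult O L) :
    ShH (StepH L fc η w) 0 t :=
  h.shH fun c => ⟨0, le_rfl, t, mult_le_loc (h.hη c) ht, by simp⟩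

theorem StepData.le_H (h : StepData cx L FS fc η w) : L ≤ StepH L fc η w 0 := by
  intro ξ hξ
  refine mem_StepH.2 fun c => ?_
  simpa using KK_intro (f := fc c) (w := w c) (a := 0) (b := 0 + 1) (h.hη c) (le_loc hξ)
    (zero_mem _)

/-- gluing the charts -/
theorem StepData.glue (h : StepData cx L FS fc η w) {ξ : VV k m N}
    (hξ : ∀ c, ξ ∈ loc (fc c) (η c) L) : ξ ∈ L := by
  classical
  haveI := cx.charO
  haveI : Fact cx.p.Prime := ⟨cx.hp⟩
  refine h.lat.closed ξ fun f => ?_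
  obtain ⟨σ, hσ, t, ht, T, hT, h1⟩ := h.cover f
  choose τ hτ n hn using fun c => (mem_loc (h.hη c)).1 (hξ c)
  let M := ∑ c ∈ T, n c
  refine ⟨σ ^ cx.p ^ M * ∏ c ∈ T, τ c,
    mul_mem (pow_mem hσ _) (prod_mem fun c hc => hT c hc ▸ hτ c), ?_⟩
  rw [mul_smul, ← algebraMap_smul O (σ ^ _), map_pow, h1, mul_pow, sum_pow_char_pow, mul_smul,
    Finset.sum_smul]
  refine pow_mem ht _ _ (L.sum_mem fun c hc => ?_)
  have h2 : n c ≤ cx.p ^ M :=
    (Finset.single_le_sum (fun _ _ => Nat.zero_le _) hc).trans (Nat.lt_pow_self cx.hp.one_lt).le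
  obtain ⟨d, hd⟩ := Nat.exists_eq_add_of_le h2
  have := L.smul_mem (∏ c' ∈ T.erase c, τ c') (pow_mem (h.hη c) d _ (hn c))
  rw [hd, ← Finset.mul_prod_erase T τ hc]
  convert this using 1
  rw [← algebraMap_smul O (τ c * _), ← algebraMap_smul O (τ c), ← algebraMap_smul O (∏ _ ∈ _, _),
    map_mul]
  module

theorem StepData.pow_p (h : StepData cx L FS fc η w) (c : C) :
    ((w c ^ (2 * (cx.j : ℤ) + 1) : Oˣ) : O) ∈ mult O L := by
  have := h.hp c
  rw [cx.hpj, ← Units.val_pow_eq_pow_val, ← zpow_natCast] at this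
  exact_mod_cast this

theorem StepData.H_le (h : StepData cx L FS fc η w) : StepH L fc η w (2 * cx.j) ≤ L := by
  intro ξ hξ
  refine h.glue fun c => KK_le_loc (h.hη c) ?_ (h.pow_p c) (mem_StepH.1 hξ c)
  have := pow_mem (h.hq c) cx.j
  rw [← pow_mul, ← Units.val_pow_eq_pow_val, ← zpow_natCast] at this
  exact_mod_cast this

theorem StepData.shH_sA (h : StepData cx L FS fc η w) :
    ShH (StepH L fc η w) 2 (algebraMap (A3 k) O (sA k FS)) := h.shH fun c => by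
  obtain ⟨a, ha, h1⟩ := h.hs c
  exact ⟨2, le_rfl, a, ha, by rw [h1, ← Units.val_pow_eq_pow_val, ← zpow_natCast]; rfl⟩

theorem StepData.anti (h : StepData cx L FS fc η w) : Antitone (StepH L fc η w) :=
  fun _ _ hi _ hξ => mem_StepH.2 fun c => KK_anti (h.hη c) (h.hq c) hi (mem_StepH.1 hξ c)

theorem StepData.filt (h : StepData cx L FS fc η w) : Filt (StepH L fc η w) FS := by
  classical
  have hδ : ∀ (n : ℕ) (i : ℤ), ∀ ξ ∈ StepH L fc η w i,
      delta k m ^ n • ξ ∈ StepH L fc η w (i + n * 2) := by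
    intro n i ξ hξ
    have h1 := h.shH_sA.pow n i ξ hξ
    rw [← map_pow, algebraMap_smul] at h1
    have h2 : delta k m = sA k FSᶜ * sA k FS := by
      rw [delta, sA, sA, sA, mul_comm, Finset.prod_mul_prod_compl]
    have h3 : delta k m ^ n = sA k FSᶜ ^ n * sA k FS ^ n := by rw [← mul_pow, ← h2]
    rw [h3, mul_smul]
    exact Submodule.smul_mem _ _ h1
  refine ⟨fun i => ⟨?_, ?_, ?_⟩, fun i => h.anti (by omega), fun i ξ hξ => ?_⟩
  · obtain ⟨n, hn⟩ := h.lat.up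
    refine ⟨n + (2 * cx.j - i).toNat, fun ξ hξ => ?_⟩
    rw [pow_add, mul_smul]
    exact hn _ (h.H_le (h.anti (by omega) (hδ _ i ξ hξ)))
  · obtain ⟨n, hn⟩ := h.lat.low
    refine ⟨i.toNat + n, fun ξ hξ => ?_⟩
    rw [pow_add, mul_smul]
    exact h.anti (by omega) (hδ _ 0 _ (h.le_H (hn ξ hξ)))
  · intro ξ hξ
    refine mem_StepH.2 fun c => ?_
    obtain ⟨σ, hσ, h1⟩ := hξ (fc c)
    refine KK_sc (h.hη c) ⟨σ, hσ, 0, rfl⟩ ?_
    simpa using mem_StepH.1 h1 c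
  · have := h.shH_sA i ξ hξ
    rwa [algebraMap_smul] at this

/-- a connection preserving `L` shifts the filtration by `-2` -/
theorem StepData.conn (h : StepData cx L FS fc η w) {μ : O} (hμ : ∀ ξ ∈ L, μ • dV ξ ∈ L) (i : ℤ)
    {ξ : VV k m N} (hξ : ξ ∈ StepH L fc η w i) : μ • dV ξ ∈ StepH L fc η w (i - 2) := by
  refine mem_StepH.2 fun c => ?_
  have := KK_conn cx (h.hη c) (h.hq c) hμ (mem_StepH.1 hξ c)
  rwa [show i + 1 - 2 = i - 2 + 1 by ring] at this

theorem StepData.eul (h : StepData cx L FS fc η w) {μ : O} (hμ : ∀ ξ ∈ L, μ • dV ξ ∈ L) (c : C)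
    {b i : ℤ} {ξ : VV k m N} (hξ : ξ ∈ KK (fc c) (η c) L (w c) b i) :
    Eul cx μ (algebraMap (A3 k) O (sA k FS)) i ξ ∈ KK (fc c) (η c) L (w c) b (i + 2) := by
  obtain ⟨a, ha, h1⟩ := h.hs c
  rw [h1]
  exact KK_eul cx (h.hη c) (h.hq c) hμ ha hξ

theorem StepData.eul_H (h : StepData cx L FS fc η w) {μ : O} (hμ : ∀ ξ ∈ L, μ • dV ξ ∈ L)
    {i : ℤ} {ξ : VV k m N} (hξ : ξ ∈ StepH L fc η w i) :
    Eul cx μ (algebraMap (A3 k) O (sA k FS)) i ξ ∈ StepH L fc η w (i + 1) := by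
  refine mem_StepH.2 fun c => ?_
  have h1 := mem_StepH.1 hξ c
  rw [KK_comm] at h1
  have := h.eul hμ c h1
  rwa [show i + 2 = i + 1 + 1 by ring] at this

/-- composition of Euler operators -/
noncomputable def opE (cx : Cx k m N O) (μ s : O) (i : ℤ) : ℕ → VV k m N → VV k m N
  | 0 => id
  | t + 1 => fun ξ => Eul cx μ s (i + 1 + 2 * t) (opE cx μ s i t ξ)

theorem odd_ne_zero (cx : Cx k m N O) {t : ℕ} (ht : t < cx.j) : ((2 * t + 1 : ℤ) : k) ≠ 0 := by
  haveI := cx.chark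
  intro h0
  have h1 := (CharP.intCast_eq_zero_iff k cx.p _).1 h0
  have h2 := Int.le_of_dvd (by positivity) h1
  have := cx.hpj
  omega

theorem StepData.numData (h : StepData cx L FS fc η w) {μ : O} {eμ : ℤ}
    (hμ : ∀ ξ ∈ L, μ • dV ξ ∈ L) (hμi : Inv cx (StepH L fc η w) FS μ 0 eμ)
    {ew : ℕ} {κ : ℤ} (hw : ∃ w' : O, Inv cx (StepH L fc η w) FS w' 1 ew)
    (htau : ∃ (s f s' : O) (es : ℤ) (n : ℕ), Inv cx (StepH L fc η w) FS s 2 es ∧
      Inv cx (StepH L fc η w) FS f 0 (es + κ) ∧ ShH (StepH L fc η w) 2 s' ∧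
      ShH (StepH L fc η w) 3 (algebraMap (A3 k) O (zA ^ n) * s - f * s')) :
    NumData cx L (StepH L fc η w) FS ew κ := by
  set H := StepH L fc η w with hH
  set s := algebraMap (A3 k) O (sA k FS) with hs
  have hF : Filt H FS := h.filt
  have ss : ShH H 2 s := h.shH_sA
  have ys : Sy cx s (sdeg FS) := (homA_sA FS).sy
  have s2 : ShH H 0 (2 : O) := by simpa using shH_intCast (O := O) (H := H) 2
  have y2 : Sy cx (2 : O) 0 := by simpa using sy_intCast (cx := cx) 2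
  refine ⟨h.lat, hF, h.le_H, h.H_le, ?_, hw, htau, ?_⟩
  · intro i hi
    by_cases hFS : FS = ∅
    · intro ξ hξ
      have := hF.kill _ _ hξ.2
      rw [hFS, sA, Finset.prod_empty, one_smul] at this
      exact hF.antitone (by omega) this
    obtain ⟨f0, hf0⟩ := Finset.nonempty_iff_ne_empty.2 hFS
    have iψ : Inv cx H FS (μ * cx.d s) 0 (eμ + (sdeg FS - 1)) := by
      rw [hs, cx.d_alg]
      exact (hμi.mul (Inv.good (goodAt_dA_sA hf0).sy fun f hf => goodAt_dA_sA hf)).congr rfl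
        (by ring) rfl
    have key : ∀ t : ℕ, t ≤ cx.j → L ⊓ H (2 * t - 1) ≤ H (2 * t) := by
      intro t
      induction t with
      | zero => intro _ ξ hξ; simpa using h.le_H hξ.1
      | succ t ih =>
        intro ht ξ hξ
        have e1 : (2 * (t + 1 : ℕ) - 1 : ℤ) = 2 * t + 1 := by push_cast; ring
        have h0 : ξ ∈ H (2 * t + 1) := e1 ▸ hξ.2
        have h1 : μ • dV ξ ∈ H (2 * t) := ih (by omega) ⟨hμ _ hξ.1, by
          have := h.conn hμ _ h0
          rwa [show (2 * t + 1 - 2 : ℤ) = 2 * t - 1 by ring] at this⟩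
        have h2 := (s2.mul ss) _ _ h1
        have h3 := h.eul_H hμ h0
        rw [show (2 * t + (0 + 2) : ℤ) = 2 * t + 1 + 1 by ring] at h2
        have h4 := (H _).sub_mem h2 h3
        rw [Eul, sub_sub_cancel] at h4
        have h5 := ((inv_intCast (odd_ne_zero cx (show t < cx.j by omega))).mul iψ).inj hF h0
          (by simpa using h4)
        rwa [show (2 * (t + 1 : ℕ) : ℤ) = 2 * t + 1 + 1 by push_cast; ring]
    have := key (i + 1) (by omega)
    push_cast at this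
    rwa [show (2 * (i + 1) - 1 : ℤ) = 2 * i + 1 by ring,
      show (2 * (i + 1) : ℤ) = 2 * i + 2 by ring] at this
  · intro i hi f0 hf0
    have iψ : Inv cx H FS (μ * cx.d s) 0 (eμ + (sdeg FS - 1)) := by
      rw [hs, cx.d_alg]
      exact (hμi.mul (Inv.good (goodAt_dA_sA hf0).sy fun f hf => goodAt_dA_sA hf)).congr rfl
        (by ring) rfl
    set e := eμ + (sdeg FS - 1) with he
    have pE : ∀ i', PresW cx (Eul cx μ s i') e := fun i' =>
      ((((y2.mul ys).presW.comp (hμi.1.presW.comp presW_dV)).congr rfl (by rw [he]; ring)).sub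
        (((sy_intCast i').mul iψ.1).presW.congr rfl (by ring))).congr rfl rfl
    have hE : ∀ i' i'', ∀ ξ ∈ H i'', Eul cx μ s i' ξ ∈ H i'' := fun i' i'' ξ hξ => by
      refine (H _).sub_mem ?_ ((((shH_intCast i').mul iψ.2.1).congr (by ring) rfl).mem_mult i'' ξ hξ)
      have := (s2.mul ss) _ _ (h.conn hμ _ hξ)
      rwa [show i'' - 2 + (0 + 2) = i'' by ring] at this
    have key : ∀ t : ℕ, t ≤ cx.j → PresW cx (opE cx μ s (2 * i) t) (t * e) ∧
        (∀ c, ∀ ξ ∈ KK (fc c) (η c) L (w c) 0 (2 * i + 1),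
          opE cx μ s (2 * i) t ξ ∈ KK (fc c) (η c) L (w c) 0 (2 * i + 1 + 2 * t)) ∧
        ∃ χ : O, Inv cx H FS χ 0 (t * e) ∧
          ∀ ξ ∈ H (2 * i), opE cx μ s (2 * i) t ξ - χ • ξ ∈ H (2 * i + 1) := by
      intro t
      induction t with
      | zero =>
        intro _
        refine ⟨(sy_one.presW).congr (by funext ξ; simp [opE]) (by simp), fun c ξ hξ => ?_,
          1, by simpa using inv_one, fun ξ _ => by simp [opE]⟩
        simpa [opE] using hξ
      | succ t ih =>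
        intro ht
        obtain ⟨a1, a2, χ, a3, a4⟩ := ih (by omega)
        refine ⟨((pE _).comp a1).congr rfl (by push_cast; ring), fun c ξ hξ => ?_,
          ((-(2 * t + 1) : ℤ) : O) * (μ * cx.d s) * χ, ?_, fun ξ hξ => ?_⟩
        · have := h.eul hμ c (a2 c ξ hξ)
          rwa [show (2 * i + 1 + 2 * t + 2 : ℤ) = 2 * i + 1 + 2 * (t + 1 : ℕ) by push_cast; ring]
            at this
        · refine (((inv_intCast ?_).mul iψ).mul a3).congr rfl (by ring) (by push_cast; ring)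
          rw [Int.cast_neg]
          exact neg_ne_zero.2 (odd_ne_zero cx (by omega))
        · have b1 := hE (2 * i + 1 + 2 * t) _ _ (a4 ξ hξ)
          have b2 := h.eul_H hμ (a3.2.1.mem_mult _ ξ hξ)
          have b3 := (H _).add_mem b1 b2
          convert b3 using 1
          simp only [opE, Eul, map_sub]
          push_cast
          module
    obtain ⟨a1, a2, χ, a3, a4⟩ := key (cx.j - i) (by omega)
    obtain ⟨σ, e', t, g1, g2, g3, g4⟩ := a3.2.2 f0 hf0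
    refine ⟨σ, _, fun ξ => opE cx μ s (2 * i) (cx.j - i) (t • ξ), g1, a1.comp g2.presW,
      fun ξ hξ => ⟨?_, ?_⟩⟩
    · have b1 : t • ξ ∈ H (2 * i) := by simpa using g3 _ _ hξ
      refine h.glue fun c => KK_le_loc (h.hη c) (a := 0) (by simp) (h.pow_p c) ?_
      have b2 := KK_even (f := fc c) (a := 0) (b := 2 * i + 1) (h.hη c) (h.hq c) i 0
        (by simpa using mem_StepH.1 b1 c)
      have b3 := a2 c _ b2
      rwa [show (2 * i + 1 + 2 * (cx.j - i : ℕ) : ℤ) = 2 * cx.j + 1 by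
        rw [Nat.cast_sub hi.le]; ring] at b3
    · have b1 : t • ξ ∈ H (2 * i) := by simpa using g3 _ _ hξ
      have b2 := (H _).sub_mem (a4 _ b1) (g4 _ _ hξ)
      convert b2 using 1
      rw [← algebraMap_smul O σ]
      module

end Crest.Agent.R169
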