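import Crest.Agent.R169.TransferAbs

/-!
Row 169, Artin approximation: power series rings, the ideal of the variables, power series with
coefficients in a finitely generated subring, linear changes of coordinates.
-/

set_option autoImplicit false

namespace Crest.Agent.R169.PS

open MvPowerSeries

/-- the ideal of the variables -/
noncomputable abbrev IX (σ R : Type) [CommRing R] : Ideal (MvPowerSeries σ R) :=
  Ideal.span (Set.range X)

section ideal

variable {σ R : Type} [CommRing R]

theorem exists_decomp [Fintype σ] (f : MvPowerSeries σ R) (hf : coeff 0 f = 0) :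
    ∃ g : σ → MvPowerSeries σ R, f = ∑ i, X i * g i ∧
      ∀ i d, coeff d (g i) = 0 ∨ coeff d (g i) = coeff (d + Finsupp.single i 1) f := by
  classical
  have hex : ∀ d : σ →₀ ℕ, d ≠ 0 → ∃ i, d i ≠ 0 := fun d hd => by
    by_contra! h
    exact hd (Finsupp.ext h)
  choose π hπ using hex
  let g : σ → MvPowerSeries σ R := fun i d =>
    if ∃ h : d + Finsupp.single i 1 ≠ 0, π _ h = i then coeff (d + Finsupp.single i 1) f else 0
  have hg : ∀ i d, coeff d (g i) = if ∃ h : d + Finsupp.single i 1 ≠ 0, π _ h = i then
      coeff (d + Finsupp.single i 1) f else 0 := fun i d => rfl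
  refine ⟨g, ?_, fun i d => ?_⟩
  · ext d
    rw [map_sum]
    simp only [X, coeff_monomial_mul, one_mul]
    by_cases hd : d = 0
    · subst hd
      rw [hf]
      refine (Finset.sum_eq_zero fun i _ => if_neg ?_).symm
      intro h
      have := h i
      simp at this
    · rw [Finset.sum_eq_single (π d hd)]
      · have hle : Finsupp.single (π d hd) 1 ≤ d := by
          rw [Finsupp.single_le_iff]
          exact Nat.one_le_iff_ne_zero.2 (hπ d hd)
        rw [if_pos hle, hg, tsub_add_cancel_of_le hle, if_pos ⟨hd, rfl⟩]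
      · intro i _ hi
        split_ifs with hle
        · rw [hg, tsub_add_cancel_of_le hle, if_neg]
          rintro ⟨h, h'⟩
          exact hi h'.symm
        · rfl
      · intro h
        exact absurd (Finset.mem_univ _) h
  · rw [hg]
    split_ifs
    · exact Or.inr rfl
    · exact Or.inl rfl

theorem mem_pow_of_coeff [Finite σ] (L : ℕ) : ∀ f : MvPowerSeries σ R,
    (∀ d : σ →₀ ℕ, d.degree < L → coeff d f = 0) → f ∈ IX σ R ^ L := by
  cases nonempty_fintype σ
  induction L with
  | zero => intro f _; simp
  | succ L ih =>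
    intro f hf
    obtain ⟨g, hg, hg'⟩ := exists_decomp f (hf 0 (by simp))
    rw [hg, pow_succ']
    refine Ideal.sum_mem _ fun i _ => Ideal.mul_mem_mul (Ideal.subset_span ⟨i, rfl⟩) (ih _ ?_)
    intro d hd
    rcases hg' i d with h | h
    · exact h
    · rw [h]
      refine hf _ ?_
      simp only [map_add, Finsupp.degree_single]
      omega

theorem mem_IX [Finite σ] {f : MvPowerSeries σ R} (hf : constantCoeff f = 0) : f ∈ IX σ R := by
  have := mem_pow_of_coeff 1 f (fun d hd => by
    have : d = 0 := (Finsupp.degree_eq_zero_iff d).1 (by omega)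
    rw [this]
    exact hf)
  rwa [pow_one] at this

theorem constantCoeff_of_mem_IX {f : MvPowerSeries σ R} (hf : f ∈ IX σ R) :
    constantCoeff f = 0 := by
  have : IX σ R ≤ RingHom.ker (constantCoeff (σ := σ) (R := R)) := by
    rw [Ideal.span_le]
    rintro _ ⟨i, rfl⟩
    simp
  exact this hf

theorem le_order_of_mem_pow (L : ℕ) : ∀ f ∈ IX σ R ^ L, (L : ℕ∞) ≤ f.order := by
  induction L with
  | zero => intro f _; simp
  | succ L ih =>
    intro f hf
    rw [pow_succ] at hf
    refine Submodule.mul_induction_on hf (fun x hx y hy => ?_) (fun x y hx hy => ?_)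
    · refine le_trans ?_ le_order_mul
      push_cast
      exact add_le_add (ih x hx)
        (one_le_order_iff_constCoeff_eq_zero.2 (constantCoeff_of_mem_IX hy))
    · exact le_trans (le_min hx hy) min_order_le_add

theorem sub_trunc_mem [Finite σ] (L : ℕ) (f : MvPowerSeries σ R) :
    ((truncTotal L f : MvPolynomial σ R) : MvPowerSeries σ R) - f ∈ IX σ R ^ L :=
  mem_pow_of_coeff L _ fun d hd => by
    rw [map_sub, MvPolynomial.coeff_coe, coeff_truncTotal _ hd, sub_self]

theorem exists_notMem_pow {f : MvPowerSeries σ R} (hf : f ≠ 0) : ∃ L, f ∉ IX σ R ^ L := by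
  refine ⟨f.order.toNat + 1, fun h => ?_⟩
  have h1 := le_order_of_mem_pow _ f h
  have h2 := ne_zero_iff_order_finite.1 hf
  rw [← h2] at h1
  simp only [ENat.toNat_coe] at h1
  have : f.order.toNat + 1 ≤ f.order.toNat := by exact_mod_cast h1
  omega

theorem maximalIdeal_eq {K : Type} [Field K] [Finite σ] :
    IsLocalRing.maximalIdeal (MvPowerSeries σ K) = IX σ K := by
  ext f
  rw [IsLocalRing.mem_maximalIdeal, mem_nonunits_iff, isUnit_iff_constantCoeff, isUnit_iff_ne_zero,
    not_not]
  exact ⟨mem_IX, constantCoeff_of_mem_IX⟩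

theorem isAdicComplete_max {K : Type} [Field K] [Finite σ] :
    IsAdicComplete (IsLocalRing.maximalIdeal (MvPowerSeries σ K)) (MvPowerSeries σ K) := by
  rw [maximalIdeal_eq]
  infer_instance

end ideal

section good

variable {σ K : Type} [Field K]

theorem mem_range_map (T : Subring K) (y : MvPowerSeries σ K) :
    y ∈ (map (σ := σ) T.subtype).range ↔ ∀ d, coeff d y ∈ T := by
  constructor
  · rintro ⟨x, rfl⟩ d
    exact (coeff d x).2
  · intro h
    exact ⟨y.toSubring T h, rfl⟩

theorem closure_mono' {s t : Finset K} (h : s ⊆ t) :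
    Subring.closure (s : Set K) ≤ Subring.closure (t : Set K) :=
  Subring.closure_mono (Finset.coe_subset.2 h)

variable (σ K) in
/-- power series with coefficients in a finitely generated subring -/
def good : Subring (MvPowerSeries σ K) where
  carrier := {y | ∃ s : Finset K, ∀ d, coeff d y ∈ Subring.closure (s : Set K)}
  mul_mem' := by
    classical
    rintro x y ⟨s, hs⟩ ⟨t, ht⟩
    refine ⟨s ∪ t, (mem_range_map _ _).1 (mul_mem ?_ ?_)⟩
    · exact (mem_range_map _ _).2 fun d => closure_mono' Finset.subset_union_left (hs d)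
    · exact (mem_range_map _ _).2 fun d => closure_mono' Finset.subset_union_right (ht d)
  one_mem' := ⟨∅, (mem_range_map _ _).1 (one_mem _)⟩
  add_mem' := by
    classical
    rintro x y ⟨s, hs⟩ ⟨t, ht⟩
    refine ⟨s ∪ t, (mem_range_map _ _).1 (add_mem ?_ ?_)⟩
    · exact (mem_range_map _ _).2 fun d => closure_mono' Finset.subset_union_left (hs d)
    · exact (mem_range_map _ _).2 fun d => closure_mono' Finset.subset_union_right (ht d)
  zero_mem' := ⟨∅, (mem_range_map _ _).1 (zero_mem _)⟩
  neg_mem' := by
    rintro x ⟨s, hs⟩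
    exact ⟨s, (mem_range_map _ _).1 (neg_mem ((mem_range_map _ _).2 hs))⟩

theorem mem_good {y : MvPowerSeries σ K} :
    y ∈ good σ K ↔ ∃ s : Finset K, ∀ d, coeff d y ∈ Subring.closure (s : Set K) := Iff.rfl

theorem map_mem_good (s : Finset K) (x : MvPowerSeries σ (Subring.closure (s : Set K))) :
    map (Subring.closure (s : Set K)).subtype x ∈ good σ K :=
  ⟨s, fun d => (coeff d x).2⟩

theorem coe_mem_good (p : MvPolynomial σ K) : (p : MvPowerSeries σ K) ∈ good σ K := by
  classical
  refine ⟨p.support.image p.coeff, fun d => ?_⟩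
  rw [MvPolynomial.coeff_coe]
  by_cases hd : d ∈ p.support
  · exact Subring.subset_closure (Finset.mem_coe.2 (Finset.mem_image_of_mem _ hd))
  · rw [MvPolynomial.notMem_support_iff.1 hd]
    exact zero_mem _

theorem exists_common {ι : Type} [Finite ι] (y : ι → MvPowerSeries σ K) (hy : ∀ i, y i ∈ good σ K)
    (t : Finset K) : ∃ s : Finset K, t ⊆ s ∧
      ∃ x : ι → MvPowerSeries σ (Subring.closure (s : Set K)),
        ∀ i, map (Subring.closure (s : Set K)).subtype (x i) = y i := by
  classical
  cases nonempty_fintype ι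
  choose s hs using hy
  refine ⟨t ∪ Finset.univ.biUnion s, Finset.subset_union_left, ?_⟩
  have : ∀ i, y i ∈ (map (σ := σ)
      (Subring.closure ((t ∪ Finset.univ.biUnion s : Finset K) : Set K)).subtype).range :=
    fun i => (mem_range_map _ _).2 fun d => closure_mono'
      ((Finset.subset_biUnion_of_mem s (Finset.mem_univ i)).trans Finset.subset_union_right)
      (hs i d)
  choose x hx using this
  exact ⟨x, hx⟩

variable (σ) in
/-- the inclusion of the power series over a finitely generated subring -/
noncomputable def nu (s : Finset K) : MvPowerSeries σ (Subring.closure (s : Set K)) →+* good σ K :=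
  (map (Subring.closure (s : Set K)).subtype).codRestrict _ (map_mem_good s)

theorem coe_nu (s : Finset K) (x : MvPowerSeries σ (Subring.closure (s : Set K))) :
    (nu σ s x : MvPowerSeries σ K) = map (Subring.closure (s : Set K)).subtype x := rfl

variable (σ K) in
/-- polynomials are good -/
noncomputable def pG : MvPolynomial σ K →+* good σ K :=
  (MvPolynomial.coeToMvPowerSeries.ringHom).codRestrict _ coe_mem_good

theorem subtype_comp_pG :
    (good σ K).subtype.comp (pG σ K) = MvPolynomial.coeToMvPowerSeries.ringHom := rfl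

theorem isUnit_good (x : good σ K) (hx : IsUnit (x : MvPowerSeries σ K)) : IsUnit x := by
  obtain ⟨s, hs, z, hz⟩ := exists_common (ι := Unit) (fun _ => (x : MvPowerSeries σ K))
    (fun _ => x.2) {(constantCoeff (x : MvPowerSeries σ K))⁻¹}
  have h0 : constantCoeff (x : MvPowerSeries σ K) ≠ 0 :=
    (isUnit_iff_constantCoeff.1 hx).ne_zero
  have h1 : IsUnit (z ()) := by
    rw [isUnit_iff_constantCoeff]
    refine IsUnit.of_mul_eq_one ⟨(constantCoeff (x : MvPowerSeries σ K))⁻¹,
      Subring.subset_closure (hs (Finset.mem_singleton_self _))⟩ (Subtype.ext ?_)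
    have h2 : ((constantCoeff (z ()) : Subring.closure (s : Set K)) : K) =
        constantCoeff (x : MvPowerSeries σ K) := by
      rw [← hz ()]
      rfl
    simp [h2, h0]
  have h3 : nu σ s (z ()) = x := Subtype.ext (hz ())
  exact h3 ▸ h1.map _

theorem solve_good [Finite σ] (c : good σ K) (hc : constantCoeff (c : MvPowerSeries σ K) = 0)
    (Q : Polynomial (good σ K)) : ∃ η, c ∣ η ∧ c + η + η ^ 2 * Q.eval η = 0 := by
  classical
  obtain ⟨s, -, z, hz⟩ := exists_common (ι := Option (Fin (Q.natDegree + 1)))
    (fun o => match o with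
      | none => (c : MvPowerSeries σ K)
      | some l => (Q.coeff l : MvPowerSeries σ K))
    (fun o => by
      cases o with
      | none => exact c.2
      | some l => exact (Q.coeff l).2) ∅
  have h1 : nu σ s (z none) = c := Subtype.ext (hz none)
  obtain ⟨Q', hQ'⟩ : Q ∈ Polynomial.lifts (nu σ s) := by
    rw [Polynomial.lifts_iff_coeff_lifts]
    intro l
    by_cases hl : l < Q.natDegree + 1
    · exact ⟨z (some ⟨l, hl⟩), Subtype.ext (hz (some ⟨l, hl⟩))⟩
    · exact ⟨0, by rw [map_zero, Polynomial.coeff_eq_zero_of_natDegree_lt (by omega)]⟩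
  have h2 : constantCoeff (z none) = 0 := by
    apply Subtype.ext
    have := hz none
    simp only at this
    rw [← this] at hc
    exact hc
  obtain ⟨η, hη, hη'⟩ := Abs.solve (IX σ _) (z none) (mem_IX h2) Q'
  refine ⟨nu σ s η, h1 ▸ map_dvd _ hη, ?_⟩
  have h3 := congrArg (nu σ s) hη'
  rw [map_add, map_add, map_mul, map_pow, map_zero, h1] at h3
  rw [← h3, ← hQ', Polynomial.coe_mapRingHom, Polynomial.eval_map, Polynomial.eval₂_at_apply]

end good

section shear

variable {n : ℕ} {R : Type} [CommRing R]

/-- the linear substitution -/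
noncomputable def sv (c : Fin n → R) : Fin (n + 1) → MvPowerSeries (Fin (n + 1)) R :=
  Fin.cons (X 0) fun j => X j.succ + C (c j) * X 0

theorem hasSubst_sv (c : Fin n → R) : HasSubst (sv c) :=
  hasSubst_of_constantCoeff_zero fun i => by
    refine Fin.cases ?_ (fun j => ?_) i <;> simp [sv]

theorem subst_sv_sv (c c' : Fin n → R) (h : ∀ j, c j + c' j = 0)
    (f : MvPowerSeries (Fin (n + 1)) R) : subst (sv c') (subst (sv c) f) = f := by
  rw [subst_comp_subst_apply (hasSubst_sv c) (hasSubst_sv c')]
  have : (fun s => subst (sv c') (sv c s)) = X := by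
    funext i
    refine Fin.cases ?_ (fun j => ?_) i
    · simp only [sv, Fin.cons_zero]
      exact subst_X (hasSubst_sv c') 0
    · have h1 : sv c j.succ = X j.succ + C (c j) * X 0 := rfl
      rw [h1, subst_add (hasSubst_sv c'), subst_mul (hasSubst_sv c'), subst_X (hasSubst_sv c'),
        subst_X (hasSubst_sv c'), subst_C]
      simp only [sv, Fin.cons_zero, Fin.cons_succ]
      rw [add_assoc, ← add_mul, ← map_add, add_comm (c' j), h j, map_zero, zero_mul, add_zero]
  rw [this, subst_self]
  rfl

/-- the linear change of coordinates -/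
noncomputable def shear (c : Fin n → R) :
    MvPowerSeries (Fin (n + 1)) R ≃+* MvPowerSeries (Fin (n + 1)) R where
  toFun := subst (sv c)
  invFun := subst (sv (-c))
  left_inv f := subst_sv_sv c (-c) (fun j => by simp) f
  right_inv f := subst_sv_sv (-c) c (fun j => by simp) f
  map_mul' := subst_mul (hasSubst_sv c)
  map_add' := subst_add (hasSubst_sv c)

/-- change of coordinates followed by singling out the first variable -/
noncomputable def EE (c : Fin n → R) :
    MvPowerSeries (Fin (n + 1)) R ≃+* PowerSeries (MvPowerSeries (Fin n) R) :=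
  (shear c).trans (finSuccEquiv R n).toRingEquiv

theorem EE_apply (c : Fin n → R) (f : MvPowerSeries (Fin (n + 1)) R) :
    EE c f = finSuccEquiv R n (subst (sv c) f) := rfl

theorem EE_symm_apply (c : Fin n → R) (f : PowerSeries (MvPowerSeries (Fin n) R)) :
    (EE c).symm f = subst (sv (-c)) ((finSuccEquiv R n).symm f) := rfl

theorem EE_C (c : Fin n → R) (r : R) : EE c (C r) = PowerSeries.C (C r) := by
  rw [EE_apply, subst_C, finSuccEquiv_C]

theorem EE_X_zero (c : Fin n → R) : EE c (X 0) = PowerSeries.X := by
  rw [EE_apply, subst_X (hasSubst_sv c)]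
  simp [sv]

theorem EE_X_succ (c : Fin n → R) (j : Fin n) :
    EE c (X j.succ) = PowerSeries.C (X j) + PowerSeries.C (C (c j)) * PowerSeries.X := by
  rw [EE_apply, subst_X (hasSubst_sv c)]
  simp [sv]

/-- polynomial version of `EE` -/
noncomputable def dd (c : Fin n → R) :
    MvPolynomial (Fin (n + 1)) R →+* Polynomial (MvPolynomial (Fin n) R) :=
  MvPolynomial.eval₂Hom (Polynomial.C.comp MvPolynomial.C)
    (Fin.cons Polynomial.X fun j => Polynomial.C (MvPolynomial.X j) +
      Polynomial.C (MvPolynomial.C (c j)) * Polynomial.X)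

theorem toPS_comp_dd (c : Fin n → R) :
    (Abs.toPS MvPolynomial.coeToMvPowerSeries.ringHom).comp (dd c) =
      (EE c).toRingHom.comp MvPolynomial.coeToMvPowerSeries.ringHom := by
  refine MvPolynomial.ringHom_ext (fun r => ?_) (fun i => ?_)
  · simp [dd, Abs.toPS_apply, EE_C]
  · refine Fin.cases ?_ (fun j => ?_) i
    · simp [dd, Abs.toPS_apply, EE_X_zero]
    · simp [dd, Abs.toPS_apply, EE_X_succ]

theorem symm_C_mem (c : Fin n → R) (L : ℕ) (x : MvPowerSeries (Fin n) R)
    (hx : x ∈ IX (Fin n) R ^ L) : (EE c).symm (PowerSeries.C x) ∈ IX (Fin (n + 1)) R ^ L := by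
  let μ : MvPowerSeries (Fin n) R →+* MvPowerSeries (Fin (n + 1)) R :=
    (EE c).symm.toRingHom.comp PowerSeries.C
  have h1 : IX (Fin n) R ≤ (IX (Fin (n + 1)) R).comap μ := by
    rw [Ideal.span_le]
    rintro _ ⟨j, rfl⟩
    have : μ (X j) = X j.succ - C (c j) * X 0 := by
      change (EE c).symm (PowerSeries.C (X j)) = _
      rw [RingEquiv.symm_apply_eq, map_sub, map_mul, EE_X_succ, EE_C, EE_X_zero]
      ring
    change μ (X j) ∈ IX (Fin (n + 1)) R
    rw [this]
    exact sub_mem (Ideal.subset_span ⟨_, rfl⟩) (Ideal.mul_mem_left _ _ (Ideal.subset_span ⟨_, rfl⟩))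
  exact (Ideal.le_comap_pow μ L) (Ideal.pow_right_mono h1 L hx)

variable {K : Type} [Field K]

theorem subst_sv_good (c : Fin n → K) (x : MvPowerSeries (Fin (n + 1)) K)
    (hx : x ∈ good (Fin (n + 1)) K) : subst (sv c) x ∈ good (Fin (n + 1)) K := by
  classical
  obtain ⟨s, hs, z, hz⟩ := exists_common (ι := Unit) (fun _ => x) (fun _ => hx)
    (Finset.univ.image c)
  let c' : Fin n → Subring.closure (s : Set K) := fun j =>
    ⟨c j, Subring.subset_closure (hs (Finset.mem_image_of_mem c (Finset.mem_univ j)))⟩
  have h1 : (fun i => map (Subring.closure (s : Set K)).subtype (sv c' i)) = sv c := by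
    funext i
    refine Fin.cases ?_ (fun j => ?_) i
    · simp [sv]
    · simp [sv, c']
  rw [← hz (), ← h1, ← map_subst (hasSubst_sv c')]
  exact map_mem_good s _

theorem symm_toPS_good (c : Fin n → K) (g : Polynomial (good (Fin n) K)) :
    (EE c).symm (Abs.toPS (good (Fin n) K).subtype g) ∈ good (Fin (n + 1)) K := by
  induction g using Polynomial.induction_on' with
  | add g h hg hh =>
    rw [map_add, map_add]
    exact add_mem hg hh
  | monomial k a =>
    rw [← Polynomial.C_mul_X_pow_eq_monomial, map_mul, map_mul, map_pow, map_pow]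
    refine mul_mem ?_ (pow_mem ?_ _)
    · rw [EE_symm_apply]
      refine subst_sv_good _ _ ?_
      obtain ⟨s, hs⟩ := a.2
      refine ⟨s, fun d => ?_⟩
      rw [← Finsupp.cons_tail d, ← coeff_coeff_finSuccEquiv, AlgEquiv.apply_symm_apply,
        Abs.toPS_apply, Polynomial.map_C, Polynomial.coe_C, PowerSeries.coeff_C]
      split_ifs
      · exact hs _
      · exact zero_mem _
    · have : (EE c).symm (Abs.toPS (good (Fin n) K).subtype Polynomial.X) = X 0 := by
        rw [RingEquiv.symm_apply_eq, EE_X_zero, Abs.toPS_apply, Polynomial.map_X, Polynomial.coe_X]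
      rw [this, ← MvPolynomial.coe_X]
      exact coe_mem_good _

/-- a nonzero power series is regular in the first variable after a linear change of
coordinates -/
theorem exists_regular [Infinite K] (F : MvPowerSeries (Fin (n + 1)) K) (hF : F ≠ 0) :
    ∃ c : Fin n → K, (EE c F).map (IsLocalRing.residue (MvPowerSeries (Fin n) K)) ≠ 0 := by
  by_contra! hcon
  apply hF
  ext d0
  set N := d0.degree with hN
  set p : MvPolynomial (Fin (n + 1)) K := truncTotal (N + 1) F with hp
  have hdeg : p.totalDegree ≤ N := Nat.lt_succ_iff.1 (totalDegree_truncTotal_lt F (by omega))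
  have hχ : ∀ c : Fin n → K, MvPolynomial.aeval
      (fun i => Polynomial.C ((Fin.cons 1 c : Fin (n + 1) → K) i) * Polynomial.X) p =
      (0 : Polynomial K) := by
    intro c
    let ψ : MvPowerSeries (Fin (n + 1)) K →+* PowerSeries K :=
      (PowerSeries.map (constantCoeff (σ := Fin n) (R := K))).comp (EE c).toRingHom
    have hψF : ψ F = 0 := by
      ext k
      have h1 := congrArg (PowerSeries.coeff k) (hcon c)
      rw [PowerSeries.coeff_map, map_zero, IsLocalRing.residue_eq_zero_iff, maximalIdeal_eq] at h1
      simpa [ψ] using constantCoeff_of_mem_IX h1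
    have hψX : ∀ i, ψ (X i) = PowerSeries.C ((Fin.cons 1 c : Fin (n + 1) → K) i) *
        PowerSeries.X := fun i => by
      refine Fin.cases ?_ (fun j => ?_) i
      · simp [ψ, EE_X_zero]
      · simp [ψ, EE_X_succ]
    have h1 : IX (Fin (n + 1)) K ≤ (Ideal.span {PowerSeries.X}).comap ψ := by
      rw [Ideal.span_le]
      rintro _ ⟨i, rfl⟩
      change ψ (X i) ∈ Ideal.span {PowerSeries.X}
      rw [hψX]
      exact Ideal.mul_mem_left _ _ (Ideal.mem_span_singleton_self _)
    have h2 : ψ ((p : MvPowerSeries (Fin (n + 1)) K) - F) ∈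
        (Ideal.span {PowerSeries.X} : Ideal (PowerSeries K)) ^ (N + 1) :=
      (Ideal.le_comap_pow ψ (N + 1)) (Ideal.pow_right_mono h1 _ (sub_trunc_mem (N + 1) F))
    rw [map_sub, hψF, sub_zero, Ideal.span_singleton_pow, Ideal.mem_span_singleton,
      PowerSeries.X_pow_dvd_iff] at h2
    have h3 : ψ.comp MvPolynomial.coeToMvPowerSeries.ringHom =
        (Polynomial.coeToPowerSeries.ringHom).comp (MvPolynomial.aeval
          (fun i => Polynomial.C ((Fin.cons 1 c : Fin (n + 1) → K) i) * Polynomial.X) :
            MvPolynomial (Fin (n + 1)) K →ₐ[K] Polynomial K).toRingHom := by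
      refine MvPolynomial.ringHom_ext (fun r => ?_) (fun i => ?_)
      · simp [ψ, EE_C]
      · simp [hψX]
    have h4 := DFunLike.congr_fun h3 p
    simp only [RingHom.comp_apply, MvPolynomial.coeToMvPowerSeries.ringHom_apply,
      Polynomial.coeToPowerSeries.ringHom_apply] at h4
    have h5 := MvPolynomial.aeval_natDegree_le p hdeg
      (fun i => Polynomial.C ((Fin.cons 1 c : Fin (n + 1) → K) i) * Polynomial.X) (n := 1)
      (fun i => (Polynomial.natDegree_C_mul_le _ _).trans Polynomial.natDegree_X_le)
    ext k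
    by_cases hk : k < N + 1
    · have := h2 k hk
      rw [h4, Polynomial.coeff_coe] at this
      exact this
    · rw [Polynomial.coeff_zero]
      exact Polynomial.coeff_eq_zero_of_natDegree_lt (by omega)
  have hp0 : MvPolynomial.X 0 * p = 0 := by
    refine MvPolynomial.funext fun x => ?_
    rw [map_mul, MvPolynomial.eval_X, map_zero]
    by_cases hx : x 0 = 0
    · rw [hx, zero_mul]
    · have h1 := congrArg (Polynomial.aeval (x 0)) (hχ fun j => x j.succ / x 0)
      rw [← AlgHom.comp_apply, MvPolynomial.comp_aeval, map_zero] at h1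
      have h2 : (fun i => Polynomial.aeval (x 0) (Polynomial.C
          ((Fin.cons 1 (fun j : Fin n => x j.succ / x 0) : Fin (n + 1) → K) i) *
            Polynomial.X)) = x := by
        funext i
        refine Fin.cases ?_ (fun j => ?_) i
        · simp
        · simp [hx]
      rw [h2] at h1
      rw [← MvPolynomial.coe_aeval_eq_eval]
      change x 0 * MvPolynomial.aeval x p = 0
      rw [h1, mul_zero]
  have hp1 : p = 0 := (mul_eq_zero.1 hp0).resolve_left (MvPolynomial.X_ne_zero _)
  have := coeff_truncTotal F (show d0.degree < N + 1 by omega)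
  rw [← this, ← hp, hp1]
  simp

end shear

end Crest.Agent.R169.PS
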