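import Crest.Agent.R169.Sep
import Crest.Agent.R169.TransferPS

set_option autoImplicit false

namespace Crest.Agent.R169

/-- the coefficients of a power series lie in a finitely generated subring -/
def GoodPS {K : Type} [Field K] {σ : Type} (y : MvPowerSeries σ K) : Prop :=
  ∃ s : Finset K, ∀ d, MvPowerSeries.coeff d y ∈ Subring.closure (s : Set K)

namespace PS

open MvPowerSeries

theorem exists_sep' {D Ω ι : Type} [CommRing D] [IsDomain D] [CharZero D] [CommRing Ω] [IsDomain Ω]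
    (θ : D →+* Ω) (hinj : Function.Injective θ) [Finite ι] [DecidableEq ι] (y : ι → Ω) :
    ∃ (T : Finset ι) (f : ι → MvPolynomial ι D),
      (∀ i ∈ T, ∀ j ∈ (f i).vars, j = i ∨ j ∉ T) ∧
      (∀ i ∈ T, MvPolynomial.eval₂ θ y (f i) = 0) ∧
      (∀ i ∈ T, MvPolynomial.eval₂ θ y (MvPolynomial.pderiv i (f i)) ≠ 0) ∧
      ∀ h : MvPolynomial ι D, MvPolynomial.eval₂ θ y h = 0 →
        ∃ g : MvPolynomial ι D, MvPolynomial.eval₂ θ y g ≠ 0 ∧
          g * h ∈ Ideal.span (f '' (T : Set ι)) := by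
  letI := θ.toAlgebra
  exact exists_sep (D := D) (Ω := Ω) hinj y

theorem ap_zero {K : Type} [Field K] (I : Ideal (MvPowerSeries (Fin 0) K)) :
    Abs.AP (pG (Fin 0) K) (good (Fin 0) K).subtype I := by
  intro ι _ yhat H hH
  have hy : ∀ i, yhat i ∈ good (Fin 0) K := fun i =>
    ⟨{coeff 0 (yhat i)}, fun d => by
      rw [Subsingleton.elim d 0]
      exact Subring.subset_closure (by simp)⟩
  refine ⟨fun i => ⟨yhat i, hy i⟩, fun i => by simp, fun h hh => ?_⟩
  apply Subtype.ext
  have := MvPolynomial.eval₂_comp_left (good (Fin 0) K).subtype (pG (Fin 0) K)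
    (fun i => ⟨yhat i, hy i⟩) h
  exact this.trans (hH h hh)

theorem ap_succ {K : Type} [Field K] [CharZero K] (n : ℕ)
    (ih : ∀ L, Abs.AP (pG (Fin n) K) (good (Fin n) K).subtype (IX (Fin n) K ^ L)) (L : ℕ) :
    Abs.AP (pG (Fin (n + 1)) K) (good (Fin (n + 1)) K).subtype (IX (Fin (n + 1)) K ^ L) := by
  classical
  intro ι _ yhat H hH
  rw [subtype_comp_pG] at hH
  set θ : MvPolynomial (Fin (n + 1)) K →+* MvPowerSeries (Fin (n + 1)) K :=
    MvPolynomial.coeToMvPowerSeries.ringHom with hθ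
  haveI : IsDomain (MvPowerSeries (Fin (n + 1)) K) := NoZeroDivisors.to_isDomain _
  obtain ⟨T, f, hvars, hf0, hder, hg⟩ := exists_sep' θ (MvPolynomial.coe_injective _ _) yhat
  choose! g hg0 hgspan using hg
  have hG : MvPolynomial.eval₂ θ yhat (∏ h ∈ H, g h) ≠ 0 := by
    rw [MvPolynomial.eval₂_prod]
    exact Finset.prod_ne_zero_iff.2 fun h hh => hg0 h (hH h hh)
  obtain ⟨L0, hL0⟩ := exists_notMem_pow hG
  set L' := L + L0 + 1 with hL'
  have hF : MvPolynomial.eval₂ θ yhat (∏ i ∈ T, MvPolynomial.pderiv i (f i) ^ 2) ≠ 0 := by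
    rw [MvPolynomial.eval₂_prod]
    refine Finset.prod_ne_zero_iff.2 fun i hi => ?_
    rw [MvPolynomial.eval₂_pow]
    exact pow_ne_zero _ (hder i hi)
  obtain ⟨c, hc⟩ := exists_regular _ hF
  haveI := isAdicComplete_max (σ := Fin n) (K := K)
  let J : Ideal (PowerSeries (MvPowerSeries (Fin n) K)) :=
    (IX (Fin (n + 1)) K ^ L').comap (EE c).symm.toRingHom
  have hJ : ∀ x, x ∈ J ↔ (EE c).symm x ∈ IX (Fin (n + 1)) K ^ L' := fun x => Iff.rfl
  let β : Polynomial (good (Fin n) K) →+* good (Fin (n + 1)) K :=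
    ((EE c).symm.toRingHom.comp (Abs.toPS (good (Fin n) K).subtype)).codRestrict _
      (symm_toPS_good c)
  let j : good (Fin (n + 1)) K →+* PowerSeries (MvPowerSeries (Fin n) K) :=
    (EE c).toRingHom.comp (good (Fin (n + 1)) K).subtype
  have hj : ∀ x, j x = EE c (x : MvPowerSeries (Fin (n + 1)) K) := fun x => rfl
  have hβ : ∀ g, j (β g) = Abs.toPS (good (Fin n) K).subtype g := fun g =>
    (EE c).apply_symm_apply _
  have hle1 : IX (Fin (n + 1)) K ^ L' ≤ IX (Fin (n + 1)) K := Ideal.pow_le_self (by omega)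
  have hev : ∀ Φ : MvPolynomial ι (MvPolynomial (Fin (n + 1)) K),
      MvPolynomial.eval₂ (Abs.toPS ((good (Fin n) K).subtype.comp (pG (Fin n) K)))
        (fun i => EE c (yhat i)) (MvPolynomial.map (dd c) Φ) =
      EE c (MvPolynomial.eval₂ θ yhat Φ) := fun Φ => by
    rw [MvPolynomial.eval₂_map, subtype_comp_pG, toPS_comp_dd]
    exact (MvPolynomial.eval₂_comp_left (EE c).toRingHom θ yhat Φ).symm
  have hβd : (β.comp (Polynomial.mapRingHom (pG (Fin n) K))).comp (dd c) =
      pG (Fin (n + 1)) K := by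
    refine RingHom.ext fun d => Subtype.ext ((EE c).injective ?_)
    have h1 := hβ ((dd c d).map (pG (Fin n) K))
    have h2 := DFunLike.congr_fun (toPS_comp_dd c) d
    rw [Abs.toPS_apply, Polynomial.map_map, subtype_comp_pG] at h1
    exact h1.trans h2
  obtain ⟨y, hy, hyf⟩ := Abs.step (pG (Fin n) K) (good (Fin n) K).subtype _ (ih L') J
    (fun x hx => symm_C_mem c L' x hx) β j hβ
    (fun q => ⟨pG _ K (truncTotal L' ((EE c).symm q)), by
      rw [hJ, map_sub, hj, RingEquiv.symm_apply_apply]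
      exact sub_trunc_mem _ _⟩)
    (fun x u hu hxu => by
      rw [hJ, map_sub, hj, RingEquiv.symm_apply_apply] at hxu
      have h1 := constantCoeff_of_mem_IX (hle1 hxu)
      rw [map_sub, sub_eq_zero] at h1
      refine isUnit_good x ?_
      rw [isUnit_iff_constantCoeff, h1, ← isUnit_iff_constantCoeff]
      exact hu.map _)
    (fun e he Q => by
      have he' := he
      rw [Ideal.mem_comap, hJ, hj, RingEquiv.symm_apply_apply] at he'
      obtain ⟨η, hη, hη'⟩ := solve_good e (constantCoeff_of_mem_IX (hle1 he')) Q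
      exact ⟨η, Ideal.mem_of_dvd _ hη he, hη'⟩)
    (fun i => EE c (yhat i)) T (fun i => MvPolynomial.map (dd c) (f i))
    (fun i hi k hk => hvars i hi k (MvPolynomial.vars_map _ _ hk))
    (fun i hi => by rw [hev, hf0 i hi, map_zero])
    (by
      have : (∏ i ∈ T, MvPolynomial.pderiv i (MvPolynomial.map (dd c) (f i)) ^ 2) =
          MvPolynomial.map (dd c) (∏ i ∈ T, MvPolynomial.pderiv i (f i) ^ 2) := by
        simp only [map_prod, map_pow, MvPolynomial.pderiv_map]
      rw [this, hev]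
      exact hc)
  have hy' : ∀ i, (y i : MvPowerSeries (Fin (n + 1)) K) - yhat i ∈ IX (Fin (n + 1)) K ^ L' :=
    fun i => by
      have := hy i
      rwa [hJ, map_sub, hj, RingEquiv.symm_apply_apply, RingEquiv.symm_apply_apply] at this
  have hyf' : ∀ i ∈ T, MvPolynomial.eval₂ (pG (Fin (n + 1)) K) y (f i) = 0 := fun i hi => by
    have := hyf i hi
    rwa [MvPolynomial.eval₂_map, hβd] at this
  refine ⟨y, fun i => Ideal.pow_le_pow_right (by omega) (hy' i), fun h hh => ?_⟩
  have h1 : MvPolynomial.eval₂ (pG (Fin (n + 1)) K) y (∏ h ∈ H, g h) ≠ 0 := by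
    intro h0
    apply hL0
    have h2 := Abs.eval₂_sub_mem θ θ (IX (Fin (n + 1)) K ^ L') (by simp)
      (fun i => (y i : MvPowerSeries (Fin (n + 1)) K)) yhat hy' (∏ h ∈ H, g h)
    have h3 := MvPolynomial.eval₂_comp_left (good (Fin (n + 1)) K).subtype (pG (Fin (n + 1)) K) y
      (∏ h ∈ H, g h)
    rw [h0, map_zero] at h3
    have h4 : MvPolynomial.eval₂ θ (fun i => (y i : MvPowerSeries (Fin (n + 1)) K))
        (∏ h ∈ H, g h) = 0 := h3.symm
    rw [h4, zero_sub, neg_mem_iff] at h2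
    exact Ideal.pow_le_pow_right (by omega) h2
  rw [MvPolynomial.eval₂_prod] at h1
  have h2 := Finset.prod_ne_zero_iff.1 h1 h hh
  have h3 : Ideal.span (f '' (T : Set ι)) ≤
      RingHom.ker (MvPolynomial.eval₂Hom (pG (Fin (n + 1)) K) y) := by
    rw [Ideal.span_le]
    rintro _ ⟨i, hi, rfl⟩
    exact hyf' i hi
  have h4 := h3 (hgspan h (hH h hh))
  rw [RingHom.mem_ker, map_mul] at h4
  exact (mul_eq_zero.1 h4).resolve_left h2

theorem ap {K : Type} [Field K] [CharZero K] (n : ℕ) :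
    ∀ L, Abs.AP (pG (Fin n) K) (good (Fin n) K).subtype (IX (Fin n) K ^ L) := by
  induction n with
  | zero => exact fun L => ap_zero _
  | succ n ih => exact ap_succ n ih

theorem map_aeval_int {ι A B : Type} [CommRing A] [CommRing B] [Algebra ℤ A] [Algebra ℤ B]
    (φ : A →+* B) (y : ι → A)
    (F : MvPolynomial ι ℤ) :
    φ (MvPolynomial.aeval y F) = MvPolynomial.aeval (fun i => φ (y i)) F := by
  rw [MvPolynomial.map_aeval, MvPolynomial.aeval_def, MvPolynomial.coe_eval₂Hom]
  congr 1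
  exact RingHom.ext_int _ _

theorem map_aeval_elim {ι σ R S : Type} [CommRing R] [CommRing S] (ρ : R →+* S)
    (y : ι → MvPowerSeries σ R) (F : MvPolynomial (ι ⊕ σ) ℤ) :
    map ρ (MvPolynomial.aeval (Sum.elim y X) F) =
      MvPolynomial.aeval (Sum.elim (fun i => map ρ (y i)) X) F := by
  rw [map_aeval_int]
  congr 2
  funext i
  cases i <;> simp

end PS

/-- Artin approximation by power series with coefficients in a finitely generated subring. -/
theorem approx {K : Type} [Field K] [CharZero K] (n : ℕ) :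
    ∀ (ι : Type) [Finite ι] (yhat : ι → MvPowerSeries (Fin n) K)
      (H : Finset (MvPolynomial ι (MvPolynomial (Fin n) K))),
      (∀ h ∈ H, MvPolynomial.eval₂ (MvPolynomial.coeToMvPowerSeries.ringHom) yhat h = 0) →
      ∀ L : ℕ, ∃ y : ι → MvPowerSeries (Fin n) K, (∀ i, GoodPS (y i)) ∧
        (∀ i, (L : ℕ∞) ≤ (y i - yhat i).order) ∧
        ∀ h ∈ H, MvPolynomial.eval₂ (MvPolynomial.coeToMvPowerSeries.ringHom) y h = 0 := by
  intro ι _ yhat H hH L
  obtain ⟨y, hy, hy'⟩ := PS.ap n L ι yhat H hH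
  refine ⟨fun i => y i, fun i => (y i).2, fun i => PS.le_order_of_mem_pow L _ (hy i),
    fun h hh => ?_⟩
  have := MvPolynomial.eval₂_comp_left (PS.good (Fin n) K).subtype (PS.pG (Fin n) K) y h
  rw [hy' h hh, map_zero] at this
  exact this.symm

/-- Artin-type transfer: every integral polynomial identity satisfied by finitely many complex
power series (and the variables) is satisfied by power series over some algebraically closed
field of arbitrarily large prime characteristic. -/
theorem transfer {ι : Type} [Finite ι] (n : ℕ) (yhat : ι → MvPowerSeries (Fin n) ℂ) (M : ℕ) :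
    ∃ (p : ℕ) (k : Type) (_ : Field k) (_ : CharP k p) (_ : IsAlgClosed k),
      p.Prime ∧ M < p ∧ ∃ y : ι → MvPowerSeries (Fin n) k,
        ∀ F : MvPolynomial (ι ⊕ Fin n) ℤ,
          MvPolynomial.aeval (Sum.elim yhat MvPowerSeries.X) F = 0 →
          MvPolynomial.aeval (Sum.elim y MvPowerSeries.X) F = 0 := by
  classical
  let Λ : MvPolynomial (ι ⊕ Fin n) ℤ →ₐ[ℤ] MvPolynomial ι (MvPolynomial (Fin n) ℂ) :=
    MvPolynomial.aeval (Sum.elim MvPolynomial.X fun j => MvPolynomial.C (MvPolynomial.X j))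
  have hΛ : ∀ (y : ι → MvPowerSeries (Fin n) ℂ) (F : MvPolynomial (ι ⊕ Fin n) ℤ),
      MvPolynomial.eval₂ (MvPolynomial.coeToMvPowerSeries.ringHom) y (Λ F) =
        MvPolynomial.aeval (Sum.elim y MvPowerSeries.X) F := by
    intro y F
    have := PS.map_aeval_int (MvPolynomial.eval₂Hom (MvPolynomial.coeToMvPowerSeries.ringHom) y)
      (Sum.elim MvPolynomial.X fun j => MvPolynomial.C (MvPolynomial.X j)) F
    rw [MvPolynomial.coe_eval₂Hom] at this
    refine this.trans ?_
    congr 2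
    funext i
    cases i <;> simp
  obtain ⟨S, hS⟩ := IsNoetherian.noetherian (RingHom.ker
    (MvPolynomial.aeval (R := ℤ) (Sum.elim yhat MvPowerSeries.X)))
  obtain ⟨y, hy, -, hyS⟩ := approx n ι yhat (S.image Λ) (by
    intro h hh
    obtain ⟨F, hF, rfl⟩ := Finset.mem_image.1 hh
    rw [hΛ]
    have : F ∈ RingHom.ker (MvPolynomial.aeval (R := ℤ) (Sum.elim yhat MvPowerSeries.X)) :=
      hS ▸ Submodule.subset_span hF
    exact this) 0
  obtain ⟨s, -, x, hx⟩ := PS.exists_common y hy ∅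
  obtain ⟨p, k, _, _, _, hp, hM, ⟨ρ⟩⟩ := exists_hom_charP s M
  refine ⟨p, k, inferInstance, inferInstance, inferInstance, hp, hM,
    fun i => MvPowerSeries.map ρ (x i), fun F hF => ?_⟩
  have h1 : RingHom.ker (MvPolynomial.aeval (R := ℤ) (Sum.elim yhat MvPowerSeries.X)) ≤
      RingHom.ker (MvPolynomial.aeval (R := ℤ) (Sum.elim y MvPowerSeries.X)) := by
    rw [← hS, Submodule.span_le]
    intro G hG
    have := hyS _ (Finset.mem_image_of_mem Λ hG)
    rw [hΛ] at this
    exact this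
  have h2 : MvPolynomial.aeval (Sum.elim y MvPowerSeries.X) F = 0 := h1 hF
  have h3 := PS.map_aeval_elim (Subring.closure (s : Set ℂ)).subtype x F
  rw [funext hx, h2] at h3
  have h4 : MvPolynomial.aeval (Sum.elim x MvPowerSeries.X) F = 0 := by
    ext d
    exact congrArg (MvPowerSeries.coeff d) h3
  rw [← PS.map_aeval_elim, h4, map_zero]

/-- `NoRep` over `ℂ` follows from `NoRep` in all large prime characteristics. -/
theorem noRep_of_charP (m N : ℕ) (M : ℕ)
    (h : ∀ (p : ℕ) (k : Type) [Field k] [CharP k p] [IsAlgClosed k], p.Prime → M < p →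
      NoRep m N k) : NoRep m N ℂ := by
  intro u hu
  obtain ⟨p, k, _, _, _, hp, hM, y, hy⟩ := transfer (ι := Var m × Fin N × Fin N) 3
    (fun v => u v.1 v.2.1 v.2.2) M
  let O := MvPolynomial ((Var m × Fin N × Fin N) ⊕ Fin 3) ℤ
  let U : Var m → Matrix (Fin N) (Fin N) O := fun v =>
    Matrix.of fun a b => MvPolynomial.X (Sum.inl (v, a, b))
  have key : ∀ {K : Type} [Field K] (z : Var m × Fin N × Fin N → MvPowerSeries (Fin 3) K),
      let f : Matrix (Fin N) (Fin N) O →+* Matrix (Fin N) (Fin N) (MvPowerSeries (Fin 3) K) :=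
        RingHom.mapMatrix (MvPolynomial.aeval (R := ℤ) (Sum.elim z MvPowerSeries.X)).toRingHom
      f (Matrix.scalar (Fin N) (MvPolynomial.X (Sum.inr 1))) =
          Matrix.scalar (Fin N) (MvPowerSeries.X 1) ∧
        f (Matrix.scalar (Fin N) (((cc m : ℤ) : O) * MvPolynomial.X (Sum.inr 1) +
          MvPolynomial.X (Sum.inr 0))) =
          Matrix.scalar (Fin N) (((cc m : ℤ) : MvPowerSeries (Fin 3) K) * MvPowerSeries.X 1 +
            MvPowerSeries.X 0) ∧
        f (Matrix.scalar (Fin N) (MvPolynomial.X (Sum.inr 2))) =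
          Matrix.scalar (Fin N) (MvPowerSeries.X 2) ∧
        (fun v => f (U v)) = fun v => Matrix.of fun a b => z (v, a, b) := by
    intro K _ z f
    have hs : ∀ x : O, f (Matrix.scalar (Fin N) x) = Matrix.scalar (Fin N)
        (MvPolynomial.aeval (R := ℤ) (Sum.elim z MvPowerSeries.X) x) := fun x => by
      ext1 a b
      simp only [f, RingHom.mapMatrix_apply, Matrix.map_apply, Matrix.scalar_apply,
        Matrix.diagonal_apply]
      split_ifs
      · rfl
      · exact map_zero _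
    refine ⟨?_, ?_, ?_, ?_⟩
    · rw [hs, MvPolynomial.aeval_X, Sum.elim_inr]
    · rw [hs, map_add, map_mul, map_intCast, MvPolynomial.aeval_X, MvPolynomial.aeval_X,
        Sum.elim_inr, Sum.elim_inr]
    · rw [hs, MvPolynomial.aeval_X, Sum.elim_inr]
    · funext v
      ext1 a b
      exact MvPolynomial.aeval_X _ _
  obtain ⟨a1, a2, a3, a4⟩ := key (fun v : Var m × Fin N × Fin N => u v.1 v.2.1 v.2.2)
  obtain ⟨b1, b2, b3, b4⟩ := key y
  refine h p k hp hM (fun v => Matrix.of fun a b => y (v, a, b)) ?_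
  rw [← b1, ← b2, ← b3, ← b4]
  refine Rel.transfer (RingHom.mapMatrix (MvPolynomial.aeval (R := ℤ) (Sum.elim
    (fun v : Var m × Fin N × Fin N => u v.1 v.2.1 v.2.2) MvPowerSeries.X)).toRingHom) _
    (fun a ha => ?_) ?_
  · ext1 i j
    exact hy _ (congrFun (congrFun ha i) j)
  · rw [a1, a2, a3, a4]
    exact hu

end Crest.Agent.R169
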