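import Mathlib

/-!
Row 169, Artin approximation: the abstract commutative algebra of the inductive step.
-/

set_option autoImplicit false

namespace Crest.Agent.R169.Abs

open Polynomial

/-- The approximation property modulo an ideal `I` for `P → G → A`. -/
def AP {P G A : Type} [CommRing P] [CommRing G] [CommRing A] (p : P →+* G) (a : G →+* A)
    (I : Ideal A) : Prop :=
  ∀ (ι : Type) [Finite ι] (yhat : ι → A) (H : Finset (MvPolynomial ι P)),
    (∀ h ∈ H, MvPolynomial.eval₂ (a.comp p) yhat h = 0) →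
    ∃ y : ι → G, (∀ i, a (y i) - yhat i ∈ I) ∧ ∀ h ∈ H, MvPolynomial.eval₂ p y h = 0

theorem eval₂_sub_mem {R S ι : Type*} [CommRing R] [CommRing S] (f f' : R →+* S) (I : Ideal S)
    (hf : ∀ r, f r - f' r ∈ I) (y y' : ι → S) (h : ∀ i, y i - y' i ∈ I) (F : MvPolynomial ι R) :
    MvPolynomial.eval₂ f y F - MvPolynomial.eval₂ f' y' F ∈ I := by
  induction F using MvPolynomial.induction_on with
  | C r => simpa using hf r
  | add F G hF hG =>
    rw [MvPolynomial.eval₂_add, MvPolynomial.eval₂_add, add_sub_add_comm]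
    exact I.add_mem hF hG
  | mul_X F i hF =>
    rw [MvPolynomial.eval₂_mul, MvPolynomial.eval₂_mul, MvPolynomial.eval₂_X,
      MvPolynomial.eval₂_X]
    have : MvPolynomial.eval₂ f y F * y i - MvPolynomial.eval₂ f' y' F * y' i =
        (MvPolynomial.eval₂ f y F - MvPolynomial.eval₂ f' y' F) * y i +
          MvPolynomial.eval₂ f' y' F * (y i - y' i) := by ring
    rw [this]
    exact I.add_mem (I.mul_mem_right _ hF) (I.mul_mem_left _ (h i))

theorem eq_sum_fin {A : Type*} [CommRing A] {e : ℕ} (r : A[X]) (hr : r.degree < e) :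
    ∑ l : Fin e, C (r.coeff l) * X ^ (l : ℕ) = r := by
  have h := Polynomial.sum_fin (fun i a => (C a * X ^ i : A[X])) (by simp) hr
  rw [h]
  exact Polynomial.sum_C_mul_X_pow_eq r

/-- the coercion of polynomials over `P` to power series over `A` -/
noncomputable def toPS {P A : Type} [CommRing P] [CommRing A] (ρ : P →+* A) :
    P[X] →+* PowerSeries A :=
  (Polynomial.coeToPowerSeries.ringHom).comp (mapRingHom ρ)

theorem toPS_apply {P A : Type} [CommRing P] [CommRing A] (ρ : P →+* A) (g : P[X]) :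
    toPS ρ g = ((g.map ρ : A[X]) : PowerSeries A) := rfl

section generic

variable (P : Type) [CommRing P] (ι : Type) (e : ℕ)

/-- generic polynomial of degree `< e` -/
noncomputable def gen (o : Option ι) : (MvPolynomial (Option ι × Fin e) P)[X] :=
  ∑ l : Fin e, C (MvPolynomial.X (o, l)) * X ^ (l : ℕ)

/-- generic monic polynomial of degree `e` -/
noncomputable def Wg : (MvPolynomial (Option ι × Fin e) P)[X] := X ^ e + gen P ι e none

theorem Wg_monic : (Wg P ι e).Monic :=
  monic_X_pow_add (degree_sum_fin_lt _)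

/-- generic point -/
noncomputable def yg (i : ι) : MvPolynomial ι (MvPolynomial (Option ι × Fin e) P)[X] :=
  MvPolynomial.C (gen P ι e (some i)) + MvPolynomial.C (Wg P ι e) * MvPolynomial.X i

variable {P ι}

/-- generic remainder -/
noncomputable def rem (Φ : MvPolynomial ι P[X]) : (MvPolynomial (Option ι × Fin e) P)[X] :=
  MvPolynomial.eval₂ (mapRingHom MvPolynomial.C) (fun i => gen P ι e (some i)) Φ %ₘ Wg P ι e

theorem exists_E (Φ : MvPolynomial ι P[X]) :
    ∃ E : MvPolynomial ι (MvPolynomial (Option ι × Fin e) P)[X],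
      MvPolynomial.eval₂ (MvPolynomial.C.comp (mapRingHom MvPolynomial.C)) (yg P ι e) Φ =
        MvPolynomial.C (rem e Φ) + MvPolynomial.C (Wg P ι e) * E := by
  have h1 := eval₂_sub_mem (R := P[X]) (MvPolynomial.C.comp (mapRingHom MvPolynomial.C))
    (MvPolynomial.C.comp (mapRingHom MvPolynomial.C))
    (Ideal.span {(MvPolynomial.C (Wg P ι e) :
      MvPolynomial ι (MvPolynomial (Option ι × Fin e) P)[X])}) (by simp) (yg P ι e)
    ((MvPolynomial.C : _ →+* MvPolynomial ι (MvPolynomial (Option ι × Fin e) P)[X]) ∘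
      fun i => gen P ι e (some i)) (fun i => by
      simp only [yg, Function.comp_apply]
      exact Ideal.mem_span_singleton'.2 ⟨MvPolynomial.X i, by ring⟩) Φ
  rw [← MvPolynomial.eval₂_comp_left
    (MvPolynomial.C : _ →+* MvPolynomial ι (MvPolynomial (Option ι × Fin e) P)[X])
    (mapRingHom MvPolynomial.C) (fun i => gen P ι e (some i)) Φ] at h1
  obtain ⟨E, hE⟩ := Ideal.mem_span_singleton'.1 h1
  refine ⟨E + MvPolynomial.C (MvPolynomial.eval₂ (mapRingHom MvPolynomial.C)
    (fun i => gen P ι e (some i)) Φ /ₘ Wg P ι e), ?_⟩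
  have h2 := modByMonic_add_div (MvPolynomial.eval₂ (mapRingHom MvPolynomial.C)
    (fun i => gen P ι e (some i)) Φ) (Wg P ι e)
  have h3 := congrArg (MvPolynomial.C (σ := ι)) h2
  rw [map_add, map_mul] at h3
  rw [rem]
  linear_combination -hE - h3

variable {e}

/-- evaluation of the generic ring -/
noncomputable def evU {R Z : Type} [CommRing R] [CommRing Z] (ρ : P →+* R)
    (z : Option ι × Fin e → R) (γ : R[X] →+* Z) (q : ι → Z) :
    MvPolynomial ι (MvPolynomial (Option ι × Fin e) P)[X] →+* Z :=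
  MvPolynomial.eval₂Hom (γ.comp (mapRingHom (MvPolynomial.eval₂Hom ρ z))) q

theorem evU_C {R Z : Type} [CommRing R] [CommRing Z] (ρ : P →+* R)
    (z : Option ι × Fin e → R) (γ : R[X] →+* Z) (q : ι → Z)
    (x : (MvPolynomial (Option ι × Fin e) P)[X]) :
    evU ρ z γ q (MvPolynomial.C x) = γ (x.map (MvPolynomial.eval₂Hom ρ z)) := by
  simp [evU]

theorem evU_X {R Z : Type} [CommRing R] [CommRing Z] (ρ : P →+* R)
    (z : Option ι × Fin e → R) (γ : R[X] →+* Z) (q : ι → Z) (i : ι) :
    evU ρ z γ q (MvPolynomial.X i) = q i := by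
  simp [evU]

theorem evU_eval {R Z : Type} [CommRing R] [CommRing Z] (ρ : P →+* R)
    (z : Option ι × Fin e → R) (γ : R[X] →+* Z) (q : ι → Z) (Φ : MvPolynomial ι P[X]) :
    evU ρ z γ q (MvPolynomial.eval₂ (MvPolynomial.C.comp (mapRingHom MvPolynomial.C))
      (yg P ι e) Φ) =
      MvPolynomial.eval₂ (γ.comp (mapRingHom ρ)) (fun i => evU ρ z γ q (yg P ι e i)) Φ := by
  rw [MvPolynomial.eval₂_comp_left]
  congr 1
  refine RingHom.ext fun g => ?_
  simp only [RingHom.comp_apply, evU_C, coe_mapRingHom, Polynomial.map_map]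
  congr 2
  ext x
  simp

theorem map_gen {R : Type} [CommRing R] (ρ : P →+* R) (z : Option ι × Fin e → R) (o : Option ι) :
    (gen P ι e o).map (MvPolynomial.eval₂Hom ρ z) = ∑ l : Fin e, C (z (o, l)) * X ^ (l : ℕ) := by
  simp [gen, Polynomial.map_sum]

end generic

/-- Approximation modulo a Weierstrass polynomial. -/
theorem modw {P G A Γ : Type} [CommRing P] [CommRing G] [CommRing A] [CommRing Γ] [Nontrivial A]
    (p : P →+* G) (a : G →+* A) (I : Ideal A) (hAP : AP p a I) (J : Ideal (PowerSeries A))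
    (hIJ : ∀ x ∈ I, PowerSeries.C x ∈ J) (β : G[X] →+* Γ) (j : Γ →+* PowerSeries A)
    (hβ : ∀ g, j (β g) = toPS a g) (hdense : ∀ q : PowerSeries A, ∃ q' : Γ, j q' - q ∈ J)
    (w : A[X]) (hw : w.Monic)
    (hdiv : ∀ f : PowerSeries A, ∃ (q : PowerSeries A) (r : A[X]),
      r.degree < w.natDegree ∧ f = (w : PowerSeries A) * q + r)
    (huniq : ∀ (q : PowerSeries A) (r : A[X]), r.degree < w.natDegree →
      (w : PowerSeries A) * q = r → q = 0 ∧ r = 0)
    {ι τ : Type} [Finite ι] [Finite τ] (yhat : ι → PowerSeries A) (Φ : τ → MvPolynomial ι P[X])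
    (chat : τ → PowerSeries A)
    (hΦ : ∀ t, MvPolynomial.eval₂ (toPS (a.comp p)) yhat (Φ t) = (w : PowerSeries A) * chat t) :
    ∃ (y : ι → Γ) (W : Γ) (c : τ → Γ), (∀ i, j (y i) - yhat i ∈ J) ∧
      ∀ t, MvPolynomial.eval₂ (β.comp (mapRingHom p)) y (Φ t) = W * c t ∧
        j (c t) - chat t ∈ J := by
  classical
  cases nonempty_fintype τ
  choose q r hr hqr using hdiv
  choose q' hq' using hdense
  set e := w.natDegree with he
  choose E hE using fun t => exists_E e (Φ t)
  let zhat : Option ι × Fin e → A := fun x =>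
    match x.1 with
    | none => w.coeff x.2
    | some i => (r (yhat i)).coeff x.2
  let evH := evU (a.comp p) zhat (Polynomial.coeToPowerSeries.ringHom) (fun i => q (yhat i))
  have hWH : (Wg P ι e).map (MvPolynomial.eval₂Hom (a.comp p) zhat) = w := by
    rw [Wg, Polynomial.map_add, map_gen, Polynomial.map_pow, map_X]
    conv_rhs => rw [hw.as_sum, Finset.sum_range]
  have hgH : ∀ i, (gen P ι e (some i)).map (MvPolynomial.eval₂Hom (a.comp p) zhat) =
      r (yhat i) := fun i => by
    rw [map_gen]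
    exact eq_sum_fin _ (hr _)
  have hyH : ∀ i, evH (yg P ι e i) = yhat i := fun i => by
    simp only [evH, yg, map_add, map_mul, evU_C, evU_X, hWH, hgH]
    conv_rhs => rw [hqr (yhat i)]
    simp [add_comm]
  have hkey : ∀ t, (rem e (Φ t)).map (MvPolynomial.eval₂Hom (a.comp p) zhat) = 0 ∧
      evH (E t) = chat t := fun t => by
    have h1 := congrArg evH (hE t)
    rw [evU_eval] at h1
    have h2 : (fun i => evU (a.comp p) zhat (Polynomial.coeToPowerSeries.ringHom)
      (fun i => q (yhat i)) (yg P ι e i)) = yhat := funext hyH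
    rw [h2] at h1
    have h3 := hΦ t
    rw [toPS, h1] at h3
    simp only [evH, map_add, map_mul, evU_C, hWH] at h3
    have hdeg : ((rem e (Φ t)).map (MvPolynomial.eval₂Hom (a.comp p) zhat)).degree <
        w.natDegree := by
      rw [rem, map_modByMonic _ (Wg_monic P ι e), hWH, ← degree_eq_natDegree hw.ne_zero]
      exact degree_modByMonic_lt _ hw
    have h4 := huniq (chat t - evH (E t)) _ hdeg (by
      simp only [Polynomial.coeToPowerSeries.ringHom_apply] at h3
      simp only [evH]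
      linear_combination -h3)
    exact ⟨h4.2, (sub_eq_zero.1 h4.1).symm⟩
  obtain ⟨z, hz, hzH⟩ := hAP (Option ι × Fin e) zhat
    (Finset.univ.biUnion fun t => (rem e (Φ t)).coeffs) (by
      intro h hh
      obtain ⟨t, -, ht⟩ := Finset.mem_biUnion.1 hh
      obtain ⟨n, -, rfl⟩ := mem_coeffs_iff.1 ht
      have := congrArg (fun x => Polynomial.coeff x n) (hkey t).1
      simpa using this)
  let evG := evU p z β (fun i => q' (q (yhat i)))
  have hcong : ∀ u, j (evG u) - evH u ∈ J := by
    intro u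
    have h1 : j (evG u) = MvPolynomial.eval₂
        (j.comp (β.comp (mapRingHom (MvPolynomial.eval₂Hom p z))))
        (j ∘ fun i => q' (q (yhat i))) u := by
      simp only [evG, evU, MvPolynomial.coe_eval₂Hom]
      rw [MvPolynomial.eval₂_comp_left]
    rw [h1]
    refine eval₂_sub_mem _ _ J (fun x => ?_) _ _ (fun i => hq' _) u
    simp only [RingHom.comp_apply, hβ, toPS_apply, coe_mapRingHom,
      Polynomial.coeToPowerSeries.ringHom_apply]
    induction x using Polynomial.induction_on' with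
    | add x y hx hy =>
      simp only [Polynomial.map_add, Polynomial.coe_add]
      rw [add_sub_add_comm]
      exact J.add_mem hx hy
    | monomial n x =>
      simp only [← C_mul_X_pow_eq_monomial, Polynomial.map_mul, Polynomial.map_pow, map_C, map_X,
        Polynomial.coe_mul, Polynomial.coe_pow, Polynomial.coe_C, Polynomial.coe_X]
      rw [← sub_mul, ← map_sub]
      refine J.mul_mem_right _ (hIJ _ ?_)
      simp only [MvPolynomial.coe_eval₂Hom]
      rw [MvPolynomial.eval₂_comp_left]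
      exact eval₂_sub_mem _ _ I (by simp) _ _ (fun i => hz i) x
  refine ⟨fun i => evG (yg P ι e i), evG (MvPolynomial.C (Wg P ι e)), fun t => evG (E t),
    fun i => ?_, fun t => ⟨?_, ?_⟩⟩
  · rw [← hyH i]
    exact hcong _
  · have h1 := congrArg evG (hE t)
    rw [evU_eval] at h1
    rw [h1, map_add, map_mul]
    have h2 : (rem e (Φ t)).map (MvPolynomial.eval₂Hom p z) = 0 := by
      ext n
      rw [coeff_map, coeff_zero]
      by_cases hn : (rem e (Φ t)).coeff n = 0
      · rw [hn, map_zero]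
      · exact hzH _ (Finset.mem_biUnion.2 ⟨t, Finset.mem_univ _, coeff_mem_coeffs hn⟩)
    have h3 : evG (MvPolynomial.C (rem e (Φ t))) = 0 := by
      simp only [evG, evU_C, h2, map_zero]
    rw [h3, zero_add]
  · rw [← (hkey t).2]
    exact hcong _

/-- Taylor expansion in one variable -/
theorem taylor {D Γ ι : Type} [CommRing D] [CommRing Γ] [DecidableEq ι] (θ : D →+* Γ)
    (y : ι → Γ) (i : ι) (f : MvPolynomial ι D) :
    ∃ Q : Γ[X], ∀ h : Γ, MvPolynomial.eval₂ θ (fun k => y k + if k = i then h else 0) f =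
      MvPolynomial.eval₂ θ y f + MvPolynomial.eval₂ θ y (MvPolynomial.pderiv i f) * h +
        h ^ 2 * Q.eval h := by
  induction f using MvPolynomial.induction_on with
  | C r => exact ⟨0, fun h => by simp⟩
  | add f g hf hg =>
    obtain ⟨Q, hQ⟩ := hf
    obtain ⟨Q', hQ'⟩ := hg
    refine ⟨Q + Q', fun h => ?_⟩
    simp only [MvPolynomial.eval₂_add, map_add, hQ, hQ', eval_add]
    ring
  | mul_X f k hf =>
    obtain ⟨Q, hQ⟩ := hf
    by_cases hk : k = i
    · subst hk
      refine ⟨C (MvPolynomial.eval₂ θ y (MvPolynomial.pderiv k f)) + Q * (C (y k) + X),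
        fun h => ?_⟩
      simp only [MvPolynomial.eval₂_mul, MvPolynomial.eval₂_X, hQ, if_true,
        Derivation.leibniz, MvPolynomial.pderiv_X_self, smul_eq_mul, mul_one,
        MvPolynomial.eval₂_add, eval_add, eval_mul, eval_C, eval_X]
      ring
    · refine ⟨Q * C (y k), fun h => ?_⟩
      simp only [MvPolynomial.eval₂_mul, MvPolynomial.eval₂_X, hQ, if_neg hk,
        Derivation.leibniz, MvPolynomial.pderiv_X_of_ne hk, smul_eq_mul, mul_zero,
        zero_add, add_zero, eval_mul, eval_C]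
      ring

/-- Newton step -/
theorem newton {D Γ ι : Type} [CommRing D] [CommRing Γ] [DecidableEq ι] (θ : D →+* Γ)
    (N : Ideal Γ) (hsolve : ∀ c ∈ N, ∀ Q : Γ[X], ∃ η ∈ N, c + η + η ^ 2 * Q.eval η = 0)
    (y0 : ι → Γ) (T : Finset ι) (f : ι → MvPolynomial ι D)
    (hvars : ∀ i ∈ T, ∀ k ∈ (f i).vars, k = i ∨ k ∉ T)
    (hf : ∀ i ∈ T, ∃ c ∈ N, MvPolynomial.eval₂ θ y0 (f i) =
      (MvPolynomial.eval₂ θ y0 (MvPolynomial.pderiv i (f i))) ^ 2 * c) :
    ∃ y : ι → Γ, (∀ i, y i - y0 i ∈ N) ∧ ∀ i ∈ T, MvPolynomial.eval₂ θ y (f i) = 0 := by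
  have key : ∀ i, ∃ h ∈ N, i ∈ T →
      MvPolynomial.eval₂ θ (fun k => y0 k + if k = i then h else 0) (f i) = 0 := by
    intro i
    by_cases hi : i ∈ T
    · obtain ⟨c, hc, hfc⟩ := hf i hi
      obtain ⟨Q, hQ⟩ := taylor θ y0 i (f i)
      set d := MvPolynomial.eval₂ θ y0 (MvPolynomial.pderiv i (f i))
      obtain ⟨η, hη, hη0⟩ := hsolve c hc (Q.comp (C d * X))
      refine ⟨d * η, N.mul_mem_left _ hη, fun _ => ?_⟩
      rw [hQ, hfc]
      simp only [eval_comp, eval_mul, eval_C, eval_X] at hη0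
      linear_combination d ^ 2 * hη0
    · exact ⟨0, N.zero_mem, fun h => absurd h hi⟩
  choose h hN hh using key
  refine ⟨fun k => y0 k + if k ∈ T then h k else 0, fun i => ?_, fun i hi => ?_⟩
  · simp only [add_sub_cancel_left]
    split_ifs
    · exact hN i
    · exact N.zero_mem
  · refine Eq.trans ?_ (hh i hi)
    refine MvPolynomial.eval₂Hom_congr' (f₁ := θ) (f₂ := θ) rfl (fun k hk _ => ?_) rfl
    rcases hvars i hi k hk with rfl | hk'
    · simp [hi]
    · have : k ≠ i := fun h => hk' (h ▸ hi)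
      simp only [if_neg hk', if_neg this]

/-- The inductive step, abstract form. -/
theorem step {P G A Γ : Type} [CommRing P] [CommRing G] [CommRing A] [CommRing Γ]
    [IsLocalRing A] [IsAdicComplete (IsLocalRing.maximalIdeal A) A]
    (p : P →+* G) (a : G →+* A) (I : Ideal A) (hAP : AP p a I) (J : Ideal (PowerSeries A))
    (hIJ : ∀ x ∈ I, PowerSeries.C x ∈ J) (β : G[X] →+* Γ) (j : Γ →+* PowerSeries A)
    (hβ : ∀ g, j (β g) = toPS a g) (hdense : ∀ q : PowerSeries A, ∃ q' : Γ, j q' - q ∈ J)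
    (hunit : ∀ (x : Γ) (u : PowerSeries A), IsUnit u → j x - u ∈ J → IsUnit x)
    (hsolve : ∀ c ∈ J.comap j, ∀ Q : Γ[X], ∃ η ∈ J.comap j, c + η + η ^ 2 * Q.eval η = 0)
    {ι : Type} [Finite ι] [DecidableEq ι] (yhat : ι → PowerSeries A) (T : Finset ι)
    (f : ι → MvPolynomial ι P[X]) (hvars : ∀ i ∈ T, ∀ k ∈ (f i).vars, k = i ∨ k ∉ T)
    (hf : ∀ i ∈ T, MvPolynomial.eval₂ (toPS (a.comp p)) yhat (f i) = 0)
    (hreg : (MvPolynomial.eval₂ (toPS (a.comp p)) yhat
      (∏ i ∈ T, MvPolynomial.pderiv i (f i) ^ 2)).map (IsLocalRing.residue A) ≠ 0) :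
    ∃ y : ι → Γ, (∀ i, j (y i) - yhat i ∈ J) ∧
      ∀ i ∈ T, MvPolynomial.eval₂ (β.comp (mapRingHom p)) y (f i) = 0 := by
  obtain ⟨w, u, hwu⟩ := PowerSeries.exists_isWeierstrassFactorization hreg
  have hdist := hwu.isDistinguishedAt
  have hW := hdist.isWeierstrassDivisorAt'
  have hne : IsLocalRing.maximalIdeal A ≠ ⊤ := Ideal.IsMaximal.ne_top inferInstance
  have hdeg : w.natDegree = ((w : PowerSeries A).map
      (Ideal.Quotient.mk (IsLocalRing.maximalIdeal A))).order.toNat :=
    PowerSeries.IsWeierstrassFactorizationAt.natDegree_eq_toNat_order_map_of_ne_top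
      (g := (w : PowerSeries A)) (h := 1) ⟨hdist, isUnit_one, by simp⟩ hne
  let Φ : Option {i // i ∈ T} → MvPolynomial ι P[X] := fun t =>
    match t with
    | none => ∏ i ∈ T, MvPolynomial.pderiv i (f i) ^ 2
    | some i => f i
  let chat : Option {i // i ∈ T} → PowerSeries A := fun t =>
    match t with
    | none => u
    | some _ => 0
  obtain ⟨y0, W, c, hy0, hc⟩ := modw p a I hAP J hIJ β j hβ hdense w hdist.monic
    (fun g => by
      have := hW.isWeierstrassDivisionAt_div_mod g
      exact ⟨_, _, hdeg ▸ this.degree_lt, this.eq_mul_add⟩)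
    (fun q r hr h => hW.eq_zero_of_mul_eq (hdeg ▸ hr) h) yhat Φ chat (fun t => by
      cases t with
      | none => exact hwu.eq_mul
      | some i => simpa [Φ, chat] using hf i i.2)
  obtain ⟨v, hv⟩ := hunit (c none) u hwu.isUnit (hc none).2
  obtain ⟨y, hy, hy'⟩ := newton (β.comp (mapRingHom p)) (J.comap j) hsolve y0 T f hvars
    (fun i hi => by
      have h1 := (hc (some ⟨i, hi⟩)).1
      have h2 := (hc (some ⟨i, hi⟩)).2
      have h3 := (hc none).1
      simp only [Φ, chat, sub_zero] at h1 h2 h3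
      rw [← Finset.mul_prod_erase T _ hi, MvPolynomial.eval₂_mul, MvPolynomial.eval₂_pow,
        ← hv] at h3
      refine ⟨MvPolynomial.eval₂ (β.comp (mapRingHom p)) y0
        (∏ k ∈ T.erase i, MvPolynomial.pderiv k (f k) ^ 2) * (↑v⁻¹ : Γ) * c (some ⟨i, hi⟩),
        Ideal.mul_mem_left _ _ h2, ?_⟩
      rw [h1]
      have h4 : (v : Γ) * (↑v⁻¹ : Γ) = 1 := v.mul_inv
      linear_combination (-(↑v⁻¹ : Γ) * c (some ⟨i, hi⟩)) * h3 - W * c (some ⟨i, hi⟩) * h4)
  refine ⟨y, fun i => ?_, hy'⟩
  have h1 : j (y i - y0 i) ∈ J := hy i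
  have : j (y i) - yhat i = j (y i - y0 i) + (j (y0 i) - yhat i) := by
    rw [map_sub]; ring
  rw [this]
  exact J.add_mem h1 (hy0 i)

/-- solving `c + η + η ^ 2 Q(η) = 0` in a complete ring -/
theorem solve {R : Type*} [CommRing R] (I : Ideal R) [IsAdicComplete I R] (c : R) (hc : c ∈ I)
    (Q : R[X]) : ∃ η, c ∣ η ∧ c + η + η ^ 2 * Q.eval η = 0 := by
  rcases subsingleton_or_nontrivial R with _ | _
  · exact ⟨0, dvd_zero _, Subsingleton.elim _ _⟩
  set N := Q.natDegree with hN
  let S : R[X] := ∑ l ∈ Finset.range (N + 1), C (Q.coeff l * (-c) ^ l) * X ^ (N - l)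
  let g : R[X] := X ^ (N + 2) + (C c * S - X ^ (N + 1))
  have hS : S.degree ≤ N := by
    refine (degree_sum_le _ _).trans (Finset.sup_le fun l _ => ?_)
    exact (degree_C_mul_X_pow_le _ _).trans (by exact_mod_cast Nat.sub_le N l)
  have hg : g.Monic := by
    refine monic_X_pow_add ?_
    refine (degree_sub_le _ _).trans_lt (max_lt ?_ ?_)
    · rw [← smul_eq_C_mul]
      refine ((degree_smul_le _ _).trans hS).trans_lt ?_
      exact_mod_cast (by omega : N < N + 2)
    · refine (degree_X_pow_le _).trans_lt ?_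
      exact_mod_cast (by omega : N + 1 < N + 2)
  obtain ⟨ζ, hζ, hζ1⟩ := HenselianRing.is_henselian (I := I) g hg 1 (by
      simp only [g, eval_add, eval_sub, eval_mul, eval_pow, eval_X, eval_C, one_pow]
      have : 1 + (c * eval 1 S - 1) = c * eval 1 S := by ring
      rw [this]
      exact I.mul_mem_right _ hc) (by
      have h1 : Ideal.Quotient.mk I c = 0 := Ideal.Quotient.eq_zero_iff_mem.2 hc
      have h2 : eval 1 (derivative g) = 1 + c * eval 1 (derivative S) := by
        simp only [g, derivative_add, derivative_sub, derivative_mul, derivative_C,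
          derivative_X_pow, eval_add, eval_sub, eval_mul, eval_pow, eval_X, eval_C, one_pow,
          zero_mul, zero_add, eval_zero]
        push_cast
        ring
      rw [h2, map_add, map_mul, h1, zero_mul, add_zero, map_one]
      exact isUnit_one)
  have hu : IsUnit ζ := by
    have h1 := (IsAdicComplete.le_jacobson_bot I) hζ1
    rw [Ideal.mem_jacobson_bot] at h1
    simpa using h1 1
  obtain ⟨v, hv⟩ := hu.exists_right_inv
  refine ⟨-c * v, ⟨-v, by ring⟩, ?_⟩
  have h1 : ζ ^ (N + 2) + (c * eval ζ S - ζ ^ (N + 1)) = 0 := by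
    have := hζ
    simpa only [g, IsRoot.def, eval_add, eval_sub, eval_mul, eval_pow, eval_X, eval_C] using this
  have h2 : eval (-c * v) Q = v ^ N * eval ζ S := by
    rw [eval_eq_sum_range, ← hN]
    simp only [S, eval_finset_sum, eval_mul, eval_pow, eval_X, eval_C, Finset.mul_sum]
    refine Finset.sum_congr rfl fun l hl => ?_
    obtain ⟨k, hk⟩ := Nat.exists_eq_add_of_le (Nat.lt_succ_iff.1 (Finset.mem_range.1 hl))
    rw [hk, Nat.add_sub_cancel_left, mul_pow, pow_add]
    have h3 : ζ ^ k * v ^ k = 1 := by rw [← mul_pow, hv, one_pow]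
    linear_combination (-(Q.coeff l * (-c) ^ l * v ^ l)) * h3
  have h4 : ζ ^ (N + 1) * v ^ (N + 1) = 1 := by rw [← mul_pow, hv, one_pow]
  rw [h2]
  have h5 : ζ ^ (N + 2) * v ^ (N + 2) = 1 := by rw [← mul_pow, hv, one_pow]
  linear_combination (c * v ^ (N + 2)) * h1 - c * h5 + c * v * h4

end Crest.Agent.R169.Abs
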