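import Mathlib

/-!
A domain that is module-finite over a complete Noetherian local ring is a complete local ring.
-/

set_option autoImplicit false

namespace Crest.Agent.R169

open IsLocalRing

theorem isPrecomplete_of_finite {A M : Type*} [CommRing A] (I : Ideal A) [IsPrecomplete I A]
    [AddCommGroup M] [Module A M] [Module.Finite A M] : IsPrecomplete I M := by
  rw [← AdicCompletion.of_surjective_iff]
  intro u
  obtain ⟨t, rfl⟩ := AdicCompletion.ofTensorProduct_surjective_of_finite I M u
  induction t using TensorProduct.induction_on with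
  | zero => exact ⟨0, by simp⟩
  | tmul r x =>
    obtain ⟨a, rfl⟩ := AdicCompletion.of_surjective I A r
    refine ⟨a • x, ?_⟩
    rw [AdicCompletion.ofTensorProduct_tmul, map_smul]
    exact (algebraMap_smul (AdicCompletion I A) a _).symm
  | add s t hs ht =>
    obtain ⟨a, ha⟩ := hs
    obtain ⟨b, hb⟩ := ht
    exact ⟨a + b, by rw [map_add, map_add, ha, hb]⟩

theorem isLocalRing_of_henselian {R : Type*} [CommRing R] [IsDomain R] (J : Ideal R)
    [HenselianRing R J] [IsArtinianRing (R ⧸ J)] : IsLocalRing R := by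
  refine IsLocalRing.of_isUnit_or_isUnit_one_sub_self fun a => ?_
  have hjac : J ≤ Ideal.jacobson ⊥ := HenselianRing.jac
  obtain ⟨n, y, hy⟩ := IsArtinian.exists_pow_succ_smul_dvd (Ideal.Quotient.mk J a) (1 : R ⧸ J)
  obtain ⟨y, rfl⟩ := Ideal.Quotient.mk_surjective y
  simp only [smul_eq_mul, mul_one, Nat.succ_eq_add_one] at hy
  set α := Ideal.Quotient.mk J a with hα
  set η := Ideal.Quotient.mk J y with hη
  have h1 : ∀ k : ℕ, α ^ (n + 1) * (α * η) ^ k = α ^ (n + 1) := by
    intro k
    induction k with
    | zero => simp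
    | succ k ih =>
      calc α ^ (n + 1) * (α * η) ^ (k + 1) = α ^ (n + 1) * (α * η) ^ k * (α * η) := by ring
        _ = α * (α ^ (n + 1) * η) := by rw [ih]; ring
        _ = α ^ (n + 1) := by rw [hy]; ring
  have h2 : (α * η) ^ (n + 1) * (α * η) ^ (n + 1) = (α * η) ^ (n + 1) := by
    calc (α * η) ^ (n + 1) * (α * η) ^ (n + 1)
        = α ^ (n + 1) * (α * η) ^ (n + 1) * η ^ (n + 1) := by ring
      _ = (α * η) ^ (n + 1) := by rw [h1]; ring
  have hmon : (Polynomial.X ^ 2 - Polynomial.X : Polynomial R).Monic := by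
    apply Polynomial.Monic.sub_of_left (Polynomial.monic_X_pow 2)
    rw [Polynomial.degree_X, Polynomial.degree_X_pow]
    norm_num
  obtain ⟨e, he, he'⟩ := HenselianRing.is_henselian (I := J) _ hmon ((a * y) ^ (n + 1))
    (by
      rw [← Ideal.Quotient.eq_zero_iff_mem]
      simp only [Polynomial.eval_sub, Polynomial.eval_pow, Polynomial.eval_X, map_sub, map_pow,
        map_mul, ← hα, ← hη]
      rw [sq, h2, sub_self])
    (by
      have : Ideal.Quotient.mk J (Polynomial.eval ((a * y) ^ (n + 1)) (Polynomial.derivative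
          (Polynomial.X ^ 2 - Polynomial.X : Polynomial R))) = 2 * (α * η) ^ (n + 1) - 1 := by
        simp only [Polynomial.derivative_sub, Polynomial.derivative_X_pow, Polynomial.derivative_X,
          Polynomial.eval_sub, Polynomial.eval_mul, Polynomial.eval_C, Polynomial.eval_pow,
          Polynomial.eval_X, Polynomial.eval_one, map_sub, map_mul, map_pow, map_natCast, map_one,
          Polynomial.eval_natCast, ← hα, ← hη]
        norm_num
      rw [this]
      refine IsUnit.of_mul_eq_one (2 * (α * η) ^ (n + 1) - 1) ?_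
      linear_combination 4 * h2)
  have he2 : e * (e - 1) = 0 := by
    have := he.eq_zero
    simp only [Polynomial.eval_sub, Polynomial.eval_pow, Polynomial.eval_X] at this
    linear_combination this
  rcases mul_eq_zero.mp he2 with h0 | h0
  · right
    have h3 : (α * η) ^ (n + 1) = 0 := by
      rw [h0, zero_sub, neg_mem_iff, ← Ideal.Quotient.eq_zero_iff_mem] at he'
      simpa only [map_pow, map_mul] using he'
    have h4 : a ^ (n + 1) ∈ J := by
      rw [← Ideal.Quotient.eq_zero_iff_mem, map_pow, ← hα, ← h1 (n + 1), h3, mul_zero]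
    have h5 : a ∈ Ideal.jacobson (⊥ : Ideal R) :=
      Ideal.isRadical_jacobson _ ⟨n + 1, hjac h4⟩
    have := Ideal.mem_jacobson_bot.mp h5 (-1)
    rwa [mul_neg_one, neg_add_eq_sub] at this
  · left
    have h3 : e = 1 := sub_eq_zero.mp h0
    have := Ideal.mem_jacobson_bot.mp (hjac he') (-1)
    rw [h3] at this
    have h4 : (1 - (a * y) ^ (n + 1)) * -1 + 1 = a * (a ^ n * y ^ (n + 1)) := by ring
    rw [h4] at this
    exact isUnit_of_mul_isUnit_left this

theorem isPrecomplete_of_pow_le {R : Type*} [CommRing R] {I J : Ideal R} (hJI : J ≤ I) {n : ℕ}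
    (hn : I ^ n ≤ J) [IsPrecomplete J R] : IsPrecomplete I R := by
  have hn' : I ^ (n + 1) ≤ J := le_trans (Ideal.pow_le_pow_right (Nat.le_succ n)) hn
  refine ⟨fun f hf => ?_⟩
  obtain ⟨L, hL⟩ := IsPrecomplete.prec' (I := J) (fun k => f ((n + 1) * k)) (fun {k l} hkl => by
    refine SModEq.mono ?_ (hf (Nat.mul_le_mul_left (n + 1) hkl))
    refine Submodule.smul_mono_left ?_
    rw [pow_mul]
    exact Ideal.pow_right_mono hn' k)
  refine ⟨L, fun k => ?_⟩
  refine (hf (n := (n + 1) * k) (Nat.le_mul_of_pos_left k (Nat.succ_pos n))).trans ?_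
  exact SModEq.mono (Submodule.smul_mono_left (Ideal.pow_right_mono hJI k)) (hL k)

section
variable {A R : Type*} [CommRing A] [IsLocalRing A] [CommRing R] [Algebra A R] [Module.Finite A R]

theorem map_maximalIdeal_le_jacobson :
    (maximalIdeal A).map (algebraMap A R) ≤ Ideal.jacobson ⊥ := by
  refine le_sInf fun P hP => ?_
  have := hP.2
  have h1 : (P.comap (algebraMap A R)).IsMaximal := Ideal.isMaximal_comap_of_isIntegral_of_isMaximal P
  rw [Ideal.map_le_iff_le_comap, eq_maximalIdeal h1]

theorem isArtinianRing_quot : IsArtinianRing (R ⧸ (maximalIdeal A).map (algebraMap A R)) := by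
  let _ : Field (A ⧸ maximalIdeal A) := Ideal.Quotient.field _
  have : Module.Finite (A ⧸ maximalIdeal A) (R ⧸ (maximalIdeal A).map (algebraMap A R)) :=
    Module.Finite.of_restrictScalars_finite A _ _
  exact IsArtinianRing.of_finite (A ⧸ maximalIdeal A) _

variable [IsNoetherianRing A] [IsAdicComplete (maximalIdeal A) A]

theorem isAdicComplete_map : IsAdicComplete ((maximalIdeal A).map (algebraMap A R)) R := by
  rw [IsAdicComplete.map_algebraMap_iff]
  have := isPrecomplete_of_finite (M := R) (maximalIdeal A)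
  exact {}

variable (A) in
include A in
theorem isLocalRing_of_finite [IsDomain R] : IsLocalRing R := by
  have := isAdicComplete_map (A := A) (R := R)
  have := isArtinianRing_quot (A := A) (R := R)
  exact isLocalRing_of_henselian ((maximalIdeal A).map (algebraMap A R))

omit [IsAdicComplete (maximalIdeal A) A] in
theorem exists_pow_le_map [IsLocalRing R] :
    ∃ n : ℕ, maximalIdeal R ^ n ≤ (maximalIdeal A).map (algebraMap A R) := by
  have : IsNoetherianRing R := IsNoetherianRing.of_finite A R
  obtain ⟨n, hn⟩ := Ideal.exists_radical_pow_le_of_fg ((maximalIdeal A).map (algebraMap A R))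
    (IsNoetherian.noetherian _)
  refine ⟨n, le_trans (Ideal.pow_right_mono ?_ n) hn⟩
  rw [Ideal.radical_eq_sInf]
  refine le_sInf fun P hP => ?_
  have := hP.2
  have h1 : (P.comap (algebraMap A R)).IsMaximal := by
    have h2 : maximalIdeal A ≤ P.comap (algebraMap A R) := Ideal.map_le_iff_le_comap.mp hP.1
    rw [← (maximalIdeal.isMaximal A).eq_of_le (Ideal.comap_ne_top _ this.ne_top) h2]
    exact maximalIdeal.isMaximal A
  have h3 : P.IsMaximal := Ideal.isMaximal_of_isIntegral_of_isMaximal_comap P h1
  rw [eq_maximalIdeal h3]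

variable (A) in
include A in
theorem isAdicComplete_maximalIdeal [IsLocalRing R] : IsAdicComplete (maximalIdeal R) R := by
  have : IsNoetherianRing R := IsNoetherianRing.of_finite A R
  have := isAdicComplete_map (A := A) (R := R)
  obtain ⟨n, hn⟩ := exists_pow_le_map (A := A) (R := R)
  have hle : (maximalIdeal A).map (algebraMap A R) ≤ maximalIdeal R := by
    have h1 := map_maximalIdeal_le_jacobson (A := A) (R := R)
    rwa [jacobson_eq_maximalIdeal (⊥ : Ideal R) bot_ne_top] at h1
  have := isPrecomplete_of_pow_le hle hn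
  exact {}

end

end Crest.Agent.R169
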