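import Mathlib

/-!
Power series rings over a field are integrally closed (via complete integral closedness).
-/

set_option autoImplicit false

namespace Crest.Agent.R169

/-- completely integrally closed, in divisibility form -/
def CIC (B : Type*) [CommRing B] : Prop :=
  ∀ a b d : B, b ≠ 0 → d ≠ 0 → (∀ n : ℕ, b ^ n ∣ d * a ^ n) → b ∣ a

theorem CIC.of_field (K : Type*) [Field K] : CIC K := fun _ _ _ hb _ _ =>
  (IsUnit.mk0 _ hb).dvd

theorem CIC.of_equiv {B B' : Type*} [CommRing B] [CommRing B'] (e : B ≃+* B') (h : CIC B') :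
    CIC B := by
  intro a b d hb hd H
  have h1 : e b ∣ e a := h (e a) (e b) (e d) (by simpa using hb) (by simpa using hd) (fun n => by
    simpa only [map_mul, map_pow] using map_dvd e (H n))
  simpa using map_dvd e.symm h1

theorem CIC.isIntegrallyClosed {B : Type*} [CommRing B] [IsDomain B] (h : CIC B) :
    IsIntegrallyClosed B := by
  rw [isIntegrallyClosed_iff (FractionRing B)]
  intro x hx
  obtain ⟨d, hd, hd'⟩ := hx.isAlmostIntegral
  obtain ⟨a, b, hb, rfl⟩ := IsFractionRing.div_surjective (A := B) x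
  have hb0 : b ≠ 0 := nonZeroDivisors.ne_zero hb
  have hb1 : algebraMap B (FractionRing B) b ≠ 0 :=
    (map_ne_zero_iff _ (IsFractionRing.injective B (FractionRing B))).mpr hb0
  obtain ⟨c, hc⟩ := h a b d hb0 (nonZeroDivisors.ne_zero hd) (fun n => by
    obtain ⟨y, hy⟩ := hd' n
    refine ⟨y, IsFractionRing.injective B (FractionRing B) ?_⟩
    rw [map_mul, map_mul, map_pow, map_pow, hy, Algebra.smul_def, div_pow]
    field_simp)
  refine ⟨c, ?_⟩
  rw [hc, map_mul]
  field_simp

open PowerSeries in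
theorem CIC.powerSeries {B : Type*} [CommRing B] [IsDomain B] (h : CIC B) :
    CIC (PowerSeries B) := by
  have hX : Prime (X : B⟦X⟧) := X_prime
  have hXne : ∀ e : ℕ, (X : B⟦X⟧) ^ e ≠ 0 := fun e => pow_ne_zero _ hX.ne_zero
  -- cancel powers of `X` against something not divisible by `X`
  have hcop : ∀ (b y : B⟦X⟧) (e : ℕ), ¬ X ∣ b → b ∣ X ^ e * y → b ∣ y := by
    rintro b y e hb ⟨z, hz⟩
    obtain ⟨z', rfl⟩ : X ^ e ∣ z := hX.pow_dvd_of_dvd_mul_left e hb ⟨y, hz.symm⟩
    refine ⟨z', mul_left_cancel₀ (hXne e) ?_⟩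
    rw [hz]; ring
  -- the main case
  have main : ∀ a b d : B⟦X⟧, ¬ X ∣ b → ¬ X ∣ d → (∀ n : ℕ, b ^ n ∣ d * a ^ n) → b ∣ a := by
    intro a b d hb hd H
    have hb0 : constantCoeff b ≠ 0 := fun h0 => hb (X_dvd_iff.mpr h0)
    have hd0 : constantCoeff d ≠ 0 := fun h0 => hd (X_dvd_iff.mpr h0)
    have step : ∀ a : {a : B⟦X⟧ // ∀ n : ℕ, b ^ n ∣ d * a ^ n},
        ∃ (c : B) (a' : {a : B⟦X⟧ // ∀ n : ℕ, b ^ n ∣ d * a ^ n}),
          a.1 = C c * b + X * a'.1 := by
      rintro ⟨a, Ha⟩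
      obtain ⟨c, hc⟩ := h (constantCoeff a) (constantCoeff b) (constantCoeff d) hb0 hd0
        (fun n => by simpa only [map_mul, map_pow] using map_dvd constantCoeff (Ha n))
      obtain ⟨a', ha'⟩ : X ∣ a - C c * b := X_dvd_iff.mpr (by
        simp only [map_sub, map_mul, constantCoeff_C, hc]; ring)
      refine ⟨c, ⟨a', fun n => ?_⟩, by rw [← ha']; ring⟩
      apply hcop _ _ n (fun h1 => hb (hX.dvd_of_dvd_pow h1))
      have h2 : X ^ n * (d * a' ^ n) = d * (a + (- (C c * b))) ^ n := by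
        rw [← sub_eq_add_neg, ha']; ring
      rw [h2, add_pow, Finset.mul_sum]
      refine Finset.dvd_sum fun i hi => ?_
      have hi' : i ≤ n := Nat.lt_succ_iff.mp (Finset.mem_range.mp hi)
      obtain ⟨y, hy⟩ := Ha i
      refine ⟨y * (- C c) ^ (n - i) * (n.choose i : B⟦X⟧), ?_⟩
      have h3 : b ^ n = b ^ i * b ^ (n - i) := by rw [← pow_add, Nat.add_sub_cancel' hi']
      have h4 : (-(C c * b)) ^ (n - i) = (- C c) ^ (n - i) * b ^ (n - i) := by
        rw [← mul_pow, neg_mul]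
      rw [h3, h4, ← mul_assoc, ← mul_assoc, hy]; ring
    choose c f hf using step
    let Q : {a : B⟦X⟧ // ∀ n : ℕ, b ^ n ∣ d * a ^ n} → B⟦X⟧ :=
      fun a => PowerSeries.mk fun j => c (f^[j] a)
    have hQ : ∀ a, Q a = C (c a) + X * Q (f a) := by
      intro a
      ext j
      rcases j with _ | j
      · simp [Q]
      · simp [Q, coeff_succ_X_mul, Function.iterate_succ_apply, coeff_C]
    have hdvd : ∀ k : ℕ, ∀ a, (X : B⟦X⟧) ^ k ∣ a.1 - b * Q a := by
      intro k
      induction k with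
      | zero => intro a; simp
      | succ k ih =>
        intro a
        have : a.1 - b * Q a = X * ((f a).1 - b * Q (f a)) := by
          conv_lhs => rw [hf a, hQ a]
          ring
        rw [this, pow_succ']
        exact mul_dvd_mul_left _ (ih (f a))
    refine ⟨Q ⟨a, H⟩, ?_⟩
    rw [← sub_eq_zero]
    ext j
    exact X_pow_dvd_iff.mp (hdvd (j + 1) ⟨a, H⟩) j (Nat.lt_succ_self j)
  have hfac : ∀ b : B⟦X⟧, b ≠ 0 → ∃ (k : ℕ) (b' : B⟦X⟧), ¬ X ∣ b' ∧ b = X ^ k * b' := by
    intro b hb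
    refine ⟨b.order.toNat, divXPowOrder b, fun h1 => hb ?_, X_pow_order_mul_divXPowOrder.symm⟩
    exact constantCoeff_divXPowOrder_eq_zero_iff.mp (X_dvd_iff.mp h1)
  intro a b d hb hd H
  obtain ⟨k, b', hb', rfl⟩ := hfac b hb
  obtain ⟨e, d', hd', rfl⟩ := hfac d hd
  clear hb hd
  induction k generalizing a with
  | zero =>
    rw [pow_zero, one_mul] at H ⊢
    refine main a b' d' hb' hd' fun n => ?_
    refine hcop _ _ e (fun h1 => hb' (hX.dvd_of_dvd_pow h1)) ?_
    rw [← mul_assoc]; exact H n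
  | succ k ih =>
    have hXa : X ∣ a := by
      by_contra hXa
      have h1 : (X : B⟦X⟧) ^ (e + 1) ∣ X ^ e * d' * a ^ (e + 1) :=
        dvd_trans (pow_dvd_pow_of_dvd ⟨X ^ k * b', by ring⟩ _) (H (e + 1))
      rw [pow_succ, mul_assoc, mul_dvd_mul_iff_left (hXne e)] at h1
      rcases hX.dvd_or_dvd h1 with h2 | h2
      · exact hd' h2
      · exact hXa (hX.dvd_of_dvd_pow h2)
    obtain ⟨a', rfl⟩ := hXa
    have := ih a' (fun n => by
      have h1 := H n
      have h2 : (X ^ (k + 1) * b') ^ n = X ^ n * (X ^ k * b') ^ n := by ring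
      have h3 : X ^ e * d' * (X * a') ^ n = X ^ n * (X ^ e * d' * a' ^ n) := by ring
      rwa [h2, h3, mul_dvd_mul_iff_left (hXne n)] at h1)
    have h4 : X ^ (k + 1) * b' = X * (X ^ k * b') := by ring
    rw [h4]
    exact mul_dvd_mul_left _ this

instance mvPowerSeries_isDomain (σ K : Type*) [CommRing K] [IsDomain K] :
    IsDomain (MvPowerSeries σ K) :=
  NoZeroDivisors.to_isDomain _

theorem CIC.mvPowerSeries (K : Type*) [Field K] (n : ℕ) : CIC (MvPowerSeries (Fin n) K) := by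
  induction n with
  | zero => exact CIC.of_equiv (MvPowerSeries.isEmptyEquiv (Fin 0) K).toRingEquiv (CIC.of_field K)
  | succ n ih =>
    exact CIC.of_equiv (MvPowerSeries.finSuccEquiv K n).toRingEquiv ih.powerSeries

theorem mvPowerSeries_isIntegrallyClosed (K : Type*) [Field K] (n : ℕ) :
    IsIntegrallyClosed (MvPowerSeries (Fin n) K) :=
  (CIC.mvPowerSeries K n).isIntegrallyClosed

theorem mvPowerSeries_le_dim (K : Type*) [Field K] (n : ℕ) :
    (n : WithBot ℕ∞) ≤ ringKrullDim (MvPowerSeries (Fin n) K) := by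
  induction n with
  | zero => exact ringKrullDim_nonneg_of_nontrivial
  | succ n ih =>
    rw [ringKrullDim_eq_of_ringEquiv (MvPowerSeries.finSuccEquiv K n).toRingEquiv]
    refine le_trans ?_ ringKrullDim_succ_le_ringKrullDim_powerseries
    push_cast
    gcongr

end Crest.Agent.R169
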