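import Crest.Agent.R169.Free
import Crest.Agent.R169.Dim
import Crest.Agent.R169.W56Normal
import Crest.Agent.R169.W56Local

set_option autoImplicit false

namespace Crest.Agent.R169

open IsLocalRing

theorem mem_span_range_X {K : Type*} [CommRing K] (n : ℕ) (f : MvPowerSeries (Fin n) K)
    (hf : MvPowerSeries.constantCoeff f = 0) :
    f ∈ Ideal.span (Set.range (MvPowerSeries.X : Fin n → MvPowerSeries (Fin n) K)) := by
  induction n with
  | zero =>
    have : f = 0 := by
      ext d
      rw [Subsingleton.elim d 0]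
      simpa using hf
    rw [this]; exact zero_mem _
  | succ n ih =>
    set e := MvPowerSeries.finSuccEquiv K n with he
    have h0 : MvPowerSeries.constantCoeff (PowerSeries.constantCoeff (e f)) = 0 := by
      have := MvPowerSeries.coeff_coeff_finSuccEquiv f (k := 0) (x := 0)
      rw [Finsupp.cons_zero_zero] at this
      simpa [hf] using this
    have h1 := ih _ h0
    obtain ⟨g, hg⟩ : PowerSeries.X ∣ e f - PowerSeries.C (PowerSeries.constantCoeff (e f)) :=
      PowerSeries.X_dvd_iff.mpr (by simp)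
    have h2 : f = MvPowerSeries.X 0 * e.symm g +
        e.symm (PowerSeries.C (PowerSeries.constantCoeff (e f))) := by
      apply e.injective
      rw [map_add, map_mul, e.apply_symm_apply, e.apply_symm_apply, he,
        MvPowerSeries.finSuccEquiv_X_zero, ← hg, sub_add_cancel]
    rw [h2]
    refine add_mem (Ideal.mul_mem_right _ _ (Ideal.subset_span ⟨0, rfl⟩)) ?_
    have h3 := Ideal.mem_map_of_mem (e.symm.toRingEquiv.toRingHom.comp PowerSeries.C) h1
    refine (show Ideal.map _ _ ≤ _ from ?_) h3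
    rw [Ideal.map_span, Ideal.span_le]
    rintro _ ⟨_, ⟨j, rfl⟩, rfl⟩
    refine Ideal.subset_span ⟨j.succ, ?_⟩
    apply e.injective
    rw [he, MvPowerSeries.finSuccEquiv_X_succ]
    exact ((MvPowerSeries.finSuccEquiv K n).apply_symm_apply _).symm

theorem mem_maximalIdeal_iff_const {σ K : Type*} [Field K] (f : MvPowerSeries σ K) :
    f ∈ maximalIdeal (MvPowerSeries σ K) ↔ MvPowerSeries.constantCoeff f = 0 := by
  rw [mem_maximalIdeal, mem_nonunits_iff, MvPowerSeries.isUnit_iff_constantCoeff, isUnit_iff_ne_zero,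
    not_not]

theorem maximalIdeal_eq_span_range {K : Type*} [Field K] (n : ℕ) :
    maximalIdeal (MvPowerSeries (Fin n) K) =
      Ideal.span (Set.range (MvPowerSeries.X : Fin n → MvPowerSeries (Fin n) K)) := by
  apply le_antisymm
  · intro f hf
    exact mem_span_range_X n f ((mem_maximalIdeal_iff_const f).mp hf)
  · rw [Ideal.span_le]
    rintro _ ⟨j, rfl⟩
    exact (mem_maximalIdeal_iff_const _).mpr (by simp)

theorem maximalIdeal_eq_span_three {K : Type*} [Field K] :
    maximalIdeal (MvPowerSeries (Fin 3) K) =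
      Ideal.span {MvPowerSeries.X 0, MvPowerSeries.X 1, MvPowerSeries.X 2} := by
  rw [maximalIdeal_eq_span_range]
  congr 1
  ext f
  simp only [Set.mem_range, Set.mem_insert_iff, Set.mem_singleton_iff, Fin.exists_fin_succ]
  simp [eq_comm]

theorem mvPowerSeries_isAdicComplete {K : Type*} [Field K] (n : ℕ) :
    IsAdicComplete (maximalIdeal (MvPowerSeries (Fin n) K)) (MvPowerSeries (Fin n) K) := by
  rw [maximalIdeal_eq_span_range]
  infer_instance

theorem mvPowerSeries_dim {K : Type*} [Field K] (n : ℕ) :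
    ringKrullDim (MvPowerSeries (Fin n) K) = n := by
  refine le_antisymm ?_ (mvPowerSeries_le_dim K n)
  rw [← maximalIdeal_height_eq_ringKrullDim]
  have h1 : (maximalIdeal (MvPowerSeries (Fin n) K)).height ≤
      (Set.range (MvPowerSeries.X : Fin n → MvPowerSeries (Fin n) K)).ncard := by
    apply Ideal.height_le_card_of_mem_minimalPrimes_span (Set.finite_range _)
    rw [← maximalIdeal_eq_span_range, Ideal.minimalPrimes_eq_subsingleton_self]
    rfl
  have h2 : (Set.range (MvPowerSeries.X : Fin n → MvPowerSeries (Fin n) K)).ncard ≤ n := by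
    rw [← Set.image_univ]
    refine le_trans (Set.ncard_image_le (Set.finite_univ)) ?_
    simp [Set.ncard_univ]
  have h3 : (maximalIdeal (MvPowerSeries (Fin n) K)).height ≤ n :=
    le_trans h1 (by exact_mod_cast h2)
  exact_mod_cast h3

theorem s0256_core {m : ℕ} (hno : ∀ N, 0 < N → NoRep m N ℂ) (R : Type) [CommRing R] [IsDomain R]
    [IsIntegrallyClosed R] [Algebra (MvPowerSeries (Fin 3) ℂ) R]
    [Module.Finite (MvPowerSeries (Fin 3) ℂ) R]
    (hinj : Function.Injective (algebraMap (MvPowerSeries (Fin 3) ℂ) R)) (u : Var m → R)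
    (h : Rel m (algebraMap (MvPowerSeries (Fin 3) ℂ) R (MvPowerSeries.X 1))
      (algebraMap (MvPowerSeries (Fin 3) ℂ) R
        (((cc m : ℤ) : MvPowerSeries (Fin 3) ℂ) * MvPowerSeries.X 1 + MvPowerSeries.X 0))
      (algebraMap (MvPowerSeries (Fin 3) ℂ) R (MvPowerSeries.X 2)) u) :
    ∃ (R : Type) (_ : CommRing R) (_ : IsLocalRing R) (_ : Algebra ℂ R),
      IsDomain R ∧ IsNoetherianRing R ∧ IsIntegrallyClosed R ∧
      IsAdicComplete (IsLocalRing.maximalIdeal R) R ∧ ringKrullDim R = 3 ∧
      Function.Bijective (algebraMap ℂ (IsLocalRing.ResidueField R)) ∧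
      ∀ (M : Type) [AddCommGroup M] [Module R M], Module.Finite R M → Nontrivial M →
        ∀ rs : List R, rs.length = 3 → (∀ r ∈ rs, r ∈ IsLocalRing.maximalIdeal R) →
          ¬ RingTheory.Sequence.IsRegular M rs := by
  have hcA := mvPowerSeries_isAdicComplete (K := ℂ) 3
  have hloc : IsLocalRing R := isLocalRing_of_finite (MvPowerSeries (Fin 3) ℂ)
  let alg : Algebra ℂ R := ((algebraMap (MvPowerSeries (Fin 3) ℂ) R).comp
    (algebraMap ℂ (MvPowerSeries (Fin 3) ℂ))).toAlgebra
  have hle : (maximalIdeal (MvPowerSeries (Fin 3) ℂ)).map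
      (algebraMap (MvPowerSeries (Fin 3) ℂ) R) ≤ maximalIdeal R := by
    have h1 := map_maximalIdeal_le_jacobson (A := MvPowerSeries (Fin 3) ℂ) (R := R)
    rwa [jacobson_eq_maximalIdeal (⊥ : Ideal R) bot_ne_top] at h1
  refine ⟨R, inferInstance, hloc, alg, inferInstance,
    IsNoetherianRing.of_finite (MvPowerSeries (Fin 3) ℂ) R, inferInstance,
    isAdicComplete_maximalIdeal (MvPowerSeries (Fin 3) ℂ), ?_, ?_, ?_⟩
  · rw [ringKrullDim_eq_of_isIntegral (MvPowerSeries (Fin 3) ℂ) R hinj, mvPowerSeries_dim]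
    rfl
  · have : Algebra.IsIntegral ℂ (ResidueField R) := ⟨fun x => by
      obtain ⟨r, rfl⟩ := residue_surjective x
      refine IsIntegral.map_of_comp_eq (MvPowerSeries.constantCoeff (σ := Fin 3) (R := ℂ))
        (residue R) ?_ (Algebra.IsIntegral.isIntegral (R := MvPowerSeries (Fin 3) ℂ) r)
      refine RingHom.ext fun a => ?_
      change residue R (algebraMap (MvPowerSeries (Fin 3) ℂ) R
        (algebraMap ℂ (MvPowerSeries (Fin 3) ℂ) (MvPowerSeries.constantCoeff a))) =
        residue R (algebraMap (MvPowerSeries (Fin 3) ℂ) R a)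
      rw [← sub_eq_zero, ← map_sub, ← map_sub, residue_eq_zero_iff]
      refine hle (Ideal.mem_map_of_mem _ ?_)
      rw [mem_maximalIdeal_iff_const]
      simp [MvPowerSeries.algebraMap_apply]⟩
    exact IsAlgClosed.algebraMap_bijective_of_isIntegral
  · intro M _ _ hfin hnt rs hlen hrs hreg
    let _ : Module (MvPowerSeries (Fin 3) ℂ) M :=
      Module.compHom M (algebraMap (MvPowerSeries (Fin 3) ℂ) R)
    have : IsScalarTower (MvPowerSeries (Fin 3) ℂ) R M :=
      IsScalarTower.of_algebraMap_smul fun _ _ => rfl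
    have : Module.Finite (MvPowerSeries (Fin 3) ℂ) M := Module.Finite.trans R M
    obtain ⟨n, hn⟩ := exists_pow_le_map (A := MvPowerSeries (Fin 3) ℂ) (R := R)
    have : Module.Free (MvPowerSeries (Fin 3) ℂ) M :=
      free_of_isWeaklyRegular (R := R) _ _ _ maximalIdeal_eq_span_three rs hlen
        (fun r hr => ⟨n, hn (Ideal.pow_mem_pow (hrs r hr) n)⟩) hreg.toIsWeaklyRegular
    exact false_of_free (M := M) hno (RingHom.id _) (MvPowerSeries.X 1) (MvPowerSeries.X 2)
      (MvPowerSeries.X 0) rfl rfl rfl u h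

theorem exists_normal_ext {m : ℕ} (A : Type) [CommRing A] [IsDomain A] [CharZero A]
    [IsNoetherianRing A] [IsIntegrallyClosed A] (X Y Z : A) (hX : X ≠ 0) (hZ : Z ≠ 0) :
    ∃ (R : Type) (_ : CommRing R) (_ : IsDomain R) (_ : IsIntegrallyClosed R) (_ : Algebra A R)
      (_ : Module.Finite A R), Function.Injective (algebraMap A R) ∧
      ∃ u : Var m → R, Rel m (algebraMap A R X) (algebraMap A R Y) (algebraMap A R Z) u := by
  let K := FractionRing A
  let Ω := AlgebraicClosure K
  have hAK : Function.Injective (algebraMap A K) := IsFractionRing.injective A K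
  have hAΩ : Function.Injective (algebraMap A Ω) := by
    rw [IsScalarTower.algebraMap_eq A K Ω]
    exact (algebraMap K Ω).injective.comp hAK
  have : CharZero K := charZero_of_injective_algebraMap hAK
  have : CharZero Ω := charZero_of_injective_algebraMap hAΩ
  obtain ⟨u, hu⟩ := exists_rel m (algebraMap A Ω X) (algebraMap A Ω Y) (algebraMap A Ω Z)
    ((map_ne_zero_iff _ hAΩ).mpr hX) ((map_ne_zero_iff _ hAΩ).mpr hZ)
  let L : IntermediateField K Ω := IntermediateField.adjoin K (Set.range u)
  have : FiniteDimensional K L :=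
    IntermediateField.finiteDimensional_adjoin fun x _ => Algebra.IsIntegral.isIntegral x
  let uL : Var m → L := fun v => ⟨u v, IntermediateField.subset_adjoin K _ ⟨v, rfl⟩⟩
  have huL : Rel m (algebraMap A L X) (algebraMap A L Y) (algebraMap A L Z) uL :=
    Rel.of_injective (algebraMap L Ω) (algebraMap L Ω).injective hu
  let R := integralClosure A L
  let uR : Var m → R := fun v => ⟨uL v, huL.isIntegral v⟩
  have huR : Rel m (algebraMap A R X) (algebraMap A R Y) (algebraMap A R Z) uR :=
    Rel.of_injective (algebraMap R L) Subtype.val_injective huL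
  refine ⟨R, inferInstance, inferInstance, integralClosure.isIntegrallyClosedOfFiniteExtension K,
    inferInstance, IsIntegralClosure.finite A K L R, ?_, uR, huR⟩
  intro a b hab
  apply hAΩ
  exact congrArg (fun r : R => ((r : L) : Ω)) hab

theorem s0256_of_noRep {m : ℕ} (hno : ∀ N, 0 < N → NoRep m N ℂ) :
    ∃ (R : Type) (_ : CommRing R) (_ : IsLocalRing R) (_ : Algebra ℂ R),
      IsDomain R ∧ IsNoetherianRing R ∧ IsIntegrallyClosed R ∧
      IsAdicComplete (IsLocalRing.maximalIdeal R) R ∧ ringKrullDim R = 3 ∧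
      Function.Bijective (algebraMap ℂ (IsLocalRing.ResidueField R)) ∧
      ∀ (M : Type) [AddCommGroup M] [Module R M], Module.Finite R M → Nontrivial M →
        ∀ rs : List R, rs.length = 3 → (∀ r ∈ rs, r ∈ IsLocalRing.maximalIdeal R) →
          ¬ RingTheory.Sequence.IsRegular M rs := by
  have := mvPowerSeries_isIntegrallyClosed ℂ 3
  have : CharZero (MvPowerSeries (Fin 3) ℂ) := algebraRat.charZero _
  have hX : ∀ i : Fin 3, (MvPowerSeries.X i : MvPowerSeries (Fin 3) ℂ) ≠ 0 := by
    intro i h
    have := congrArg (MvPowerSeries.coeff (Finsupp.single i 1)) h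
    simp [MvPowerSeries.coeff_X] at this
  obtain ⟨R, _, _, _, _, _, hinj, u, hu⟩ := exists_normal_ext (m := m) (MvPowerSeries (Fin 3) ℂ)
    (MvPowerSeries.X 1)
    (((cc m : ℤ) : MvPowerSeries (Fin 3) ℂ) * MvPowerSeries.X 1 + MvPowerSeries.X 0)
    (MvPowerSeries.X 2) (hX 1) (hX 2)
  exact s0256_core hno R hinj u hu

end Crest.Agent.R169
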