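import Crest.Agent.R169.Free
import Crest.Agent.R169.Dim

set_option autoImplicit false

namespace Crest.Agent.R169

namespace W57

/-- the base ring -/
abbrev A : Type := MvPolynomial (Fin 3) ℂ

open Polynomial in
/-- a subalgebra of `L[t]` generated by monomials is graded -/
theorem exists_grading {L ι : Type} [CommRing L] [Algebra ℂ L] (a : ι → L) (d : ι → ℕ)
    (T : Subalgebra ℂ L[X])
    (hT : T = (MvPolynomial.aeval (R := ℂ) fun i => monomial (d i) (a i)).range) :
    ∃ (𝒜 : ℕ → Submodule ℂ T) (_ : GradedAlgebra 𝒜),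
      ∀ n (t : T) c, t.1 = monomial n c → t ∈ 𝒜 n := by
  have h1 : ∀ p ∈ T, ∀ n, monomial n (p.coeff n) ∈ T := by
    intro p hp
    rw [hT] at hp
    obtain ⟨q, rfl⟩ := hp
    change ∀ n, monomial n (coeff (MvPolynomial.aeval (fun i => monomial (d i) (a i)) q) n) ∈ T
    induction q using MvPolynomial.induction_on with
    | C c =>
      intro n
      rw [MvPolynomial.aeval_C, Polynomial.algebraMap_apply, coeff_C]
      split_ifs with h
      · subst h
        exact T.algebraMap_mem c
      · simp
    | add p q hp hq => exact fun n => by simpa using add_mem (hp n) (hq n)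
    | mul_X p i hp =>
      intro n
      rw [map_mul, MvPolynomial.aeval_X, ← C_mul_X_pow_eq_monomial (n := d i), ← mul_assoc,
        coeff_mul_X_pow']
      split_ifs with h
      · have := mul_mem (hp (n - d i)) (show monomial (d i) (a i) ∈ T from
          hT ▸ ⟨MvPolynomial.X i, by simp⟩)
        rwa [monomial_mul_monomial, Nat.sub_add_cancel h, ← coeff_mul_C] at this
      · simp
  let 𝒜 : ℕ → Submodule ℂ T := fun n =>
    { carrier := {t | ∃ c, t.1 = monomial n c}
      add_mem' := fun ⟨c, hc⟩ ⟨c', hc'⟩ => ⟨c + c', by simp [hc, hc']⟩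
      zero_mem' := ⟨0, by simp⟩
      smul_mem' := fun r t ⟨c, hc⟩ => ⟨r • c, by
        rw [← smul_monomial, ← hc]; rfl⟩ }
  have hm : SetLike.GradedMonoid 𝒜 :=
    { one_mem := ⟨1, by simp⟩
      mul_mem := fun _ _ _ _ ⟨c, hc⟩ ⟨c', hc'⟩ =>
        ⟨c * c', by simp [hc, hc', monomial_mul_monomial]⟩ }
  have hI : DirectSum.IsInternal 𝒜 := by
    refine ⟨fun x y hx => ?_, fun t => ?_⟩
    · have key : ∀ (x : DirectSum ℕ fun n => 𝒜 n) n,
          monomial n ((DirectSum.coeAddMonoidHom 𝒜 x).1.coeff n) = (x n).1.1 := by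
        intro x n
        induction x using DirectSum.induction_on with
        | zero => simp
        | of k y =>
          obtain ⟨y, c, hc⟩ := y
          by_cases h : k = n
          · subst h
            simp [hc]
          · simp [hc, coeff_monomial, h, DirectSum.of_eq_of_ne _ _ _ (Ne.symm h)]
        | add x y hx hy => simp [hx, hy]
      ext n : 3
      rw [← key, ← key, hx]
    · refine ⟨∑ n ∈ t.1.support, DirectSum.of (fun n => 𝒜 n) n
        ⟨⟨monomial n (t.1.coeff n), h1 _ t.2 n⟩, _, rfl⟩, Subtype.ext ?_⟩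
      simp [← t.1.as_sum_support]
  exact ⟨𝒜, { hm, hI.chooseDecomposition with }, fun n t c h => ⟨c, h⟩⟩

/-- the weights -/
def wt {m : ℕ} : Var m → ℕ
  | .e01 => 4
  | .e10 => 4
  | .s _ _ => 2
  | .mu _ _ => 1
  | .w => 2

open Polynomial in
theorem rel_monomial {m : ℕ} {L : Type} [CommRing L] {x y z : L} {u : Var m → L}
    (h : Rel m x y z u) :
    Rel m (monomial 4 x) (monomial 4 y) (monomial 4 z) fun v => monomial (wt v) (u v) := by
  have h' := h.map (C : L →+* L[X])
  simp only [← C_mul_X_pow_eq_monomial]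
  refine ⟨fun _ _ => mul_comm _ _, ?_, ?_, fun i l i' l' => ?_, fun i l => ?_, fun b i => ?_,
    fun i => ?_, ?_⟩ <;> simp only [wt]
  · linear_combination X ^ 4 * h'.hE
  · linear_combination X ^ 8 * h'.hEE
  · linear_combination X ^ 4 * h'.hss i l i' l'
  · linear_combination X ^ 4 * h'.hs2 i l
  · linear_combination X ^ 2 * h'.hmu b i
  · linear_combination X ^ 2 * h'.hmm i
  · linear_combination X ^ 4 * h'.hw

theorem rel_zero {m : ℕ} {O : Type} [CommRing O] [IsDomain O] {u : Var m → O}
    (h : Rel m 0 0 0 u) (v : Var m) : u v = 0 := by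
  have h1 : u .e10 = u .e01 := sub_eq_zero.1 h.hE
  have h2 : u .e01 = 0 := by simpa [h1] using h.hEE
  have h3 : ∀ i l, u (.s i l) = 0 := fun i l => by simpa [h1, h2] using h.hs2 i l
  cases v with
  | e01 => exact h2
  | e10 => rw [h1, h2]
  | s i l => exact h3 i l
  | mu b i => simpa [h3] using h.hmu b i
  | w => simpa using h.hw

open MvPolynomial in
theorem exists_T (m : ℕ) :
    ∃ (T : Type) (_ : CommRing T) (_ : Algebra ℂ T) (𝒜 : ℕ → Submodule ℂ T) (_ : GradedAlgebra 𝒜)
      (Φ : MvPolynomial (Fin 3 ⊕ Var m) ℂ →ₐ[ℂ] T), IsDomain T ∧ Function.Surjective Φ ∧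
      (∀ j, Φ (X j) ∈ (HomogeneousIdeal.irrelevant 𝒜).toIdeal) ∧
      Function.Injective (Φ.comp (rename Sum.inl)) ∧
      Rel m (Φ (X (.inl 1))) ((cc m : T) * Φ (X (.inl 1)) + Φ (X (.inl 0))) (Φ (X (.inl 2)))
        fun v => Φ (X (.inr v)) := by
  let L := AlgebraicClosure (FractionRing A)
  have hinj : Function.Injective (algebraMap A L) := by
    rw [IsScalarTower.algebraMap_eq A (FractionRing A) L]
    exact (algebraMap (FractionRing A) L).injective.comp (IsFractionRing.injective A _)
  have hX : ∀ i, algebraMap A L (X i) ≠ 0 := fun i => (map_ne_zero_iff _ hinj).2 (X_ne_zero i)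
  have : CharZero L := algebraRat.charZero _
  obtain ⟨u, hu⟩ := exists_rel m (algebraMap A L (X 1))
    ((cc m : L) * algebraMap A L (X 1) + algebraMap A L (X 0)) (algebraMap A L (X 2)) (hX 1) (hX 2)
  let a : Fin 3 ⊕ Var m → L := Sum.elim (fun i => algebraMap A L (X i)) u
  let d : Fin 3 ⊕ Var m → ℕ := Sum.elim (fun _ => 4) wt
  obtain ⟨𝒜, _, h𝒜⟩ := exists_grading a d _ rfl
  refine ⟨_, inferInstance, inferInstance, 𝒜, inferInstance, AlgHom.rangeRestrict _, inferInstance,
    AlgHom.rangeRestrict_surjective _, fun j => ?_, fun p q hpq => hinj ?_, ?_⟩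
  · refine HomogeneousIdeal.mem_irrelevant_of_mem 𝒜 (i := d j) ?_ (h𝒜 _ _ (a j) (by simp))
    rcases j with i | v
    · simp [d]
    · cases v <;> simp [d, wt]
  · have key : ∀ p : A, Polynomial.eval 1 (aeval (fun i => Polynomial.monomial (d i) (a i))
        (rename Sum.inl p)) = algebraMap A L p := by
      intro p
      induction p using MvPolynomial.induction_on with
      | C c => simpa using IsScalarTower.algebraMap_apply ℂ A L c
      | add p q hp hq => simp [hp, hq]
      | mul_X p i hp => simp [hp, a]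
    rw [← key, ← key]
    exact congrArg (fun t => Polynomial.eval 1 (Subtype.val t)) hpq
  · refine Rel.of_injective (Subalgebra.val _).toRingHom Subtype.val_injective ?_
    convert rel_monomial hu using 1
    · simp [a, d]
    · rw [map_add (Polynomial.monomial 4), ← Polynomial.C_mul_monomial, map_intCast]
      simp [a, d]
    · simp [a, d]
    · simp [a, d]

theorem height_eq (n : ℕ) : ∀ (M : Ideal (MvPolynomial (Fin n) ℂ)) [M.IsMaximal], M.height = n := by
  induction n with
  | zero =>
    intro M _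
    have := Ideal.height_le_ringKrullDim_of_ne_top (I := M) Ideal.IsPrime.ne_top'
    simpa using this
  | succ n ih =>
    intro M _
    let e := (MvPolynomial.finSuccEquiv ℂ n).toRingEquiv
    have : (M.map e).IsMaximal := Ideal.map_isMaximal_of_equiv e
    have : ((M.map e).under (MvPolynomial (Fin n) ℂ)).IsMaximal :=
      Polynomial.isMaximal_comap_C_of_isJacobsonRing _
    rw [← e.height_map M, Polynomial.height_eq_height_add_one ((M.map e).under _), ih]
    simp

theorem sub_mem {σ T : Type} [CommRing T] [Algebra ℂ T] (Φ : MvPolynomial σ ℂ →ₐ[ℂ] T)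
    (I : Ideal T) (h : ∀ j, Φ (MvPolynomial.X j) ∈ I) (p : MvPolynomial σ ℂ) :
    Φ p - algebraMap ℂ T (MvPolynomial.constantCoeff p) ∈ I := by
  induction p using MvPolynomial.induction_on with
  | C c => simp
  | add p q hp hq => simpa [add_sub_add_comm] using add_mem hp hq
  | mul_X p i _ => simpa using I.mul_mem_left _ (h i)

end W57

open MvPolynomial W57 in
theorem s0257_of_noRep {m : ℕ} (hno : ∀ N, 0 < N → NoRep m N ℂ) :
    ∃ (T : Type) (_ : CommRing T) (_ : Algebra ℂ T) (𝒜 : ℕ → Submodule ℂ T) (_ : GradedAlgebra 𝒜)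
      (_ : (HomogeneousIdeal.irrelevant 𝒜).toIdeal.IsMaximal),
      Algebra.FiniteType ℂ T ∧ IsDomain T ∧ ringKrullDim T = 3 ∧
      Function.Bijective (algebraMap ℂ (T ⧸ (HomogeneousIdeal.irrelevant 𝒜).toIdeal)) ∧
      ringKrullDim (Localization.AtPrime (HomogeneousIdeal.irrelevant 𝒜).toIdeal) = 3 ∧
      ∀ (M : Type) [AddCommGroup M]
        [Module (Localization.AtPrime (HomogeneousIdeal.irrelevant 𝒜).toIdeal) M],
        Module.Finite (Localization.AtPrime (HomogeneousIdeal.irrelevant 𝒜).toIdeal) M →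
        Nontrivial M →
        ∀ rs : List (Localization.AtPrime (HomogeneousIdeal.irrelevant 𝒜).toIdeal), rs.length = 3 →
          (∀ r ∈ rs, r ∈ IsLocalRing.maximalIdeal
            (Localization.AtPrime (HomogeneousIdeal.irrelevant 𝒜).toIdeal)) →
          ¬ RingTheory.Sequence.IsRegular M rs := by
  obtain ⟨T, _, _, 𝒜, _, Φ, _, hs, hI, hinj, hrel⟩ := W57.exists_T m
  set I := (HomogeneousIdeal.irrelevant 𝒜).toIdeal with hI'
  have hI1 : I ≠ ⊤ := (Ideal.ne_top_iff_one _).2 fun h =>
    one_ne_zero ((map_one (GradedRing.projZeroRingHom 𝒜)).symm.trans h)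
  have hle : ∀ J : Ideal T, (∀ j, Φ (X j) ∈ J) → I ≤ J := by
    intro J hJ t ht
    obtain ⟨p, rfl⟩ := hs t
    have h1 := sub_mem ht (W57.sub_mem Φ I hI p)
    rw [sub_sub_cancel] at h1
    have h2 : constantCoeff p = 0 := by
      by_contra h
      exact hI1 (I.eq_top_of_isUnit_mem h1 ((Ne.isUnit h).map _))
    simpa [h2] using W57.sub_mem Φ J hJ p
  have hbij : Function.Bijective (algebraMap ℂ (T ⧸ I)) := by
    have := Ideal.Quotient.nontrivial_iff.2 hI1
    refine ⟨RingHom.injective _, fun t => ?_⟩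
    obtain ⟨t, rfl⟩ := Ideal.Quotient.mk_surjective t
    obtain ⟨p, rfl⟩ := hs t
    exact ⟨constantCoeff p, (Ideal.Quotient.eq.2 (W57.sub_mem Φ I hI p)).symm⟩
  have hmax : I.IsMaximal := Ideal.Quotient.maximal_of_isField _
    ((RingEquiv.ofBijective _ hbij).symm.toMulEquiv.isField (Field.toIsField ℂ))
  have hft : Algebra.FiniteType ℂ T := .of_surjective Φ hs
  let _ : Algebra A T := (Φ.comp (rename Sum.inl)).toAlgebra
  have hA : ∀ i, algebraMap A T (X i) = Φ (X (.inl i)) := fun i =>
    congrArg Φ (rename_X Sum.inl i)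
  have : IsScalarTower ℂ A T := .of_algHom (Φ.comp (rename Sum.inl))
  have hrel' : Rel m (algebraMap A T (X 1)) (algebraMap A T ((cc m : A) * X 1 + X 0))
      (algebraMap A T (X 2)) fun v => Φ (X (.inr v)) := by simpa [hA] using hrel
  have : Algebra.IsIntegral A T := ⟨fun t => by
    obtain ⟨p, rfl⟩ := hs t
    induction p using MvPolynomial.induction_on with
    | C c =>
      rw [← MvPolynomial.algebraMap_eq, AlgHom.commutes, IsScalarTower.algebraMap_apply ℂ A T]
      exact isIntegral_algebraMap
    | add p q hp hq => rw [map_add]; exact hp.add hq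
    | mul_X p j hp =>
      rw [map_mul]
      refine hp.mul ?_
      rcases j with i | v
      · rw [← hA]; exact isIntegral_algebraMap
      · exact hrel'.isIntegral v⟩
  have : Algebra.FiniteType A T := .of_restrictScalars_finiteType ℂ A T
  have : Module.Finite A T := Algebra.IsIntegral.finite
  have : FaithfulSMul A T := (faithfulSMul_iff_algebraMap_injective _ _).2 hinj
  set p := I.under A with hp
  have : p.IsMaximal := Ideal.isMaximal_comap_of_isIntegral_of_isMaximal I
  have hXp : ∀ i, X i ∈ p := fun i => Ideal.mem_comap.2 (hA i ▸ hI _)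
  have hp0 : ∀ a : A, constantCoeff a = 0 → a ∈ p := fun a ha => by
    simpa [ha] using W57.sub_mem (AlgHom.id ℂ A) p hXp a
  have hps : p = Ideal.span {X 1, X 2, X 0} := by
    refine le_antisymm (fun a ha => ?_) (Ideal.span_le.2 (by simp [Set.insert_subset_iff, hXp]))
    have h1 := sub_mem ha (W57.sub_mem (AlgHom.id ℂ A) p hXp a)
    rw [AlgHom.id_apply, sub_sub_cancel] at h1
    have h2 : constantCoeff a = 0 := by
      by_contra h
      exact Ideal.IsPrime.ne_top' (p.eq_top_of_isUnit_mem h1 ((Ne.isUnit h).map _))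
    simpa [h2] using W57.sub_mem (AlgHom.id ℂ A) (Ideal.span {X 1, X 2, X 0})
      (fun j => Ideal.subset_span (by fin_cases j <;> simp)) a
  have hq : p.primesOver T = {I} := by
    refine Set.eq_singleton_iff_unique_mem.2 ⟨⟨inferInstance, inferInstance⟩, fun J hJ => ?_⟩
    obtain ⟨_, _⟩ := hJ
    have h0 : ∀ a ∈ p, algebraMap A T a ∈ J := fun a ha => (Ideal.mem_of_liesOver J p a).1 ha
    refine (hmax.eq_of_le Ideal.IsPrime.ne_top' (hle J ?_)).symm
    rintro (i | v)
    · exact hA i ▸ h0 _ (hXp i)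
    · have h1 := hrel'.map (Ideal.Quotient.mk J)
      rw [Ideal.Quotient.eq_zero_iff_mem.2 (h0 _ (hXp 1)),
        Ideal.Quotient.eq_zero_iff_mem.2 (h0 _ (hXp 2)),
        Ideal.Quotient.eq_zero_iff_mem.2 (h0 _ (hp0 _ (by simp)))] at h1
      exact Ideal.Quotient.eq_zero_iff_mem.1 (W57.rel_zero h1 v)
  let _ := Localization.AtPrime.algebraOfLiesOver p I
  have := Localization.finite_of_primesOver_eq_singleton hq
  refine ⟨T, _, _, 𝒜, _, hmax, hft, inferInstance, ?_, hbij, ?_, fun M _ _ _ _ rs hlen hrs hreg => ?_⟩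
  · rw [ringKrullDim_eq_of_isIntegral A T hinj]
    simp [ringKrullDim_eq_zero_of_field]
  · rw [ringKrullDim_eq_of_isIntegral (Localization.AtPrime p) _
      (Localization.localRingHom_injective_of_primesOver_eq_singleton hq),
      IsLocalization.AtPrime.ringKrullDim_eq_height p, W57.height_eq]
    rfl
  let _ : Module (Localization.AtPrime p) M :=
    Module.compHom M (algebraMap (Localization.AtPrime p) (Localization.AtPrime I))
  have : IsScalarTower (Localization.AtPrime p) (Localization.AtPrime I) M :=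
    .of_algebraMap_smul fun _ _ => rfl
  have : Module.Finite (Localization.AtPrime p) M := .trans (Localization.AtPrime I) M
  have : Module.Free (Localization.AtPrime p) M := by
    refine free_of_isWeaklyRegular (algebraMap A _ (X 1)) (algebraMap A _ (X 2))
      (algebraMap A _ (X 0)) ?_ rs hlen (fun r hr => ?_) hreg.toIsWeaklyRegular
    · rw [← Localization.AtPrime.map_eq_maximalIdeal]
      conv_lhs => enter [2]; rw [hps]
      simp [Ideal.map_span, Set.image_insert_eq]
    · change r ∈ Ideal.radical _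
      rw [Ideal.radical_eq_sInf, Ideal.mem_sInf]
      rintro J ⟨hJ, _⟩
      have h1 := (IsLocalRing.maximalIdeal.isMaximal _).eq_of_le Ideal.IsPrime.ne_top'
        (Ideal.map_le_iff_le_comap.1 hJ)
      rw [IsLocalRing.eq_maximalIdeal (Ideal.isMaximal_of_isIntegral_of_isMaximal_comap
        (R := Localization.AtPrime p) J (h1 ▸ IsLocalRing.maximalIdeal.isMaximal _))]
      exact hrs r hr
  have hu : ∀ y : p.primeCompl, IsUnit (coeToMvPowerSeries.ringHom (y : A)) := fun y => by
    rw [MvPowerSeries.isUnit_iff_constantCoeff]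
    exact Ne.isUnit fun h => y.2 (hp0 _ h)
  have hl : ∀ i, IsLocalization.lift (S := Localization.AtPrime p) hu (algebraMap A _ (X i)) =
      MvPowerSeries.X i := fun i => (IsLocalization.lift_eq hu _).trans (coe_X i)
  refine false_of_free (R := Localization.AtPrime I) (M := M) hno (IsLocalization.lift hu)
    (algebraMap A _ (X 1)) (algebraMap A _ (X 2)) (algebraMap A _ (X 0)) (hl 1) (hl 2)
    (hl 0) (fun v => algebraMap T _ (Φ (X (.inr v)))) ?_
  simpa [← IsScalarTower.algebraMap_apply] using hrel'.map (algebraMap T (Localization.AtPrime I))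

end Crest.Agent.R169
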